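import Vale.Agent.P096.X

/-! Kaplansky density and gluing for arbitrary vectors. -/

namespace Vale.Agent.P096

open scoped InnerProductSpace ComplexOrder BigOperators
open Filter Topology Vale.Agent.P104 Vale.Agent.P082 Finset ContinuousLinearMap

universe u

theorem exists_cay {A : Type*} [CStarAlgebra A] {x : A} (hx : IsSelfAdjoint x) (h1 : ‖x‖ ≤ 1) :
    ∃ y r : A, IsSelfAdjoint y ∧ r + y * (y * r) = 1 ∧ y * r + y * r = x := by
  have p : ∀ t : ℝ, 1 + √(1 - t ^ 2) ≠ 0 := fun t => by positivity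
  have c1 : Continuous fun t : ℝ => t / (1 + √(1 - t ^ 2)) :=
    continuous_id.div (by fun_prop) p
  have c2 : Continuous fun t : ℝ => (1 + √(1 - t ^ 2)) / 2 := by fun_prop
  refine ⟨cfc (fun t : ℝ => t / (1 + √(1 - t ^ 2))) x, cfc (fun t : ℝ => (1 + √(1 - t ^ 2)) / 2) x,
    IsSelfAdjoint.cfc, ?_, ?_⟩
  · rw [← cfc_mul _ _ x, ← cfc_mul _ _ x, ← cfc_add (a := x) _ _, ← cfc_const_one ℝ x]
    refine cfc_congr fun t ht => ?_
    have a := (spectrum.norm_le_norm_mul_of_mem ht).trans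
      (mul_le_one₀ h1 (norm_nonneg _) one_le)
    have b := Real.sq_sqrt (show 0 ≤ 1 - t ^ 2 by
      have := abs_le.1 a
      nlinarith)
    have := p t
    field_simp
    linear_combination b
  · rw [← cfc_mul _ _ x, ← cfc_add (a := x) _ _]
    conv_rhs => rw [← cfc_id' ℝ x]
    refine cfc_congr fun t _ => ?_
    have := p t
    field_simp
    ring

variable {B K J R : Type u} [CStarAlgebra B] [NormedAddCommGroup K] [InnerProductSpace ℂ K]
  [CompleteSpace K] {ρ : B →⋆ₐ[ℂ] (K →L[ℂ] K)} {ζ : K} [Fintype J] [Fintype R] {c : R → J → ℂ}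

theorem sa_approx0 {x : K →L[ℂ] K} (hx : x ∈ (com ρ).commutant) (hs : IsSelfAdjoint x)
    {ι : Type} [Fintype ι] (v : ι → K) {e : ℝ} (he : 0 < e) :
    ∃ a, IsSelfAdjoint a ∧ ∀ i, ‖(ρ a - x) (v i)‖ ≤ e := by
  let F : (K →L[ℂ] K) → PiLp 2 (fun _ : ι => K) := fun y => WithLp.toLp 2 fun i => y (v i)
  let S : Set (PiLp 2 (fun _ : ι => K)) := {w | ∃ a, IsSelfAdjoint a ∧ F (ρ a) = w}
  have sm : ∀ (t : ℝ) a, F (ρ (t • a)) = t • F (ρ a) := fun t a => by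
    ext i
    simp [F, ← Complex.coe_smul]
  have hS : Convex ℝ S := by
    rintro _ ⟨a, ha, rfl⟩ _ ⟨b, hb, rfl⟩ s t - - -
    refine ⟨s • a + t • b, ((IsSelfAdjoint.all s).smul ha).add ((IsSelfAdjoint.all t).smul hb), ?_⟩
    rw [← sm, ← sm]
    ext i
    simp [F]
  have key : F x ∈ closure S := by
    by_contra c0
    obtain ⟨f, t, h1, h2⟩ := RCLike.geometric_hahn_banach_point_closed (𝕜 := ℂ) hS.closure
      isClosed_closure c0
    obtain ⟨w, rfl⟩ := (InnerProductSpace.toDual ℂ _).surjective f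
    simp only [RCLike.re_to_complex] at h1 h2
    have k : ∀ y, (InnerProductSpace.toDual ℂ _ w (F y)).re =
        (∑ i, ⟪w i, y (v i)⟫_ℂ).re := fun y => by
      simp [F, PiLp.inner_apply]
    have z : ∀ a, IsSelfAdjoint a → (∑ i, ⟪w i, ρ a (v i)⟫_ℂ).re = 0 := fun a ha => by
      by_contra c1
      have := h2 _ (subset_closure ⟨(t / (∑ i, ⟪w i, ρ a (v i)⟫_ℂ).re) • a,
        (IsSelfAdjoint.all _).smul ha, rfl⟩)
      rw [sm, ← Complex.coe_smul, map_smul, smul_eq_mul, Complex.re_ofReal_mul,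
        k, div_mul_cancel₀ _ c1] at this
      exact this.false
    have g : ∀ y : K →L[ℂ] K, IsSelfAdjoint y → ∑ i : ι ⊕ ι, ⟪Sum.elim w v i, y (Sum.elim v w i)⟫_ℂ =
        (2 * (∑ i, ⟪w i, y (v i)⟫_ℂ).re : ℝ) := fun y hy => by
      rw [← Complex.add_conj, Fintype.sum_sum_type, map_sum]
      simp only [Sum.elim_inl, Sum.elim_inr, inner_conj_symm]
      congr 1
      exact sum_congr rfl fun i _ => by rw [← inner_star_right, hy.star_eq]
    have := bic_dense hx (Sum.elim w v) (Sum.elim v w) fun a => by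
      rw [← realPart_add_I_smul_imaginaryPart a]
      simp only [map_add, map_smul, add_apply, smul_apply, inner_add_right, inner_smul_right,
        sum_add_distrib, ← mul_sum]
      rw [g _ ((realPart a).2.map ρ), g _ ((imaginaryPart a).2.map ρ), z _ (realPart a).2,
        z _ (imaginaryPart a).2]
      simp
    rw [g x hs, Complex.ofReal_eq_zero] at this
    have h3 := h2 _ (subset_closure ⟨0, .zero _, rfl⟩)
    rw [k] at h1 h3
    rw [z 0 (.zero _)] at h3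
    linarith
  obtain ⟨_, ⟨a, ha, rfl⟩, h⟩ := Metric.mem_closure_iff.1 key e he
  refine ⟨a, ha, fun i => ?_⟩
  rw [dist_comm, dist_eq_norm] at h
  exact (PiLp.norm_apply_le (F (ρ a) - F x) i).trans h.le

theorem sa_approx {x : K →L[ℂ] K} (hx : x ∈ (com ρ).commutant) (hs : IsSelfAdjoint x)
    (s : Finset K) {e : ℝ} (he : 0 < e) :
    ∃ a, IsSelfAdjoint a ∧ ∀ v ∈ s, ‖(ρ a - x) v‖ ≤ e := by
  obtain ⟨a, h1, h2⟩ := sa_approx0 hx hs (fun i => (s.equivFin.symm i).1) he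
  exact ⟨a, h1, fun v hv => by simpa using h2 (s.equivFin ⟨v, hv⟩)⟩

theorem kap_sa {x : K →L[ℂ] K} (hx : x ∈ (com ρ).commutant) (hs : IsSelfAdjoint x)
    (h1 : ‖x‖ ≤ 1) {e : ℝ} (he : 0 < e) : ∃ n, ‖n‖ ≤ 1 ∧ ‖x ζ - ρ n ζ‖ ≤ e := by
  classical
  obtain ⟨y, r, y1, y2, y3⟩ := exists_cay (A := Alg (com ρ).commutant) (x := ⟨x, hx⟩)
    (Subtype.ext hs) h1
  have z1 : IsSelfAdjoint y.1 := congrArg Subtype.val y1
  have z2 : r.1 + y.1 * (y.1 * r.1) = 1 := congrArg Subtype.val y2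
  have z3 : y.1 * r.1 + y.1 * r.1 = x := congrArg Subtype.val y3
  obtain ⟨a, as, ha⟩ := sa_approx y.2 z1 {r.1 ζ, y.1 (r.1 ζ)} (show 0 < e / 3 by positivity)
  obtain ⟨s, s', g₁, g₂, -, -, -, a4, a5, a6, a7, a8, -, a10, -⟩ := exists_kr as
  have n : ∀ {b : B} {r : ℝ}, ‖b‖ ≤ r → ‖ρ b‖ ≤ r := fun k =>
    (NonUnitalStarAlgHom.norm_apply_le ρ _).trans k
  have b1 : g₁ + s * a = 1 + 1 := by
    calc g₁ + s * a = (g₁ + g₂ * a - g₂) + (s' + s * a) := by rw [a7]; abel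
      _ = 1 + 1 := by rw [a5, a6]
  have b2 : ρ g₁ + ρ s * ρ a = 1 + 1 := by rw [← map_mul, ← map_add, b1, map_add, map_one]
  have b3 : ρ g₁ * ρ a = ρ s := by rw [← map_mul, a4]
  have e1 : ρ s - x = ρ g₁ * (ρ a - y.1) * r.1 - ρ s * (ρ a - y.1) * (y.1 * r.1) := by
    have : ρ g₁ * (ρ a - y.1) * r.1 - ρ s * (ρ a - y.1) * (y.1 * r.1) =
        ρ g₁ * ρ a * r.1 + ρ s * (y.1 * (y.1 * r.1)) - (ρ g₁ + ρ s * ρ a) * (y.1 * r.1) := by
      noncomm_ring
    rw [this, b3, b2, ← mul_add, z2, mul_one, add_mul, one_mul, z3]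
  refine ⟨s, a10, ?_⟩
  rw [norm_sub_rev, ← sub_apply, e1, sub_apply]
  simp only [mul_apply_eq_comp]
  have c1 := le_of_opNorm_le _ (n a8) ((ρ a - y.1) (r.1 ζ))
  have c2 := le_of_opNorm_le _ (n a10) ((ρ a - y.1) (y.1 (r.1 ζ)))
  have c3 := ha _ (mem_insert_self _ _)
  have c4 := ha _ (mem_insert_of_mem (mem_singleton_self _))
  refine (norm_sub_le _ _).trans ?_
  linarith

theorem kap {T : K →L[ℂ] K} (hT : T ∈ (com ρ).commutant) {e : ℝ} (he : 0 < e) :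
    ∃ n, ‖n‖ ≤ 3 * ‖T‖ ∧ ‖T ζ - ρ n ζ‖ ≤ e := by
  rcases eq_or_ne T 0 with rfl | T0
  · exact ⟨0, by simp, by simpa using he.le⟩
  have hc := norm_pos_iff.2 T0
  have k : ∀ x ∈ (com ρ).commutant, IsSelfAdjoint x → ‖x‖ ≤ ‖T‖ →
      ∃ n, ‖n‖ ≤ ‖T‖ ∧ ‖x ζ - ρ n ζ‖ ≤ e / 2 := fun x hx hs h1 => by
    obtain ⟨n, n1, n2⟩ := kap_sa (ζ := ζ) (vn_smul_mem ((‖T‖⁻¹ : ℝ) : ℂ) hx)
      ((show IsSelfAdjoint ((‖T‖⁻¹ : ℝ) : ℂ) from Complex.conj_ofReal _).smul hs) (by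
        rw [norm_smul, Complex.norm_real, norm_inv, norm_norm, inv_mul_le_iff₀ hc, mul_one]
        exact h1) (show 0 < e / 2 / ‖T‖ by positivity)
    refine ⟨(‖T‖ : ℂ) • n, ?_, ?_⟩
    · rw [norm_smul, Complex.norm_real, norm_norm]
      exact mul_le_of_le_one_right hc.le n1
    · rw [show x ζ - ρ ((‖T‖ : ℂ) • n) ζ = (‖T‖ : ℂ) • ((((‖T‖⁻¹ : ℝ) : ℂ) • x) ζ - ρ n ζ) by
        rw [smul_sub, smul_apply, smul_smul, ← Complex.ofReal_mul, mul_inv_cancel₀ hc.ne', map_smul]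
        simp, norm_smul, Complex.norm_real, norm_norm, ← le_div_iff₀' hc]
      exact n2
  have m1 : (realPart T : K →L[ℂ] K) ∈ (com ρ).commutant := by
    rw [realPart_apply_coe, ← Complex.coe_smul]
    exact vn_smul_mem _ (add_mem hT (star_mem hT))
  have m2 : (imaginaryPart T : K →L[ℂ] K) ∈ (com ρ).commutant := by
    rw [imaginaryPart_apply_coe, ← Complex.coe_smul]
    exact vn_smul_mem _ (vn_smul_mem _ (sub_mem hT (star_mem hT)))
  obtain ⟨n1, a1, a2⟩ := k _ m1 (realPart T).2 (realPart.norm_le T)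
  obtain ⟨n2, b1, b2⟩ := k _ m2 (imaginaryPart T).2 (imaginaryPart.norm_le T)
  refine ⟨n1 + Complex.I • n2, ?_, ?_⟩
  · have := norm_add_le n1 (Complex.I • n2)
    rw [norm_smul, Complex.norm_I] at this
    linarith
  · have e1 : T ζ - ρ (n1 + Complex.I • n2) ζ = ((realPart T : K →L[ℂ] K) ζ - ρ n1 ζ) +
        Complex.I • ((imaginaryPart T : K →L[ℂ] K) ζ - ρ n2 ζ) := by
      conv_lhs => rw [← realPart_add_I_smul_imaginaryPart T]
      simp only [map_add, map_smul, add_apply, smul_apply, smul_sub]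
      abel
    rw [e1]
    refine (norm_add_le _ _).trans ?_
    rw [norm_smul, Complex.norm_I]
    linarith

theorem kraus {c : K →L[ℂ] K} (hc : c ∈ (com ρ).commutant)
    (hp : IsStarProjection c) (hz : ∀ x ∈ (com ρ).commutant, c * x = x * c) (V : Finset K) {e : ℝ}
    (he : 0 < e) : ∃ s s' : B, star s = s ∧ star s' = s' ∧ s * s + s' * s' = 1 ∧ ‖s‖ ≤ 1 ∧
      ‖s'‖ ≤ 1 ∧ ∀ v ∈ V, ‖(ρ s - c) v‖ ≤ e ∧ ‖(ρ s' - (1 - c)) v‖ ≤ e := by
  obtain ⟨a, as, ha⟩ := sa_approx hc hp.isSelfAdjoint V (show 0 < e / 4 by positivity)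
  obtain ⟨s, s', g₁, g₂, a1, a2, a3, a4, a5, a6, a7, a8, a9, a10, a11⟩ := exists_kr as
  have n : ∀ {b : B} {r : ℝ}, ‖b‖ ≤ r → ‖ρ b‖ ≤ r := fun k =>
    (NonUnitalStarAlgHom.norm_apply_le ρ _).trans k
  have c1 := hp.norm_le
  have c2 := hp.one_sub.norm_le
  have ca := hz _ (mem_bic a)
  have cc := hp.isIdempotentElem.eq
  have m : ∀ {x y : K →L[ℂ] K} {r : ℝ}, ‖x‖ ≤ r → ‖y‖ ≤ 1 → ‖x * y‖ ≤ r := fun k k' =>
    (norm_mul_le _ _).trans ((mul_le_of_le_one_right (norm_nonneg _) k').trans k)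
  refine ⟨s, s', a1, a2, a3, a10, a11, fun v hv => ⟨?_, ?_⟩⟩
  · have : ρ s - c = (ρ g₁ - ρ g₂ * c) * (ρ a - c) := by
      have e : (ρ g₁ - ρ g₂ * c) * (ρ a - c) = ρ g₁ * ρ a - (ρ g₁ * c + ρ g₂ * (c * ρ a) -
        ρ g₂ * (c * c)) := by noncomm_ring
      rw [e, ca, cc, ← mul_assoc, ← add_mul, ← sub_mul, ← map_mul, ← map_mul, ← map_add, ← map_sub,
        a4, a5, map_one, one_mul]
    rw [this, mul_apply_eq_comp]
    refine (le_of_opNorm_le _ ((norm_sub_le _ _).trans (add_le_add (n a8) (m (n a9) c1))) _).trans ?_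
    linarith [ha v hv]
  · have : ρ s' - (1 - c) = -(ρ g₂ * c + ρ s * (1 - c)) * (ρ a - c) := by
      have e : -(ρ g₂ * c + ρ s * (1 - c)) * (ρ a - c) = ρ g₂ * (c * c) - ρ g₂ * (c * ρ a) -
        ρ s * ρ a + ρ s * (c * ρ a) + ρ s * (c - c * c) := by noncomm_ring
      have e1 : ρ s * ρ a = 1 - ρ s' := by rw [← map_mul, ← map_one ρ, ← a6, map_add]; abel
      rw [e, ca, cc, sub_self, mul_zero, add_zero, ← mul_assoc, ← mul_assoc, ← sub_mul, ← map_mul,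
        ← map_sub, ← a7, e1]
      noncomm_ring
    rw [this, mul_apply_eq_comp]
    refine (le_of_opNorm_le _ ((norm_neg _).trans_le ((norm_add_le _ _).trans
      (add_le_add (m (n a9) c1) (m (n a10) c2)))) _).trans ?_
    linarith [norm_nonneg ((ρ a - c) v), ha v hv]

theorem sand {p x s : K →L[ℂ] K} (pp : IsStarProjection p) (hz : p * x = x * p) (s1 : ‖s‖ ≤ 1) :
    ‖p (x ζ) - (s * x * s) ζ‖ ≤ ‖x‖ * ‖(s - p) ζ‖ + ‖(s - p) (x (p ζ))‖ := by
  have e : (s * x * s) ζ - p (x ζ) = (s * x) ((s - p) ζ) + (s - p) (x (p ζ)) := by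
    have : s * x * s - p * x = s * x * (s - p) + (s - p) * (x * p) := by
      have : p * (x * p) = p * x := by rw [← hz, ← mul_assoc, pp.isIdempotentElem.eq]
      rw [sub_mul, this]
      noncomm_ring
    simpa using DFunLike.congr_fun this ζ
  rw [norm_sub_rev, e]
  have a1 := le_of_opNorm_le _ ((norm_mul_le s x).trans
    (mul_le_of_le_one_left (norm_nonneg _) s1)) ((s - p) ζ)
  linarith [norm_add_le ((s * x) ((s - p) ζ)) ((s - p) (x (p ζ)))]

theorem glue {p : K →L[ℂ] K} (hp : p ∈ (com ρ).commutant)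
    (pp : IsStarProjection p) (hz : ∀ x ∈ (com ρ).commutant, p * x = x * p) {y0 : J → B}
    {r : J → ℝ} {s : ℝ}
    (hs : ∀ y : {y : J → B // ∀ j, ‖y j - y0 j‖ ≤ r j}, s ≤ psi c fun j => ρ (y.1 j) ζ)
    (y z : {y : J → B // ∀ j, ‖y j - y0 j‖ ≤ r j}) :
    s ≤ (psi c fun j => ρ (y.1 j) (p ζ)) + psi c fun j => ρ (z.1 j) ((1 - p) ζ) := by
  classical
  have hz' : ∀ x ∈ (com ρ).commutant, (1 - p) * x = x * (1 - p) := fun x hx => by
    rw [sub_mul, mul_sub, hz x hx, one_mul, mul_one]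
  refine (le_psi hs (w := fun j => p (ρ (y.1 j) ζ) + (1 - p) (ρ (z.1 j) ζ)) fun e he => ?_).trans_eq
    ?_
  · have r0 : ∀ j, 0 ≤ r j := fun j => (norm_nonneg _).trans (y.2 j)
    have S0 : 0 ≤ ∑ j, r j := sum_nonneg fun j _ => r0 j
    obtain ⟨a, a', a1, a2, a3, a4, a5, a6⟩ := kraus hp pp hz
      (insert ζ (univ.image (fun j => ρ (y.1 j - y0 j) (p ζ)) ∪
        univ.image fun j => ρ (z.1 j - y0 j) ((1 - p) ζ)))
      (show 0 < e / (2 * (∑ j, r j) + 2) by positivity)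
    refine ⟨⟨fun j => y0 j + (a * (y.1 j - y0 j) * a + a' * (z.1 j - y0 j) * a'), fun j => by
      rw [add_sub_cancel_left]; exact kraus_le a1 a2 a3 (y.2 j) (z.2 j)⟩, fun j => ?_⟩
    have n : ∀ {b : B} {r : ℝ}, ‖b‖ ≤ r → ‖ρ b‖ ≤ r := fun k =>
      (NonUnitalStarAlgHom.norm_apply_le ρ _).trans k
    have rj : r j ≤ ∑ j, r j := single_le_sum (fun j _ => r0 j) (mem_univ j)
    have a7 := a6 ζ (mem_insert_self _ _)
    have b1 := (sand (ζ := ζ) pp (hz _ (mem_bic (y.1 j - y0 j))) (n a4)).trans (add_le_add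
      (mul_le_mul (n ((y.2 j).trans rj)) a7.1 (norm_nonneg _) S0)
      (a6 _ (mem_insert_of_mem (mem_union_left _ (mem_image_of_mem _ (mem_univ j))))).1)
    have b2 := (sand (ζ := ζ) pp.one_sub (hz' _ (mem_bic (z.1 j - y0 j))) (n a5)).trans (add_le_add
      (mul_le_mul (n ((z.2 j).trans rj)) a7.2 (norm_nonneg _) S0)
      (a6 _ (mem_insert_of_mem (mem_union_right _ (mem_image_of_mem _ (mem_univ j))))).2)
    have b3 := mul_div_cancel₀ e (show 2 * (∑ j, r j) + 2 ≠ 0 by positivity)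
    refine le_trans (le_of_eq ?_) ((norm_add_le_of_le b1 b2).trans (by nlinarith))
    congr 1
    simp only [map_add, map_mul, map_sub, add_apply, sub_apply, one_apply_eq_self]
    abel
  · rw [psi, psi, psi, ← sum_add_distrib]
    refine sum_congr rfl fun r _ => ?_
    have k : ∀ q : K →L[ℂ] K, (∀ x ∈ (com ρ).commutant, q * x = x * q) → ∀ y : J → B,
        ∑ j, c r j • ρ (y j) (q ζ) = q (∑ j, c r j • ρ (y j) ζ) := fun q hq y => by
      rw [map_sum]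
      exact sum_congr rfl fun j _ => by
        rw [map_smul, ← mul_apply_eq_comp, ← hq _ (mem_bic _), mul_apply_eq_comp]
    rw [k p hz, k _ hz', ← proj_sq pp]
    simp only [smul_add, sum_add_distrib, map_sum, map_smul]

end Vale.Agent.P096
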