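import Vale.Agent.P096.Defs

/-! Semifinite factors with separable predual. -/

namespace Vale.Agent.P096

variable {H : Type*} [NormedAddCommGroup H] [InnerProductSpace ℂ H] [CompleteSpace H]

/-- The centre of `M` consists of scalars. -/
def IsFactor (M : VonNeumannAlgebra H) : Prop :=
  ∀ z ∈ M, (∀ x ∈ M, z * x = x * z) → ∃ c : ℂ, z = c • 1

/-- `e` is a finite projection of `M`: it is equivalent to no proper subprojection. -/
def IsFiniteProj (M : VonNeumannAlgebra H) (e : H →L[ℂ] H) : Prop :=
  e ∈ M ∧ IsStarProjection e ∧ ∀ v ∈ M, star v * v = e → e * v = v → v * star v = e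

/-- A factor with a nonzero finite projection (type I or type II). -/
def IsSemifiniteFactor (M : VonNeumannAlgebra H) : Prop :=
  IsFactor M ∧ ∃ e, IsFiniteProj M e ∧ e ≠ 0

/-- Some nonzero vector has a norm separable orbit. -/
def HasSeparableOrbit (M : VonNeumannAlgebra H) : Prop :=
  ∃ ξ : H, ξ ≠ 0 ∧ TopologicalSpace.IsSeparable {η : H | ∃ x ∈ M, η = x ξ}

end Vale.Agent.P096
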