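import Vale.Agent.P096.Cut
import Vale.Agent.P096.Defs2

/-! The perturbation theorem for semifinite factors. -/

namespace Vale.Agent.P096

open scoped InnerProductSpace InnerProduct
open Vale.Agent.P104 Vale.Agent.P082 ContinuousLinearMap TopologicalSpace

universe u

section

variable {H K : Type u} [NormedAddCommGroup H] [InnerProductSpace ℂ H] [CompleteSpace H]
  [NormedAddCommGroup K] [InnerProductSpace ℂ K] [CompleteSpace K]
  {M N : VonNeumannAlgebra H} {V : K →L[ℂ] H}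

theorem exists_range {e : H →L[ℂ] H} (he : IsStarProjection e) : ∃ (K : Type u)
    (_ : NormedAddCommGroup K) (_ : InnerProductSpace ℂ K) (_ : CompleteSpace K) (V : K →L[ℂ] H),
    Iso V ∧ ex V 1 = e ∧ (IsSeparable {η | e η = η} → SeparableSpace K) := by
  let U : Submodule ℂ H := (1 - e).ker
  have hU : ∀ η, η ∈ U ↔ e η = η := fun η => by
    change η - e η = 0 ↔ _
    rw [sub_eq_zero, eq_comm]
  have : CompleteSpace U := (isClosed_ker (1 - e)).completeSpace_coe
  refine ⟨U, inferInstance, inferInstance, this, U.subtypeL, fun k => ?_, ?_, fun h => ?_⟩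
  · rw [Submodule.adjoint_subtypeL]
    exact Submodule.orthogonalProjectionOnto_mem_subspace_eq_self k
  · ext η
    rw [ex_apply, Submodule.adjoint_subtypeL]
    refine Submodule.eq_starProjection_of_mem_of_inner_eq_zero
      ((hU _).2 (by rw [← mul_apply_eq_comp, he.1.eq])) fun w hw => ?_
    rw [← (hU w).1 hw, ← inner_star_left, he.2.star_eq, map_sub, ← mul_apply_eq_comp, he.1.eq,
      sub_self, inner_zero_left]
  · exact (h.mono fun η hη => (hU η).1 hη).separableSpace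

theorem IsFactor.comm (h : IsFactor M) : IsFactor M.commutant := fun z hz hc =>
  h z (mem_of_commute fun y hy => (hc y hy).symm) fun _ hx => (commute_of_mem hx hz).symm

theorem IsFactor.kill (h : IsFactor M) {e y : H →L[ℂ] H} (he : e ∈ M) (hp : IsStarProjection e)
    (h0 : e ≠ 0) (hy : y ∈ M.commutant) (h1 : y * e = 0) : y = 0 := by
  obtain ⟨z, S, z1, z2, z3, -, z4⟩ := cover (M := M) ⟨e, he⟩ (proj_coe.2 hp)
  rw [cen_eq h z1 fun c => h0 (by rw [c, zero_mul] at z2; exact (congrArg Subtype.val z2).symm)]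
    at z4
  ext ξ
  refine ((z4 ξ).mapL y).unique ?_
  have : ∀ w : S, y ((w.1 * star w.1).1 ξ) = 0 := fun w => by
    have e1 : w.1.1 * e = w.1.1 := congrArg Subtype.val (z3 _ w.2).2.1
    change (y * w.1.1) _ = 0
    rw [← e1, ← mul_assoc, ← commute_of_mem w.1.2 hy, mul_assoc, h1, mul_zero]
    rfl
  simp only [this]
  exact hasSum_zero

theorem IsFactor.inj (hM : IsFactor M) (h : Iso V) (he : ex V 1 ∈ M) (h0 : ex V 1 ≠ 0) :
    ∀ y ∈ M.commutant, cp V y = 0 → y = 0 := fun y hy h1 => by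
  have ep := h.proj (.one _)
  refine hM.kill he ep h0 hy ?_
  have := ex_cp (V := V) y
  rwa [h1, ex_zero, commute_of_mem he hy, mul_assoc, ep.1.eq, eq_comm] at this

theorem IsFactor.corner (hM : IsFactor M) (h : Iso V) (he : ex V 1 ∈ M) :
    IsFactor (corner M V) := factor_of_proj fun z hz hp hc => by
  have zM := h.ex_mem he hz
  have z1 : ex V 1 * ex V z = ex V z := by rw [← h.ex_mul, one_mul]
  have z2 : ex V z * ex V 1 = ex V z := by rw [← h.ex_mul, mul_one]
  have ep := h.proj (.one _)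
  rcases prime hM zM (sub_mem he zM) ((h.proj hp).sub_of_mul_eq_right ep z1) (fun x hx => by
    have e1 : ex V 1 * (ex V 1 - ex V z) = ex V 1 - ex V z := by rw [mul_sub, ep.1.eq, z1]
    have e2 := congrArg (ex V) (hc _ (h.cp_mem he hx))
    rw [h.ex_mul, h.ex_mul, ex_cp] at e2
    calc _ = ex V z * (ex V 1 * x * ex V 1) * (ex V 1 - ex V z) := by
          rw [← mul_assoc, ← mul_assoc, z2, mul_assoc _ (ex V 1), e1]
      _ = 0 := by
          rw [e2, mul_assoc, mul_sub, z2, (h.proj hp).1.eq, sub_self, mul_zero]) with c | c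
  · exact .inl (by rw [← h.cp_ex z, c, cp_zero])
  · exact .inr (by rw [← h.cp_ex z, ← sub_eq_zero.1 c, h.cp_ex])

theorem ii1_ind (hM : IsII1 M.commutant) (h : Iso V) (he : ex V 1 ∈ M) (h0 : ex V 1 ≠ 0) :
    IsII1 (corner M V).commutant := by
  have hF : IsFactor M := by
    have := IsFactor.comm hM.factor
    rwa [M.commutant_commutant] at this
  have hi := hF.inj h he h0
  have k : ∀ a ∈ M.commutant, ∀ b ∈ M.commutant, cp V a = cp V b → a = b := fun a ha b hb e =>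
    sub_eq_zero.1 (hi _ (sub_mem ha hb) (by rw [cp_sub, e, sub_self]))
  have m : ∀ a ∈ M.commutant, ∀ b, cp V (a * b) = cp V a * cp V b := fun a ha b =>
    h.cp_mul _ (commute_of_mem he ha)
  refine ⟨(hF.corner h he).comm, fun v hv h1 => ?_, fun e hq hp e0 => ?_⟩
  · obtain ⟨z, z1, rfl⟩ := induce h he hv
    rw [← cp_star, ← m _ z1, hM.finite z z1 (k _ (mul_mem (star_mem z1) z1) _ (one_mem _)
      (by rw [m _ (star_mem z1), cp_star, h1, h.cp_one])), h.cp_one]
  · obtain ⟨z, z1, rfl⟩ := induce h he hq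
    obtain ⟨f, f0, f1, f2, f3, f4⟩ := hM.diffuse z z1
      ⟨k _ (mul_mem z1 z1) _ z1 (by rw [m _ z1, hp.1.eq]),
        k _ (star_mem z1) _ z1 (by rw [cp_star, hp.2.star_eq])⟩ fun c => e0 (by rw [c, cp_zero])
    exact ⟨cp V f, cp_mem' f0, ⟨by rw [IsIdempotentElem, ← m _ f0, f1.1.eq],
      by rw [IsSelfAdjoint, ← cp_star, f1.2.star_eq]⟩, fun c => f2 (hi f f0 c),
      fun c => f3 (k _ f0 _ z1 c), by rw [← m _ z1, f4]⟩

theorem all_scalar (h : ∀ q ∈ M, IsStarProjection q → q = 0 ∨ q = 1) :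
    (M : Set (H →L[ℂ] H)) = Set.range fun c : ℂ => c • (1 : H →L[ℂ] H) := by
  ext z
  refine ⟨fun hz => ?_, by rintro ⟨c, rfl⟩; exact vn_smul_mem c (one_mem M)⟩
  obtain ⟨c, hc⟩ := scalar_of_central fun y => commute_of_proj (M := M) (one_mem _) (.one _)
    (fun E hE hp _ => by rcases h E hE hp with rfl | rfl <;> simp) z hz (by rw [one_mul, mul_one])
  exact ⟨c, hc.symm⟩

theorem kk_scalar (h : ∀ q ∈ M, IsStarProjection q → q = 0 ∨ q = 1) {C : ℝ} (hC : 10 ≤ C) :
    KK M C := fun N δ d0 d1 n1 n2 => by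
  have d2 : δ ≤ 1 / 10 := by nlinarith
  refine ⟨1, one_mem _, by rw [sub_self, norm_zero]; positivity, ?_⟩
  simp only [one_mul, star_one, mul_one, Set.image_id']
  rw [all_scalar h, all_scalar fun q hq hp => ?_]
  obtain ⟨x, x1, x2⟩ := n2.proj d0.le hq hp.norm_le
  obtain ⟨p, pM, p1, p2, -⟩ := proj_near_mem x1 hp x2 d2
  rcases h p pM p1 with rfl | rfl
  · rw [zero_sub, norm_neg] at p2
    exact .inl (proj_eq_zero hp (by linarith))
  · exact .inr (sub_eq_zero.1 (proj_eq_zero hp.one_sub (by linarith))).symm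

theorem cyc_proj (M : VonNeumannAlgebra H) (ξ : H) : ∃ q ∈ M.commutant, IsStarProjection q ∧
    q ξ = ξ ∧ {η | q η = η} ⊆ closure {η : H | ∃ x ∈ M, η = x ξ} := by
  obtain ⟨q, q1, q2, -, q3, -, q4⟩ := exists_cyclic_proj (M := M.commutant) (one_mem _) ξ rfl
  refine ⟨q, q1, q2, q3, fun η hη => ?_⟩
  have := q4 q q1 q2.1.eq η hη
  rwa [M.commutant_commutant, q3] at this

theorem sep_corner (hM : IsFactor M) (h : Iso V) (he : ex V 1 ∈ M) (h0 : ex V 1 ≠ 0)
    (hs : HasSeparableOrbit M) : HasSeparableOrbit (corner M V) := by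
  obtain ⟨ξ, x0, hs⟩ := hs
  obtain ⟨q, q1, q2, q3, q4⟩ := cyc_proj M ξ
  obtain ⟨x, hx, h1⟩ : ∃ x ∈ M, (V†) (x ξ) ≠ 0 := by
    by_contra c
    push Not at c
    have e1 : q * ex V 1 = 0 := by
      rw [← commute_of_mem he q1]
      ext η
      refine closure_minimal (t := {η | ex V 1 η = 0}) ?_
        (isClosed_eq (ex V 1).continuous continuous_const)
        (q4 (show q (q η) = q η by rw [← mul_apply_eq_comp, q2.1.eq]))
      rintro _ ⟨x, hx, rfl⟩
      change ex V 1 (x ξ) = 0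
      rw [ex_apply, c x hx, map_zero, map_zero]
    rw [hM.kill he (h.proj (.one _)) h0 q1 e1] at q3
    exact x0 q3.symm
  refine ⟨_, h1, (hs.image (V†).continuous).mono ?_⟩
  rintro _ ⟨T, hT, rfl⟩
  exact ⟨_, ⟨ex V T * x, mul_mem (h.ex_mem he hT) hx, rfl⟩, h _⟩

end

theorem kk_semi : ∃ C : ℝ, 1 ≤ C ∧ ∀ (H : Type u) [NormedAddCommGroup H] [InnerProductSpace ℂ H]
    [CompleteSpace H] (M : VonNeumannAlgebra H), IsSemifiniteFactor M → HasSeparableOrbit M →
    KK M C := by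
  obtain ⟨a, a1, ha⟩ := kk_II1 traceS.{u} typeS
  obtain ⟨c, c1, hc⟩ := cut.{u}
  have k1 : 1 ≤ 4 * distK := by unfold distK; nlinarith [sq_nonneg (simL 2)]
  have m : ∀ {x y : ℝ}, 1 ≤ x → 1 ≤ y → 1 ≤ x * y := fun h h' => one_le_mul_of_one_le_of_one_le h h'
  obtain ⟨b, hb⟩ : ∃ b, b = 4 * distK * (c * (4 * distK * a)) := ⟨_, rfl⟩
  have b1 : 1 ≤ b := hb ▸ m k1 (m c1 (m k1 a1))
  have mono : ∀ {H : Type u} [NormedAddCommGroup H] [InnerProductSpace ℂ H] [CompleteSpace H]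
      {M : VonNeumannAlgebra H} {C C' : ℝ}, C ≤ C' → KK M C → KK M C' :=
    fun h h' N δ d0 d1 n1 n2 => by
      have := mul_le_mul_of_nonneg_right h d0.le
      obtain ⟨u, u1, u2, u3⟩ := h' N δ d0 (by linarith) n1 n2
      exact ⟨u, u1, by linarith, u3⟩
  refine ⟨c * (c * (10 * b)), m c1 (m c1 (by linarith)), fun H _ _ _ M ⟨hF, e, ⟨e1, e2, e3⟩, e0⟩ hs => ?_⟩
  obtain ⟨K, _, _, _, V, h, rfl, -⟩ := exists_range e2
  refine hc H K M V _ (m c1 (by linarith)) h e1 (hF.inj h e1 e0) ?_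
  have hP := hF.corner h e1
  have hs' := sep_corner hF h e1 e0 hs
  have fin : ∀ v ∈ corner M V, star v * v = 1 → v * star v = 1 := fun v hv h1 => by
    have := e3 _ (h.ex_mem e1 hv) (by rw [← ex_star, ← h.ex_mul, h1]) (by rw [← h.ex_mul, one_mul])
    rw [← h.cp_ex (v * star v), h.ex_mul, ex_star, this, h.cp_ex]
  generalize corner M V = P at hP hs' fin
  by_cases hd : ∀ e ∈ P, IsStarProjection e → e ≠ 0 →
      ∃ f ∈ P, IsStarProjection f ∧ f ≠ 0 ∧ f ≠ e ∧ e * f = f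
  · obtain ⟨ξ, x0, hs⟩ := hs'
    obtain ⟨q, q1, q2, q3, q4⟩ := cyc_proj P ξ
    obtain ⟨L, _, _, _, W, w, rfl, w2⟩ := exists_range q2
    have := w2 (hs.closure.mono q4)
    have q0 : ex W 1 ≠ 0 := fun c => x0 (by rw [← q3, c]; rfl)
    refine mono (show b ≤ _ by nlinarith) (hb ▸ KK.comm (hc K L _ W _ (m k1 a1) w q1
      (hP.comm.inj w q1 q0) (KK.comm (ha L _ (ii1_ind ?_ w q1 q0)))))
    rw [P.commutant_commutant]
    exact ⟨hP, fin, hd⟩
  · push Not at hd
    obtain ⟨f, f1, f2, f0, f3⟩ := hd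
    obtain ⟨L, _, _, _, W, w, rfl, -⟩ := exists_range f2
    refine hc K L P W _ (by linarith) w f1 (hP.inj w f1 f0) (kk_scalar (fun q hq hp => ?_)
      (by linarith))
    by_cases c0 : ex W q = 0
    · exact .inl (by rw [← w.cp_ex q, c0, cp_zero])
    · by_cases c1 : ex W q = ex W 1
      · exact .inr (by rw [← w.cp_ex q, c1, w.cp_ex])
      · exact absurd (by rw [← w.ex_mul, one_mul]) (f3 _ (w.ex_mem f1 hq) (w.proj hp) c0 c1)

end Vale.Agent.P096
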