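import Vale.Agent.P096.Rel
import Vale.Agent.P104.ES

/-! Averages, weak limits of vectors and one-sided ergodicity. -/

namespace Vale.Agent.P096

open scoped InnerProductSpace ComplexOrder BigOperators
open Filter Topology Vale.Agent.P104 Vale.Agent.P082 Finset

section Av

variable {Γ V W : Type*} [AddCommGroup V] [Module ℂ V] [AddCommGroup W] [Module ℂ W]
  {s : Finset Γ}

theorem av_map (T : V →ₗ[ℂ] W) (f : Γ → V) : T (av s f) = av s fun g => T (f g) := by
  simp [av]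

theorem av_add₂ (f f' : Γ → V) : av s (fun g => f g + f' g) = av s f + av s f' := by
  simp [av, sum_add_distrib]

theorem av_sub (f f' : Γ → V) : av s (fun g => f g - f' g) = av s f - av s f' := by
  simp [av, smul_sub]

theorem av_const₂ (hs : s.Nonempty) (v : V) : av s (fun _ => v) = v := by
  have : (s.card : ℂ) ≠ 0 := by exact_mod_cast hs.card_pos.ne'
  rw [av, sum_const, ← Nat.cast_smul_eq_nsmul ℂ, inv_smul_smul₀ this]

theorem av_congr₂ {f f' : Γ → V} (h : ∀ g ∈ s, f g = f' g) : av s f = av s f' := by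
  rw [av, av, sum_congr rfl h]

theorem av_comm {Γ' : Type*} (s' : Finset Γ') (f : Γ → Γ' → V) :
    av s (fun g => av s' (f g)) = av s' fun h => av s fun g => f g h := by
  simp only [av, ← smul_sum]
  rw [smul_comm, sum_comm]

theorem av_apply {X : Type*} [AddCommGroup X] [Module ℂ X] (f : Γ → X →ₗ[ℂ] V) (x : X) :
    av s f x = av s fun g => f g x := by
  simp [av]

theorem av_norm_le₂ {V : Type*} [NormedAddCommGroup V] [NormedSpace ℂ V] {f : Γ → V} {C : ℝ}
    (hs : s.Nonempty) (h : ∀ g ∈ s, ‖f g‖ ≤ C) : ‖av s f‖ ≤ C := by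
  have : (0 : ℝ) < s.card := by exact_mod_cast hs.card_pos
  rw [av, norm_smul, norm_inv, Complex.norm_natCast, inv_mul_le_iff₀ this, ← nsmul_eq_mul]
  exact (norm_sum_le _ _).trans (sum_le_card_nsmul _ _ _ h)

variable [Group Γ] {G : ℕ → Finset Γ}

theorem LocFin.ne (h : LocFin G) (k : ℕ) : (G k).Nonempty := ⟨1, h.one k⟩

theorem LocFin.av_left (h : LocFin G) {k : ℕ} {a : Γ} (ha : a ∈ G k) (f : Γ → V) :
    av (G k) (fun g => f (a * g)) = av (G k) f := by
  rw [av, av, sum_nbij' (fun g => a * g) (fun g => a⁻¹ * g) (fun g hg => h.mul k _ ha _ hg)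
    (fun g hg => h.mul k _ (h.inv k _ ha) _ hg) (fun g _ => by simp) (fun g _ => by simp)
    fun g _ => rfl]

theorem LocFin.av_right (h : LocFin G) {k : ℕ} {a : Γ} (ha : a ∈ G k) (f : Γ → V) :
    av (G k) (fun g => f (g * a)) = av (G k) f := by
  rw [av, av, sum_nbij' (fun g => g * a) (fun g => g * a⁻¹) (fun g hg => h.mul k _ hg _ ha)
    (fun g hg => h.mul k _ hg _ (h.inv k _ ha)) (fun g _ => by simp) (fun g _ => by simp)
    fun g _ => rfl]

theorem LocFin.av_inv (h : LocFin G) (k : ℕ) (f : Γ → V) :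
    av (G k) (fun g => f g⁻¹) = av (G k) f := by
  rw [av, av, sum_nbij' (fun g => g⁻¹) (fun g => g⁻¹) (fun g hg => h.inv k _ hg)
    (fun g hg => h.inv k _ hg) (fun g _ => by simp) (fun g _ => by simp) fun g _ => rfl]

theorem LocFin.ev (h : LocFin G) (a : Γ) : ∀ᶠ k in atTop, a ∈ G k := by
  obtain ⟨k, hk⟩ := h.all a
  exact (eventually_ge_atTop k).mono fun j hj => h.mono hj hk

end Av

section Weak

variable {E ι : Type*} [NormedAddCommGroup E] [InnerProductSpace ℂ E] {l : Filter ι}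
  {v v' : ι → E} {w w' : E}

/-- Weak convergence of vectors. -/
def WV (l : Filter ι) (v : ι → E) (w : E) : Prop :=
  ∀ η, Tendsto (fun i => ⟪η, v i⟫_ℂ) l (𝓝 ⟪η, w⟫_ℂ)

theorem wv_const (w : E) : WV l (fun _ => w) w := fun _ => tendsto_const_nhds

theorem WV.add (h : WV l v w) (h' : WV l v' w') : WV l (fun i => v i + v' i) (w + w') := fun η => by
  simpa only [inner_add_right] using (h η).add (h' η)

theorem WV.sub (h : WV l v w) (h' : WV l v' w') : WV l (fun i => v i - v' i) (w - w') := fun η => by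
  simpa only [inner_sub_right] using (h η).sub (h' η)

theorem WV.smul (h : WV l v w) (c : ℂ) : WV l (fun i => c • v i) (c • w) := fun η => by
  simpa only [inner_smul_right] using (h η).const_mul c

theorem WV.unique [l.NeBot] (h : WV l v w) (h' : WV l v' w') (e : ∀ᶠ i in l, v i = v' i) :
    w = w' :=
  ext_inner_left ℂ fun η => tendsto_nhds_unique (h η) ((h' η).congr' (e.mono fun i hi => by
    simp only [hi]))

theorem WV.norm_le [l.NeBot] (h : WV l v w) {C : ℝ} (hC : ∀ᶠ i in l, ‖v i‖ ≤ C) : ‖w‖ ≤ C := by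
  obtain ⟨i, hi⟩ := hC.exists
  have C0 := (norm_nonneg _).trans hi
  have h1 : ‖⟪w, w⟫_ℂ‖ ≤ ‖w‖ * C := le_of_tendsto (h w).norm (hC.mono fun i hi =>
    (norm_inner_le_norm _ _).trans (mul_le_mul_of_nonneg_left hi (norm_nonneg _)))
  rw [inner_self_eq_norm_sq_to_K, norm_pow, RCLike.norm_ofReal, abs_norm, sq] at h1
  rcases (norm_nonneg w).eq_or_lt with h0 | h0
  · rwa [← h0]
  · exact le_of_mul_le_mul_left h1 h0

variable [CompleteSpace E]

theorem WV.map (h : WV l v w) (T : E →L[ℂ] E) : WV l (fun i => T (v i)) (T w) := fun η => by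
  simpa only [inner_star_left] using h (star T η)

theorem exists_wv (U : Ultrafilter ι) (v : ι → E) {C : ℝ} (hb : ∀ i, ‖v i‖ ≤ C) :
    ∃ w, WV U v w := by
  have hC : ∀ i η, ‖⟪v i, η⟫_ℂ‖ ≤ C * ‖η‖ := fun i η =>
    (norm_inner_le_norm _ _).trans (mul_le_mul_of_nonneg_right (hb i) (norm_nonneg _))
  have h1 : ∀ η : E, ∃ c : ℂ, Tendsto (fun i => ⟪v i, η⟫_ℂ) U (𝓝 c) ∧ ‖c‖ ≤ C * ‖η‖ := fun η => by
    obtain ⟨c, hc, h⟩ := (isCompact_closedBall (0 : ℂ) (C * ‖η‖)).ultrafilter_le_nhds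
      (U.map fun i => ⟪v i, η⟫_ℂ) (by
        rw [le_principal_iff, Ultrafilter.mem_coe, Ultrafilter.mem_map]
        exact Eventually.of_forall fun i => mem_closedBall_zero_iff.2 (hC i η))
    exact ⟨c, h, mem_closedBall_zero_iff.1 hc⟩
  choose c hc hcb using h1
  let φ : E →ₗ[ℂ] ℂ :=
    { toFun := c
      map_add' := fun a b => tendsto_nhds_unique (hc (a + b)) (by
        simpa only [inner_add_right] using (hc a).add (hc b))
      map_smul' := fun t a => tendsto_nhds_unique (hc (t • a)) (by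
        simpa only [inner_smul_right, smul_eq_mul, RingHom.id_apply] using (hc a).const_mul t) }
  refine ⟨(InnerProductSpace.toDual ℂ E).symm (φ.mkContinuous C hcb), fun η => ?_⟩
  have := (Complex.continuous_conj.tendsto _).comp (hc η)
  rw [← inner_conj_symm, InnerProductSpace.toDual_symm_apply]
  refine this.congr fun i => ?_
  simp

theorem exists_wvL {X : Type*} [AddCommGroup X] [Module ℂ X] (U : Ultrafilter ι)
    (f : ι → X →ₗ[ℂ] E) (C : X → ℝ) (hb : ∀ i x, ‖f i x‖ ≤ C x) :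
    ∃ g : X →ₗ[ℂ] E, ∀ x, WV U (fun i => f i x) (g x) := by
  choose g hg using fun x => exists_wv U (fun i => f i x) (hb · x)
  exact ⟨{ toFun := g
           map_add' := fun a b => (hg (a + b)).unique ((hg a).add (hg b))
             (Eventually.of_forall fun i => map_add _ _ _)
           map_smul' := fun t a => (hg (t • a)).unique ((hg a).smul t)
             (Eventually.of_forall fun i => map_smul _ _ _) }, hg⟩

end Weak

/-- A bounded function on a group has averaged translates nearly constant on a finite set. -/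
theorem ergo {Γ E : Type*} [Group Γ] [NormedAddCommGroup E] [InnerProductSpace ℂ E] (d : Γ → E)
    {c : ℝ} (hd : ∀ g, ‖d g‖ ≤ c) (T : Finset Γ) {η : ℝ} (hη : 0 < η) :
    ∃ (Ω : Type) (_ : Fintype Ω) (_ : Nonempty Ω) (u : Ω → Γ) (g : Γ) (ζ : E), ‖ζ‖ ≤ c + 1 ∧
      ∀ t ∈ T, ‖av univ (fun ω => d (g * t * u ω)) - ζ‖ ≤ η := by
  have c0 := (norm_nonneg _).trans (hd 1)
  rcases T.eq_empty_or_nonempty with rfl | hT
  · exact ⟨Unit, inferInstance, inferInstance, 1, 1, 0, by simp; linarith, by simp⟩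
  let S : Set ℝ := {s | ∃ (Ω : Type) (_ : Fintype Ω) (_ : Nonempty Ω) (u : Ω → Γ),
    ∀ g, ‖av univ fun ω => d (g * u ω)‖ ≤ s}
  have hc : c ∈ S := ⟨Unit, inferInstance, inferInstance, 1, fun g =>
    av_norm_le₂ univ_nonempty fun _ _ => hd _⟩
  have hb : ∀ s ∈ S, 0 ≤ s := fun s ⟨_, _, _, _, h⟩ => (norm_nonneg _).trans (h 1)
  have hbd : BddBelow S := ⟨0, hb⟩
  obtain ⟨n, hn⟩ : ∃ n : ℝ, n = T.card := ⟨_, rfl⟩
  have n0 : (0 : ℝ) < n := by rw [hn]; exact_mod_cast hT.card_pos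
  obtain ⟨κ, κ0, κ1, κ2⟩ : ∃ κ : ℝ, 0 < κ ∧ κ ≤ 1 ∧ n * (4 * (c + 1) * κ) ≤ η ^ 2 :=
    ⟨min 1 (η ^ 2 / (n * (4 * (c + 1)))), by positivity, min_le_left _ _, by
      rw [← mul_assoc, mul_comm, ← le_div_iff₀ (by positivity)]; exact min_le_right _ _⟩
  have m0 : 0 ≤ sInf S := le_csInf ⟨c, hc⟩ hb
  have m1 : sInf S ≤ c := csInf_le hbd hc
  obtain ⟨s, ⟨Ω, _, _, u, hu⟩, hs⟩ := exists_lt_of_csInf_lt ⟨c, hc⟩ (lt_add_of_pos_right _ κ0)
  let e := T.equivFin.symm
  haveI : Nonempty (Fin T.card) := ⟨⟨0, hT.card_pos⟩⟩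
  have h1 : sInf S - κ ∉ S := fun h => by linarith [csInf_le hbd h]
  simp only [S, Set.mem_setOf_eq, not_exists, not_forall, not_le] at h1
  obtain ⟨g, hg⟩ := h1 (Fin T.card × Ω) inferInstance inferInstance fun p => (e p.1).1 * u p.2
  obtain ⟨f, hf⟩ : ∃ f : Fin T.card → E, ∀ i, f i = av univ fun ω => d (g * (e i).1 * u ω) :=
    ⟨_, fun _ => rfl⟩
  have f1 : ∀ i, ‖f i‖ ≤ sInf S + κ := fun i => hf i ▸ (hu _).trans hs.le
  have e1 : (av univ fun p : Fin T.card × Ω => d (g * ((e p.1).1 * u p.2))) = av univ f := by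
    simp only [av, hf, ← smul_sum, smul_smul, Fintype.sum_prod_type, card_univ, Fintype.card_prod,
      mul_assoc]
    push_cast
    rw [mul_inv]
  rw [e1] at hg
  have e2 := mean_identity f (av univ f)
  rw [show ((Fintype.card (Fin T.card) : ℂ)⁻¹ • ∑ ρ, f ρ) = av univ f from rfl, sub_self,
    norm_zero, Fintype.card_fin, ← hn] at e2
  have e3 : ∑ i, ‖f i‖ ^ 2 ≤ n * (sInf S + κ) ^ 2 := by
    refine (sum_le_card_nsmul _ _ _ fun i _ => pow_le_pow_left₀ (norm_nonneg _) (f1 i) 2).trans ?_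
    simp [hn]
  have e4 : (sInf S + κ) ^ 2 - ‖av univ f‖ ^ 2 ≤ 4 * (c + 1) * κ := by
    have := norm_nonneg (av univ f)
    rcases le_total κ (sInf S) with h | h <;> nlinarith
  refine ⟨Ω, inferInstance, inferInstance, u, g, av univ f,
    av_norm_le₂ univ_nonempty fun i _ => (f1 i).trans (by linarith), fun t ht => ?_⟩
  have e5 : (e (e.symm ⟨t, ht⟩)).1 = t := by simp
  rw [← e5, ← hf]
  refine le_of_sq_le hη.le ((single_le_sum (f := fun i => ‖f i - av univ f‖ ^ 2)
    (fun _ _ => by positivity) (mem_univ _)).trans ?_)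
  nlinarith

end Vale.Agent.P096
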