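import Vale.Agent.P096.Stm3

/-! Countable Hilbert sums. -/

namespace Vale.Agent.P096

open scoped InnerProductSpace InnerProduct ComplexOrder BigOperators
open Filter Topology Vale.Agent.P104 Vale.Agent.P082 ContinuousLinearMap TopologicalSpace

universe u

theorem amp_sep {H K : Type u} [NormedAddCommGroup H] [InnerProductSpace ℂ H] [CompleteSpace H]
    [NormedAddCommGroup K] [InnerProductSpace ℂ K] [CompleteSpace K] [SeparableSpace H] {I : Type}
    [Countable I] {ι : I → H →L[ℂ] K} (hs : ∀ ψ : K, HasSum (fun n => ι n (((ι n)†) ψ)) ψ) :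
    SeparableSpace K ∧ ∀ x y : K →L[ℂ] K, (∀ i η, x (ι i η) = y (ι i η)) → x = y := by
  refine ⟨?_, fun x y e => ?_⟩
  · have h1 : IsSeparable (⋃ n, Set.range (ι n)) :=
      IsSeparable.iUnion fun n => isSeparable_range (ι n).continuous
    refine isSeparable_univ_iff.1 ((h1.span (R := ℂ)).closure.mono fun ψ _ => ?_)
    refine mem_closure_of_tendsto (hs ψ) (Eventually.of_forall fun s => ?_)
    exact Submodule.sum_mem _ fun n _ => Submodule.subset_span (Set.mem_iUnion.2 ⟨n, _, rfl⟩)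
  · ext1 ψ
    refine ((hs ψ).mapL x).unique ?_
    simp only [e]
    exact (hs ψ).mapL y

theorem amp_perm (H : Type u) [NormedAddCommGroup H] [InnerProductSpace ℂ H] [CompleteSpace H]
    {I : Type} : ∃ sh : I ≃ I → lp (fun _ : I => H) 2 →L[ℂ] lp (fun _ : I => H) 2,
      (∀ k ψ n, sh k ψ n = ψ (k n)) ∧ (∀ k, star (sh k) = sh k.symm) ∧
        ∀ k, sh k ∈ unitary (lp (fun _ : I => H) 2 →L[ℂ] lp (fun _ : I => H) 2) := by
  let K := lp (fun _ : I => H) 2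
  have p2 : 0 < (2 : ENNReal).toReal := by norm_num
  let s0 : I ≃ I → K →ₗ[ℂ] K := fun k =>
    { toFun := fun ψ => ⟨fun n => ψ (k n), (memℓp_gen_iff p2).2
        (k.summable_iff.2 ((memℓp_gen_iff p2).1 (lp.memℓp ψ)))⟩
      map_add' := fun _ _ => rfl
      map_smul' := fun _ _ => rfl }
  let sh : I ≃ I → K →L[ℂ] K := fun k => (s0 k).mkContinuous 1 fun ψ => by
    rw [one_mul, lp.norm_eq_tsum_rpow p2, lp.norm_eq_tsum_rpow p2,
      ← k.tsum_eq fun n => ‖ψ n‖ ^ (2 : ENNReal).toReal]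
    rfl
  have s1 : ∀ k (ψ : K) n, sh k ψ n = ψ (k n) := fun _ _ _ => rfl
  have s2 : ∀ k, star (sh k) = sh k.symm := fun k => by
    refine ((eq_adjoint_iff _ _).2 fun a b => ?_).symm
    rw [lp.inner_eq_tsum, lp.inner_eq_tsum, ← k.tsum_eq]
    refine tsum_congr fun n => ?_
    simp [s1]
  refine ⟨sh, s1, s2, fun k => ⟨?_, ?_⟩⟩ <;> rw [s2] <;> ext ψ n <;> simp [s1]

theorem amp_diag (H : Type u) [NormedAddCommGroup H] [InnerProductSpace ℂ H] [CompleteSpace H]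
    {I : Type} : ∃ (am : (H →L[ℂ] H) →⋆ₐ[ℂ] (lp (fun _ : I => H) 2 →L[ℂ] lp (fun _ : I => H) 2)),
      (∀ x ψ n, am x ψ n = x (ψ n)) ∧ ∀ (x : I → H →L[ℂ] H) C, 0 ≤ C → (∀ n, ‖x n‖ ≤ C) →
        ∃ d : lp (fun _ : I => H) 2 →L[ℂ] lp (fun _ : I => H) 2, ‖d‖ ≤ C ∧
          (∀ ψ n, d ψ n = x n (ψ n)) ∧ ∀ ψ n, star d ψ n = star (x n) (ψ n) := by
  classical
  let K := lp (fun _ : I => H) 2
  let d : ∀ (x : I → H →L[ℂ] H) (C : ℝ), 0 ≤ C → (∀ n, ‖x n‖ ≤ C) → K →L[ℂ] K := fun x C h0 h =>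
    lp.mapCLM 2 x h0 h
  have d2 : ∀ x C h0 h C' h0' h', star (d x C h0 h) = d (fun n => star (x n)) C' h0' h' :=
    fun x C h0 h C' h0' h' => by
    refine ((eq_adjoint_iff _ _).2 fun a b => ?_).symm
    rw [lp.inner_eq_tsum, lp.inner_eq_tsum]
    exact tsum_congr fun n => adjoint_inner_left _ _ _
  let am : (H →L[ℂ] H) →⋆ₐ[ℂ] (K →L[ℂ] K) :=
    { toFun := fun x => d (fun _ => x) ‖x‖ (norm_nonneg _) fun _ => le_rfl
      map_one' := by ext ζ i; rfl
      map_mul' := fun a b => by ext ζ i; rfl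
      map_zero' := by ext ζ i; rfl
      map_add' := fun a b => by ext ζ i; rfl
      commutes' := fun z => by ext ζ i; rfl
      map_star' := fun a => (d2 _ _ _ _ _ _ _).symm }
  refine ⟨am, fun _ _ _ => rfl, fun x C h0 h =>
    ⟨d x C h0 h, lp.norm_mapCLM_le 2 x h0 h, fun _ _ => rfl, fun ψ n => ?_⟩⟩
  rw [d2 _ _ _ _ C h0 fun n => (norm_star _).trans_le (h n)]
  rfl

theorem ampS : AmpStmt.{u} := by
  intro H _ _ _ _ I _
  classical
  obtain ⟨ι, ι1, ι2⟩ : ∃ ι : I → H →L[ℂ] lp (fun _ : I => H) 2, (∀ n ψ, ((ι n)†) ψ = ψ n) ∧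
      ∀ n η, ι n η = lp.single (E := fun _ : I => H) 2 n η :=
    ⟨fun n => lp.singleContinuousLinearMap ℂ (fun _ : I => H) 2 n, fun n ψ =>
      ext_inner_left ℂ fun η => by
        rw [adjoint_inner_right]
        exact lp.inner_single_left (𝕜 := ℂ) (G := fun _ : I => H) n η ψ, fun _ _ => rfl⟩
  have ι3 : ∀ n m η, ι n η m = if m = n then η else 0 := fun n m η => by
    rw [ι2, lp.single_apply, Pi.single_apply]
  obtain ⟨am, a1, a2⟩ := amp_diag H (I := I)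
  have d3 : ∀ (D : lp (fun _ : I => H) 2 →L[ℂ] lp (fun _ : I => H) 2) (x : I → H →L[ℂ] H),
      (∀ ψ n, D ψ n = x n (ψ n)) → ∀ n η, D (ι n η) = ι n (x n η) := fun D x h n η => by
    ext m
    rw [h, ι3, ι3]
    split_ifs with e
    · rw [e]
    · rw [map_zero]
  obtain ⟨sh, s1, s2, s4⟩ := amp_perm H (I := I)
  have s3 : ∀ k n η, sh k (ι n η) = ι (k.symm n) η := fun k n η => by
    ext m
    simp only [s1, ι3, Equiv.eq_symm_apply]
  have hs : ∀ ψ, HasSum (fun n => ι n (((ι n)†) ψ)) ψ := fun ψ => by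
    simp only [ι1, ι2]
    exact lp.hasSum_single (by norm_num) ψ
  refine ⟨lp (fun _ : I => H) 2, _, _, inferInstance, (amp_sep hs).1, am, ι, fun n η => ?_,
    fun n m h η ζ => ?_, hs, fun ψ => ?_, fun x => d3 _ _ (a1 x), (amp_sep hs).2,
    fun x C h0 h => (a2 x C h0 h).imp fun d k => ⟨k.1, d3 _ _ k.2.1, d3 _ _ k.2.2⟩,
    fun p => ⟨sh p.symm, s4 _, s3 _, fun n η => by rw [s2, s3, Equiv.symm_symm]⟩⟩
  · rw [ι2, lp.norm_single (by norm_num)]
  · rw [← adjoint_inner_right, ι1, ι3, if_neg h, inner_zero_right]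
  · simpa [ι1] using lp.hasSum_norm (by norm_num : 0 < (2 : ENNReal).toReal) ψ

end Vale.Agent.P096
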