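import Vale.Agent.P096.Stm3

/-! Tensoring with an infinite tensor product factor. -/

namespace Vale.Agent.P096

open scoped InnerProductSpace InnerProduct
open Filter Topology Vale.Agent.P104 Vale.Agent.P082 ContinuousLinearMap

universe u

namespace Big

variable {H K : Type u} [NormedAddCommGroup H] [InnerProductSpace ℂ H] [CompleteSpace H]
  [NormedAddCommGroup K] [InnerProductSpace ℂ K] [CompleteSpace K]
  {A : (H →L[ℂ] H) →⋆ₐ[ℂ] (K →L[ℂ] K)} {ι : H →L[ℂ] K} {e r : ℕ → K →L[ℂ] K} {c : ℕ → ℝ}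
  {M N : VonNeumannAlgebra H}

theorem app {x y : K →L[ℂ] K} (h : Commute x y) (ζ : K) : x (y ζ) = y (x ζ) := by
  rw [← mul_apply_eq_comp, h.eq, mul_apply_eq_comp]

theorem iso (h : Site A ι e r c) : Iso ι := fun k =>
  DFunLike.congr_fun ((norm_map_iff_adjoint_comp_self ι).1 h.iso) k

theorem adj (h : Site A ι e r c) (x : H →L[ℂ] H) (ζ : K) : (ι†) (A x ζ) = x ((ι†) ζ) :=
  ext_inner_left ℂ fun η => by
    rw [adjoint_inner_right, ← inner_star_left, ← map_star, h.Aι, ← adjoint_inner_right,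
      inner_star_left]

theorem cp_A (h : Site A ι e r c) (x : H →L[ℂ] H) : cp ι (A x) = x := by
  ext η
  rw [cp_apply, h.Aι, iso h]

theorem cp_comm (h : Site A ι e r c) {x : K →L[ℂ] K} {y : H →L[ℂ] H} (hc : Commute (A y) x) :
    y * cp ι x = cp ι x * y := by
  ext η
  rw [mul_apply_eq_comp, mul_apply_eq_comp, cp_apply, cp_apply, ← adj h, app hc, h.Aι]

theorem cp_mem (h : Site A ι e r c) {x : K →L[ℂ] K} (hx : x ∈ big A r M) : cp ι x ∈ M :=
  mem_of_commute fun y hy => cp_comm h ((mem_big.1 hx).1 y hy)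

theorem ker_cl (x : K →L[ℂ] K) : IsClosed ((x.ker : Submodule ℂ K) : Set K) := x.isClosed_ker

theorem dense_r (h : Site A ι e r c) (S : Submodule ℂ K) (h1 : IsClosed (S : Set K))
    (h2 : ∀ η, ι η ∈ S) (h3 : ∀ n, ∀ ζ ∈ S, r n ζ ∈ S ∧ star (r n) ζ ∈ S) : S = ⊤ := by
  let P : Set (Submodule ℂ K) := {S | IsClosed (S : Set K) ∧ (∀ η, ι η ∈ S) ∧
    ∀ n, ∀ ζ ∈ S, r n ζ ∈ S ∧ star (r n) ζ ∈ S}
  have a1 : IsClosed ((sInf P : Submodule ℂ K) : Set K) := by
    rw [Submodule.coe_sInf]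
    exact isClosed_biInter fun S hS => hS.1
  have a2 : ∀ η, ι η ∈ sInf P := fun η => Submodule.mem_sInf.2 fun S hS => hS.2.1 η
  have a3 : ∀ n, ∀ ζ ∈ sInf P, r n ζ ∈ sInf P ∧ star (r n) ζ ∈ sInf P := fun n ζ hz =>
    ⟨Submodule.mem_sInf.2 fun S hS => (hS.2.2 n ζ (Submodule.mem_sInf.1 hz S hS)).1,
      Submodule.mem_sInf.2 fun S hS => (hS.2.2 n ζ (Submodule.mem_sInf.1 hz S hS)).2⟩
  have k : ∀ x : K →L[ℂ] K, (∀ n, Commute x (r n) ∧ Commute x (star (r n))) →
      (∀ η, x (ι η) ∈ sInf P) → ∀ ζ ∈ sInf P, x ζ ∈ sInf P := fun x b1 b2 ζ hz =>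
    Submodule.mem_sInf.1 hz ((sInf P).comap x.toLinearMap) ⟨a1.preimage x.continuous, b2,
      fun n ζ hz => ⟨show x _ ∈ _ from app (b1 n).1 ζ ▸ (a3 n _ hz).1,
        show x _ ∈ _ from app (b1 n).2 ζ ▸ (a3 n _ hz).2⟩⟩
  have v : ∀ η, Vac e r c (ι η) := fun η => (h.vac _).2 ⟨η, rfl⟩
  refine top_le_iff.1 ((h.dense _ a1 a2 fun n ζ hz => ⟨k _ (h.er n) (fun η => ?_) ζ hz,
    k _ (fun m => ⟨by simpa using (h.er n m).2.star_star, (h.er n m).1.star_star⟩)
      (fun η => ?_) ζ hz⟩).ge.trans (sInf_le ⟨h1, h2, h3⟩))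
  · have n0 : (c n : ℂ) ≠ 0 := by exact_mod_cast (h.pos n).ne'
    rw [← (sInf P).smul_mem_iff n0, ← (v η n).1]
    exact (a3 n _ (a2 η)).1
  · rw [(v η n).2]
    exact (sInf P).smul_mem _ (a3 n _ (a2 η)).2

theorem cycsep (h : Site A ι e r c) {ξ : H} (hx : P132.CycSep M ξ) :
    P132.CycSep (big A r M) (ι ξ) := by
  constructor
  · let E : Submodule ℂ K :=
      { carrier := {η | ∃ x ∈ big A r M, x (ι ξ) = η}
        add_mem' := by
          rintro _ _ ⟨a, ha, rfl⟩ ⟨b, hb, rfl⟩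
          exact ⟨a + b, add_mem ha hb, rfl⟩
        zero_mem' := ⟨0, zero_mem _, rfl⟩
        smul_mem' := by
          rintro t _ ⟨a, ha, rfl⟩
          exact ⟨t • a, vn_smul_mem t ha, rfl⟩ }
    have k : ∀ y ∈ big A r M, ∀ ζ ∈ E.topologicalClosure, y ζ ∈ E.topologicalClosure :=
      fun y hy ζ hz => map_mem_closure y.continuous hz (by
        rintro _ ⟨x, h1, rfl⟩
        exact ⟨y * x, mul_mem hy h1, rfl⟩)
    exact Submodule.dense_iff_topologicalClosure_eq_top.2 (h.dense E.topologicalClosure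
      E.isClosed_topologicalClosure (fun η => map_mem_closure ι.continuous (hx.1 η) (by
        rintro _ ⟨x, h1, rfl⟩
        exact ⟨A x, h.big_A h1, h.Aι x ξ⟩))
      fun n ζ hz => ⟨k _ (h.big_e n) ζ hz, k _ (star_mem (h.big_e n)) ζ hz⟩)
  · intro x hx1 h0
    obtain ⟨b1, b2⟩ := mem_big.1 hx1
    have := dense_r h x.ker (ker_cl x) (fun η => ?_) fun n ζ hz =>
      ⟨show x _ = 0 by rw [← app (b2 n).1, show x ζ = 0 from hz, map_zero],
        show x _ = 0 by rw [← app (b2 n).2, show x ζ = 0 from hz, map_zero]⟩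
    · ext ζ
      exact (this.ge Submodule.mem_top : ζ ∈ x.ker)
    · refine ((ker_cl x).preimage ι.continuous).closure_subset_iff.2 ?_ (P132.dense_comm hx.2 η)
      rintro _ ⟨y, hy, rfl⟩
      change x _ = 0
      rw [← h.Aι, ← app (b1 y hy), h0, map_zero]

theorem factor (h : Site A ι e r c) (hM : P132.IsFactor M) : P132.IsFactor (big A r M) := by
  intro z hz hc
  obtain ⟨t, ht⟩ := hM _ (cp_mem h hz) fun x hx => (cp_comm h (hc _ (h.big_A hx)).symm).symm
  have c1 : ∀ n, Commute z (e n) := fun n => hc _ (h.big_e n)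
  have c2 : ∀ n, Commute z (star (e n)) := fun n => hc _ (star_mem (h.big_e n))
  have b := (mem_big.1 hz).2
  have := h.dense (z - t • 1).ker (ker_cl _) (fun η => ?_) fun n ζ hz => ?_
  · refine ⟨t, sub_eq_zero.1 ?_⟩
    ext ζ
    exact (this.ge Submodule.mem_top : ζ ∈ (z - t • 1).ker)
  · have v := (h.vac _).2 ⟨η, rfl⟩
    obtain ⟨ζ, e1⟩ := (h.vac (z (ι η))).1 fun n =>
      ⟨by rw [app (b n).1, (v n).1, map_smul, app (c1 n)],
        by rw [← app (c2 n), (v n).2, map_smul, app (b n).2]⟩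
    have e2 := DFunLike.congr_fun ht η
    rw [cp_apply, ← e1, iso h] at e2
    change z _ - _ = 0
    rw [← e1, e2]
    simp
  · have hz : z ζ - t • ζ = 0 := hz
    constructor
    · change z _ - t • e n ζ = 0
      rw [app (c1 n), ← map_smul, ← map_sub, hz, map_zero]
    · change z _ - t • star (e n) ζ = 0
      rw [app (c2 n), ← map_smul, ← map_sub, hz, map_zero]

/-- The average over a symmetry. -/
noncomputable def avg (u T : K →L[ℂ] K) : K →L[ℂ] K := (2⁻¹ : ℂ) • (T + u * T * u)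

theorem avg_comm {u T a : K →L[ℂ] K} {s : ℂ} (s2 : s * s = 1) (h1 : a * u = s • (u * a))
    (h2 : Commute a T) : Commute a (avg u T) := by
  refine (h2.add_right ?_).smul_right _
  change a * (u * T * u) = u * T * u * a
  rw [← mul_assoc, ← mul_assoc, h1, smul_mul_assoc, smul_mul_assoc, mul_assoc u, h2.eq,
    ← mul_assoc, mul_assoc _ a, h1, mul_smul_comm, smul_smul, s2, one_smul, ← mul_assoc]

theorem avg_comm' {u T a : K →L[ℂ] K} (h1 : Commute a u) (h2 : Commute a T) :
    Commute a (avg u T) := avg_comm (one_mul 1) (by rw [one_smul, h1.eq]) h2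

theorem avg_self {u T : K →L[ℂ] K} (h : u * u = 1) : Commute u (avg u T) := by
  refine Commute.smul_right ?_ _
  change u * _ = _ * u
  rw [mul_add, add_mul, ← mul_assoc, ← mul_assoc, h, one_mul, mul_assoc _ u u, h, mul_one, add_comm]

theorem avg_near {u T x : K →L[ℂ] K} (hu : u ∈ unitary _) (h : u * u = 1) (hx : Commute u x) :
    ‖x - avg u T‖ ≤ ‖x - T‖ := by
  have : x - avg u T = (2⁻¹ : ℂ) • ((x - T) + u * (x - T) * u) := by
    rw [avg, mul_sub, sub_mul, hx.eq, mul_assoc x, h, mul_one]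
    module
  have b := norm_add_le (x - T) (u * (x - T) * u)
  rw [CStarRing.norm_mul_mem_unitary _ hu, CStarRing.norm_mem_unitary_mul _ hu] at b
  rw [this, norm_smul, norm_inv, Complex.norm_two]
  linarith

theorem average (h : Site A ι e r c) {x T : K →L[ℂ] K}
    (hx : ∀ n, Commute (r n) x ∧ Commute (star (r n)) x)
    (hT : ∀ y ∈ N.commutant, Commute (A y) T) : ∃ S ∈ big A r N, ‖x - S‖ ≤ ‖x - T‖ := by
  have a : ∀ n, ∃ S, (∀ y ∈ N.commutant, Commute (A y) S) ∧ ‖x - S‖ ≤ ‖x - T‖ ∧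
      ∀ k < n, Commute (r k) S ∧ Commute (star (r k)) S := fun n => by
    induction n with
    | zero => exact ⟨T, hT, le_rfl, fun k hk => absurd hk k.not_lt_zero⟩
    | succ n ih =>
      obtain ⟨S, s1, s2, s3⟩ := ih
      have w := h.hr n
      have g : ∀ a, Commute a (r n) → Commute a (star (r n)) → Commute a (r n + star (r n)) ∧
          Commute a (star (r n) * r n - r n * star (r n)) := fun a b1 b2 =>
        ⟨b1.add_right b2, (b2.mul_right b1).sub_right (b1.mul_right b2)⟩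
      have g' : ∀ a, Commute a (r n) → Commute a (star (r n)) → Commute a S → Commute a
          (avg (r n + star (r n)) (avg (star (r n) * r n - r n * star (r n)) S)) :=
        fun a b1 b2 b3 => avg_comm' (g a b1 b2).1 (avg_comm' (g a b1 b2).2 b3)
      have gx := g x (hx n).1.symm (hx n).2.symm
      refine ⟨_, fun y hy => g' _ (h.Ae y n).2 (by simpa [← map_star] using
        (h.Ae (star y) n).2.star_star) (s1 y hy), (avg_near w.X_mem w.X_sq gx.1.symm).trans
        ((avg_near w.Z_mem w.Z_sq gx.2.symm).trans s2), fun k hk => ?_⟩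
      rcases (Nat.lt_succ_iff.1 hk).eq_or_lt with rfl | hk
      · have b1 := avg_self (T := avg (star (r k) * r k - r k * star (r k)) S) w.X_sq
        have b2 := w.comm b1 (avg_comm (s := -1) (by norm_num) (by
          rw [neg_smul, one_smul, ← neg_mul, ← w.ZXZ, mul_assoc, w.Z_sq, mul_one])
          (avg_self w.Z_sq))
        exact ⟨b2, by simpa using b1.sub_left (show Commute _ _ from b2)⟩
      · have := h.rr k n hk.ne
        exact ⟨g' _ this.1 this.2 (s3 k hk).1,
          g' _ (by simpa using this.2.star_star) this.1.star_star (s3 k hk).2⟩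
  choose S s1 s2 s3 using a
  let j : (K →L[ℂ] K) → Alg (allOp K) := fun a => ⟨a, trivial⟩
  have b : ∀ n, ‖j (S n)‖ ≤ ‖x‖ + ‖x - T‖ := fun n => by
    change ‖S n‖ ≤ _
    linarith [norm_sub_norm_le (S n) x, norm_sub_rev x (S n), s2 n]
  have k : ∀ a, (∀ᶠ n in atTop, Commute a (S n)) →
      Commute a (wlim (hyperfilter ℕ) fun n => j (S n)).1 := fun a ha => by
    have := wlim_congr (U := hyperfilter ℕ) (v := fun n => j a * j (S n))
      (v' := fun n => j (S n) * j a)
      (fun n => (norm_mul_le _ _).trans (mul_le_mul_of_nonneg_left (b n) (norm_nonneg _)))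
      (fun n => (norm_mul_le _ _).trans (mul_le_mul_of_nonneg_right (b n) (norm_nonneg _)))
      ((ha.filter_mono Nat.hyperfilter_le_atTop).mono fun n hn => Subtype.ext hn)
    rw [wlim_mul_left b, wlim_mul_right b] at this
    exact congrArg Subtype.val this
  refine ⟨_, mem_big.2 ⟨fun y hy => k _ (.of_forall fun n => s1 n y hy), fun m =>
    ⟨k _ ((eventually_gt_atTop m).mono fun n hn => (s3 n m hn).1),
      k _ ((eventually_gt_atTop m).mono fun n hn => (s3 n m hn).2)⟩⟩, ?_⟩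
  have := wlim_norm_le (U := hyperfilter ℕ) (v := fun n => j x - j (S n)) s2
  rwa [wlim_sub (fun _ => le_rfl) b, wlim_const] at this

theorem near_big (h : Site A ι e r c) {δ : ℝ} (d0 : 0 ≤ δ) (hn : Near M N δ) :
    Near (big A r M) (big A r N) (16 * distK ^ 2 * δ) := by
  have := distK_pos
  rw [show 16 * distK ^ 2 * δ = 2 * (8 * distK ^ 2 * δ) by ring]
  refine near_of_le (by positivity) fun x hx => ?_
  have cl : IsClosed (N.commutant.toStarSubalgebra : Set (H →L[ℂ] H)) := vn_isClosed _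
  obtain ⟨T, t1, t2⟩ := dist_intertw (A.comp N.commutant.toStarSubalgebra.subtype)
    (A.comp N.commutant.toStarSubalgebra.subtype) x (c := 8 * distK * δ * ‖x‖) (by positivity)
    fun a => by
      obtain ⟨b, b1, -, b2⟩ := near_comm d0 hn a.1 a.2
      have e1 : x * A a.1 - A a.1 * x = x * A (a.1 - b) - A (a.1 - b) * x := by
        rw [map_sub, mul_sub, sub_mul, ((mem_big.1 hx).1 b b1).eq]
        abel
      have a1 := norm_mul_le x (A (a.1 - b))
      have a2 := norm_mul_le (A (a.1 - b)) x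
      have a3 := mul_le_mul_of_nonneg_left
        ((NonUnitalStarAlgHom.norm_apply_le A (a.1 - b)).trans b2) (norm_nonneg x)
      refine (le_of_eq (congrArg norm e1)).trans ((norm_sub_le _ _).trans ?_)
      change _ ≤ _ * ‖a.1‖
      nlinarith
  obtain ⟨S, s1, s2⟩ := average h (mem_big.1 hx).2 fun y hy => (t1 ⟨y, hy⟩).symm
  exact ⟨S, s1, s2.trans (t2.trans (le_of_eq (by ring)))⟩

end Big

open Big

theorem bigS : BigStmt.{u} := by
  have k1 : 1 ≤ distK := by unfold distK; nlinarith [sq_nonneg (simL 2)]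
  refine ⟨16 * distK ^ 2, by nlinarith, fun H K _ _ _ _ _ _ A ι e r c M h =>
    ⟨fun ξ => cycsep h, factor h, fun C _ hL N δ d0 d1 n1 n2 => ?_⟩⟩
  obtain ⟨Φ, hΦ⟩ := hL (big A r N) _ (by positivity) (by linarith) (near_big h d0.le n1)
    (near_big h d0.le n2)
  let a : Alg N → Alg (big A r N) := fun x => ⟨A x.1, h.big_A x.2⟩
  refine ⟨⟨⟨fun x => ⟨cp ι (Φ (a x)).1, cp_mem h (Φ (a x)).2⟩, fun x y => Subtype.ext ?_⟩,
    fun t x => Subtype.ext ?_⟩, fun x => ?_⟩
  · rw [show a (x + y) = a x + a y from Subtype.ext (map_add A _ _), map_add]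
    exact cp_add _ _
  · change cp ι (Φ (a (t • x))).1 = _
    rw [show a (t • x) = t • a x from Subtype.ext (map_smul A _ _), map_smul]
    exact cp_smul _ _
  · change ‖cp ι (Φ (a x)).1 - x.1‖ ≤ _
    rw [← cp_A h x.1, ← cp_sub]
    refine ((iso h).cp_le _).trans ((hΦ (a x)).trans ?_)
    rw [show 16 * distK ^ 2 * C * δ = C * (16 * distK ^ 2 * δ) by ring]
    exact mul_le_mul_of_nonneg_left (NonUnitalStarAlgHom.norm_apply_le A x.1) (by positivity)

end Vale.Agent.P096
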