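import Vale.Agent.P096.F2a
import Vale.Agent.P132.T2
import Vale.Agent.P132.Filt

/-! WP Cent: elements of the centralizer. -/

namespace Vale.Agent.P096

open scoped InnerProductSpace ComplexOrder BigOperators BoundedContinuousFunction ComplexConjugate
open Filter Topology Vale.Agent.P104 Vale.Agent.P082 Finset TopologicalSpace

universe u

theorem exists_quot (t : ℝ) : ∃ k : ℝ → ℂ, Continuous k ∧
    ∀ s, P132.ex t s - 1 = k s * ((Real.exp s - 1 : ℝ) : ℂ) := by
  let a : ℝ → ℂ := fun s => Complex.exp (((t * s : ℝ) : ℂ) * Complex.I)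
  have da : Differentiable ℝ a := by
    have : Differentiable ℝ fun s : ℝ => ((t * s : ℝ) : ℂ) :=
      Complex.ofRealCLM.differentiable.comp (f := fun s : ℝ => t * s) (by fun_prop)
    exact (this.mul_const _).cexp
  have ca : Continuous (dslope a 0) := continuousOn_univ.1
    ((continuousOn_dslope univ_mem).2 ⟨da.continuous.continuousOn, da 0⟩)
  have cb : Continuous (dslope Real.exp 0) := continuousOn_univ.1
    ((continuousOn_dslope univ_mem).2 ⟨Real.continuous_exp.continuousOn,
      Real.differentiable_exp 0⟩)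
  have eb : ∀ s, s * dslope Real.exp 0 s = Real.exp s - 1 := fun s => by
    simpa using sub_smul_dslope Real.exp 0 s
  have nb : ∀ s, dslope Real.exp 0 s ≠ 0 := fun s h => by
    by_cases hs : s = 0
    · rw [hs, dslope_same, Real.deriv_exp, Real.exp_zero] at h
      exact one_ne_zero h
    · have := eb s
      rw [h, mul_zero, eq_comm, sub_eq_zero, Real.exp_eq_one_iff] at this
      exact hs this
  refine ⟨fun s => dslope a 0 s / ((dslope Real.exp 0 s : ℝ) : ℂ),
    ca.div (Complex.continuous_ofReal.comp cb) fun s => Complex.ofReal_ne_zero.2 (nb s),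
    fun s => ?_⟩
  have ea : (s : ℂ) * dslope a 0 s = P132.ex t s - 1 := by
    simpa [a] using sub_smul_dslope a 0 s
  have := Complex.ofReal_ne_zero.2 (nb s)
  rw [← ea, ← eb]
  push_cast
  field_simp

theorem cent : CentStmt.{u} := by
  intro H _ _ _ M ξ m hc x hx y hy h1 h2
  have hp := P132.mem_graphS (ξ := ξ) hx
  have key : ∀ f0 f1 f2 : ℝ →ᵇ ℂ, (∀ s, f1 s = f0 s * (Real.exp (s / 2) : ℝ)) →
      (∀ s, f2 s = f1 s * (Real.exp (s / 2) : ℝ)) → m.Φ f2 (x ξ) = m.Φ f0 (x ξ) :=
    fun f0 f1 f2 r1 r2 => by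
      rw [← m.graph _ hp f1 f2 r2]
      refine ext_inner_left ℂ fun v => ?_
      have hs : ∀ s, (star f1) s = (star f0) s * (Real.exp (s / 2) : ℝ) := fun s => by
        rw [BoundedContinuousFunction.star_apply, BoundedContinuousFunction.star_apply, r1,
          star_mul', RCLike.star_def, Complex.conj_ofReal]
      have := P132.adjF (m.core _ _ hs v) (star_mem hy)
      rw [star_star, h1, h2] at this
      have e : ∀ (f : ℝ →ᵇ ℂ) a, ⟪v, m.Φ f a⟫_ℂ = ⟪m.Φ (star f) v, a⟫_ℂ := fun f a => by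
        rw [m.inner_Φ, star_star]
      rw [e, e, ← inner_conj_symm, ← m.inner_J_left, this, inner_conj_symm]
  have hU : ∀ t, m.U t (x ξ) = x ξ := fun t => by
    refine m.ext_cut fun n => ?_
    obtain ⟨k, hk, ek⟩ := exists_quot t
    obtain ⟨f0, s0, e0⟩ := P132.exists_bmul (P132.chi_supp0 n) hk
    obtain ⟨f1, s1, e1⟩ := P132.exists_exp s0
    obtain ⟨f2, -, e2⟩ := P132.exists_exp s1
    have e3 : P132.chi n * P132.ex t - P132.chi n = f2 - f0 := by
      ext s
      have : ((Real.exp (s / 2) : ℝ) : ℂ) * (Real.exp (s / 2) : ℝ) = (Real.exp s : ℝ) := by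
        rw [← Complex.ofReal_mul, ← Real.exp_add, add_halves]
      simp only [BoundedContinuousFunction.sub_apply, BoundedContinuousFunction.mul_apply, e0, e1,
        e2]
      rw [← mul_sub_one, ek, mul_assoc _ _ ((Real.exp (s / 2) : ℝ) : ℂ), this]
      push_cast
      ring
    rw [← sub_eq_zero, P132.HMod.U, ← m.Φ_mul_apply, ← ContinuousLinearMap.sub_apply, ← map_sub,
      e3, map_sub, ContinuousLinearMap.sub_apply, key f0 f1 f2 e1 e2, sub_self]
  have hR : m.R x = y := by
    refine sub_eq_zero.1 ((F2.cs_comm hc).2 _ (sub_mem (m.R_mem hx) hy) ?_)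
    rw [ContinuousLinearMap.sub_apply, m.R_eq P132.filt hx hU, h1, sub_self]
  have hσ : ∀ t, m.U t * x * m.U (-t) = x := fun t => by
    refine sub_eq_zero.1 (hc.2 _ (sub_mem (m.σ_mem t hx) hx) ?_)
    rw [ContinuousLinearMap.sub_apply, mul_apply_eq_comp, mul_apply_eq_comp, m.U_ξ, hU, sub_self]
  refine ⟨hR, fun t => ⟨?_, ?_⟩⟩
  · change m.U t * x = x * m.U t
    conv_rhs => rw [← hσ t, mul_assoc, m.U_neg_mul, mul_one]
  · ext η
    rw [mul_apply_eq_comp, mul_apply_eq_comp, ← hR, m.U_R, hσ]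

end Vale.Agent.P096
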