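import Vale.Agent.P096.Stm3

/-! The limit of the perturbation steps. -/

namespace Vale.Agent.P096

open scoped InnerProductSpace InnerProduct
open Filter Topology Vale.Agent.P104 Vale.Agent.P082 ContinuousLinearMap TopologicalSpace

universe u

namespace D3

variable {H : Type u} [NormedAddCommGroup H] [InnerProductSpace ℂ H] [CompleteSpace H]
  {Γ : Type u} [Group Γ] {G : ℕ → Finset Γ} {M P : VonNeumannAlgebra H} {ξ : H}

omit [Group Γ] in
theorem av_clm {V W : Type*} [NormedAddCommGroup V] [NormedSpace ℂ V] [NormedAddCommGroup W]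
    [NormedSpace ℂ W] (T : V →L[ℂ] W) (s : Finset Γ) (f : Γ → V) :
    T (av s f) = av s fun g => T (f g) := av_map T.toLinearMap f

theorem crit (π : Γ →* (H →L[ℂ] H)) (hs : ∀ g, star (π g) = π g⁻¹) (hG : LocFin G)
    (hf : ∀ g, π g ξ = ξ) (h1 : ‖ξ‖ = 1) (η : H)
    (h : ∀ ε > 0, ∃ n, ∃ c : ℂ, ‖av (G n) (fun g => π g η) - c • ξ‖ ≤ ε) :
    Tendsto (fun k => av (G k) fun g => π g η) atTop (𝓝 (⟪ξ, η⟫_ℂ • ξ)) := by
  refine Metric.tendsto_atTop.2 fun ε e0 => ?_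
  obtain ⟨n, c, hc⟩ := h (ε / 3) (by linarith)
  refine ⟨n, fun m hm => ?_⟩
  have a : av (G m) (fun g => π g η) - c • ξ =
      av (G m) fun g => π g (av (G n) (fun g => π g η) - c • ξ) := by
    simp only [map_sub, map_smul, hf]
    rw [av_sub, av_const₂ (hG.ne m)]
    congr 1
    rw [av_congr₂ fun g _ => av_clm (π g) _ _, av_comm, ← av_const₂ (hG.ne n) (av _ _)]
    refine av_congr₂ fun g hg => ?_
    rw [← hG.av_right (hG.mono hm hg)]
    simp only [map_mul]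
    rfl
  have b : ‖av (G m) (fun g => π g η) - c • ξ‖ ≤ ε / 3 := a ▸ av_norm_le₂ (hG.ne m) fun g _ =>
    ((π g).le_opNorm _).trans ((mul_le_of_le_one_left (norm_nonneg _)
      (rep_norm_le π hs g)).trans hc)
  have d : ⟪ξ, av (G m) (fun g => π g η) - c • ξ⟫_ℂ = ⟪ξ, η⟫_ℂ - c := by
    rw [inner_sub_right, inner_smul_right, inner_self_eq_norm_sq_to_K, h1]
    rw [← innerSL_apply_apply ℂ ξ (av _ _), av_clm, av_congr₂ (f' := fun _ => ⟪ξ, η⟫_ℂ) fun g _ => by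
      change ⟪ξ, π g η⟫_ℂ = _
      rw [← inner_star_left, hs, hf], av_const₂ (hG.ne m)]
    simp
  have f := norm_inner_le_norm (𝕜 := ℂ) ξ (av (G m) (fun g => π g η) - c • ξ)
  rw [d, h1, one_mul] at f
  have := norm_sub_le_norm_sub_add_norm_sub (av (G m) fun g => π g η) (c • ξ) (⟪ξ, η⟫_ℂ • ξ)
  rw [← sub_smul, norm_smul, h1, norm_sub_rev c] at this
  rw [dist_eq_norm]
  linarith

/-- Conjugation. -/
noncomputable def cu (U : unitary (H →L[ℂ] H)) : (H →L[ℂ] H) →⋆ₐ[ℂ] (H →L[ℂ] H) :=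
  (Unitary.conjStarAlgAut ℂ _ U).toStarAlgHom

theorem cu_def (U : unitary (H →L[ℂ] H)) (x : H →L[ℂ] H) : cu U x = U.1 * x * star U.1 := rfl

theorem cu_app (U : unitary (H →L[ℂ] H)) (x : H →L[ℂ] H) (η : H) :
    cu U x (U.1 η) = U.1 (x η) := by
  change (U.1 * x * star U.1 * U.1) η = _
  rw [mul_assoc, U.2.1, mul_one]
  rfl

theorem cu_mul (U V : unitary (H →L[ℂ] H)) (x : H →L[ℂ] H) : cu (U * V) x = cu U (cu V x) := by
  simp [cu_def, mul_assoc]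

theorem cu_comm {U : unitary (H →L[ℂ] H)} {x : H →L[ℂ] H} (h : Commute U.1 x) : cu U x = x := by
  change U.1 * x * star U.1 = x
  rw [h.eq, mul_assoc, U.2.2, mul_one]

theorem cu_mem {U : unitary (H →L[ℂ] H)} {x : H →L[ℂ] H} (hU : U.1 ∈ P) (h : x ∈ P) : cu U x ∈ P :=
  mul_mem (mul_mem hU h) (star_mem hU)

theorem u_norm (U : unitary (H →L[ℂ] H)) (η : H) : ‖U.1 η‖ = ‖η‖ :=
  ContinuousLinearMap.norm_map_of_mem_unitary U.2 η

theorem dense_u {U : unitary (H →L[ℂ] H)} (hU : ∀ x ∈ P, cu U x ∈ P)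
    (h : Dense {η | ∃ x ∈ P, x ξ = η}) : Dense {η | ∃ x ∈ P, x (U.1 ξ) = η} := fun η => by
  have : U.1 (star U.1 η) = η := by rw [← mul_apply_eq_comp, U.2.2]; rfl
  rw [← this]
  refine map_mem_closure U.1.continuous (h _) ?_
  rintro _ ⟨x, hx, rfl⟩
  exact ⟨_, hU x hx, cu_app U x ξ⟩

theorem ev_near (h : Dense {η | ∃ x ∈ P, x ξ = η}) (b : ℕ → H) (n : ℕ) :
    ∀ᶠ ζ in 𝓝 ξ, ∀ j ≤ n, ∃ x ∈ P, dist (b j) (x ζ) < 1 / (n + 1) :=
  (eventually_all_finite (Set.finite_le_nat n)).2 fun j _ => by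
    obtain ⟨_, ⟨x, hx, rfl⟩, h⟩ := Metric.mem_closure_iff.1 (h (b j)) _
      (Nat.one_div_pos_of_nat (n := n))
    exact (ContinuousAt.eventually_lt (f := fun ζ => dist (b j) (x ζ)) (by fun_prop)
      continuousAt_const h).mono fun ζ c => ⟨x, hx, c⟩

theorem dense_of {b : ℕ → H} (hb : DenseRange b)
    (h : ∀ n : ℕ, ∀ j ≤ n, ∃ x ∈ P, dist (b j) (x ξ) < 1 / (n + 1)) :
    Dense {η | ∃ x ∈ P, x ξ = η} := by
  refine dense_closure.1 (hb.mono ?_)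
  rintro _ ⟨j, rfl⟩
  refine Metric.mem_closure_iff.2 fun ε e0 => ?_
  obtain ⟨n, n1, n2⟩ := ((eventually_ge_atTop j).and
    (tendsto_one_div_add_atTop_nhds_zero_nat.eventually (gt_mem_nhds e0))).exists
  obtain ⟨x, hx, c⟩ := h n j n1
  exact ⟨_, ⟨x, hx, rfl⟩, c.trans n2⟩

/-- The eventual value of the conjugates. -/
noncomputable def al (U : ℕ → unitary (H →L[ℂ] H)) (x : H →L[ℂ] H) : H →L[ℂ] H :=
  Classical.epsilon fun y => ∀ᶠ n in atTop, y = cu (U n) x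

theorem al_eq {U v : ℕ → unitary (H →L[ℂ] H)} (hU : ∀ n, U (n + 1) = U n * v n) {x : H →L[ℂ] H}
    {n : ℕ} (h : ∀ m, n ≤ m → Commute (v m).1 x) : al U x = cu (U n) x := by
  have a : ∀ m, n ≤ m → cu (U n) x = cu (U m) x := fun m hm => by
    induction m, hm using Nat.le_induction with
    | base => rfl
    | succ m hm ih => rw [hU, cu_mul, cu_comm (h m hm), ih]
  have b := (eventually_ge_atTop n).mono a
  obtain ⟨m, c, d⟩ := ((Classical.epsilon_spec (p := fun y => ∀ᶠ n in atTop, y = cu (U n) x)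
    ⟨_, b⟩).and b).exists
  exact c.trans d.symm

theorem al_ev {U v : ℕ → unitary (H →L[ℂ] H)} (hU : ∀ n, U (n + 1) = U n * v n) {x : H →L[ℂ] H}
    (h : ∀ᶠ m in atTop, Commute (v m).1 x) : ∀ᶠ n in atTop, al U x = cu (U n) x := by
  obtain ⟨N, h⟩ := eventually_atTop.1 h
  exact (eventually_ge_atTop N).mono fun n hn => al_eq hU fun m hm => h m (hn.trans hm)

theorem seq [SeparableSpace H] {ρ σ : Γ →* (H →L[ℂ] H)} (hc : P132.CycSep M ξ)
    (hρ : ∀ g, ρ g ∈ M) (hσ : ∀ g, σ g ∈ M.commutant) (h : StepP M ξ G ρ σ) (b : ℕ → H) :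
    ∃ (U v : ℕ → unitary (H →L[ℂ] H)) (k : ℕ → ℕ) (ε : ℕ → ℝ), (∀ n, U (n + 1) = U n * v n) ∧
      (∀ n, ∀ x ∈ M, cu (U n) x ∈ M) ∧ (∀ n, ∀ x ∈ M.commutant, cu (U n) x ∈ M.commutant) ∧
      (∀ n, 0 < ε n) ∧ ∀ n, k n < k (n + 1) ∧ ε (n + 1) ≤ ε n / 2 ∧
      (∀ g ∈ G (k n), Commute (v n).1 (ρ g) ∧ Commute (v n).1 (σ g)) ∧
      ‖(v n).1 ξ - ξ‖ ≤ ε (n + 1) ∧ (∀ ζ, ‖ζ - (U n).1 ξ‖ ≤ 2 * ε (n + 1) →
        (∀ j ≤ n, ∃ x ∈ M, dist (b j) (x ζ) < 1 / (n + 1)) ∧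
        ∀ j ≤ n, ∃ x ∈ M.commutant, dist (b j) (x ζ) < 1 / (n + 1)) ∧
      ∃ c : ℂ, ‖av (G (k (n + 1))) (fun g => ρ g (σ g (star (U (n + 1)).1 (b n.unpair.1)))) -
        c • ξ‖ ≤ ε (n + 1) := by
  let S := {p : unitary (H →L[ℂ] H) × ℕ × ℝ // (∀ x ∈ M, cu p.1 x ∈ M) ∧
    (∀ x ∈ M.commutant, cu p.1 x ∈ M.commutant) ∧ 0 < p.2.2}
  have a : ∀ (n : ℕ) (s : S), ∃ (t : S) (v : unitary (H →L[ℂ] H)), t.1.1 = s.1.1 * v ∧
      s.1.2.1 < t.1.2.1 ∧ t.1.2.2 ≤ s.1.2.2 / 2 ∧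
      (∀ g ∈ G s.1.2.1, Commute v.1 (ρ g) ∧ Commute v.1 (σ g)) ∧
      ‖v.1 ξ - ξ‖ ≤ t.1.2.2 ∧ (∀ ζ, ‖ζ - s.1.1.1 ξ‖ ≤ 2 * t.1.2.2 →
        (∀ j ≤ n, ∃ x ∈ M, dist (b j) (x ζ) < 1 / (n + 1)) ∧
        ∀ j ≤ n, ∃ x ∈ M.commutant, dist (b j) (x ζ) < 1 / (n + 1)) ∧
      ∃ c : ℂ, ‖av (G t.1.2.1) (fun g => ρ g (σ g (star t.1.1.1 (b n.unpair.1)))) -
        c • ξ‖ ≤ t.1.2.2 := by
    rintro n ⟨⟨U, k, ε⟩, s1, s2, s3⟩
    obtain ⟨t, t0, ht⟩ := Metric.eventually_nhds_iff.1 ((ev_near (dense_u s1 hc.1) b n).and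
      (ev_near (dense_u s2 (P132.dense_comm hc.2)) b n))
    have m0 : 0 < min (ε / 2) (t / 4) := lt_min (half_pos s3) (by linarith)
    obtain ⟨k', k1, w, w1, z, z1, w2, z2, c1, c2, c, c3⟩ := h k (star U.1 (b n.unpair.1)) _ m0
    refine ⟨⟨⟨U * (⟨w, w2⟩ * ⟨z, z2⟩), k', _⟩, fun x hx => ?_, fun x hx => ?_, m0⟩,
      (⟨w, w2⟩ * ⟨z, z2⟩ : unitary (H →L[ℂ] H)), rfl, k1,
      min_le_left _ _, fun g hg => ⟨(c1 g hg).1.mul_left (commute_of_mem (hρ g) z1).symm,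
        Commute.mul_left (commute_of_mem w1 (hσ g)) (c1 g hg).2⟩, by exact c2,
      fun ζ hz => ht ?_, c, ?_⟩
    · rw [cu_mul, cu_mul, cu_comm (U := ⟨z, z2⟩) (commute_of_mem hx z1).symm]
      exact s1 _ (cu_mem w1 hx)
    · rw [cu_mul, cu_mul, cu_comm (U := ⟨w, w2⟩) (commute_of_mem w1 (cu_mem z1 hx))]
      exact s2 _ (cu_mem z1 hx)
    · rw [dist_eq_norm]
      linarith [min_le_right (ε / 2) (t / 4), show ‖ζ - U.1 ξ‖ ≤ 2 * min (ε / 2) (t / 4) from hz]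
    · change ‖av _ (fun g => ρ g (σ g (star (U.1 * (w * z)) _))) - _‖ ≤ _
      rw [commute_of_mem w1 z1, star_mul, star_mul]
      exact c3
  choose f v hf using a
  let s : ℕ → S := fun n => Nat.rec ⟨⟨1, 0, 1⟩, by simp [cu_def], by simp [cu_def], one_pos⟩ f n
  exact ⟨fun n => (s n).1.1, fun n => v n (s n), fun n => (s n).1.2.1, fun n => (s n).1.2.2,
    fun n => (hf n (s n)).1, fun n => (s n).2.1, fun n => (s n).2.2.1, fun n => (s n).2.2.2,
    fun n => (hf n (s n)).2⟩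

theorem hv_cu (U : unitary (H →L[ℂ] H)) {x : H →L[ℂ] H} (h : Hv x) : Hv (cu U x) :=
  ⟨by rw [← map_star, ← map_mul, ← map_mul, h.iso], by rw [← map_mul, h.sq, map_zero],
    by rw [← map_star, ← map_mul, ← map_mul, ← map_add, h.sum, map_one]⟩

end D3

open D3

theorem dS : DStmt.{u} := by
  intro H _ _ _ _ M ξ Γ _ G ρ σ e r h hs
  have : Nonempty H := ⟨0⟩
  obtain ⟨U, v, k, ε, u1, u2, u3, e0, u4⟩ := seq h.cs h.ρM h.σM hs (denseSeq H)
  choose k1 e1 c1 c2 c3 c c4 using u4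
  have km : StrictMono k := strictMono_nat_of_lt_succ k1
  have lf : LocFin fun n => G (k n) := ⟨fun n => h.lf.one _, fun n => h.lf.mul _,
    fun n => h.lf.inv _, h.lf.mono.comp km.monotone, fun g => by
      obtain ⟨n, hn⟩ := h.lf.all g
      exact ⟨n, h.lf.mono (km.id_le n) hn⟩⟩
  have e2 : Tendsto ε atTop (𝓝 0) := by
    have : ∀ n, ε n ≤ ε 0 * (1 / 2) ^ n := fun n => by
      induction n with
      | zero => simp
      | succ n ih => rw [pow_succ]; linarith [e1 n]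
    refine squeeze_zero (fun n => (e0 n).le) this ?_
    simpa using (tendsto_pow_atTop_nhds_zero_of_lt_one (r := (1 / 2 : ℝ)) (by norm_num)
      (by norm_num)).const_mul (ε 0)
  have d1 : ∀ n m, n ≤ m → ‖(U m).1 ξ - (U n).1 ξ‖ ≤ 2 * ε (n + 1) - 2 * ε (m + 1) :=
    fun n m hm => by
      induction m, hm using Nat.le_induction with
      | base => simp
      | succ m hm ih =>
        have := norm_sub_le_norm_sub_add_norm_sub ((U (m + 1)).1 ξ) ((U m).1 ξ) ((U n).1 ξ)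
        rw [show (U (m + 1)).1 ξ - (U m).1 ξ = (U m).1 ((v m).1 ξ - ξ) by
          rw [u1, map_sub]; rfl, u_norm] at this
        linarith [c2 m, e1 (m + 1)]
  obtain ⟨ζ, hζ⟩ := cauchySeq_tendsto_of_complete (u := fun n => (U n).1 ξ)
    (Metric.cauchySeq_iff'.2 fun δ d0 => by
      obtain ⟨N, hN⟩ := ((e2.comp (tendsto_add_atTop_nat 1)).eventually
        (gt_mem_nhds (half_pos d0))).exists
      refine ⟨N, fun n hn => ?_⟩
      rw [dist_eq_norm]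
      linarith [d1 N n hn, e0 (n + 1), show ε (N + 1) < δ / 2 from hN])
  have d2 : ∀ n, ‖ζ - (U n).1 ξ‖ ≤ 2 * ε (n + 1) := fun n =>
    le_of_tendsto (hζ.sub_const _).norm ((eventually_ge_atTop n).mono fun m hm => by
      linarith [d1 n m hm, e0 (m + 1)])
  have z1 : ‖ζ‖ = 1 := tendsto_nhds_unique hζ.norm (by simp only [u_norm, h.unit]; simp)
  have cρ : ∀ g, ∀ᶠ m in atTop, Commute (v m).1 (ρ g) := fun g =>
    (lf.ev g).mono fun m hm => (c1 m g hm).1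
  have cσ : ∀ g, ∀ᶠ m in atTop, Commute (v m).1 (σ g) := fun g =>
    (lf.ev g).mono fun m hm => (c1 m g hm).2
  have aρ := fun g => al_ev u1 (cρ g)
  have aσ := fun g => al_ev u1 (cσ g)
  have ae : ∀ j, ∀ᶠ n in atTop, al U (e j) = cu (U n) (e j) := fun j => al_ev u1 (by
    obtain ⟨X, Z, a1, -, a2, -⟩ := h.gen j
    filter_upwards [cρ X, cρ Z] with m b1 b2
    exact ((h.he j).comm (a1 ▸ b1.symm) (a2 ▸ b2.symm)).symm)
  have ar : ∀ j, ∀ᶠ n in atTop, al U (r j) = cu (U n) (r j) := fun j => al_ev u1 (by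
    obtain ⟨X, Z, -, a1, -, a2⟩ := h.gen j
    filter_upwards [cσ X, cσ Z] with m b1 b2
    exact ((h.hr j).comm (a1 ▸ b1.symm) (by
      rw [← neg_sub, ← a2]; exact b2.symm.neg_left)).symm)
  have hom : ∀ π : Γ →* (H →L[ℂ] H), (∀ g, ∀ᶠ n in atTop, al U (π g) = cu (U n) (π g)) →
      ∃ π' : Γ →* (H →L[ℂ] H), ∀ g, π' g = al U (π g) := fun π a =>
    ⟨⟨⟨fun g => al U (π g), by
      obtain ⟨n, b⟩ := (a 1).exists
      rw [b, map_one, map_one]⟩, fun g g' => by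
      obtain ⟨n, b1, b2, b3⟩ := ((a g).and ((a g').and (a (g * g')))).exists
      simp only [b1, b2, b3]
      simp only [map_mul]⟩, fun _ => rfl⟩
  obtain ⟨ρ', hρ⟩ := hom ρ aρ
  obtain ⟨σ', hσ⟩ := hom σ aσ
  have cm : ∀ a : ℕ → H →L[ℂ] H, (∀ j, ∀ᶠ n in atTop, al U (a j) = cu (U n) (a j)) → ∀ i j,
      Commute (a i) (a j) ∧ Commute (a i) (star (a j)) →
      Commute (al U (a i)) (al U (a j)) ∧ Commute (al U (a i)) (star (al U (a j))) :=
    fun a b i j d => by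
      obtain ⟨n, b1, b2⟩ := ((b i).and (b j)).exists
      rw [b1, b2, ← map_star]
      exact ⟨d.1.map _, d.2.map _⟩
  have lim : ∀ x y : H →L[ℂ] H, (∀ᶠ n in atTop, x ((U n).1 ξ) = y ((U n).1 ξ)) → x ζ = y ζ :=
    fun x y a => tendsto_nhds_unique_of_eventuallyEq ((x.continuous.tendsto ζ).comp hζ)
      ((y.continuous.tendsto ζ).comp hζ) a
  have st : ∀ π π' : Γ →* (H →L[ℂ] H), (∀ g, ∀ᶠ n in atTop, al U (π g) = cu (U n) (π g)) →
      (∀ g, π' g = al U (π g)) → (∀ g, star (π g) = π g⁻¹) → ∀ g, star (π' g) = π' g⁻¹ :=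
    fun π π' a b d g => by
      obtain ⟨n, b1, b2⟩ := ((a g).and (a g⁻¹)).exists
      rw [b, b, b1, b2, ← map_star, d]
  have mρ : ∀ g, ρ' g ∈ M := fun g => by
    obtain ⟨n, b⟩ := (aρ g).exists
    exact hρ g ▸ b ▸ u2 n _ (h.ρM g)
  have mσ : ∀ g, σ' g ∈ M.commutant := fun g => by
    obtain ⟨n, b⟩ := (aσ g).exists
    exact hσ g ▸ b ▸ u3 n _ (h.σM g)
  have me : ∀ j, al U (e j) ∈ M := fun j => by
    obtain ⟨n, b⟩ := (ae j).exists
    exact b ▸ u2 n _ (h.eM j)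
  have mr : ∀ j, al U (r j) ∈ M.commutant := fun j => by
    obtain ⟨n, b⟩ := (ar j).exists
    exact b ▸ u3 n _ (h.rM j)
  have fix : ∀ g, ρ' g (σ' g ζ) = ζ := fun g => lim (ρ' g * σ' g) 1 (by
    filter_upwards [aρ g, aσ g] with n b1 b2
    rw [mul_apply_eq_comp, hρ, hσ, b1, b2, cu_app, cu_app, h.fix]
    rfl)
  refine ⟨ζ, fun n => G (k n), ρ', σ', fun j => al U (e j), fun j => al U (r j),
    ⟨⟨fun j => ?_, fun j => ?_, fun i j a => cm e ae i j (h.ee i j a),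
      fun i j a => cm r ar i j (h.rr i j a), fun i j =>
        ⟨commute_of_mem (me i) (mr j), commute_of_mem (me i) (star_mem (mr j))⟩⟩, z1,
    ⟨dense_of (denseRange_denseSeq H) fun n => (c3 n ζ (d2 n)).1, fun x hx x0 => ?_⟩, lf,
    st ρ ρ' aρ hρ h.ρ_star, st σ σ' aσ hσ h.σ_star, mρ, mσ, fix, me, mr, fun j => ⟨?_, ?_⟩,
    fun j => ?_⟩, fun η => ?_⟩
  · obtain ⟨n, b⟩ := (ae j).exists
    exact b ▸ hv_cu _ (h.he j)
  · obtain ⟨n, b⟩ := (ar j).exists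
    exact b ▸ hv_cu _ (h.hr j)
  · ext η
    refine (x.isClosed_ker.closure_subset_iff.2 ?_
      (dense_of (denseRange_denseSeq H) (fun n => (c3 n ζ (d2 n)).2) η) : η ∈ x.ker)
    rintro _ ⟨y, hy, rfl⟩
    change (x * y) ζ = 0
    rw [commute_of_mem hx hy, mul_apply_eq_comp, x0, map_zero]
  · rw [Complex.ofReal_one, one_smul]
    refine lim _ _ ?_
    filter_upwards [ae j, ar j] with n b1 b2
    rw [b1, b2, cu_app, cu_app, (h.vac j).1, Complex.ofReal_one, one_smul]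
  · rw [Complex.ofReal_one, one_smul]
    refine lim _ _ ?_
    filter_upwards [ae j, ar j] with n b1 b2
    rw [b1, b2, ← map_star, ← map_star, cu_app, cu_app, (h.vac j).2, Complex.ofReal_one, one_smul]
  · obtain ⟨X, Z, a1, a2, a3, a4⟩ := h.gen j
    obtain ⟨n, ⟨b1, b2⟩, ⟨b3, b4⟩, b5, b6⟩ :=
      (((aρ X).and (aρ Z)).and (((aσ X).and (aσ Z)).and ((ae j).and (ar j)))).exists
    refine ⟨X, Z, ?_⟩
    simp only [hρ, hσ, b1, b2, b3, b4, b5, b6]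
    simp only [a1, a2, a3, a4, map_add, map_sub, map_mul, map_star, and_self]
  · let π : Γ →* (H →L[ℂ] H) := ⟨⟨fun g => ρ' g * σ' g, by simp⟩, fun g g' => by
      simp only [map_mul, mul_assoc]
      rw [← mul_assoc (σ' g), ← commute_of_mem (mρ g') (mσ g), mul_assoc]⟩
    have ps : ∀ g, star (π g) = π g⁻¹ := fun g => by
      change star (ρ' g * σ' g) = ρ' _ * σ' _
      rw [star_mul, st ρ ρ' aρ hρ h.ρ_star, st σ σ' aσ hσ h.σ_star, commute_of_mem (mρ _) (mσ _)]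
    refine crit π ps lf fix z1 η fun δ d0 => ?_
    obtain ⟨j, hj⟩ := (denseRange_denseSeq H).exists_dist_lt η (show 0 < δ / 3 by linarith)
    have p : 0 < ‖denseSeq H j‖ + 1 := by positivity
    obtain ⟨N, hN⟩ := eventually_atTop.1 ((e2.eventually (gt_mem_nhds
      (show 0 < δ / 6 / (‖denseSeq H j‖ + 1) by positivity))).and
      ((e2.eventually (gt_mem_nhds one_pos)).and
        (e2.eventually (gt_mem_nhds (show 0 < δ / 3 by linarith)))))
    obtain ⟨n, n1, n2⟩ : ∃ n, N ≤ n ∧ n.unpair.1 = j := ⟨j.pair N, Nat.right_le_pair _ _, by simp⟩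
    have f1 := c4 n
    rw [n2] at f1
    generalize denseSeq H j = b at *
    have f2 : av (G (k (n + 1))) (fun g => π g b) = (U (n + 1)).1
        (av (G (k (n + 1))) fun g => ρ g (σ g (star (U (n + 1)).1 b))) := by
      rw [av_clm]
      refine av_congr₂ fun g hg => ?_
      change ρ' g (σ' g b) = (U (n + 1)).1 _
      rw [hρ, hσ, al_eq u1 fun m hm => (c1 m g (lf.mono hm hg)).1,
        al_eq u1 fun m hm => (c1 m g (lf.mono hm hg)).2, ← cu_app, ← cu_app,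
        ← mul_apply_eq_comp (U (n + 1)).1, (U (n + 1)).2.2]
      rfl
    have pn : ∀ x, ‖av (G (k (n + 1))) (fun g => π g x)‖ ≤ ‖x‖ := fun x =>
      av_norm_le₂ (lf.ne _) fun g _ => ((π g).le_opNorm _).trans
        (mul_le_of_le_one_left (norm_nonneg _) (rep_norm_le π ps g))
    have f3 : ‖c n‖ ≤ ‖b‖ + 1 := by
      have a1 := pn b
      have a2 := norm_sub_norm_le (c n • ξ)
        (av (G (k (n + 1))) fun g => ρ g (σ g (star (U (n + 1)).1 b)))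
      rw [f2, u_norm] at a1
      rw [norm_smul, h.unit, norm_sub_rev] at a2
      linarith [(hN (n + 1) (by omega)).2.1]
    refine ⟨n + 1, c n, ?_⟩
    have f4 : av (G (k (n + 1))) (fun g => π g η) - c n • ζ =
        av (G (k (n + 1))) (fun g => π g (η - b)) + (U (n + 1)).1
          (av (G (k (n + 1))) (fun g => ρ g (σ g (star (U (n + 1)).1 b))) - c n • ξ) -
          c n • (ζ - (U (n + 1)).1 ξ) := by
      simp only [map_sub, map_smul, smul_sub, av_sub, f2]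
      abel
    rw [f4]
    refine (norm_sub_le _ _).trans ((add_le_add_left (norm_add_le _ _) _).trans ?_)
    rw [u_norm, norm_smul]
    have g1 := pn (η - b)
    have g2 := mul_le_mul f3 (d2 (n + 1)) (norm_nonneg _) p.le
    have g3 := (lt_div_iff₀ p).1 (hN (n + 1 + 1) (by omega)).1
    rw [dist_eq_norm] at hj
    linarith [(hN (n + 1) (by omega)).2.2]

end Vale.Agent.P096
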