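import Vale.Agent.P096.Stm3
import Vale.Agent.P132.Fin
import Vale.Agent.P132.T1
import Vale.Agent.P132.T2
import Vale.Agent.P132.BI
import Vale.Agent.P132.Filt
import Vale.Agent.P132.Near
import Vale.Agent.P132.Gam
import Vale.Agent.P132.L0
import Vale.Agent.P132.Eig
import Vale.Agent.P132.Star

/-! The averaging property of factors with full modular spectrum. -/

namespace Vale.Agent.P096

open scoped InnerProductSpace ComplexOrder BigOperators
open Filter Topology Vale.Agent.P104 Vale.Agent.P082 Finset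

universe u

namespace Dx

variable {E : Type*} [NormedAddCommGroup E] [NormedSpace ℂ E]

theorem conv {C : Set E} (hc : IsClosed C) (h : ∀ x ∈ C, ∀ y ∈ C, (2⁻¹ : ℝ) • (x + y) ∈ C) :
    Convex ℝ C := by
  intro x hx y hy a b a0 b0 ab
  have k : ∀ n : ℕ, ∀ t : ℝ, 0 ≤ t → t ≤ 1 → ∃ s : ℝ, (1 - s) • x + s • y ∈ C ∧
      |s - t| ≤ (1 / 2) ^ n := fun n => by
    induction n with
    | zero => exact fun t t0 t1 => ⟨0, by simpa using hx, by simpa [abs_of_nonneg t0] using t1⟩
    | succ n ih =>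
      intro t t0 t1
      rcases le_total t (1 / 2) with c | c
      · obtain ⟨s, s1, s2⟩ := ih (2 * t) (by linarith) (by linarith)
        refine ⟨s / 2, ?_, ?_⟩
        · convert h _ hx _ s1 using 1
          module
        · rw [pow_succ, abs_le] at *
          constructor <;> linarith [s2.1, s2.2]
      · obtain ⟨s, s1, s2⟩ := ih (2 * t - 1) (by linarith) (by linarith)
        refine ⟨(s + 1) / 2, ?_, ?_⟩
        · convert h _ hy _ s1 using 1
          module
        · rw [pow_succ, abs_le] at *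
          constructor <;> linarith [s2.1, s2.2]
  choose s s1 s2 using fun n => k n b b0 (by linarith)
  have t : Tendsto s atTop (𝓝 b) := tendsto_iff_norm_sub_tendsto_zero.2 (squeeze_zero
    (fun _ => norm_nonneg _) s2 (tendsto_pow_atTop_nhds_zero_of_lt_one (by norm_num) (by norm_num)))
  rw [show a = 1 - b by linarith]
  exact hc.mem_of_tendsto (((t.const_sub 1).smul_const x).add (t.smul_const y))
    (Eventually.of_forall s1)

/-- Dyadic averages of points of `S`. -/
def Dy (S : Set E) (m : ℕ) (x : E) : Prop :=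
  ∃ p : (Fin m → Bool) → E, (∀ j, p j ∈ S) ∧ av univ p = x

theorem Dy.mid {S : Set E} {m : ℕ} {x y : E} (hx : Dy S m x) (hy : Dy S m y) :
    Dy S (m + 1) ((2⁻¹ : ℝ) • (x + y)) := by
  obtain ⟨p, p1, rfl⟩ := hx
  obtain ⟨q, q1, rfl⟩ := hy
  refine ⟨fun j => if j 0 then p (Fin.tail j) else q (Fin.tail j), fun j => ?_, ?_⟩
  · beta_reduce
    split_ifs
    exacts [p1 _, q1 _]
  · rw [av, av, av, ← (Fin.consEquiv fun _ => Bool).sum_comp, Fintype.sum_prod_type]
    simp [Fin.consEquiv, pow_succ]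
    module

theorem Dy.mono {S : Set E} {m n : ℕ} {x : E} (hx : Dy S m x) (h : m ≤ n) : Dy S n x := by
  induction h with
  | refl => exact hx
  | step _ ih =>
    convert ih.mid ih using 1
    module

theorem hull (S : Set E) : closure (convexHull ℝ S) ⊆ closure {x | ∃ m, Dy S m x} := by
  refine closure_minimal (convexHull_min (fun x hx => subset_closure
    ⟨0, fun _ => x, fun _ => hx, av_const₂ univ_nonempty x⟩) (conv isClosed_closure ?_))
    isClosed_closure
  intro x hx y hy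
  refine map_mem_closure₂ (f := fun x y : E => (2⁻¹ : ℝ) • (x + y)) (by fun_prop) hx hy ?_
  rintro x ⟨m, hm⟩ y ⟨n, hn⟩
  exact ⟨_, (hm.mono (le_max_left m n)).mid (hn.mono (le_max_right m n))⟩

end Dx

open P132 in
theorem dixS : DixStmt.{u} := by
  intro H _ _ _ M ξ hξ hA hF hp β ε e0
  obtain ⟨m⟩ := tt t1 bi filt H M ξ hξ
  obtain ⟨η, η0, η1, η2⟩ : ∃ η : ℝ, 0 < η ∧ η ≤ ε ∧ 4 * ‖ξ‖ * η ≤ ε :=
    ⟨ε / (4 * ‖ξ‖ + 1), by positivity, div_le_self e0.le (by linarith [norm_nonneg ξ]), by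
      rw [mul_div_assoc', div_le_iff₀ (by positivity)]
      nlinarith⟩
  obtain ⟨α, ψ, hm, hψ, ⟨C, hC⟩, -⟩ := near H M ξ m β ((η / (‖β‖ + 1)) ^ 2) (by positivity)
  obtain ⟨c, rfl⟩ := l0 filt H M ξ m hξ (gam bi filt H M ξ m hξ hA hF) α C hC
    (starS filt H M ξ m hξ (fun l hl => eig (tt t1 bi filt) near (gam bi filt) (l0 filt) H M ξ m hξ
      hA hF hp l (by linarith)) α C hC)
  obtain ⟨_, ⟨k, p, p1, rfl⟩, hd⟩ := Metric.mem_closure_iff.1 (Dx.hull _ hm) η η0
  choose u uM uu hu using p1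
  have h2 : ‖ψ - ξ‖ ≤ η := by
    rw [← mul_pow] at hψ
    refine (le_of_sq_le (by positivity) hψ).trans ?_
    rw [div_mul_eq_mul_div, div_le_iff₀ (by positivity)]
    nlinarith
  rw [dist_comm, dist_eq_norm] at hd
  have d1 := (norm_fst_le _).trans hd.le
  have d2 := (norm_snd_le _).trans hd.le
  rw [Prod.fst_sub, show (av univ p).1 = av univ fun j => (p j).1 from
    av_map (LinearMap.fst ℂ H H) p] at d1
  rw [Prod.snd_sub, show (av univ p).2 = av univ fun j => (p j).2 from
    av_map (LinearMap.snd ℂ H H) p] at d2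
  simp only [hu] at d1 d2
  refine ⟨k, fun j => star (u j), fun j => m.R (u j), fun j => ⟨star_mem (uM j),
    Unitary.star_mem (uu j)⟩, fun j => ⟨m.R_mem (uM j), R_unit _ (uu j)⟩, ?_, c, ?_⟩
  · have e : ∀ j, ‖star (u j) (m.R (u j) ξ) - ξ‖ ^ 2 =
        2 * (⟪ξ, ξ - u j (m.R (star (u j)) ξ)⟫_ℂ).re := fun j => by
      rw [norm_sub_sq (𝕜 := ℂ), norm_unit0 (Unitary.star_mem (uu j)), norm_unit0 (R_unit _ (uu j)),
        inner_sub_right, Complex.sub_re, ← RCLike.re_to_complex (x := ⟪ξ, ξ⟫_ℂ),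
        inner_self_eq_norm_sq, RCLike.re_to_complex, inner_star_left, m.comm_R (uM j) (star_mem (uM j)),
        m.R_star, inner_star_right]
      ring
    have n : ((univ : Finset (Fin k → Bool)).card : ℂ) = ((2 ^ k : ℝ) : ℂ) := by simp
    have e2 : ∑ j, (ξ - u j (m.R (star (u j)) ξ)) =
        ((2 ^ k : ℝ) : ℂ) • (ξ - av univ fun j => u j (m.R (star (u j)) ξ)) := by
      rw [smul_sub, av, n, smul_inv_smul₀ (by simp), sum_sub_distrib, sum_const,
        ← Nat.cast_smul_eq_nsmul ℂ, n]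
    simp only [e]
    rw [← mul_sum, ← Complex.re_sum, ← inner_sum, e2, inner_smul_right, Complex.re_ofReal_mul]
    have b := (Complex.re_le_norm _).trans (norm_inner_le_norm (𝕜 := ℂ) ξ
      (ξ - av univ fun j => u j (m.R (star (u j)) ξ)))
    have b2 := norm_sub_le_norm_sub_add_norm_sub ξ ψ (av univ fun j => u j (m.R (star (u j)) ξ))
    rw [norm_sub_rev ξ ψ, norm_sub_rev ψ (av _ _)] at b2
    have b3 := mul_le_mul_of_nonneg_left (b2.trans (add_le_add h2 d2)) (norm_nonneg ξ)
    nlinarith [pow_pos (two_pos (α := ℝ)) k]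
  · simpa only [star_star, m.R_star] using d1.trans η1

end Vale.Agent.P096
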