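import Vale.Agent.P096.F2a

/-! WP E: moving the second algebra to the standard position. -/

namespace Vale.Agent.P096

open scoped InnerProductSpace ComplexOrder BigOperators
open Filter Topology Vale.Agent.P104 Vale.Agent.P082 Finset TopologicalSpace

universe u

namespace E3

variable {H : Type u} [NormedAddCommGroup H] [InnerProductSpace ℂ H] [CompleteSpace H]
  {P Q : VonNeumannAlgebra H} {ξ : H} {Γ : Type u} [Group Γ] {G : ℕ → Finset Γ}
  {ρ σ : Γ →* (H →L[ℂ] H)}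

theorem cyc (hs : F2.Side P ξ G ρ σ) (h1 : ‖ξ‖ = 1) (hρ : ∀ g, ρ g ∈ Q)
    (hσ : ∀ g, σ g ∈ Q.commutant) {γ : ℝ} (hγ : γ < 1 / 2) (hn : Near Q.commutant P.commutant γ)
    (γ0 : 0 ≤ γ) : Dense {η | ∃ x ∈ Q, x ξ = η} := by
  let K : Submodule ℂ H :=
    { carrier := {η | ∃ y ∈ Q, y ξ = η}
      add_mem' := by
        rintro _ _ ⟨a, ha, rfl⟩ ⟨b, hb, rfl⟩
        exact ⟨a + b, add_mem ha hb, rfl⟩
      zero_mem' := ⟨0, zero_mem _, rfl⟩
      smul_mem' := by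
        rintro c _ ⟨a, ha, rfl⟩
        exact ⟨c • a, vn_smul_mem c ha, rfl⟩ }
  have hinv : ∀ y : H →L[ℂ] H, (∀ η ∈ K, star y η ∈ K) → ∀ η ∈ Kᗮ, y η ∈ Kᗮ := fun y hy η hη => by
    rw [Submodule.mem_orthogonal]
    intro a ha
    rw [← ContinuousLinearMap.adjoint_inner_left, ← ContinuousLinearMap.star_eq_adjoint]
    exact (Submodule.mem_orthogonal _ _).1 hη _ (hy a ha)
  have i1 : ∀ y ∈ Q, ∀ η ∈ K, y η ∈ K := by
    rintro y hy _ ⟨a, ha, rfl⟩
    exact ⟨y * a, mul_mem hy ha, rfl⟩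
  have i2 : ∀ g, ∀ η ∈ K, σ g η ∈ K := by
    rintro g _ ⟨a, ha, rfl⟩
    refine ⟨a * ρ g⁻¹, mul_mem ha (hρ _), ?_⟩
    rw [mul_apply_eq_comp, hs.flip, ← mul_apply_eq_comp, commute_of_mem ha (hσ g),
      mul_apply_eq_comp]
  set p := Kᗮ.starProjection with hp
  have pQ : p ∈ Q.commutant := VonNeumannAlgebra.mem_commutant_iff.2 fun y hy =>
    commute_starProjection Kᗮ y (hinv y (i1 _ (star_mem hy)))
      (hinv _ (by rw [star_star]; exact i1 y hy))
  have pσ : ∀ g, σ g * p = p * σ g := fun g =>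
    commute_starProjection Kᗮ _ (hinv _ (by rw [hs.σ_star]; exact i2 _))
      (hinv _ (by rw [star_star]; exact i2 _))
  have np : ‖p‖ ≤ 1 := Submodule.starProjection_norm_le _
  obtain ⟨q, q1, -, q2⟩ := hn p pQ
  have q3 : ‖p - q‖ ≤ γ := q2.trans (mul_le_of_le_one_right γ0 np)
  have lim := (F2.Sv.E hs.swap (F2.Sv.const q1)).lim
  have n2 := rep_norm_le σ hs.σ_star
  have key : ∀ η, ‖p η - ⟪ξ, q ξ⟫_ℂ • η‖ ≤ γ * ‖η‖ := fun η => by
    refine le_of_tendsto ((tendsto_const_nhds (x := p η)).sub (lim η)).norm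
      (Eventually.of_forall fun k => ?_)
    have e : p - F2.E G σ k q = av (G k) fun g => σ g * (p - q) * σ g⁻¹ := by
      conv_lhs => rw [← av_const (hs.lf.ne k) p, F2.E, ← av_sub]
      refine av_congr₂ fun g _ => ?_
      rw [mul_sub, sub_mul, pσ, mul_assoc p, ← map_mul, mul_inv_cancel, map_one, mul_one]
    rw [← ContinuousLinearMap.sub_apply, e]
    refine ContinuousLinearMap.le_of_opNorm_le _ (av_norm_le (hs.lf.ne k) fun g => ?_) η
    simpa using nm_le (nm_le (n2 g) q3) (n2 g⁻¹)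
  have k1 := key ξ
  rw [hp, Submodule.starProjection_orthogonal_apply_eq_zero (show ξ ∈ K from ⟨1, one_mem _, rfl⟩),
    zero_sub, norm_neg, norm_smul, h1] at k1
  have hK : Kᗮ = ⊥ := by
    rw [eq_bot_iff]
    intro η hη
    have k2 := key η
    rw [hp, Submodule.starProjection_eq_self_iff.2 hη] at k2
    have k3 := norm_sub_norm_le η (⟪ξ, q ξ⟫_ℂ • η)
    rw [norm_smul] at k3
    refine (Submodule.mem_bot ℂ).2 (norm_le_zero_iff.1 ?_)
    nlinarith [norm_nonneg η]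
  exact Submodule.dense_iff_topologicalClosure_eq_top.2
    (Submodule.topologicalClosure_eq_top_iff.2 hK)

theorem lf_prod (h : LocFin G) : LocFin fun k => G k ×ˢ G k := by
  refine ⟨fun k => mem_product.2 ⟨h.one k, h.one k⟩, fun k a ha b hb => mem_product.2
    ⟨h.mul k _ (mem_product.1 ha).1 _ (mem_product.1 hb).1,
      h.mul k _ (mem_product.1 ha).2 _ (mem_product.1 hb).2⟩, fun k a ha => mem_product.2
    ⟨h.inv k _ (mem_product.1 ha).1, h.inv k _ (mem_product.1 ha).2⟩,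
    fun k l hk => product_subset_product (h.mono hk) (h.mono hk), fun g => ?_⟩
  obtain ⟨k, hk⟩ := h.all g.1
  obtain ⟨l, hl⟩ := h.all g.2
  exact ⟨max k l, mem_product.2 ⟨h.mono (le_max_left _ _) hk, h.mono (le_max_right _ _) hl⟩⟩

theorem mem_of_XZ {w : H →L[ℂ] H} (h : Hv w) (h1 : w + star w ∈ Q)
    (h2 : star w * w - w * star w ∈ Q) : w ∈ Q := by
  have e : w = (2⁻¹ : ℂ) • ((w + star w) + (w + star w) * (star w * w - w * star w)) := by
    simp only [mul_sub, add_mul, h.r1, h.r2, h.r3', h.r4']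
    module
  rw [e]
  exact vn_smul_mem _ (add_mem h1 (mul_mem h1 h2))

theorem conj_le {w : H →L[ℂ] H} (hw : w ∈ unitary (H →L[ℂ] H)) {c : ℝ} (h : ‖w - 1‖ ≤ c)
    (x : H →L[ℂ] H) : ‖w * x * star w‖ = ‖x‖ ∧ ‖x - w * x * star w‖ ≤ 2 * c * ‖x‖ := by
  refine ⟨by rw [CStarRing.norm_mul_mem_unitary _ (Unitary.star_mem hw),
    CStarRing.norm_mem_unitary_mul _ hw], ?_⟩
  have e : x - w * x * star w = (x * (w - 1) - (w - 1) * x) * star w := by
    rw [sub_mul, mul_assoc x, sub_mul w, hw.2]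
    noncomm_ring
  rw [e, CStarRing.norm_mul_mem_unitary _ (Unitary.star_mem hw)]
  have a1 := nm_le (le_refl ‖x‖) h
  have a2 := nm_le h (le_refl ‖x‖)
  linarith [norm_sub_le (x * (w - 1)) ((w - 1) * x)]

end E3

open E3 in
theorem eS : EStmt.{u} := by
  have k0 := distK_pos
  obtain ⟨L, hL⟩ : ∃ L, L = 1 + 4 * distK := ⟨_, rfl⟩
  have L1 : 1 ≤ L := by linarith
  refine ⟨10000 * L ^ 2, by nlinarith, fun H _ _ _ M N ξ Γ _ G ρ σ e r δ h d0 d1 n1 n2 => ?_⟩
  have a0 : L * δ ≤ L ^ 2 * δ := mul_le_mul_of_nonneg_right (by nlinarith) d0.le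
  have a1 : δ ≤ L * δ := le_mul_of_one_le_left d0.le L1
  have a2 : 4 * distK * δ ≤ L * δ := mul_le_mul_of_nonneg_right (by linarith) d0.le
  have nr : ∀ {P Q : VonNeumannAlgebra H} {α : Γ →* (H →L[ℂ] H)} {γ : ℝ}, Near P Q γ → 0 ≤ γ →
      γ ≤ L * δ → (∀ g, α g ∈ P) → (∀ g, star (α g) = α g⁻¹) → ∀ g, ∃ x ∈ Q, ‖α g - x‖ ≤ L * δ :=
    fun hn g0 g1 m s g => by
      obtain ⟨x, x1, -, x2⟩ := hn _ (m g)
      exact ⟨x, x1, x2.trans ((mul_le_of_le_one_right g0 (rep_norm_le _ s g)).trans g1)⟩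
  obtain ⟨ρ', r1, r2, r3⟩ := kaz H N Γ G ρ (L * δ) h.lf h.ρ_star (by positivity) (by linarith)
    (nr n1 d0.le a1 h.ρM h.ρ_star)
  obtain ⟨σ', s1, s2, s3⟩ := kaz H N.commutant Γ G σ (L * δ) h.lf h.σ_star (by positivity)
    (by linarith) (nr (near_comm d0.le n2) (by positivity) a2 h.σM h.σ_star)
  have c1 : ∀ g k, Commute (ρ g) (σ k) := fun g k => commute_of_mem (h.ρM g) (h.σM k)
  have c2 : ∀ g k, Commute (ρ' g) (σ' k) := fun g k => commute_of_mem (r1 g) (s1 k)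
  obtain ⟨w, w1, w2, w3⟩ := conj H (Γ × Γ) _ (ρ.noncommCoprod σ c1) (ρ'.noncommCoprod σ' c2)
    (60 * (L * δ)) (lf_prod h.lf)
    (fun g => by
      change star (ρ g.1 * σ g.2) = ρ g.1⁻¹ * σ g.2⁻¹
      rw [star_mul, h.ρ_star, h.σ_star, (c1 _ _).eq])
    (fun g => by
      change star (ρ' g.1 * σ' g.2) = ρ' g.1⁻¹ * σ' g.2⁻¹
      rw [star_mul, r2, s2, (c2 _ _).eq]) (by positivity) (by linarith)
    (fun g => by
      change ‖ρ g.1 * σ g.2 - ρ' g.1 * σ' g.2‖ ≤ _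
      have e : ρ g.1 * σ g.2 - ρ' g.1 * σ' g.2 =
          (ρ g.1 - ρ' g.1) * σ g.2 + ρ' g.1 * (σ g.2 - σ' g.2) := by noncomm_ring
      have b1 := nm_le (r3 g.1) (rep_norm_le σ h.σ_star g.2)
      have b2 := nm_le (rep_norm_le ρ' r2 g.1) (s3 g.2)
      rw [e]
      linarith [norm_add_le ((ρ g.1 - ρ' g.1) * σ g.2) (ρ' g.1 * (σ g.2 - σ' g.2))])
  have w4 : ∀ g, star w * ρ g * w = ρ' g := fun g => by
    have := w3 (g, 1)
    simp only [MonoidHom.noncommCoprod_apply, map_one, mul_one] at this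
    rw [mul_assoc, ← this, ← mul_assoc, w1.1, one_mul]
  have w5 : ∀ g, star w * σ g * w = σ' g := fun g => by
    have := w3 (1, g)
    simp only [MonoidHom.noncommCoprod_apply, map_one, one_mul] at this
    rw [mul_assoc, ← this, ← mul_assoc, w1.1, one_mul]
  have cc : ∀ x, w * (star w * x * w) * star w = x := fun x => by
    rw [← mul_assoc, ← mul_assoc, w1.2, one_mul, mul_assoc, w1.2, mul_one]
  have cc' : ∀ x, star w * (w * x * star w) * w = x := fun x => by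
    rw [← mul_assoc, ← mul_assoc, w1.1, one_mul, mul_assoc, w1.1, mul_one]
  have m1 : ∀ g, ρ g ∈ cjv w N := fun g => (mem_cjv w1).2 (by rw [w4]; exact r1 g)
  have m2 : ∀ g, σ g ∈ (cjv w N).commutant := fun g => by
    rw [← cc (σ g), w5]
    exact sub_cmt_comm ⟨_, s1 g, rfl⟩
  obtain ⟨γ, hγ⟩ : ∃ γ, γ = 1201 * (L * δ) := ⟨_, rfl⟩
  have g0 : 0 ≤ γ := by rw [hγ]; positivity
  have p1 : Near M (cjv w N) γ := fun a ha => by
    obtain ⟨b, b1, b2, b3⟩ := n1 a ha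
    obtain ⟨t1, t2⟩ := conj_le w1 w2 b
    refine ⟨w * b * star w, (mem_cjv w1).2 (by rw [cc']; exact b1), t1.trans_le b2, ?_⟩
    have t3 := norm_sub_le_norm_sub_add_norm_sub a b (w * b * star w)
    have t4 := mul_le_mul_of_nonneg_right a1 (norm_nonneg a)
    have t5 := mul_le_mul_of_nonneg_left b2 (show 0 ≤ L * δ by positivity)
    rw [hγ]
    linarith
  have p2 : Near (cjv w N) M γ := fun a ha => by
    obtain ⟨b, b1, b2, b3⟩ := n2 _ ((mem_cjv w1).1 ha)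
    obtain ⟨t1, t2⟩ := conj_le w1 w2 (star w * a * w)
    rw [cc] at t1 t2
    rw [← t1] at b2 b3 t2
    refine ⟨b, b1, b2, ?_⟩
    have t3 := norm_sub_le_norm_sub_add_norm_sub a (star w * a * w) b
    have t4 := mul_le_mul_of_nonneg_right a1 (norm_nonneg a)
    rw [norm_sub_rev] at t2
    rw [hγ]
    linarith
  have g1 : γ < 1 / 2 := by linarith
  have g2 : 4 * distK * γ < 1 / 2 := by
    have : 4 * distK * γ ≤ L * γ := mul_le_mul_of_nonneg_right (by linarith) g0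
    rw [hγ] at this ⊢
    linarith
  have mono : ∀ {P Q : VonNeumannAlgebra H}, Near P Q γ → Near P Q (10000 * L ^ 2 * δ) :=
    fun hn a ha => by
      obtain ⟨b, b1, b2, b3⟩ := hn a ha
      exact ⟨b, b1, b2, b3.trans (mul_le_mul_of_nonneg_right (by linarith) (norm_nonneg _))⟩
  have y1 := cyc (F2.side h) h.unit m1 m2 g2 (near_comm g0 p1) (by positivity)
  have y2 := cyc (F2.side h).swap h.unit m2
    (fun g => by rw [VonNeumannAlgebra.commutant_commutant]; exact m1 g) g1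
    (by rw [VonNeumannAlgebra.commutant_commutant, VonNeumannAlgebra.commutant_commutant]
        exact p2) g0
  have y3 : ∀ x ∈ cjv w N, x ξ = 0 → x = 0 := fun x hx h0 => by
    refine ContinuousLinearMap.ext fun η => ?_
    refine (isClosed_eq x.continuous continuous_const : IsClosed {η | x η = 0}).closure_subset_iff.2
      ?_ (y2 η)
    rintro _ ⟨y, hy, rfl⟩
    change x (y ξ) = 0
    rw [← mul_apply_eq_comp, commute_of_mem hx hy, mul_apply_eq_comp, h0, map_zero]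
  refine ⟨w, w1, by linarith, cjv w N, fun x => mem_cjv w1,
    ⟨⟨h.toSites, h.unit, ⟨y1, y3⟩, h.lf, h.ρ_star, h.σ_star, m1, m2, h.fix, fun n => ?_,
      fun n => ?_, h.vac, h.gen⟩, h.erg⟩, mono p1, mono p2⟩
  · obtain ⟨X, Z, e1, -, e2, -⟩ := h.gen n
    exact mem_of_XZ (h.he n) (e1 ▸ m1 X) (e2 ▸ m1 Z)
  · obtain ⟨X, Z, -, e1, -, e2⟩ := h.gen n
    exact mem_of_XZ (h.hr n) (e1 ▸ m2 X) (by rw [← neg_sub, ← e2]; exact neg_mem (m2 Z))

end Vale.Agent.P096
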