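import Vale.Agent.P096.Loc
import Vale.Agent.P082.Cut2

/-! A projection with full central support whose corner has enough traces. -/

namespace Vale.Agent.P096

open scoped InnerProductSpace InnerProduct ComplexOrder
open Vale.Agent.P104 Vale.Agent.P082 ContinuousLinearMap Filter Topology

universe u

variable {H K : Type u} [NormedAddCommGroup H] [InnerProductSpace ℂ H] [CompleteSpace H]
  [NormedAddCommGroup K] [InnerProductSpace ℂ K] [CompleteSpace K]
  {M : VonNeumannAlgebra H} {V : K →L[ℂ] H}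

/-- Traces of the corner separate its points. -/
def Good (e : Alg M) : Prop := ∀ a : Alg M, e * a * e = a →
  (∀ τ : Alg M →ₗ[ℂ] ℂ, VecF τ → (∀ x y, τ (e * x * e * y * e) = τ (e * y * e * x * e)) →
    (∀ x, 0 ≤ τ (star x * x)) → τ (star a * a) = 0) → a = 0

/-- The order used for the maximality argument. -/
def Below (e f : Alg M) : Prop := e * f = e ∧ ∀ x, e * x * (f - e) = 0

theorem good_of_cover {w : Alg M} (hw : IsStarProjection w) (c : Set (Alg M))
    (h : ∀ e ∈ c, IsStarProjection e ∧ Good e ∧ Below e w)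
    (hc : ∀ a, (∀ e ∈ c, a * e = 0) → a * w = 0) : Good w := fun a ha hτ => by
  have ww := hw.isIdempotentElem.eq
  rw [← ha]
  refine hc _ fun e he => ?_
  obtain ⟨e1, e2, e3, e4⟩ := h e he
  have es := e1.isSelfAdjoint.star_eq
  have ee := e1.isIdempotentElem.eq
  have we : w * e = e := by simpa [es, hw.isSelfAdjoint.star_eq] using congrArg star e3
  have k : ∀ x, e * x * w = e * x * e := fun x => by rw [← sub_eq_zero, ← mul_sub, e4]
  have k' : ∀ x, w * x * e = e * x * e := fun x => by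
    simpa [es, hw.isSelfAdjoint.star_eq, mul_assoc] using congrArg star (k (star x))
  rw [k']
  refine e2 _ (by simp only [mul_assoc, ee]; rw [← mul_assoc e e, ee]) fun τ hv t1 t2 => ?_
  obtain ⟨I, _, ξ, η, hv⟩ := hv
  have := hτ (τ ∘ₗ LinearMap.mulLeftRight ℂ (e, e)) ⟨I, inferInstance, fun i => e.1 (ξ i),
    fun i => e.1 (η i), fun x => by
      rw [LinearMap.comp_apply, hv]
      refine Finset.sum_congr rfl fun i _ => ?_
      rw [← (proj_coe.1 e1).isSelfAdjoint.star_eq, inner_star_left,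
        (proj_coe.1 e1).isSelfAdjoint.star_eq]
      rfl⟩ (fun x y => by
      have q : ∀ x y, e * (w * x * w * y * w) * e = e * x * e * y * e := fun x y => by
        rw [← k x]
        simp only [← mul_assoc, e3]
        rw [mul_assoc _ w, we]
      simp only [LinearMap.comp_apply, LinearMap.mulLeftRight_apply, q, t1 x y]) fun x => by
      simpa [es, mul_assoc] using t2 (x * e)
  rw [← this, LinearMap.comp_apply, LinearMap.mulLeftRight_apply]
  congr 1
  have wa : w * a = a := by rw [← ha, ← mul_assoc, ← mul_assoc, ww]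
  calc _ = e * star a * e * (e * a * e) := by simp [es, mul_assoc]
    _ = e * star a * w * (w * a * e) := by rw [k, k']
    _ = _ := by rw [wa, mul_assoc _ w, ← mul_assoc w, wa]; simp [mul_assoc]

/-- The compression map onto the reduced algebra. -/
noncomputable def cpL (h : Iso V) (he : ex V 1 ∈ M) : Alg M →ₗ[ℂ] Alg (corner M V) where
  toFun x := ⟨cp V x.1, h.cp_mem he x.2⟩
  map_add' _ _ := Subtype.ext (cp_add _ _)
  map_smul' _ _ := Subtype.ext (cp_smul _ _)

theorem good_ex (h : Iso V) (he : ex V 1 ∈ M) {g : Alg (corner M V)} (hg : Good g) :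
    Good (exL h he g) := fun a ha hτ => by
  have l : ∀ T, ex V 1 * ex V T = ex V T := fun T => by rw [← h.ex_mul, one_mul]
  have r : ∀ T, ex V T * ex V 1 = ex V T := fun T => by rw [← h.ex_mul, mul_one]
  have m1 : ∀ x, cpL h he (x * exL h he g) = cpL h he x * g := fun x => Subtype.ext (by
    change cp V (x.1 * ex V g.1) = cp V x.1 * g.1
    rw [h.cp_mul' _ ((l _).trans (r _).symm), h.cp_ex])
  have m2 : ∀ x y, cpL h he (x * exL h he g * y) = cpL h he x * g * cpL h he y := fun x y =>
    Subtype.ext (by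
      change cp V (x.1 * ex V g.1 * y.1) = cp V x.1 * g.1 * cp V y.1
      rw [← r g.1, ← mul_assoc, cp_mid, h.cp_mul' _ ((l _).trans (r _).symm), h.cp_ex])
  have m3 : ∀ x, cpL h he (exL h he g * x) = g * cpL h he x := fun x => by
    have := m2 1 x
    rwa [one_mul, show cpL h he 1 = 1 from Subtype.ext h.cp_one, one_mul] at this
  have a1 : ex V g.1 * a.1 * ex V g.1 = a.1 := congrArg Subtype.val ha
  have a2 : ex V 1 * a.1 = a.1 := by rw [← a1, ← mul_assoc, ← mul_assoc, l]
  have a3 : a.1 * ex V 1 = a.1 := by rw [← a1, mul_assoc, r]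
  have := hg (cpL h he a) (by rw [← m3, ← m1, ha]) fun τ ⟨I, _, ξ, η, hv⟩ t1 t2 => by
    have e : star (cpL h he a) * cpL h he a = cpL h he (star a * a) := Subtype.ext (by
      change star (cp V a.1) * cp V a.1 = cp V (star a.1 * a.1)
      rw [h.cp_mul' _ (a2.trans a3.symm), cp_star])
    rw [e]
    refine hτ (τ ∘ₗ cpL h he) ⟨I, inferInstance, fun i => V (ξ i), fun i => V (η i),
      fun x => ?_⟩ (fun x y => ?_) fun x => ?_
    · rw [LinearMap.comp_apply, hv]
      refine Finset.sum_congr rfl fun i _ => ?_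
      rw [← adjoint_inner_right V]
      rfl
    · simp only [LinearMap.comp_apply, m1, m2, m3]
      exact t1 _ _
    · obtain ⟨s, hs⟩ := CStarAlgebra.nonneg_iff_eq_star_mul_self.1
        (show 0 ≤ cpL h he (star x * x) from (nonneg_iff_isPositive _).2
          (((nonneg_iff_isPositive _).1 (star_mul_self_nonneg x.1)).adjoint_conj V))
      rw [LinearMap.comp_apply, hs]
      exact t2 s
  refine Subtype.ext ?_
  have e := ex_cp (V := V) a.1
  rw [a2, a3, show cp V a.1 = 0 from congrArg Subtype.val this, ex_zero] at e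
  exact e.symm

theorem good_loc (hM : SemiF M) {w : Alg M} (hw : Cen w) (w0 : w ≠ 0) :
    ∃ g : Alg M, IsStarProjection g ∧ g ≠ 0 ∧ w * g = g ∧ Good g := by
  obtain ⟨f, f1, f2, f0, f3, f4⟩ := hM w.1 w.2 (proj_coe.1 hw.proj)
    (fun x hx => congrArg Subtype.val (hw.comm ⟨x, hx⟩)) fun h => w0 (Subtype.ext h)
  obtain ⟨K, _, _, _, V, h, rfl, -⟩ := exists_range f2
  suffices k : ∃ g : Alg (corner M V), IsStarProjection g ∧ g ≠ 0 ∧ Good g by
    obtain ⟨g, g1, g0, g2⟩ := k
    refine ⟨exL h f1 g, proj_coe.2 (h.proj (proj_coe.1 g1)), fun c => g0 (Subtype.ext ?_),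
      Subtype.ext ?_, good_ex h f1 g2⟩
    · rw [← h.cp_ex g.1]
      exact (congrArg (fun a : Alg M => cp V a.1) c).trans cp_zero
    · change w.1 * ex V g.1 = ex V g.1
      rw [← one_mul g.1, h.ex_mul, ← mul_assoc, f3]
  obtain ⟨z, z1, z0, -, ⟨s, s1, s2⟩ | ⟨I, _, _, v, g, g1, g2⟩ | ⟨-, τ, t1, t2, t3, t4⟩⟩ :=
    struct (M := corner M V) 1 ⟨.one _, fun x => by simp⟩ fun c => f0 (by
      rw [show (1 : K →L[ℂ] K) = 0 from congrArg Subtype.val c, ex_zero])
  · have zs := z1.proj.isSelfAdjoint.star_eq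
    have zz := z1.proj.isIdempotentElem.eq
    have a : ∀ j, z * s j = s j := fun j => by
      rw [z1.comm, ← s1 j, ← mul_assoc, pi_of_init (s1 j ▸ z1.proj)]
    have a' : star (s 0) * z = star (s 0) := by simpa [zs] using congrArg star (a 0)
    have b : star (s 0 + (1 - z)) * (s 0 + (1 - z)) = 1 := by
      simp [add_mul, mul_add, mul_sub, sub_mul, s1, zs, zz, a, a']
    have b' := congrArg Subtype.val b
    have c := f4 (ex V (s 0 + (1 - z)).1) (h.ex_mem f1 (s 0 + (1 - z)).2)
      (by rw [← ex_star, ← h.ex_mul]; exact congrArg (ex V) b')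
      (by rw [← ex_star, ← h.ex_mul, ← h.ex_mul, one_mul])
    rw [← ex_star, ← h.ex_mul] at c
    have c' : (s 0 + (1 - z)) * star (s 0 + (1 - z)) = 1 := Subtype.ext (by
      have := congrArg (cp V) c
      rw [h.cp_ex, h.cp_ex] at this
      exact this)
    have d : star (s 0 + (1 - z)) * s 1 = 0 := by
      simp [add_mul, sub_mul, zs, a, s2 0 1 zero_ne_one]
    refine (z0 ?_).elim
    rw [← s1 1, ← one_mul (s 1), ← c', mul_assoc _ _ (s 1), d]
    simp
  · refine ⟨g, ⟨g1.idem, g1.sa⟩, fun c => z0 ?_, fun a _ hτ => Subtype.ext (ext fun ξ => ?_)⟩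
    · rw [← g1.sum]
      exact Finset.sum_eq_zero fun i _ => by rw [← g1.fix i, c, mul_zero, zero_mul]
    have n : ∀ x : Alg (corner M V), ⟪ξ, (star x * x).1 ξ⟫_ℂ = (‖x.1 ξ‖ ^ 2 : ℝ) := fun x => by
      change ⟪ξ, star x.1 (x.1 ξ)⟫_ℂ = _
      rw [star_eq_adjoint, adjoint_inner_right, inner_self_eq_norm_sq_to_K]
      simp
    have := hτ ((innerSL ℂ ξ).toLinearMap ∘ₗ evalAt ((corner M V).toStarSubalgebra.subtype :
      Alg (corner M V) →ₐ[ℂ] (K →L[ℂ] K)) ξ) ⟨Unit, inferInstance, fun _ => ξ, fun _ => ξ,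
        fun _ => by simp⟩ (fun x y => by
          have q : ∀ x y, g * x * g * y * g = g * x * g * (g * y * g) := fun x y => by
            simp only [← mul_assoc]; rw [mul_assoc _ g g, g1.idem]
          rw [q, q, g2]) fun x => (n x).ge.trans' (by positivity)
    simpa using (n a).symm.trans this
  · refine ⟨z, z1.proj, z0, fun a ha hτ => ?_⟩
    rw [← ha, mul_assoc, t4 a (hτ τ.toLinearMap t1 (fun x y => ?_) fun x =>
      τ.map_nonneg (star_mul_self_nonneg x)), mul_zero]
    change τ _ = τ _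
    rw [t3, t3, t2, mul_assoc z x, ← z1.comm, mul_assoc z y, ← z1.comm]
    simp only [← mul_assoc]
    rw [← z1.comm y, mul_assoc z y, ← z1.comm y, ← mul_assoc]

theorem goodS : GoodStmt.{u} := by
  intro H _ _ _ M hM
  obtain ⟨⟨e, e1, e2⟩, hm⟩ := exists_maximal_of_chains_bounded
    (r := fun a b : {e : Alg M // IsStarProjection e ∧ Good e} => Below a.1 b.1) (fun c hc => by
      rcases c.eq_empty_or_nonempty with rfl | hne
      · exact ⟨⟨0, .zero _, fun a ha _ => by rw [← ha, mul_zero]⟩, by simp⟩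
      obtain ⟨l, w, _, l1, w1, w2, w3⟩ := Cut.chain_sup (Subtype.val '' c) (hne.image _)
        (by rintro _ ⟨a, -, rfl⟩; exact a.2.1) (by
          rintro _ ⟨a, ha, rfl⟩ _ ⟨b, hb, rfl⟩ h
          exact (hc ha hb fun k => h (congrArg _ k)).imp
            (fun k => (a.2.1.le_iff_mul_eq_left b.2.1).2 k.1)
            fun k => (b.2.1.le_iff_mul_eq_left a.2.1).2 k.1)
      have lim : ∀ x y : Alg M, (∀ v ∈ c, x * v.1 * y = 0) → x * w * y = 0 := fun x y h =>
        Subtype.ext (ext fun ξ => tendsto_nhds_unique (x.1.continuous.tendsto _ |>.comp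
          (w3 (y.1 ξ))) (tendsto_const_nhds.congr' (l1.mono (by
            rintro _ ⟨v, hv, rfl⟩
            exact (congrArg (fun a : Alg M => a.1 ξ) (h v hv)).symm))))
      have bl : ∀ a ∈ c, Below a.1 w := fun a ha => by
        have aw := (a.2.1.le_iff_mul_eq_right w1).1 (w2 _ ⟨a, ha, rfl⟩)
        refine ⟨(a.2.1.le_iff_mul_eq_left w1).1 (w2 _ ⟨a, ha, rfl⟩), fun x => ?_⟩
        have := lim (a.1 * x) (1 - a.1) fun v hv => by
          rcases eq_or_ne a v with rfl | k
          · rw [mul_assoc, a.2.1.mul_one_sub_self, mul_zero]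
          rcases hc ha hv k with k | k
          · rw [mul_assoc, mul_sub, mul_one, (a.2.1.le_iff_mul_eq_right v.2.1).1
              ((a.2.1.le_iff_mul_eq_left v.2.1).2 k.1), k.2]
          · rw [mul_assoc, mul_sub, mul_one, k.1, sub_self, mul_zero]
        rwa [mul_assoc, mul_sub, mul_one, aw] at this
      exact ⟨⟨w, w1, good_of_cover w1 (Subtype.val '' c) (by
        rintro _ ⟨a, ha, rfl⟩; exact ⟨a.2.1, a.2.2, bl a ha⟩) fun a h => by
          simpa using lim a 1 fun v hv => by rw [h _ ⟨v, hv, rfl⟩, zero_mul]⟩, bl⟩)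
    fun {a b c} h k => ⟨by rw [← h.1, mul_assoc, k.1], fun x => by
      rw [← sub_add_sub_cancel _ b.1, mul_add, h.2, add_zero, ← h.1, mul_assoc a.1, mul_assoc,
        k.2, mul_zero]⟩
  refine ⟨e, e1, fun y hy h0 => ?_, e2⟩
  obtain ⟨z, S, z1, z2, s1, -, s3⟩ := cover (M := M) e e1
  have yz : y * z.1 = 0 := ext fun ξ => (y.hasSum (s3 ξ)).unique (by
    rw [zero_apply]
    convert hasSum_zero with w
    have := congrArg Subtype.val (s1 w.1 w.2).2.1
    change (y * (w.1.1 * star w.1.1)) ξ = 0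
    rw [← mul_assoc, ← this, show (w.1 * e).1 = w.1.1 * e.1 from rfl, ← mul_assoc,
      ← commute_of_mem w.1.2 hy, mul_assoc _ y, h0]
    simp)
  by_contra c
  obtain ⟨g, g1, g0, g2, g3⟩ := good_loc hM (w := 1 - z) ⟨z1.proj.one_sub, fun x => by
    rw [sub_mul, mul_sub, z1.comm, one_mul, mul_one]⟩ fun k => c (by
      rw [← yz, show z.1 = 1 from congrArg Subtype.val (sub_eq_zero.1 k).symm, mul_one])
  have k : ∀ x, e * x * g = 0 := fun x => by
    rw [← z2, ← g2, mul_assoc z, z1.comm, mul_assoc, ← mul_assoc z, z1.proj.mul_one_sub_self]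
    simp
  have k' : ∀ x, g * x * e = 0 := fun x => by
    simpa [e1.isSelfAdjoint.star_eq, g1.isSelfAdjoint.star_eq, mul_assoc] using
      congrArg star (k (star x))
  have eg : e * g = 0 := by simpa using k 1
  have ge : g * e = 0 := by simpa using k' 1
  have b1 : Below e (e + g) := ⟨by rw [mul_add, eg, e1.isIdempotentElem.eq, add_zero], fun x => by
    rw [add_sub_cancel_left, k]⟩
  have := (hm ⟨e + g, e1.add g1 eg, good_of_cover (e1.add g1 eg) {e, g} (by
    rintro _ (rfl | rfl)
    · exact ⟨e1, e2, b1⟩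
    · exact ⟨g1, g3, by rw [mul_add, ge, g1.isIdempotentElem.eq, zero_add], fun x => by
        rw [add_sub_cancel_right, k']⟩) fun a h => by
      rw [mul_add, h e (by simp), h g (by simp), add_zero]⟩ b1).1
  rw [add_mul, ge, e1.isIdempotentElem.eq, add_zero, left_eq_add] at this
  exact g0 this

end Vale.Agent.P096
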