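import Vale.Agent.P096.Stm2

/-! Separable pairs of close subalgebras. -/

namespace Vale.Agent.P096

open Filter Topology Vale.Agent.P104 Vale.Agent.P082 TopologicalSpace

universe u

namespace Sep

variable {E : Type*} [CStarAlgebra E]

theorem sep_adjoin {s : Set E} (hs : s.Countable) :
    IsSeparable (StarAlgebra.adjoin ℂ s : Set E) := by
  have h1 : (s ∪ star s).Countable := by
    refine hs.union ?_
    have : star s = star '' s := by
      ext x
      constructor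
      · intro hx
        exact ⟨star x, hx, star_star x⟩
      · rintro ⟨y, hy, rfl⟩
        simpa using hy
    rw [this]
    exact hs.image _
  have h2 : (Submonoid.closure (s ∪ star s) : Set E).Countable := by
    have := h1.to_subtype
    refine (Set.countable_range
      (fun l : List ↥(s ∪ star s) => (l.map Subtype.val).prod)).mono fun x hx => ?_
    obtain ⟨l, hl, rfl⟩ := Submonoid.exists_list_of_mem_closure hx
    refine ⟨l.attach.map fun y => ⟨y.1, hl y.1 y.2⟩, ?_⟩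
    simp [List.map_map, Function.comp_def]
  have h3 : (StarAlgebra.adjoin ℂ s : Set E)
      = Submodule.span ℂ (Submonoid.closure (s ∪ star s) : Set E) := by
    rw [← Algebra.adjoin_eq_span]
    rfl
  rw [h3]
  exact h2.isSeparable.span

theorem mem_adjoin_iUnion {S : ℕ → Set E} (hS : Monotone S) {x : E}
    (hx : x ∈ StarAlgebra.adjoin ℂ (⋃ n, S n)) : ∃ n, x ∈ StarAlgebra.adjoin ℂ (S n) := by
  induction hx using StarAlgebra.adjoin_induction with
  | mem x h =>
    obtain ⟨n, hn⟩ := Set.mem_iUnion.1 h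
    exact ⟨n, StarAlgebra.subset_adjoin ℂ _ hn⟩
  | algebraMap r => exact ⟨0, algebraMap_mem _ r⟩
  | add x y _ _ h1 h2 =>
    obtain ⟨n, hn⟩ := h1
    obtain ⟨m, hm⟩ := h2
    exact ⟨max n m, add_mem (StarAlgebra.adjoin_mono (hS (le_max_left n m)) hn)
      (StarAlgebra.adjoin_mono (hS (le_max_right n m)) hm)⟩
  | mul x y _ _ h1 h2 =>
    obtain ⟨n, hn⟩ := h1
    obtain ⟨m, hm⟩ := h2
    exact ⟨max n m, mul_mem (StarAlgebra.adjoin_mono (hS (le_max_left n m)) hn)
      (StarAlgebra.adjoin_mono (hS (le_max_right n m)) hm)⟩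
  | star x _ h1 =>
    obtain ⟨n, hn⟩ := h1
    exact ⟨n, star_mem hn⟩

theorem half {S T : ℕ → Set E} (hS : Monotone S) {δ : ℝ} (hδ : 0 < δ)
    (h : ∀ n, ∃ d : Set E, (StarAlgebra.adjoin ℂ (S n) : Set E) ⊆ closure d ∧
      ∀ a ∈ d, ∃ b ∈ T (n + 1), ‖a - b‖ ≤ δ * ‖a‖) :
    ∀ a ∈ (StarAlgebra.adjoin ℂ (⋃ n, S n)).topologicalClosure,
      ∃ b ∈ (StarAlgebra.adjoin ℂ (⋃ n, T n)).topologicalClosure, ‖a - b‖ ≤ 2 * δ * ‖a‖ := by
  intro a ha
  by_cases a0 : a = 0
  · exact ⟨0, zero_mem _, by simp [a0]⟩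
  have hn : 0 < ‖a‖ := norm_pos_iff.2 a0
  set η := δ * ‖a‖ / (2 * (1 + δ)) with hη
  have η0 : 0 < η := by positivity
  have η1 : 2 * η * (1 + δ) = δ * ‖a‖ := by rw [hη]; field_simp
  have ha' : a ∈ closure (StarAlgebra.adjoin ℂ (⋃ n, S n) : Set E) := ha
  obtain ⟨x, hx, hx2⟩ := Metric.mem_closure_iff.1 ha' η η0
  obtain ⟨n, hn⟩ := mem_adjoin_iUnion hS hx
  obtain ⟨d, hd, hd2⟩ := h n
  obtain ⟨y, hy, hy2⟩ := Metric.mem_closure_iff.1 (hd hn) η η0
  obtain ⟨b, hb, hb2⟩ := hd2 y hy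
  refine ⟨b, StarSubalgebra.le_topologicalClosure _
    (StarAlgebra.subset_adjoin ℂ _ (Set.mem_iUnion.2 ⟨n + 1, hb⟩)), ?_⟩
  rw [dist_eq_norm] at hx2 hy2
  have h1 : ‖a - y‖ ≤ 2 * η := by
    have := norm_add_le (a - x) (x - y)
    rw [sub_add_sub_cancel] at this
    linarith
  have h2 : ‖y‖ ≤ ‖a‖ + 2 * η := by
    have := norm_sub_le a (a - y)
    rw [sub_sub_cancel] at this
    linarith
  have h3 := norm_add_le (a - y) (y - b)
  rw [sub_add_sub_cancel] at h3
  nlinarith [mul_le_mul_of_nonneg_left h2 hδ.le]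

theorem exists_d : ∃ d : Set E → Set E, ∀ s : Set E, s.Countable → (d s).Countable ∧
    d s ⊆ StarAlgebra.adjoin ℂ s ∧ (StarAlgebra.adjoin ℂ s : Set E) ⊆ closure (d s) := by
  have : ∀ s : Set E, ∃ d : Set E, s.Countable → d.Countable ∧
      d ⊆ StarAlgebra.adjoin ℂ s ∧ (StarAlgebra.adjoin ℂ s : Set E) ⊆ closure d := fun s => by
    by_cases hs : s.Countable
    · obtain ⟨t, h1, h2, h3⟩ := (sep_adjoin hs).exists_countable_dense_subset
      exact ⟨t, fun _ => ⟨h2, h1, h3⟩⟩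
    · exact ⟨∅, fun h => absurd h hs⟩
  choose d hd using this
  exact ⟨d, hd⟩

end Sep

theorem sepS : SepStmt.{u} := by
  intro H _ _ _ M N δ hδ hMN hNM s hs
  obtain ⟨d, hd⟩ := Sep.exists_d (E := H →L[ℂ] H)
  choose! g hg1 hg2 hg3 using hMN
  choose! f hf1 hf2 hf3 using hNM
  let P : ℕ → Set (H →L[ℂ] H) × Set (H →L[ℂ] H) := fun n =>
    Nat.rec ((s : Set (H →L[ℂ] H)), ∅) (fun _ p => (p.1 ∪ g '' d p.2, p.2 ∪ f '' d p.1)) n
  have hP : ∀ n, P (n + 1) = ((P n).1 ∪ g '' d (P n).2, (P n).2 ∪ f '' d (P n).1) := fun _ => rfl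
  have inv : ∀ n, (P n).1.Countable ∧ (P n).2.Countable ∧ (P n).1 ⊆ N.toStarSubalgebra ∧
      (P n).2 ⊆ M.toStarSubalgebra := by
    intro n
    induction n with
    | zero => exact ⟨s.countable_toSet, Set.countable_empty, fun x hx => hs x hx,
        Set.empty_subset _⟩
    | succ n ih =>
      obtain ⟨h1, h2, h3, h4⟩ := ih
      rw [hP]
      refine ⟨h1.union ((hd _ h2).1.image _), h2.union ((hd _ h1).1.image _),
        Set.union_subset h3 ?_, Set.union_subset h4 ?_⟩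
      · rintro _ ⟨x, hx, rfl⟩
        exact hg1 x (StarAlgebra.adjoin_le h4 ((hd _ h2).2.1 hx))
      · rintro _ ⟨x, hx, rfl⟩
        exact hf1 x (StarAlgebra.adjoin_le h3 ((hd _ h1).2.1 hx))
  have m1 : Monotone fun n => (P n).1 := monotone_nat_of_le_succ fun n => by
    rw [hP]; exact Set.subset_union_left
  have m2 : Monotone fun n => (P n).2 := monotone_nat_of_le_succ fun n => by
    rw [hP]; exact Set.subset_union_left
  refine ⟨(StarAlgebra.adjoin ℂ (⋃ n, (P n).1)).topologicalClosure,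
    (StarAlgebra.adjoin ℂ (⋃ n, (P n).2)).topologicalClosure,
    (StarAlgebra.adjoin ℂ ((⋃ n, (P n).1) ∪ ⋃ n, (P n).2)).topologicalClosure,
    StarSubalgebra.isClosed_topologicalClosure _, StarSubalgebra.isClosed_topologicalClosure _,
    StarSubalgebra.isClosed_topologicalClosure _, ?_, ?_, ?_, ?_, ?_, ?_, ?_, ?_⟩
  · exact StarSubalgebra.topologicalClosure_minimal
      (StarAlgebra.adjoin_le (Set.iUnion_subset fun n => (inv n).2.2.1)) (vn_isClosed N)
  · exact StarSubalgebra.topologicalClosure_minimal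
      (StarAlgebra.adjoin_le (Set.iUnion_subset fun n => (inv n).2.2.2)) (vn_isClosed M)
  · exact StarSubalgebra.topologicalClosure_mono (StarAlgebra.adjoin_mono Set.subset_union_left)
  · exact StarSubalgebra.topologicalClosure_mono (StarAlgebra.adjoin_mono Set.subset_union_right)
  · rw [StarSubalgebra.topologicalClosure_coe]
    exact (Sep.sep_adjoin ((Set.countable_iUnion fun n => (inv n).1).union
      (Set.countable_iUnion fun n => (inv n).2.1))).closure
  · intro x hx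
    exact StarSubalgebra.le_topologicalClosure _
      (StarAlgebra.subset_adjoin ℂ _ (Set.mem_iUnion.2 ⟨0, hx⟩))
  · refine Sep.half m1 hδ fun n => ⟨d (P n).1, (hd _ (inv n).1).2.2, fun a ha => ?_⟩
    refine ⟨f a, by rw [hP]; exact Or.inr ⟨a, ha, rfl⟩, hf3 a ?_⟩
    exact StarAlgebra.adjoin_le (inv n).2.2.1 ((hd _ (inv n).1).2.1 ha)
  · refine Sep.half m2 hδ fun n => ⟨d (P n).2, (hd _ (inv n).2.1).2.2, fun a ha => ?_⟩
    refine ⟨g a, by rw [hP]; exact Or.inr ⟨a, ha, rfl⟩, hg3 a ?_⟩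
    exact StarAlgebra.adjoin_le (inv n).2.2.2 ((hd _ (inv n).2.1).2.1 ha)

end Vale.Agent.P096
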