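import Vale.Agent.P096.L4
import Vale.Agent.P132.Cmp

/-! Assembly of the type III case. -/

namespace Vale.Agent.P096

open scoped InnerProductSpace ComplexOrder BigOperators
open Filter Topology Vale.Agent.P104 Vale.Agent.P082 TopologicalSpace

universe u

namespace L3

variable {H : Type u} [NormedAddCommGroup H] [InnerProductSpace ℂ H] [CompleteSpace H]
variable {M N : VonNeumannAlgebra H}

theorem ll_mono {C C' : ℝ} (h : C ≤ C') (hM : LL' M C) : LL' M C' := fun N δ d0 d1 n1 n2 => by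
  have := mul_le_mul_of_nonneg_right h d0.le
  obtain ⟨Φ, hΦ⟩ := hM N δ d0 (by linarith) n1 n2
  exact ⟨Φ, fun x => (hΦ x).trans (mul_le_mul_of_nonneg_right this (norm_nonneg _))⟩

theorem cj_le {w : H →L[ℂ] H} (hw : w ∈ unitary (H →L[ℂ] H)) {c : ℝ} (h : ‖w - 1‖ ≤ c)
    (x : H →L[ℂ] H) : ‖star w * x * w - x‖ ≤ 2 * c * ‖x‖ := by
  have h' : ‖star w - 1‖ ≤ c := by rwa [← norm_star, star_sub, star_star, star_one]
  have := three h' (nu hw) norm_one_le' h x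
  rw [one_mul x, mul_one x] at this
  linarith

theorem kk_ll {C : ℝ} (C0 : 0 ≤ C) (h : KK M C) : LL' M (2 * C) := fun N δ d0 d1 n1 n2 => by
  obtain ⟨w, hw, w1, w2⟩ := h N δ d0 (by nlinarith) n1 n2
  have hc : ∀ x ∈ N, star w * x * w ∈ M := fun x hx => by
    obtain ⟨y, hy, rfl⟩ := w2.ge hx
    simp only [cc' hw]
    exact hy
  exact ⟨cjl hc, fun x => (cj_le hw w1 x.1).trans (le_of_eq (by
    change _ = 2 * C * δ * ‖x.1‖
    ring))⟩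

theorem dich : ∃ C : ℝ, 1 ≤ C ∧ ∀ (H : Type u) [NormedAddCommGroup H] [InnerProductSpace ℂ H]
    [CompleteSpace H] [SeparableSpace H] (M : VonNeumannAlgebra H) (ξ : H), ξ ≠ 0 →
    P132.CycSep M ξ → P132.IsFactor M →
    LL' M C ∨ (P132.AllEq M ∧ ∃ p ∈ M, IsStarProjection p ∧ p ≠ 0 ∧ p ≠ 1) := by
  obtain ⟨a, a1, ha⟩ := kk_semi.{u}
  refine ⟨2 * a, by linarith, fun H _ _ _ _ M ξ h0 hξ hF => ?_⟩
  by_cases h : ∃ e, IsFiniteProj M e ∧ e ≠ 0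
  · exact Or.inl (kk_ll (by linarith) (ha H M ⟨hF, h⟩ ⟨ξ, h0, IsSeparable.of_separableSpace _⟩))
  have h3 : P132.IsTypeIII M := fun e eM he e0 => by
    by_contra hc
    refine h ⟨e, ⟨eM, he, fun v vM v1 v2 => ?_⟩, e0⟩
    by_contra hv
    exact hc ⟨v, vM, v1, by rw [← mul_assoc, v2], hv⟩
  have h1 : (1 : H →L[ℂ] H) ≠ 0 := fun h => h0 (by simpa using congrArg (fun x => x ξ) h)
  refine Or.inr ⟨P132.cmp H M ξ hξ.2 hF h3, ?_⟩
  obtain ⟨v, hv, h2, -, h3⟩ := h3 1 (one_mem M) (IsStarProjection.one _) h1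
  refine ⟨v * star v, mul_mem hv (star_mem hv), ⟨?_, by simp [IsSelfAdjoint]⟩, fun h => h1 ?_, h3⟩
  · rw [IsIdempotentElem, mul_assoc, ← mul_assoc (star v), h2, one_mul]
  · rw [← mul_one 1, ← h2, mul_assoc, ← mul_assoc v, h, zero_mul, mul_zero]

theorem pos_ll (hE : EStmt.{u}) (hL : LStmt'.{u}) : ∃ C : ℝ, 1 ≤ C ∧ ∀ (H : Type u)
    [NormedAddCommGroup H] [InnerProductSpace ℂ H] [CompleteSpace H] [SeparableSpace H]
    (M : VonNeumannAlgebra H) (ξ : H) (Γ : Type u) [Group Γ] (G : ℕ → Finset Γ)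
    (ρ σ : Γ →* (H →L[ℂ] H)) (e r : ℕ → H →L[ℂ] H), SPos M ξ G ρ σ e r → P132.AllEq M →
    P132.IsFactor M → LL' M C := by
  obtain ⟨a, a1, ha⟩ := hE
  obtain ⟨b, b1, hb⟩ := hL
  have ab : a ≤ b * a := by nlinarith
  refine ⟨3 * (b * a), by linarith, fun H _ _ _ _ M ξ Γ _ G ρ σ e r hM hA hF N δ d0 d1 n1 n2 => ?_⟩
  obtain ⟨w, hw, w1, P, hP, hN, m1, m2⟩ := ha H M N ξ Γ G ρ σ e r δ hM d0 (by nlinarith) n1 n2
  obtain ⟨Φ, hΦ⟩ := hb H M P ξ Γ G ρ σ e r (a * δ) hM hN hA hF (by positivity) (by nlinarith) m1 m2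
  have sw := Unitary.star_mem hw
  have hc : ∀ x ∈ N, star (star w) * x * star w ∈ P := fun x hx => (hP _).2 (by
    rwa [star_star, cc' hw])
  refine ⟨Φ ∘ₗ cjl hc, fun x => ?_⟩
  have h1 : ‖(Φ (cjl hc x)).1 - star (star w) * x.1 * star w‖ ≤
      b * (a * δ) * ‖star (star w) * x.1 * star w‖ := hΦ (cjl hc x)
  rw [ncj (Unitary.star_mem sw) sw] at h1
  have h2 := cj_le sw (c := a * δ) (by rwa [← norm_star, star_sub, star_star, star_one]) x.1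
  have h3 := norm_sub_le_norm_sub_add_norm_sub (Φ (cjl hc x)).1 (star (star w) * x.1 * star w) x.1
  change ‖(Φ (cjl hc x)).1 - x.1‖ ≤ 3 * (b * a) * δ * ‖x.1‖
  have h4 : 0 ≤ δ * ‖x.1‖ := by positivity
  nlinarith [mul_le_mul_of_nonneg_right ab h4]

theorem exists_seq : ∃ c : ℕ → ℝ, (∀ n, 0 < c n) ∧
    ∀ l ε : ℝ, 0 < l → 0 < ε → ∀ n₀, ∃ n, n₀ ≤ n ∧ |c n - l| ≤ ε := by
  refine ⟨fun n => |denseSeq ℝ n.unpair.1| + 1 / ((n : ℝ) + 1), fun n => by positivity,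
    fun l ε hl hε n₀ => ?_⟩
  obtain ⟨k, hk⟩ := (denseRange_denseSeq ℝ).exists_dist_lt l (half_pos hε)
  obtain ⟨j, hj⟩ := exists_nat_one_div_lt (half_pos hε)
  have h1 : max n₀ j ≤ k.pair (max n₀ j) := Nat.right_le_pair _ _
  refine ⟨k.pair (max n₀ j), (le_max_left _ _).trans h1, ?_⟩
  have h2 : 1 / (((k.pair (max n₀ j) : ℕ) : ℝ) + 1) ≤ 1 / ((j : ℝ) + 1) :=
    Nat.one_div_le_one_div ((le_max_right _ _).trans h1)
  have h3 : 0 < 1 / (((k.pair (max n₀ j) : ℕ) : ℝ) + 1) := by positivity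
  have h4 := abs_abs_sub_abs_le_abs_sub (denseSeq ℝ k) l
  rw [abs_of_pos hl] at h4
  rw [Real.dist_eq, abs_sub_comm] at hk
  simp only [Nat.unpair_pair]
  rw [abs_le] at h4 ⊢
  constructor <;> linarith [h4.1, h4.2]

end L3

open L3 in
theorem iiiS (hS : SiteStmt.{u}) (hB : BigStmt.{u}) (hF : FullStmt.{u}) (hX : DixStmt.{u})
    (hP : StepStmt.{u}) (hD : DStmt.{u}) (hE : EStmt.{u}) (hL : LStmt'.{u}) : IIIStmt.{u} := by
  obtain ⟨a, a1, ha⟩ := dich.{u}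
  obtain ⟨b, b1, hb⟩ := hB
  obtain ⟨p, p1, hp⟩ := pos_ll hE hL
  obtain ⟨c, c0, hc⟩ := exists_seq
  have q1 : a + p ≤ b * (a + p) := by nlinarith
  refine ⟨b * (b * (a + p)), by nlinarith, fun H _ _ _ _ M ξ₀ h0 h1 hM _ => ?_⟩
  have n0 : ‖ξ₀‖ ≠ 0 := norm_ne_zero_iff.2 h0
  have n0' : ((‖ξ₀‖ : ℝ) : ℂ) ≠ 0 := by exact_mod_cast n0
  set ξ := ((‖ξ₀‖ : ℝ) : ℂ)⁻¹ • ξ₀ with hξ
  have n1 : ‖ξ‖ = 1 := by
    rw [hξ, norm_smul, norm_inv, Complex.norm_real, norm_norm, inv_mul_cancel₀ n0]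
  have h2 : P132.CycSep M ξ := by
    refine ⟨h1.1.mono ?_, fun x hx h => h1.2 x hx ?_⟩
    · rintro _ ⟨x, hx, rfl⟩
      refine ⟨((‖ξ₀‖ : ℝ) : ℂ) • x, vn_smul_mem _ hx, ?_⟩
      rw [smul_apply, hξ, map_smul, smul_smul, mul_inv_cancel₀ n0', one_smul]
    · rw [hξ, map_smul] at h
      exact (smul_eq_zero.1 h).resolve_left (inv_ne_zero n0')
  have ne : ∀ {K : Type u} [NormedAddCommGroup K] {ζ : K}, ‖ζ‖ = 1 → ζ ≠ 0 := fun h h' => by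
    rw [h', norm_zero] at h
    exact zero_ne_one h
  obtain ⟨K, _, _, _, _, A, ι, e, r, s1⟩ := hS H c c0
  obtain ⟨t1, t2, t3⟩ := hb H K A ι e r c M s1
  have u1 : ‖ι ξ‖ = 1 := (s1.iso ξ).trans n1
  refine t3 _ (by linarith) ?_
  rcases ha K _ _ (ne u1) (t1 ξ h2) (t2 hM) with h | ⟨hA, hq⟩
  · exact ll_mono (by linarith) h
  have : Nontrivial K := ⟨⟨_, _, ne u1⟩⟩
  have dx := hX K _ _ (t1 ξ h2) hA (hF H K A ι e r c _ s1 hc s1.big_e big_r) hq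
  obtain ⟨K', _, _, _, _, A', ι', e', r', s2⟩ := hS K (fun _ => 1) fun _ => one_pos
  obtain ⟨v1, v2, v3⟩ := hb K K' A' ι' e' r' _ (big A r M) s2
  refine v3 _ (by linarith) ?_
  rcases ha K' _ _ (ne ((s2.iso _).trans u1)) (v1 _ (t1 ξ h2)) (v2 (t2 hM)) with h | ⟨hA', -⟩
  · exact ll_mono (by linarith) h
  obtain ⟨Γ, _, G, ρ, σ, w1, w2⟩ := hP K K' A' ι' e' r' _ _ s2 u1 (v1 _ (t1 ξ h2)) dx
  obtain ⟨ξ', G', ρ', σ', e'', r'', w3⟩ := hD K' _ _ Γ G ρ σ e' r' w1 w2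
  exact ll_mono (by linarith) (hp K' _ ξ' Γ G' ρ' σ' e'' r'' w3 hA' (v2 (t2 hM)))

end Vale.Agent.P096
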