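import Vale.Agent.P096.Sep

/-! The ultralimit of approximately linear liftings. -/

namespace Vale.Agent.P096

open scoped InnerProductSpace ComplexOrder BigOperators
open Filter Topology Vale.Agent.P104 Vale.Agent.P082 Finset

universe u

namespace Ult

theorem pos_ineq {A : Type*} [Ring A] [StarRing A] [Algebra ℂ A] [StarModule ℂ A]
    (τ : A →ₗ[ℂ] ℂ) (hp : ∀ x, 0 ≤ τ (star x * x)) (w d : A) :
    2 * (τ (star w * d)).re ≤ (τ (star w * w)).re + (τ (star d * d)).re := by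
  have h1 := (Complex.nonneg_iff.1 (hp (w - d))).1
  have h2 := (Complex.nonneg_iff.1 (hp (w + Complex.I • d))).2
  have h3 := (Complex.nonneg_iff.1 (hp w)).2
  have h4 := (Complex.nonneg_iff.1 (hp d)).2
  simp only [star_sub, sub_mul, mul_sub, map_sub, Complex.sub_re] at h1
  simp only [star_add, star_smul, add_mul, mul_add, map_add, smul_mul_assoc, mul_smul_comm,
    map_smul, smul_eq_mul, Complex.add_im, Complex.mul_im, Complex.star_def, Complex.conj_I,
    Complex.I_re, Complex.I_im, Complex.neg_re, Complex.neg_im, Complex.mul_re] at h2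
  linarith

variable {H : Type u} [NormedAddCommGroup H] [InnerProductSpace ℂ H] [CompleteSpace H]

/-- Normal positive traces. -/
abbrev Trs (M : VonNeumannAlgebra H) : Type u :=
  {τ : Alg M →ₗ[ℂ] ℂ // VecF τ ∧ (∀ x y, τ (x * y) = τ (y * x)) ∧ ∀ x, 0 ≤ τ (star x * x)}

/-- The local statement. -/
def Loc (M N : VonNeumannAlgebra H) (c₀ : ℝ) : Prop :=
  ∀ (s : Finset (Alg N)) (F : Finset ℂ) (T : Finset (Trs M)) (η : ℝ), 0 < η →
    ∃ Y : Alg N → Alg M, (∀ x, ‖(Y x).1 - x.1‖ ≤ c₀ * ‖x‖) ∧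
      ∀ c ∈ F, ∀ x ∈ s, ∀ y ∈ s, c • x + y ∈ s → ∀ τ ∈ T,
        (τ.1 (star (c • Y x + Y y - Y (c • x + y)) * (c • Y x + Y y - Y (c • x + y)))).re ≤ η

theorem lim {M N : VonNeumannAlgebra H} (hF : FinTr M) {c₀ : ℝ} (h : Loc M N c₀) :
    ∃ Φ : Alg N →ₗ[ℂ] Alg M, ∀ x, ‖(Φ x).1 - x.1‖ ≤ 3 * c₀ * ‖x‖ := by
  classical
  let ι := Finset (Alg N) × Finset ℂ × Finset (Trs M) × ℕ
  let U : Ultrafilter ι := Ultrafilter.of atTop
  have hU : (U : Filter ι) ≤ atTop := Ultrafilter.of_le _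
  choose Y hY1 hY2 using fun i : ι => h i.1 i.2.1 i.2.2.1 (1 / ((i.2.2.2 : ℝ) + 1))
    (by positivity)
  have hb : ∀ x i, ‖Y i x‖ ≤ c₀ * ‖x‖ + ‖x‖ := fun x i => by
    have h1 := norm_add_le ((Y i x).1 - x.1) x.1
    rw [sub_add_cancel] at h1
    exact h1.trans (add_le_add (hY1 i x) le_rfl)
  let φ : Alg N → Alg M := fun x => wlim U fun i => Y i x
  have key : ∀ (c : ℂ) x y, c • φ x + φ y - φ (c • x + y) = 0 := by
    intro c x y
    set w := c • φ x + φ y - φ (c • x + y) with hw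
    let d : ι → Alg M := fun i => c • Y i x + Y i y - Y i (c • x + y)
    have b1 : ∀ i, ‖c • Y i x‖ ≤ ‖c‖ * (c₀ * ‖x‖ + ‖x‖) := fun i =>
      (norm_smul_le _ _).trans (mul_le_mul_of_nonneg_left (hb x i) (norm_nonneg _))
    have b2 : ∀ i, ‖c • Y i x + Y i y‖ ≤ ‖c‖ * (c₀ * ‖x‖ + ‖x‖) + (c₀ * ‖y‖ + ‖y‖) := fun i =>
      (norm_add_le _ _).trans (add_le_add (b1 i) (hb y i))
    have b3 : ∀ i, ‖d i‖ ≤ ‖c‖ * (c₀ * ‖x‖ + ‖x‖) + (c₀ * ‖y‖ + ‖y‖) +
        (c₀ * ‖c • x + y‖ + ‖c • x + y‖) := fun i =>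
      (norm_sub_le _ _).trans (add_le_add (b2 i) (hb _ i))
    have hd : wlim U d = w := by
      rw [wlim_sub b2 (hb _), wlim_add b1 (hb y), wlim_smul (hb x)]
    refine hF w fun τ t1 t2 t3 => ?_
    have l1 : Tendsto (fun i => τ (star w * d i)) U (𝓝 (τ (star w * w))) := by
      have := Glue.vec_wlim (U := U) t1 (v := fun i => star w * d i) (C := ‖star w‖ * _)
        fun i => (norm_mul_le _ _).trans (mul_le_mul_of_nonneg_left (b3 i) (norm_nonneg _))
      rwa [wlim_mul_left b3, hd] at this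
    have l2 : Tendsto (fun i => 2 * (τ (star w * d i)).re) U (𝓝 (2 * (τ (star w * w)).re)) :=
      ((Complex.continuous_re.tendsto _).comp l1).const_mul 2
    have h0 := Complex.nonneg_iff.1 (t3 w)
    have l3 : (τ (star w * w)).re ≤ 0 := by
      refine le_of_forall_pos_le_add fun ε hε => ?_
      obtain ⟨k, hk⟩ := exists_nat_one_div_lt hε
      have ev : ∀ᶠ i in U, 2 * (τ (star w * d i)).re ≤ (τ (star w * w)).re + ε := by
        let τ' : Trs M := ⟨τ, t1, t2, t3⟩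
        refine ((eventually_ge_atTop
          (({x, y, c • x + y}, {c}, {τ'}, k) : ι)).filter_mono hU).mono fun i hi => ?_
        obtain ⟨i1, i2, i3, i4⟩ := hi
        have e1 := hY2 i c (i2 (by simp)) x (i1 (by simp)) y (i1 (by simp)) (i1 (by simp))
          τ' (i3 (mem_singleton_self _))
        have e2 : 1 / ((i.2.2.2 : ℝ) + 1) ≤ 1 / ((k : ℝ) + 1) :=
          Nat.one_div_le_one_div i4
        have e3 := pos_ineq τ t3 w (d i)
        have e4 : (τ (star (d i) * d i)).re ≤ 1 / ((i.2.2.2 : ℝ) + 1) := e1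
        linarith
      have := le_of_tendsto l2 ev
      linarith
    exact Complex.ext (le_antisymm l3 h0.1) h0.2.symm
  have z0 : φ 0 = 0 := by
    have := key 1 0 0
    simpa using this
  refine ⟨⟨⟨φ, fun x y => ?_⟩, fun c x => ?_⟩, fun x => ?_⟩
  · have := key 1 x y
    rw [one_smul, one_smul, sub_eq_zero] at this
    exact this.symm
  · have := key c x 0
    rw [z0, add_zero, add_zero, sub_eq_zero] at this
    exact this.symm
  · obtain ⟨i₀⟩ := U.neBot.nonempty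
    have b1 : ∀ i, ‖Y i x - Y i₀ x‖ ≤ 2 * c₀ * ‖x‖ := fun i => by
      have h1 := norm_sub_le ((Y i x).1 - x.1) ((Y i₀ x).1 - x.1)
      rw [sub_sub_sub_cancel_right] at h1
      have h2 := hY1 i x
      have h3 := hY1 i₀ x
      change ‖(Y i x).1 - (Y i₀ x).1‖ ≤ _
      linarith
    have b2 := wlim_norm_le (U := U) b1
    rw [wlim_sub (hb x) (fun _ => le_rfl), wlim_const] at b2
    have h1 := norm_add_le ((φ x).1 - (Y i₀ x).1) ((Y i₀ x).1 - x.1)
    rw [sub_add_sub_cancel] at h1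
    have h3 := hY1 i₀ x
    change ‖(φ x).1 - (Y i₀ x).1‖ ≤ _ at b2
    change ‖(φ x).1 - x.1‖ ≤ _
    linarith

end Ult

theorem uS (hS : SepStmt.{u}) (hX : XStmt.{u}) : UStmt.{u} := by
  classical
  obtain ⟨C, c1, hX⟩ := hX
  refine ⟨6 * C, by linarith, fun H _ _ _ M hF N δ hδ hC hMN hNM => ?_⟩
  have key : Ult.Loc M N (C * (2 * δ)) := by
    intro s F T η hη
    obtain ⟨A, B, D, cA, cB, cD, hA, hB, hAD, hBD, sD, hs, n1, n2⟩ :=
      hS H M N δ hδ hMN hNM (s.image Subtype.val) fun x hx => by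
        obtain ⟨y, -, rfl⟩ := mem_image.1 hx
        exact y.2
    have := sD.separableSpace
    let τ : B →ₗ[ℂ] ℂ := (∑ t ∈ T, t.1) ∘ₗ (StarSubalgebra.inclusion hB).toLinearMap
    have hτ : ∀ b : B, τ b = ∑ t ∈ T, t.1 (StarSubalgebra.inclusion hB b) := fun b => by
      simp [τ]
    let R : Type u := {p : s × s × s × F // p.2.2.2.1 • p.1.1 + p.2.1.1 = p.2.2.1.1}
    let n : s → A := fun j => ⟨j.1.1, hs _ (mem_image_of_mem _ j.2)⟩
    let c : R → s → ℂ := fun r j => (if j = r.1.1 then r.1.2.2.2.1 else 0) +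
      (if j = r.1.2.1 then 1 else 0) - (if j = r.1.2.2.1 then 1 else 0)
    have hc : ∀ {V : Type u} [AddCommGroup V] [Module ℂ V] (v : s → V) (r : R),
        ∑ j, c r j • v j = r.1.2.2.2.1 • v r.1.1 + v r.1.2.1 - v r.1.2.2.1 := by
      intro V _ _ v r
      simp [c, add_smul, sub_smul, sum_add_distrib, sum_sub_distrib, ite_smul]
    obtain ⟨y, hy1, hy2⟩ := hX A B D (StarSubalgebra.inclusion hAD) (StarSubalgebra.inclusion hBD)
      (2 * δ) (by positivity) (by nlinarith)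
      (fun a => by
        obtain ⟨b, hb, e⟩ := n1 a.1 a.2
        exact ⟨⟨b, hb⟩, e⟩)
      (fun b => by
        obtain ⟨a, ha, e⟩ := n2 b.1 b.2
        exact ⟨⟨a, ha⟩, e⟩)
      (fun _ => rfl) τ
      (fun x y => by
        rw [hτ, hτ]
        exact sum_congr rfl fun t _ => t.2.2.1 (StarSubalgebra.inclusion hB x)
          (StarSubalgebra.inclusion hB y))
      (fun x => by
        rw [hτ]
        exact sum_nonneg fun t _ => by rw [map_mul, map_star]; exact t.2.2.2 _)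
      s R n c
      (fun r => by
        rw [hc, sub_eq_zero]
        have := congrArg Subtype.val r.2
        exact Subtype.ext this) η hη
    choose f hf1 hf2 hf3 using hNM
    let Y : Alg N → Alg M := fun x =>
      if hx : x ∈ s then StarSubalgebra.inclusion hB (y ⟨x, hx⟩) else ⟨f x.1 x.2, hf1 x.1 x.2⟩
    refine ⟨Y, fun x => ?_, fun a ha x hx z hz hxz t ht => ?_⟩
    · by_cases hx : x ∈ s
      · simp only [Y, dif_pos hx]
        exact hy1 ⟨x, hx⟩
      · simp only [Y, dif_neg hx]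
        rw [norm_sub_rev]
        refine (hf3 x.1 x.2).trans (mul_le_mul_of_nonneg_right (by nlinarith) (norm_nonneg _))
    · have e := hy2 ⟨(⟨x, hx⟩, ⟨z, hz⟩, ⟨_, hxz⟩, ⟨a, ha⟩), rfl⟩
      rw [hc, hτ, Complex.re_sum] at e
      refine le_trans ?_ e
      refine le_trans (le_of_eq ?_) (single_le_sum (f := fun t : Ult.Trs M => (t.1
        (StarSubalgebra.inclusion hB (star (a • y ⟨x, hx⟩ + y ⟨z, hz⟩ - y ⟨_, hxz⟩) *
          (a • y ⟨x, hx⟩ + y ⟨z, hz⟩ - y ⟨_, hxz⟩)))).re) (fun t _ => ?_) ht)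
      · simp only [Y, dif_pos hx, dif_pos hz, dif_pos hxz, map_mul, map_star, map_sub, map_add,
          map_smul]
      · rw [map_mul, map_star]
        exact (Complex.nonneg_iff.1 (t.2.2.2 _)).1
  obtain ⟨Φ, hΦ⟩ := Ult.lim hF key
  exact ⟨Φ, fun x => (hΦ x).trans (le_of_eq (by ring))⟩

end Vale.Agent.P096
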