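import Vale.Agent.P096.X1

/-! Approximately linear liftings for an arbitrary trace. -/

namespace Vale.Agent.P096

open scoped InnerProductSpace ComplexOrder BigOperators
open Filter Topology Vale.Agent.P104 Vale.Agent.P082 Finset ContinuousLinearMap

universe u

theorem tst_rep {B D : Type u} [CStarAlgebra B] [CStarAlgebra D]
    [TopologicalSpace.SeparableSpace D] (iB : B →⋆ₐ[ℂ] D) (hi : ∀ b, ‖iB b‖ = ‖b‖) {f : B → ℂ}
    (hf : f ∈ Tst B) : ∃ (K : Type u) (_ : NormedAddCommGroup K) (_ : InnerProductSpace ℂ K)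
      (_ : CompleteSpace K) (_ : TopologicalSpace.SeparableSpace K) (π : D →⋆ₐ[ℂ] (K →L[ℂ] K))
      (ζ : K), ∀ b, f b = ⟪ζ, π (iB b) ζ⟫_ℂ := by
  let i : B →ₗᵢ[ℂ] D := ⟨(iB : B →ₐ[ℂ] D).toLinearMap, hi⟩
  let f₁ : B →L[ℂ] ℂ := LinearMap.mkContinuous ⟨⟨f, hf.1⟩, hf.2.1⟩ 1 fun b => by
    rw [one_mul]; exact hf.2.2.1 b
  obtain ⟨g, g1, g2⟩ := exists_extension_norm_eq (LinearMap.range i.toLinearMap)
    (f₁ ∘L (i.equivRange.symm : LinearMap.range i.toLinearMap →L[ℂ] B))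
  have g3 : ∀ b, g (iB b) = f b := fun b => (g1 (i.equivRange b)).trans (by simp [f₁])
  obtain ⟨K, _, _, _, π, ζ, h1, h2⟩ := exists_rep (g : D →ₗ[ℂ] ℂ) (pos_of_norm g (by
    rw [g2]
    refine opNorm_le_bound _ zero_le_one fun x => ?_
    rw [one_mul, ← i.equivRange.symm.norm_map x]
    exact hf.2.2.1 _) (by rw [← map_one iB, g3, hf.2.2.2.1]))
  exact ⟨K, _, _, ‹_›, h2.separableSpace ((AddMonoidHomClass.continuous_of_bound π 1 fun a => by
    simpa using NonUnitalStarAlgHom.norm_apply_le π a).clm_apply continuous_const), π, ζ,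
    fun b => (g3 b).symm.trans (h1 _)⟩

variable {A B K J R : Type u} [CStarAlgebra A] [CStarAlgebra B] [NormedAddCommGroup K]
  [InnerProductSpace ℂ K] [CompleteSpace K] {ρ : B →⋆ₐ[ℂ] (K →L[ℂ] K)} {ζ : K} [Fintype J]
  [Fintype R] {c : R → J → ℂ}

theorem near_bic (σ : A →⋆ₐ[ℂ] (K →L[ℂ] K)) {δ : ℝ} (h0 : 0 ≤ δ)
    (h : ∀ a, ∃ b, ‖σ a - ρ b‖ ≤ δ * ‖a‖) :
    Near (com σ).commutant (com ρ).commutant (16 * distK ^ 2 * δ) := by
  have := distK_pos
  rw [show 16 * distK ^ 2 * δ = 4 * distK * (2 * (distK * (2 * δ))) by ring]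
  refine near_comm (by positivity) (near_of_le (by positivity) fun T hT => ?_)
  obtain ⟨T', h1, h2⟩ := dist_intertw σ σ T (c := 2 * δ * ‖T‖) (by positivity) fun a => by
    obtain ⟨b, hb⟩ := h a
    rw [show T * σ a - σ a * T = T * (σ a - ρ b) - (σ a - ρ b) * T by
      rw [mul_sub, sub_mul, mem_com.1 hT b]; abel]
    have a1 := (norm_mul_le T _).trans (mul_le_mul_of_nonneg_left hb (norm_nonneg _))
    have a2 := (norm_mul_le _ T).trans (mul_le_mul_of_nonneg_right hb (norm_nonneg _))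
    linarith [norm_sub_le (T * (σ a - ρ b)) ((σ a - ρ b) * T)]
  exact ⟨T', mem_com.2 fun a => (h1 a).symm, h2.trans_eq (by ring)⟩

theorem factorial {y0 : J → B} {r : J → ℝ} {s : ℝ} {f : B → ℂ} (hf : ∀ b, f b = ⟪ζ, ρ b ζ⟫_ℂ)
    (hm : ∀ s', s < s' → ∀ g ∈ Tst B, ∃ y : {y : J → B // ∀ j, ‖y j - y0 j‖ ≤ r j},
      (g (df c y.1)).re < s')
    (he : f ∈ {f ∈ Tst B | ∀ y : {y : J → B // ∀ j, ‖y j - y0 j‖ ≤ r j},
      s ≤ (f (df c y.1)).re}.extremePoints ℝ) (h : TV (com ρ).commutant ζ) :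
    ∀ p ∈ (com ρ).commutant, IsStarProjection p → (∀ x ∈ (com ρ).commutant, p * x = x * p) →
      p ζ = 0 ∨ p ζ = ζ := by
  intro p hp pp hz
  by_contra! c0
  have c1 : (1 - p) ζ ≠ 0 := by simpa [sub_eq_zero] using c0.2.symm
  have hz' : ∀ x ∈ (com ρ).commutant, (1 - p) * x = x * (1 - p) := fun x hx => by
    rw [sub_mul, mul_sub, hz x hx, one_mul, mul_one]
  have k : ∀ q : K →L[ℂ] K, IsStarProjection q → (∀ x ∈ (com ρ).commutant, q * x = x * q) →
      ∀ x ∈ (com ρ).commutant, ⟪q ζ, x (q ζ)⟫_ℂ = ⟪ζ, (q * x) ζ⟫_ℂ := fun q hq hz x hx => by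
    rw [← mul_apply_eq_comp, ← hz x hx, ← hq.isSelfAdjoint.star_eq, inner_star_left,
      hq.isSelfAdjoint.star_eq, ← mul_apply_eq_comp, ← mul_assoc, hq.isIdempotentElem.eq]
  have m : ∀ q ∈ (com ρ).commutant, IsStarProjection q →
      (∀ x ∈ (com ρ).commutant, q * x = x * q) → q ζ ≠ 0 → vs ρ (q ζ) ∈ Tst B :=
    fun q hq pq hz h0 => vs_mem h0 fun a b => by
      rw [k q pq hz _ (mem_bic _), k q pq hz _ (mem_bic _), map_mul, map_mul, ← mul_assoc,
        h _ (mul_mem hq (mem_bic a)) _ (mem_bic b), ← mul_assoc, ← hz _ (mem_bic b), mul_assoc]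
  have m1 := m p hp pp hz c0.1
  have m2 := m _ (sub_mem (one_mem _) hp) pp.one_sub hz' c1
  have t1 : 0 < ‖p ζ‖ ^ 2 := by have := c0.1; positivity
  have t2 : 0 < ‖(1 - p) ζ‖ ^ 2 := by positivity
  have t3 : ‖p ζ‖ ^ 2 + ‖(1 - p) ζ‖ ^ 2 = 1 := by
    have := he.1.1.2.2.2.1
    rw [hf, map_one, one_apply_eq_self, inner_self_eq_norm_sq_to_K] at this
    rw [← proj_sq pp, ← add_apply, add_sub_cancel, one_apply_eq_self]
    exact Complex.ofReal_injective (by simpa using this)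
  have gl := h.glue (c := c) hp pp hz fun y => by rw [← psi_eq, ← hf]; exact he.1.2 y
  have e := he.2 ⟨m1, fun y => by
    rw [vs_eq]
    exact arith t1 t2 t3 gl (fun s' hs => by simpa only [vs_eq] using hm s' hs _ m2) y⟩
    ⟨m2, fun y => by
      rw [vs_eq]
      exact arith t2 t1 (by linarith) (fun y z => (gl z y).trans_eq (add_comm _ _))
        (fun s' hs => by simpa only [vs_eq] using hm s' hs _ m1) y⟩
    ⟨_, _, t1, t2, t3, funext fun b => by
      simp only [Pi.add_apply, Pi.smul_apply, vs, smul_smul, mul_inv_cancel₀ t1.ne',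
        mul_inv_cancel₀ t2.ne', one_smul]
      rw [k p pp hz _ (mem_bic b), k _ pp.one_sub hz' _ (mem_bic b), ← inner_add_right,
        ← add_apply, ← add_mul, add_sub_cancel, one_mul, hf]⟩
  have := bic_dense hp ![(((‖p ζ‖ ^ 2)⁻¹ : ℝ) : ℂ) • p ζ, -ζ] ![p ζ, ζ] fun a => by
    have := congrFun e a
    rw [hf, vs] at this
    simpa [inner_smul_left, add_neg_eq_zero, mul_comm] using this
  have e2 : ⟪ζ, p ζ⟫_ℂ = (‖p ζ‖ ^ 2 : ℝ) := by
    have := k p pp hz 1 (one_mem _)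
    rw [mul_one, one_apply_eq_self, inner_self_eq_norm_sq_to_K] at this
    rw [← this]
    simp
  simp only [Fin.sum_univ_two, Matrix.cons_val_zero, Matrix.cons_val_one, inner_smul_left,
    inner_neg_left, Complex.conj_ofReal] at this
  rw [k p pp hz p hp, pp.isIdempotentElem.eq, e2] at this
  norm_cast at this
  rw [inv_mul_cancel₀ t1.ne'] at this
  linarith

theorem xS (h : LocStmt.{u}) : XStmt.{u} := by
  obtain ⟨C, C1, h⟩ := h
  have dK := distK_pos
  have : 0 ≤ C * distK ^ 2 := by positivity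
  refine ⟨48 * (C * distK ^ 2) + 4, by linarith, fun A B D _ _ _ _ iA iB δ δ0 hδ hA hB hi τ tr pos
    J R _ _ n c hc η η0 => ?_⟩
  choose y1 hy using hA
  obtain ⟨κ, hκ⟩ : ∃ κ, κ = C * (16 * distK ^ 2 * δ) + δ := ⟨_, rfl⟩
  have κ0 : 0 ≤ κ := by rw [hκ]; positivity
  have main : ∀ η, 0 < η → ∀ f ∈ Tst B,
      ∃ y : {y : J → B // ∀ j, ‖y j - y1 (n j)‖ ≤ 3 * (κ * ‖n j‖)}, (f (df c y.1)).re < η := by
    intro η η0 f0 h0
    by_contra! c0
    obtain ⟨s, s1, hm, f, he⟩ := exists_ext_max (tst_compact B) (fun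
      (y : {y : J → B // ∀ j, ‖y j - y1 (n j)‖ ≤ 3 * (κ * ‖n j‖)}) f => (f (df c y.1)).re)
      (fun y => by fun_prop) ⟨fun j => y1 (n j), fun j => by simp; positivity⟩ h0 c0
    obtain ⟨K, _, _, _, _, π, ζ, hf⟩ := tst_rep iB hi he.1.1
    have tv : TV (com (π.comp iB)).commutant ζ := tv_bic fun a b => by
      simp only [StarAlgHom.comp_apply, ← hf]; exact he.1.1.2.2.2.2 a b
    have nπ : ∀ {x y : D} {r : ℝ}, ‖x - y‖ ≤ r → ‖π x - π y‖ ≤ r := fun k => by
      rw [← map_sub]; exact (NonUnitalStarAlgHom.norm_apply_le π _).trans k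
    obtain ⟨q, Φ, q1, q2, q3, q4, hΦ⟩ := h K (com (π.comp iA)).commutant
      (com (π.comp iB)).commutant ζ (16 * distK ^ 2 * δ) (by positivity) (by nlinarith)
      (near_bic _ δ0.le fun b => (hB b).imp fun a ha => nπ ha)
      (near_bic _ δ0.le fun a => ⟨y1 a, nπ (hy a)⟩) tv (factorial (ρ := π.comp iB) hf hm he tv)
    let x : J → Alg (com (π.comp iA)).commutant := fun j => ⟨π.comp iA (n j), mem_bic _⟩
    have := le_psi (c := c) (v := fun
      (y : {y : J → B // ∀ j, ‖y j - y1 (n j)‖ ≤ 3 * (κ * ‖n j‖)}) j => π.comp iB (y.1 j) ζ)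
      (fun y => by rw [← psi_eq]; exact (he.1.2 y).trans_eq (by rw [hf]; rfl))
      (w := fun j => (Φ (x j)).1 ζ) fun e e0 => by
        choose m m1 m2 using fun j => tv.kap (sub_mem (Φ (x j)).2
          (mul_mem q1 (mem_bic (y1 (n j))))) e0
        refine ⟨⟨fun j => y1 (n j) + m j, fun j => ?_⟩, fun j => le_trans (le_of_eq ?_) (m2 j)⟩
        · rw [add_sub_cancel_left]
          refine (m1 j).trans (mul_le_mul_of_nonneg_left ?_ (by norm_num))
          have a1 := (hΦ (x j)).trans (mul_le_mul_of_nonneg_left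
            (NonUnitalStarAlgHom.norm_apply_le (π.comp iA) (n j)) (by positivity))
          have a2 : ‖q * (π (iA (n j)) - π (iB (y1 (n j)))) * q‖ ≤ δ * ‖n j‖ :=
            (norm_mul_le _ _).trans ((mul_le_of_le_one_right (norm_nonneg _) q2.norm_le).trans
              ((norm_mul_le _ _).trans ((mul_le_of_le_one_left (norm_nonneg _) q2.norm_le).trans
                (nπ (hy _)))))
          refine le_trans (le_of_eq ?_) ((norm_add_le_of_le a1 a2).trans_eq (by rw [hκ]; ring))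
          congr 1
          have := q3 _ (mem_bic (ρ := π.comp iB) (y1 (n j)))
          rw [StarAlgHom.comp_apply] at this ⊢
          rw [mul_sub, sub_mul, mul_assoc q (π (iB _)), ← this, ← mul_assoc q q,
            q2.isIdempotentElem.eq]
          exact (sub_add_sub_cancel _ _ _).symm
        · rw [q3 _ (mem_bic _), sub_apply, mul_apply_eq_comp, q4, map_add, add_apply, sub_sub]
    have z : psi c (fun j => (Φ (x j)).1 ζ) = 0 := sum_eq_zero fun r _ => by
      have e1 : ∑ j, c r j • x j = 0 := Subtype.ext (by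
        simpa [x] using congrArg (π.comp iA) (hc r))
      have e2 := congrArg (fun t => (Φ t).1 ζ) e1
      simp only [map_sum, map_smul, map_zero] at e2
      simpa using e2
    linarith
  obtain ⟨K, _, _, _, π, ζ, hτ, -⟩ := exists_rep τ pos
  have fin : ∀ y : {y : J → B // ∀ j, ‖y j - y1 (n j)‖ ≤ 3 * (κ * ‖n j‖)}, ∀ j,
      ‖iB (y.1 j) - iA (n j)‖ ≤ (48 * (C * distK ^ 2) + 4) * δ * ‖n j‖ := fun y j => by
    have a1 := y.2 j
    rw [← hi, map_sub] at a1
    have a2 := hy (n j)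
    rw [norm_sub_rev] at a2
    refine (norm_sub_le_norm_sub_add_norm_sub _ _ _).trans ((add_le_add a1 a2).trans_eq ?_)
    rw [hκ]; ring
  rcases eq_or_ne ζ 0 with rfl | h0
  · exact ⟨_, fin ⟨fun j => y1 (n j), fun j => by simp; positivity⟩, fun r => by
      simpa [hτ] using η0.le⟩
  have p : 0 < ‖ζ‖ ^ 2 := by positivity
  obtain ⟨y, hy⟩ := main ((‖ζ‖ ^ 2)⁻¹ * η) (by positivity) _ (vs_mem (ρ := π) h0 fun a b => by
    rw [← hτ, ← hτ, tr])
  refine ⟨_, fin y, fun r => ?_⟩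
  rw [vs, Complex.smul_re, smul_eq_mul, ← hτ, df, map_sum, Complex.re_sum] at hy
  exact (single_le_sum (f := fun r => (τ (star (∑ j, c r j • y.1 j) * ∑ j, c r j • y.1 j)).re)
    (fun r _ => (Complex.nonneg_iff.1 (pos _)).1) (mem_univ r)).trans
      (lt_of_mul_lt_mul_left hy (by positivity)).le

end Vale.Agent.P096
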