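import Vale.Agent.P096.End3
import Vale.Agent.P096.Top3
import Vale.Agent.P096.Good
import Vale.Agent.P096.Sep
import Vale.Agent.P096.Ult
import Vale.Agent.P096.X

/-! Linear lifting when the modular group nearly normalises the second algebra. -/

namespace Vale.Agent.P096

open scoped InnerProductSpace InnerProduct ComplexOrder BigOperators
open Filter Topology Vale.Agent.P104 Vale.Agent.P082 ContinuousLinearMap Complex

universe u

namespace En.Zd

variable {H K : Type u} [NormedAddCommGroup H] [InnerProductSpace ℂ H] [CompleteSpace H]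
  [NormedAddCommGroup K] [InnerProductSpace ℂ K] [CompleteSpace K]
  {M N : VonNeumannAlgebra H} {ξ : H} {ι : ℤ → H →L[ℂ] K} {V : ℝ → H →L[ℂ] H}
  {am : (H →L[ℂ] H) →⋆ₐ[ℂ] (K →L[ℂ] K)} {sh : ℤ → K →L[ℂ] K} {a g D : K →L[ℂ] K} {T : ℝ}
  (h : Zd ι am sh a) (v : UG N V)

include h v

omit h in
theorem dstar (hD : D ∈ unitary (K →L[ℂ] K)) (d : ∀ n η, D (ι n η) = ι n (V (n * T) η)) (n : ℤ)
    (η : H) : star D (ι n η) = ι n (V (-(n * T)) η) := by
  have := congrArg (fun ψ => (star D : K →L[ℂ] K) ψ) (d n (V (-(n * T)) η))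
  beta_reduce at this
  rw [← mul_apply_eq_comp, hD.1, ← mul_apply_eq_comp (V _), ← v.add, add_neg_cancel, v.zero] at this
  exact this.symm

theorem red (hD : D ∈ unitary (K →L[ℂ] K)) (d : ∀ n η, D (ι n η) = ι n (V (n * T) η))
    (g1 : star g = g) (g2 : ∀ x, Commute (am x) g) (g3 : ∀ k, Commute (sh k) g)
    (g4 : er a I * g = sh 1 * g) (y : H →L[ℂ] H) (p : ℤ × ℝ) : ∃ t ∈ Set.Icc (0 : ℝ) 1,
      wg am sh a V T p * (g * (D * am y * star D) * g) * star (wg am sh a V T p) =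
        wg am sh a V T (0, t) * (g * (D * am y * star D) * g) * star (wg am sh a V T (0, t)) := by
  obtain ⟨w, hw⟩ : ∃ w, w = wg am sh a V T := ⟨_, rfl⟩
  have wa : ∀ p q, w (p + q) = w p * w q := hw ▸ h.wadd v
  have w0 : w 0 = 1 := by simp [hw, wg, v.zero, h.sh_zero, er_zero]
  have e1 : w (-1, 1) * g = g := by
    simp only [hw, wg, Int.cast_neg, Int.cast_one, neg_add_cancel, zero_mul, v.zero, map_one, one_mul,
      ofReal_one]
    rw [mul_assoc, g4, ← mul_assoc, ← h.sh_add, neg_add_cancel, h.sh_zero, one_mul]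
  have e2 : ∀ k : ℤ, w (k • (-1, 1)) * g = g := fun k => by
    induction k using Int.induction_on with
    | zero => rw [zero_smul, w0, one_mul]
    | succ k ih => rw [add_smul, one_smul, wa, mul_assoc, e1, ih]
    | pred k ih =>
      conv_lhs => rw [← e1, ← mul_assoc, ← wa]
      rwa [sub_smul, one_smul, sub_add_cancel]
  have e3 : ∀ n : ℤ, Commute (w (n, 0)) (g * (D * am y * star D) * g) := fun n => by
    have c : Commute (w (n, 0)) g := by
      simp only [hw, wg, ofReal_zero, zero_mul, er_zero, mul_one]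
      exact (g2 _).mul_left (g3 _)
    refine (c.mul_right (h.ext fun k η => ?_)).mul_right c
    simp only [mul_apply_eq_comp, hw, h.w_ι, dstar v hD d, h.am_ι, d]
    simp only [← mul_apply_eq_comp, ← mul_assoc, ← v.add]
    push_cast
    rw [show (k + n : ℝ) * T = n * T + k * T by ring, show -(n * T + k * T) + n * T = -(k * T) by ring]
  refine ⟨Int.fract p.2, ⟨Int.fract_nonneg _, (Int.fract_lt_one _).le⟩, ?_⟩
  have e4 : p = (0, Int.fract p.2) + (p.1 + ⌊p.2⌋, 0) + ⌊p.2⌋ • (-1, 1) := by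
    ext <;> simp
  have e5 := congrArg star (e2 ⌊p.2⌋)
  have u := (h.wun (T := T) v (p.1 + ⌊p.2⌋, 0)).2
  rw [← hw] at u
  rw [star_mul, g1] at e5
  rw [← hw]
  conv_lhs => rw [e4, wa, wa, star_mul, star_mul]
  generalize D * am y * star D = Y at *
  calc _ = w (0, Int.fract p.2) * (w (p.1 + ⌊p.2⌋, 0) * (w (⌊p.2⌋ • (-1, 1)) * g * Y *
        (g * star (w (⌊p.2⌋ • (-1, 1))))) * star (w (p.1 + ⌊p.2⌋, 0))) *
          star (w (0, Int.fract p.2)) := by simp only [mul_assoc]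
    _ = _ := by rw [e2, e5, (e3 _).eq, mul_assoc (g * Y * g), u, mul_one]

theorem lim (vc : ∀ η, Continuous fun t => V t η) {D : ℝ → K →L[ℂ] K}
    (hD : ∀ T, D T ∈ unitary (K →L[ℂ] K)) (d : ∀ T n η, D T (ι n η) = ι n (V (n * T) η))
    (g1 : star g = g) (g2 : ∀ x, Commute (am x) g) (g3 : Commute g a) (y : H →L[ℂ] H) (η ζ : H)
    {ε : ℝ} (e0 : 0 < ε) : ∀ᶠ T in 𝓝 (0 : ℝ), ∀ t ∈ Set.Icc (0 : ℝ) 1,
      ‖⟪ι 0 ζ, (wg am sh a V T (0, t) * (g * (D T * am y * star (D T)) * g) *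
        star (wg am sh a V T (0, t))) (ι 0 η)⟫_ℂ - ⟪ι 0 ζ, (g * g) (ι 0 (y η))⟫_ℂ‖ ≤ ε := by
  let Z : ℝ × ℝ → K →L[ℂ] K := fun p => star (D p.1) * am (V (-(p.2 * p.1)))
  have z1 : ∀ p, ‖Z p‖ ≤ 1 := fun p => by
    rw [CStarRing.norm_mem_unitary_mul _ (Unitary.star_mem (hD _))]
    exact (NonUnitalStarAlgHom.norm_apply_le am _).trans (un_le (v.un _))
  have z2 : ∀ ψ, Continuous fun p => Z p ψ := h.cont z1 fun n η => by
    simp only [Z, mul_apply_eq_comp, h.am_ι, dstar v (hD _) (d _)]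
    simp only [← mul_apply_eq_comp, ← v.add]
    exact (ι n).continuous.comp ((vc η).comp (by fun_prop))
  let ψ : H → ℝ × ℝ → K := fun η p => g (er a (star (p.2 * I)) (ι 0 η))
  have c1 : ∀ η, Continuous (ψ η) := fun η => g.continuous.comp
    (((er_diff a).continuous.comp (by fun_prop)).clm_apply continuous_const)
  have c2 : ∀ η, Continuous fun p => Z p (ψ η p) := fun η => continuous_iff_continuousAt.2 fun q => by
    have h1 : Tendsto (fun p => Z p (ψ η p - ψ η q)) (𝓝 q) (𝓝 0) :=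
      squeeze_zero_norm (fun p => ((Z p).le_of_opNorm_le (z1 p) _).trans_eq (one_mul _))
        (tendsto_iff_norm_sub_tendsto_zero.1 (c1 η).continuousAt)
    simpa [ContinuousAt] using h1.add (z2 (ψ η q)).continuousAt.tendsto
  have c3 : Continuous fun p => ‖⟪Z p (ψ ζ p), am y (Z p (ψ η p))⟫_ℂ -
      ⟪ι 0 ζ, (g * g) (ι 0 (y η))⟫_ℂ‖ :=
    (((c2 ζ).inner ((am y).continuous.comp (c2 η))).sub continuous_const).norm
  refine isCompact_Icc.eventually_forall_of_forall_eventually fun t _ => ?_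
  refine (c3.continuousAt.eventually_lt continuousAt_const (x₀ := (0, t)) (g := fun _ => ε)
    (lt_of_eq_of_lt ?_ e0)).mono fun p hp => le_of_eq_of_le ?_ hp.le
  · have z0 : Z (0, t) = 1 := h.ext fun n η => by
      simp [Z, dstar v (hD _) (d _), v.zero]
    have c := (er_comm g3 (t * I)).symm.mul_right ((er_comm (h.am_a y) (t * I)).symm.mul_right
      (er_comm g3 (t * I)).symm)
    have e : star (g * star (er a (t * I))) * am y * (g * star (er a (t * I))) = g * g * am y := by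
      rw [star_mul, star_star, g1, mul_assoc, mul_assoc, ← mul_assoc (am y), ← mul_assoc g,
        ← mul_assoc, c.eq, mul_assoc, (er_un h.sa t).2, mul_one, (g2 y).eq, mul_assoc]
    rw [z0, norm_eq_zero, sub_eq_zero, ← h.am_ι, ← mul_apply_eq_comp (g * g), ← e]
    simp only [ψ, one_apply_eq_self, mul_apply_eq_comp, er_star h.sa]
    rw [inner_star_right]
    simp only [mul_apply_eq_comp]
  · have e : star (D p.1) * g * star (wg am sh a V p.1 (0, p.2)) =
        Z p * (g * er a (star (p.2 * I))) := by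
      simp only [Z, wg, h.sh_zero, one_mul, Int.cast_zero, zero_add, star_mul (am _), er_star h.sa,
        ← map_star, v.st, mul_assoc]
      rw [← (er_comm (h.am_a _) _).eq, ← mul_assoc g, ← (g2 _).eq, mul_assoc]
    have e' : ∀ w D : K →L[ℂ] K, w * (g * (D * am y * star D) * g) * star w =
        star (star D * g * star w) * (am y * (star D * g * star w)) := fun w D => by
      simp only [star_mul, star_star, g1, mul_assoc]
    rw [e', e, mul_apply_eq_comp, inner_star_right]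
    rfl

theorem fin (m : P132.Mod M ξ) {δ C : ℝ} (d0 : 0 < δ) (n1 : Near M N δ) (n2 : Near N M δ)
    (hd : ∀ t, ‖m.U t - V t‖ ≤ δ) (hL : LL' (fx am M (wg am sh a m.U T)) C)
    (c0 : 0 ≤ C) (c1 : C * (2 * ((8 * distK ^ 2 + 2) * δ)) ≤ 1)
    (hD : D ∈ unitary (K →L[ℂ] K)) (d : ∀ n η, D (ι n η) = ι n (V (n * T) η))
    (g0 : ‖g‖ ≤ 1) (g1 : star g = g) (g2 : ∀ x, Commute (am x) g) (g3 : ∀ k, Commute (sh k) g)
    (g4 : er a I * g = sh 1 * g) : ∃ Φ : Alg N →ₗ[ℂ] Alg M, ∀ (y : Alg N) (η ζ : H) (z : ℂ) (ε : ℝ),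
      (∀ t ∈ Set.Icc (0 : ℝ) 1, ‖⟪ι 0 ζ, (wg am sh a V T (0, t) * (g * (D * am y.1 * star D) * g) *
        star (wg am sh a V T (0, t))) (ι 0 η)⟫_ℂ - z‖ ≤ ε) →
      ‖⟪ζ, (Φ y).1 η⟫_ℂ - z‖ ≤ C * (2 * ((8 * distK ^ 2 + 2) * δ)) * ‖y‖ * ‖ζ‖ * ‖η‖ + ε := by
  have := distK_pos
  obtain ⟨Ψ, hΨ⟩ := hL (fx am N (wg am sh a V T)) _ (by positivity) c1
    (h.near v (ugM m) d0.le n1 fun t => by rw [norm_sub_rev]; exact hd t)
    (h.near (ugM m) v d0.le n2 hd)
  obtain ⟨E, e1, e2⟩ := meanG _ (h.wun (T := T) v) (h.wadd v)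
  have m1 : ∀ y : Alg N, E (g * (D * am y.1 * star D) * g) ∈ fx am N (wg am sh a V T) := fun y =>
    (mem_fx (h.wun v)).2 ⟨h.avg v (e2 _) fun x hx => (((g2 x).mul_right (h.ext fun n η => by
      simp only [mul_apply_eq_comp, dstar v hD d, h.am_ι, d]
      exact congrArg _ (DFunLike.congr_fun (commute_of_mem (v.inv _ _ y.2) hx) η).symm)).mul_right
        (g2 x)).eq, fun p => e1 p _⟩
  let Θ : Alg N →ₗ[ℂ] Alg (fx am N (wg am sh a V T)) :=
    { toFun := fun y => ⟨_, m1 y⟩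
      map_add' := fun x y => Subtype.ext (by
        change E (g * (D * am (x.1 + y.1) * star D) * g) = E _ + E _
        simp only [map_add, mul_add, add_mul])
      map_smul' := fun c x => Subtype.ext (by
        change E (g * (D * am (c • x.1) * star D) * g) = c • E _
        simp only [map_smul, mul_smul_comm, smul_mul_assoc]) }
  let Λ : Alg (fx am M (wg am sh a m.U T)) →ₗ[ℂ] Alg M :=
    { toFun := fun X => ⟨_, h.cmem ((mem_fx (h.wun (ugM m))).1 X.2).1 0 0⟩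
      map_add' := fun x y => Subtype.ext (by ext; simp)
      map_smul' := fun c x => Subtype.ext (by ext; simp) }
  refine ⟨Λ ∘ₗ Ψ ∘ₗ Θ, fun y η ζ z ε hz => ?_⟩
  have b1 : ‖(Θ y).1 - 0‖ ≤ ‖y.1‖ := (e2 _).near (norm_nonneg _) fun p => by
    rw [sub_zero, CStarRing.norm_mul_mem_unitary _ (Unitary.star_mem (h.wun v p)),
      CStarRing.norm_mem_unitary_mul _ (h.wun v p)]
    refine (nrm1 g0 g0).trans ?_
    rw [CStarRing.norm_mul_mem_unitary _ (Unitary.star_mem hD), CStarRing.norm_mem_unitary_mul _ hD]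
    exact NonUnitalStarAlgHom.norm_apply_le am _
  have b2 : ‖⟪ι 0 ζ, (Θ y).1 (ι 0 η)⟫_ℂ - z‖ ≤ ε := (e2 _).one _ _ _ _ fun p => by
    obtain ⟨t, t1, t2⟩ := h.red v hD d g1 g2 g3 g4 y.1 p
    rw [t2]
    exact hz t t1
  rw [sub_zero] at b1
  have b3 := (hΨ (Θ y)).trans (mul_le_mul_of_nonneg_left b1 (by positivity))
  have b4 := (norm_inner_le_norm (𝕜 := ℂ) (ι 0 ζ) _).trans (mul_le_mul_of_nonneg_left
    (ContinuousLinearMap.le_of_opNorm_le _ b3 (ι 0 η)) (norm_nonneg _))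
  rw [h.norm_ι, h.norm_ι, sub_apply, inner_sub_right] at b4
  change ‖⟪ζ, ((ι 0)†) ((Ψ (Θ y)).1 (ι 0 η))⟫_ℂ - z‖ ≤ _ * ‖y.1‖ * _ * _ + _
  rw [adjoint_inner_right, ← sub_add_sub_cancel _ ⟪ι 0 ζ, (Θ y).1 (ι 0 η)⟫_ℂ]
  refine (norm_add_le _ _).trans (add_le_add (b4.trans_eq (by ring)) b2)

end En.Zd

open En in
theorem endS : EndStmt.{u} := by
  obtain ⟨c, c1, hc⟩ := kk_all goodS.{u} (uS sepS (xS locS)) newtonS
  have k0 := distK_pos
  obtain ⟨q, hq⟩ : ∃ q, q = 2 * c * (2 * (8 * distK ^ 2 + 2)) := ⟨_, rfl⟩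
  have q1 : 1 ≤ q := by rw [hq]; nlinarith [sq_nonneg distK]
  refine ⟨7 * q, by linarith, fun H _ _ _ _ M N ξ m V δ cs hF hV vi d0 d1 n1 n2 hd => ?_⟩
  obtain ⟨K, _, _, _, ι, am, sh, z⟩ := exists_zs H
  obtain ⟨a, g, a1, g1, g0, cm, g4, g5⟩ := z.ag
  have h : Zd ι am sh a := ⟨z, a1, fun x => (cm _ (z.am_sh _ _) (z.am_sh _ _)).1,
    fun k => (cm _ (z.sh_sh _ _) (z.sh_sh _ _)).1⟩
  have g2 : ∀ x, Commute (am x) g := fun x => (cm _ (z.am_sh _ _) (z.am_sh _ _)).2
  have g3 : ∀ k, Commute (sh k) g := fun k => (cm _ (z.sh_sh _ _) (z.sh_sh _ _)).2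
  have g6 : Commute g a := (cm _ (g3 _).symm (g3 _).symm).1
  have v : En.UG N V := ⟨fun t => ⟨by rw [hV.st, ← hV.add, neg_add_cancel, hV.zero],
    by rw [hV.st, ← hV.add, add_neg_cancel, hV.zero]⟩, hV.add, vi⟩
  choose D hD d using fun T : ℝ => z.dg (fun n => V (n * T)) fun n => v.un _
  have e : 2 * c * (2 * ((8 * distK ^ 2 + 2) * δ)) = q * δ := by rw [hq]; ring
  have qd : 0 < q * δ := by positivity
  choose Φ hΦ using fun j : ℕ => h.fin v m d0 n1 n2 hd (L3.kk_ll (by linarith)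
    (hc K _ (h.semi m cs (T := 1 / (j + 1)) (by positivity)))) (by linarith) (by linarith) (hD _)
    (d _) g0 g1 g2 g3 (by simpa [er] using g4)
  simp only [e] at hΦ
  obtain ⟨κ, hκ⟩ := hF _ (h.cmem (X := g * g) (fun y _ => ((g2 y).mul_right (g2 y)).eq) 0 0)
    fun x _ => by
      ext η
      simp only [mul_apply_eq_comp, comp_apply]
      rw [← h.adj_am, ← h.am_ι, ← mul_apply_eq_comp (am x), (g2 x).eq, mul_apply_eq_comp,
        ← mul_apply_eq_comp (am x), (g2 x).eq, mul_apply_eq_comp]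
  have k1 : ∀ ζ η, ⟪ι 0 ζ, (g * g) (ι 0 η)⟫_ℂ = κ * ⟪ζ, η⟫_ℂ := fun ζ η => by
    rw [← adjoint_inner_right, ← inner_smul_right]
    exact congrArg _ (DFunLike.congr_fun hκ η)
  rcases subsingleton_or_nontrivial H with _ | _
  · exact ⟨0, fun x => by rw [Subsingleton.elim (_ - _) 0, norm_zero]; positivity⟩
  have k2 : 1 / 7 ≤ ‖κ‖ := by
    obtain ⟨η, h0⟩ := exists_ne (0 : H)
    have := g5 η
    rw [norm_sq_apply, g1, k1, inner_self_eq_norm_sq_to_K] at this
    have := this.trans (re_le_norm _)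
    rw [norm_mul, norm_pow, RCLike.norm_ofReal, abs_norm] at this
    nlinarith [pow_pos (norm_pos_iff.2 h0) 2]
  have k3 : κ ≠ 0 := norm_pos_iff.1 (by linarith)
  have bd : ∀ (y : Alg N) j, ‖Φ j y‖ ≤ (q * δ + 1) * ‖y‖ := fun y j =>
    norm_le_inner (T := (Φ j y).1) (by positivity) fun ζ η => by
      have := hΦ j y η ζ 0 (‖y‖ * ‖ζ‖ * ‖η‖) fun t _ => by
        have u := h.wun (T := 1 / (j + 1)) v (0, t)
        rw [sub_zero, mul_comm ‖y‖, mul_assoc ‖ζ‖, ← h.norm_ι 0 ζ, ← h.norm_ι 0 η]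
        refine (norm_inner_le_norm _ _).trans (mul_le_mul_of_nonneg_left
          (ContinuousLinearMap.le_of_opNorm_le _ ?_ _) (norm_nonneg _))
        rw [CStarRing.norm_mul_mem_unitary _ (Unitary.star_mem u),
          CStarRing.norm_mem_unitary_mul _ u]
        refine (nrm1 g0 g0).trans ?_
        rw [CStarRing.norm_mul_mem_unitary _ (Unitary.star_mem (hD _)),
          CStarRing.norm_mem_unitary_mul _ (hD _)]
        exact NonUnitalStarAlgHom.norm_apply_le am _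
      rw [sub_zero] at this
      linarith
  let U : Ultrafilter ℕ := Ultrafilter.of atTop
  let Θ : Alg N →ₗ[ℂ] Alg M :=
    { toFun := fun y => wlim U fun j => Φ j y
      map_add' := fun a b => by simp only [map_add]; exact wlim_add (bd a) (bd b)
      map_smul' := fun t a => by simp only [map_smul]; exact wlim_smul (bd a) t }
  refine ⟨κ⁻¹ • Θ, fun y => ?_⟩
  have b : ‖(Θ y).1 - κ • y.1‖ ≤ q * δ * ‖y‖ := norm_le_inner (by positivity) fun ζ η => by
    rw [sub_apply, inner_sub_right, smul_apply, inner_smul_right, ← k1]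
    refine le_of_forall_pos_le_add fun ε e0 => le_of_tendsto ((wlim_spec (bd y) η ζ).sub_const _).norm
      (Ultrafilter.of_le atTop ((tendsto_one_div_add_atTop_nhds_zero_nat.eventually
        (h.lim v hV.cont hD d g1 g2 g6 y.1 η ζ e0)).mono fun j hj => hΦ j y η ζ _ ε hj))
  change ‖κ⁻¹ • (Θ y).1 - y.1‖ ≤ _
  rw [← inv_smul_smul₀ k3 y.1, ← smul_sub, norm_smul, norm_inv, inv_mul_le_iff₀ (by linarith)]
  nlinarith [mul_nonneg qd.le (norm_nonneg y)]

end Vale.Agent.P096
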