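import Vale.Agent.P096.Stm3

/-! Truncation of random sums. -/

namespace Vale.Agent.P096

open scoped InnerProductSpace ComplexOrder BigOperators ComplexConjugate
open Vale.Agent.P104 Vale.Agent.P082 Finset

universe u

namespace F1

theorem inv_tr {A : Type*} [CStarAlgebra A] [PartialOrder A] [StarOrderedRing A] (S : A) {t : ℝ}
    (ht : 0 < t) : ∃ R : A, ((t ^ 2) • (1 : A) + star S * S) * R = 1 ∧
      R * ((t ^ 2) • (1 : A) + star S * S) = 1 ∧ ‖(t ^ 2) • R‖ ≤ 1 ∧ ‖t • (S * R)‖ ≤ 1 := by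
  have a0 : 0 ≤ star S * S := star_mul_self_nonneg S
  have t2 : 0 < t ^ 2 := by positivity
  obtain ⟨R, h1, h2, h3, -⟩ :=
    exists_inv_of_le (b := (t ^ 2) • (1 : A) + star S * S) t2 (le_add_of_nonneg_right a0)
  have key : ∀ x : A, star x * x ≤ ((t ^ 2) • (1 : A) + star S * S) *
      ((t ^ 2) • (1 : A) + star S * S) → ‖x * R‖ ≤ 1 := fun x hx => by
    have e := star_left_conjugate_le_conjugate hx R
    rw [h3, ← mul_assoc R ((t ^ 2) • (1 : A) + star S * S), h2, one_mul, h1] at e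
    have := norm_sq_le_of_le (x := x * R) zero_le_one (by
      rw [star_mul, h3, one_smul]; simpa only [mul_assoc] using e)
    exact (pow_le_one_iff_of_nonneg (norm_nonneg _) two_ne_zero).1 this
  have a1 : 0 ≤ star S * S * (star S * S) := by simpa using star_mul_self_nonneg (star S * S)
  have a2 : 0 ≤ (t ^ 2) • (star S * S) := smul_nonneg t2.le a0
  have a3 : 0 ≤ (t ^ 2 * t ^ 2) • (1 : A) := smul_nonneg (by positivity) zero_le_one
  have e : ((t ^ 2) • (1 : A) + star S * S) * ((t ^ 2) • (1 : A) + star S * S) =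
      (t ^ 2 * t ^ 2) • (1 : A) + (t ^ 2) • (star S * S) + (t ^ 2) • (star S * S) +
        star S * S * (star S * S) := by
    simp only [add_mul, mul_add, smul_mul_assoc, mul_smul_comm, one_mul, mul_one]
    module
  refine ⟨R, h1, h2, ?_, ?_⟩
  · have := key ((t ^ 2) • 1) (by
      rw [e, star_smul, star_one, star_trivial, smul_mul_assoc, one_mul, smul_smul, add_assoc,
        add_assoc]
      exact le_add_of_nonneg_right (add_nonneg a2 (add_nonneg a2 a1)))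
    rwa [smul_mul_assoc, one_mul] at this
  · have := key (t • S) (by
      rw [e, star_smul, star_trivial, smul_mul_assoc, mul_smul_comm, smul_smul, ← sq]
      exact (le_add_of_nonneg_left (add_nonneg a3 a2)).trans (le_add_of_nonneg_right a1))
    rwa [smul_mul_assoc] at this

theorem tr {A : Type*} [CStarAlgebra A] [PartialOrder A] [StarOrderedRing A] (S : A) {t : ℝ}
    (ht : 0 < t) : ∃ S₁ W g g' : A, ‖S₁‖ ≤ t ∧ ‖W‖ ≤ t⁻¹ ∧ ‖g‖ ≤ 1 ∧ ‖g'‖ ≤ 1 ∧ S₁ = S * g ∧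
      S₁ = g' * S ∧ S - S₁ = W * (star S * S) ∧ S - S₁ = S * star S * W := by
  obtain ⟨R, h1, h2, h3, h4⟩ := inv_tr S ht
  obtain ⟨R', -, h2', h3', -⟩ := inv_tr (star S) ht
  rw [star_star] at h2'
  rw [norm_smul, Real.norm_of_nonneg ht.le] at h4
  have w : ‖S * R‖ ≤ t⁻¹ := by rwa [← mul_one t⁻¹, le_inv_mul_iff₀ ht]
  have e : S * R = R' * S := by
    calc S * R = R' * (((t ^ 2) • (1 : A) + S * star S) * S) * R := by rw [← mul_assoc, h2', one_mul]
      _ = R' * S * (((t ^ 2) • (1 : A) + star S * S) * R) := by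
        simp only [add_mul, mul_add, smul_mul_assoc, mul_smul_comm, one_mul, mul_one, mul_assoc]
      _ = _ := by rw [h1, mul_one]
  refine ⟨(t ^ 2) • (S * R), S * R, (t ^ 2) • R, (t ^ 2) • R', ?_, w, h3, h3',
    (mul_smul_comm _ _ _).symm, by rw [e, smul_mul_assoc], ?_, ?_⟩
  · rw [norm_smul, Real.norm_of_nonneg (by positivity), sq, mul_assoc]
    exact mul_le_of_le_one_right ht.le h4
  · have := congrArg (S * ·) h2
    simp only [mul_add, mul_smul_comm, mul_one] at this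
    rw [sub_eq_iff_eq_add', mul_assoc]
    exact this.symm
  · have := congrArg (S * ·) h1
    simp only [mul_add, add_mul, smul_mul_assoc, mul_smul_comm, mul_one, one_mul] at this
    rw [sub_eq_iff_eq_add']
    simpa only [mul_assoc] using this.symm

variable {H : Type u} [NormedAddCommGroup H] [InnerProductSpace ℂ H] [CompleteSpace H]

theorem app_le (g x : H →L[ℂ] H) {c : ℝ} (h : ‖g‖ ≤ c) (ξ : H) : ‖(g * x) ξ‖ ≤ c * ‖x ξ‖ :=
  (g.le_opNorm _).trans (mul_le_mul_of_nonneg_right h (norm_nonneg _))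

theorem trv {P : VonNeumannAlgebra H} {S : H →L[ℂ] H} (hS : S ∈ P) {t : ℝ} (ht : 0 < t) (ξ : H) :
    ∃ S₁ ∈ P, ‖S₁‖ ≤ t ∧ ‖S₁ ξ‖ ≤ ‖S ξ‖ ∧ ‖star S₁ ξ‖ ≤ ‖star S ξ‖ ∧
      ‖(S - S₁) ξ‖ ≤ t⁻¹ * ‖(star S * S) ξ‖ ∧
      ‖star (S - S₁) ξ‖ ≤ t⁻¹ * ‖(star (star S) * star S) ξ‖ := by
  obtain ⟨S₁, W, g, g', h1, h2, h3, h4, e1, e2, e3, e4⟩ := tr (⟨S, hS⟩ : Alg P) ht
  have f1 : S₁.1 = S * g.1 := congrArg Subtype.val e1
  have f2 : S₁.1 = g'.1 * S := congrArg Subtype.val e2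
  have f3 : S - S₁.1 = W.1 * (star S * S) := congrArg Subtype.val e3
  have f4 : S - S₁.1 = S * star S * W.1 := congrArg Subtype.val e4
  refine ⟨S₁.1, S₁.2, h1, ?_, ?_, ?_, ?_⟩
  · rw [f2, ← one_mul ‖S ξ‖]
    exact app_le _ _ h4 ξ
  · rw [f1, star_mul, ← one_mul ‖star S ξ‖]
    exact app_le _ _ ((norm_star _).le.trans h3) ξ
  · rw [f3]
    exact app_le _ _ h2 ξ
  · rw [f4, star_mul, star_mul]
    exact app_le _ _ ((norm_star _).le.trans h2) ξ

theorem cs {Ω : Type*} [Fintype Ω] {a b : Ω → ℝ} {N A B : ℝ} (hN : 0 ≤ N)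
    (ha : ∑ ω, a ω ^ 2 ≤ N * A) (hb : ∑ ω, b ω ^ 2 ≤ N * B) :
    ∑ ω, a ω * b ω ≤ N * (√A * √B) := by
  refine (Real.sum_mul_le_sqrt_mul_sqrt _ _ _).trans ((mul_le_mul (Real.sqrt_le_sqrt ha)
    (Real.sqrt_le_sqrt hb) (Real.sqrt_nonneg _) (Real.sqrt_nonneg _)).trans_eq ?_)
  rw [Real.sqrt_mul hN, Real.sqrt_mul hN]
  linear_combination √A * √B * Real.mul_self_sqrt hN

variable {Ω ι : Type*} [Fintype Ω] [Fintype ι] [DecidableEq ι] {z : Ω → ι → ℂ}

theorem mom2 (h : Phase z 2) (x : ι → H →L[ℂ] H) (ξ : H) :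
    ∑ ω, ‖(∑ i, z ω i • x i) ξ‖ ^ 2 ≤ Fintype.card Ω * m2 x ξ := by
  simp only [ContinuousLinearMap.sum_apply, ContinuousLinearMap.smul_apply]
  exact (h.sum_norm_sq one_le_two _).le

theorem mom4 (h : Phase z 2) (x : ι → H →L[ℂ] H) (ξ : H) :
    ∑ ω, ‖(star (∑ i, z ω i • x i) * ∑ i, z ω i • x i) ξ‖ ^ 2 ≤ Fintype.card Ω * m4 x ξ := by
  have := h.sum_quad le_rfl fun i j => star (x i) (x j ξ)
  rw [sum_comm (f := fun i j => ‖star (x i) (x j ξ)‖ ^ 2)] at this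
  simp only [m4, star_sum, sum_mul_sum, star_smul, smul_mul_assoc, mul_smul_comm, smul_smul,
    ContinuousLinearMap.sum_apply, ContinuousLinearMap.smul_apply, ContinuousLinearMap.mul_apply,
    RCLike.star_def]
  simpa only [mul_comm] using this

omit [Fintype Ω] [DecidableEq ι] in
theorem star_S (x : ι → H →L[ℂ] H) (ω : Ω) :
    star (∑ i, z ω i • x i) = ∑ i, conj (z ω i) • (star x) i := by
  simp only [star_sum, star_smul, RCLike.star_def, Pi.star_apply]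

end F1

open F1 in
theorem f1 : F1Stmt.{u} := by
  intro H _ _ _ P Q ξ β c L c0 L0 hc hL ι _ x y hx hy s t s0 t0
  classical
  obtain ⟨z, hz⟩ : ∃ z : (ι → Fin 3) → ι → ℂ, Phase z 2 := ⟨_, phase_rt ι 2⟩
  have N0 := hz.card_pos
  obtain ⟨S, hS⟩ : ∃ S : (ι → Fin 3) → H →L[ℂ] H, S = fun ω => ∑ i, z ω i • x i := ⟨_, rfl⟩
  obtain ⟨T, hT⟩ : ∃ T : (ι → Fin 3) → H →L[ℂ] H, T = fun ω => ∑ i, conj (z ω i) • y i := ⟨_, rfl⟩
  have SP : ∀ ω, S ω ∈ P := fun ω => hS ▸ sum_mem fun i _ => vn_smul_mem _ (hx i)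
  have TQ : ∀ ω, T ω ∈ Q := fun ω => hT ▸ sum_mem fun i _ => vn_smul_mem _ (hy i)
  have e0 : ∑ ω, β (S ω) (T ω) = (Fintype.card (ι → Fin 3) : ℂ) * ∑ i, β (x i) (y i) := by
    simp only [hS, hT, map_sum, map_smul, LinearMap.sum_apply, LinearMap.smul_apply, smul_eq_mul,
      mul_sum, ← mul_assoc]
    rw [sum_comm]
    refine sum_congr rfl fun j _ => ?_
    rw [sum_comm]
    simp only [← sum_mul, hz.two one_le_two]
    simp
  have pt : ∀ ω, ‖β (S ω) (T ω)‖ ≤ c * s * t + L *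
      (s⁻¹ * (‖(star (star (S ω)) * star (S ω)) ξ‖ * ‖T ω ξ‖) +
        s⁻¹ * (‖(star (S ω) * S ω) ξ‖ * ‖star (T ω) ξ‖) +
        t⁻¹ * (‖star (S ω) ξ‖ * ‖(star (T ω) * T ω) ξ‖) +
        t⁻¹ * (‖S ω ξ‖ * ‖(star (star (T ω)) * star (T ω)) ξ‖)) := fun ω => by
    obtain ⟨a, aP, a1, a2, a3, a4, a5⟩ := trv (SP ω) s0 ξ
    obtain ⟨b, bQ, b1, -, -, b4, b5⟩ := trv (TQ ω) t0 ξ
    have e : β (S ω) (T ω) = β a b + β (S ω - a) (T ω) + β a (T ω - b) := by
      simp only [map_sub, LinearMap.sub_apply]; ring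
    have u1 : ‖β a b‖ ≤ c * s * t := (hc a aP b bQ).trans (by gcongr)
    have u2 := hL _ (sub_mem (SP ω) aP) _ (TQ ω)
    have u3 := hL _ aP _ (sub_mem (TQ ω) bQ)
    have v1 := mul_le_mul_of_nonneg_right a5 (norm_nonneg (T ω ξ))
    have v2 := mul_le_mul_of_nonneg_right a4 (norm_nonneg (star (T ω) ξ))
    have v3 := mul_le_mul a3 b4 (norm_nonneg _) (norm_nonneg _)
    have v4 := mul_le_mul a2 b5 (norm_nonneg _) (norm_nonneg _)
    have v5 := mul_le_mul_of_nonneg_left (add_le_add (add_le_add v1 v2) (add_le_add v3 v4)) L0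
    rw [e]
    linarith [norm_add₃_le (a := β a b) (b := β (S ω - a) (T ω)) (c := β a (T ω - b))]
  have c1 := cs N0.le (mom4 hz.conj' (star x) ξ) (mom2 hz.conj' y ξ)
  have c2 := cs N0.le (mom4 hz x ξ) (mom2 hz.conj'.conj' (star y) ξ)
  have c3 := cs N0.le (mom2 hz.conj' (star x) ξ) (mom4 hz.conj' y ξ)
  have c4 := cs N0.le (mom2 hz x ξ) (mom4 hz.conj'.conj' (star y) ξ)
  have sT : ∀ ω, ∑ i, conj (conj (z ω i)) • (star y) i = star (∑ i, conj (z ω i) • y i) :=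
    fun ω => (star_S (z := fun ω i => conj (z ω i)) y ω).symm
  simp only [sT] at c2 c4
  simp only [← star_S] at c1 c3
  have k := (norm_sum_le _ _).trans (sum_le_sum fun ω (_ : ω ∈ univ) => pt ω)
  rw [e0, norm_mul, Complex.norm_natCast, sum_add_distrib, sum_const, ← mul_sum] at k
  simp only [sum_add_distrib, ← mul_sum, hS, hT, card_univ, nsmul_eq_mul] at k
  have d1 := mul_le_mul_of_nonneg_left (add_le_add c1 c2) (inv_pos.2 s0).le
  have d2 := mul_le_mul_of_nonneg_left (add_le_add c3 c4) (inv_pos.2 t0).le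
  have d3 := mul_le_mul_of_nonneg_left (add_le_add d1 d2) L0
  refine le_of_mul_le_mul_left ?_ N0
  simp only [div_eq_mul_inv]
  linarith

end Vale.Agent.P096
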