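import Vale.Agent.P096.F2a

/-! The operator space Grothendieck inequality for the commutator form. -/

namespace Vale.Agent.P096

open scoped InnerProductSpace ComplexOrder BigOperators
open Filter Topology Vale.Agent.P104 Vale.Agent.P082 Finset

universe u

namespace F2

variable {H : Type u} [NormedAddCommGroup H] [InnerProductSpace ℂ H] [CompleteSpace H]
variable {P M N : VonNeumannAlgebra H} {ξ : H} {Γ : Type u} [Group Γ] {G : ℕ → Finset Γ}
  {ρ σ : Γ →* (H →L[ℂ] H)} {e f r : ℕ → H →L[ℂ] H}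

/-- The product of the first `n` site projections. -/
noncomputable def pp (e : ℕ → H →L[ℂ] H) : ℕ → H →L[ℂ] H
  | 0 => 1
  | n + 1 => pp e n * (star (e n) * e n)

/-- A chain of commuting sites. -/
structure Ch (e : ℕ → H →L[ℂ] H) : Prop where
  he : ∀ n, Hv (e n)
  ee : ∀ n m, n ≠ m → Commute (e n) (e m) ∧ Commute (e n) (star (e m))

theorem pp_comm {y : H →L[ℂ] H} {n : ℕ} (h : ∀ i < n, Commute y (star (e i) * e i)) :
    Commute y (pp e n) := by
  induction n with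
  | zero => exact Commute.one_right y
  | succ n ih => exact (ih fun i hi => h i (by omega)).mul_right (h n (by omega))

theorem pp_mem (h : ∀ i, e i ∈ P) (n : ℕ) : pp e n ∈ P := by
  induction n with
  | zero => exact one_mem P
  | succ n ih => exact mul_mem ih (mul_mem (star_mem (h n)) (h n))

theorem Ch.c1 (h : Ch e) {i j : ℕ} (hij : i ≠ j) : Commute (e i) (star (e j) * e j) :=
  (h.ee i j hij).2.mul_right (h.ee i j hij).1

theorem Ch.c2 (h : Ch e) {i j : ℕ} (hij : i ≠ j) : Commute (star (e i)) (star (e j) * e j) :=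
  (h.ee i j hij).1.star_star.mul_right (h.ee j i hij.symm).2.symm

theorem Ch.c3 (h : Ch e) (i n : ℕ) : Commute (star (e i) * e i) (pp e n) := pp_comm fun j _ => by
  rcases eq_or_ne i j with rfl | hij
  · exact Commute.refl _
  · exact (h.c2 hij).mul_left (h.c1 hij)

theorem Ch.st (h : Ch e) (n : ℕ) : star (pp e n) = pp e n := by
  induction n with
  | zero => exact star_one _
  | succ n ih => rw [pp, star_mul, star_mul, star_star, ih, h.c3]

theorem Ch.absorb (h : Ch e) {l n : ℕ} (hl : l < n) : star (e l) * e l * pp e n = pp e n := by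
  induction n with
  | zero => omega
  | succ n ih =>
    rcases eq_or_ne l n with rfl | hij
    · rw [pp, ← mul_assoc, h.c3, mul_assoc, mul_assoc (star _), (h.he l).r3']
    · rw [pp, ← mul_assoc, ih (by omega)]

theorem Ch.kill (h : Ch e) {l n : ℕ} (hl : l < n) : star (e l) * pp e n = 0 := by
  rw [← h.absorb hl, mul_assoc, (h.he l).r2]

theorem Ch.idem (h : Ch e) (n : ℕ) : pp e n * pp e n = pp e n := by
  induction n with
  | zero => exact mul_one _
  | succ n ih =>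
    conv_lhs => rw [pp.eq_2 e n, mul_assoc, ← pp.eq_2 e n, h.absorb n.lt_succ_self, pp.eq_2 e n,
      ← mul_assoc, ih]
    rfl

theorem Ch.ne (h : Ch e) (h1 : (1 : H →L[ℂ] H) ≠ 0) (n : ℕ) : pp e n ≠ 0 := by
  induction n with
  | zero => exact h1
  | succ n ih =>
    intro h0
    have c : Commute (e n) (pp e n) := pp_comm fun i hi => h.c1 (by omega)
    have h2 : pp e n * (e n * star (e n)) = 0 := by
      have := congrArg (fun a => e n * a * star (e n)) h0
      simp only [pp, mul_zero, zero_mul] at this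
      rw [← mul_assoc, c.eq, mul_assoc (pp e n), (h.he n).r3', mul_assoc] at this
      exact this
    refine ih ?_
    rw [← mul_one (pp e n), ← (h.he n).sum, mul_add, h2, add_zero]
    exact h0

/-- Left and right chains paired by the vector `ξ`. -/
structure Dbl (e f : ℕ → H →L[ℂ] H) (ξ : H) : Prop where
  l : Ch e
  r : Ch f
  c : ∀ i j, Commute (e i) (f j) ∧ Commute (e i) (star (f j))
  v1 : ∀ i, star (f i) ξ = e i ξ
  v2 : ∀ i, star (e i) ξ = f i ξ

theorem Dbl.swap (h : Dbl e f ξ) : Dbl f e ξ :=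
  ⟨h.r, h.l, fun i j => ⟨(h.c j i).1.symm, by simpa using (h.c j i).2.star_star.symm⟩, h.v2, h.v1⟩

theorem dbl (h : Rep P ξ G ρ σ e r) : Dbl e (fun n => star (r n)) ξ := by
  refine ⟨⟨h.he, h.ee⟩, ⟨fun n => ⟨by simpa using (h.hr n).iso', (h.hr n).sq',
    by simpa [add_comm] using (h.hr n).sum⟩, fun n m hnm => ⟨(h.rr n m hnm).1.star_star,
    by simpa using (h.rr m n hnm.symm).2.symm⟩⟩, fun i j => ⟨(h.er i j).2,
    by simpa using (h.er i j).1⟩, fun i => by simpa using (h.vac i).1,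
    fun i => by simpa using (h.vac i).2⟩

theorem Dbl.cp (h : Dbl e f ξ) (i n : ℕ) :
    Commute (f i) (pp e n) ∧ Commute (star (f i)) (pp e n) :=
  ⟨pp_comm fun j _ => (h.swap.c i j).2.mul_right (h.c j i).1.symm,
    pp_comm fun j _ => (h.c j i).1.star_star.symm.mul_right (h.c j i).2.symm⟩

theorem ca {a b : H →L[ℂ] H} (h : Commute a b) (η : H) : a (b η) = b (a η) :=
  DFunLike.congr_fun h.eq η

theorem Dbl.pv (h : Dbl e f ξ) (n : ℕ) : pp e n ξ = pp f n ξ := by
  induction n with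
  | zero => rfl
  | succ n ih =>
    simp only [pp, mul_apply_eq_comp]
    rw [← h.v1, ca (h.c n n).1.star_star, h.v2, ← ca (h.cp n n).2, ← ca (h.cp n n).1, ih,
      ← mul_apply_eq_comp (star _), ca (h.r.c3 n n), mul_apply_eq_comp]

theorem Dbl.vv (h : Dbl e f ξ) (l n : ℕ) : star (e l * pp e n) ξ = (f l * pp f n) ξ := by
  rw [star_mul, h.l.st, mul_apply_eq_comp, mul_apply_eq_comp, h.v2, ← ca (h.cp l n).1, h.pv]

theorem Ch.tr (h : Ch e) (n : ℕ) : ⟪ξ, pp e n ξ⟫_ℂ = ((‖pp e n ξ‖ ^ 2 : ℝ) : ℂ) := by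
  conv_lhs => rw [← h.idem, mul_apply_eq_comp, ← inner_star_left, h.st, inner_self_eq_norm_sq_to_K]
  norm_cast

theorem Ch.same (h : Ch e) {l n : ℕ} (hl : l < n) :
    star (e l * pp e n) * (e l * pp e n) = pp e n := by
  rw [star_mul, h.st, mul_assoc, ← mul_assoc (star _), h.absorb hl, h.idem]

theorem Dbl.un (h : Dbl e f ξ) (he : ∀ i, e i ∈ P) (hf : ∀ i, f i ∈ P.commutant) (n : ℕ) :
    Un P ξ (fun l : Fin n => e l * pp e n) (pp e n) (‖pp e n ξ‖ ^ 2) := by
  refine ⟨fun l => mul_mem (he l) (pp_mem he n), fun l => h.l.same l.2, fun l l' hl => ?_,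
    fun l => by rw [mul_assoc, h.l.idem], h.l.tr n, fun l => ?_,
    fun l => ⟨_, mul_mem (hf l) (pp_mem hf n), h.vv l n, (h.swap.vv l n).symm⟩⟩
  · rw [star_mul, mul_assoc, ← mul_assoc (star (e l)),
      ← (h.l.ee l' l fun h' => hl (Fin.ext h'.symm)).2.eq, mul_assoc, h.l.kill l.2, mul_zero, mul_zero]
  · rw [mul_apply_eq_comp, ← inner_star_left, h.vv, ← inner_star_right, ← mul_apply_eq_comp,
      h.r.same l.2, ← h.pv, h.l.tr]

theorem Dbl.un1 (h : Dbl e f ξ) (he : ∀ i, e i ∈ P) (hf : ∀ i, f i ∈ P.commutant) (n : ℕ) :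
    Un P ξ (fun _ : Fin 1 => pp e n) (pp e n) (‖pp e n ξ‖ ^ 2) :=
  ⟨fun _ => pp_mem he n, fun _ => by rw [h.l.st, h.l.idem], fun l l' hl => absurd (Subsingleton.elim _ _) hl,
    fun _ => h.l.idem n, h.l.tr n, fun _ => by rw [h.l.st, h.l.idem, h.l.tr],
    fun _ => ⟨_, pp_mem hf n, by rw [h.l.st, h.pv], by rw [h.r.st, h.pv]⟩⟩

theorem Un.proj {n : ℕ} {w : Fin n → H →L[ℂ] H} {p : H →L[ℂ] H} {θ : ℝ} (hw : Un P ξ w p θ) :
    IsStarProjection (∑ l, w l * star (w l)) :=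
  ⟨hw.PP, by simp [IsSelfAdjoint, star_sum]⟩

theorem Un.Pv {n : ℕ} {w : Fin n → H →L[ℂ] H} {p : H →L[ℂ] H} {θ : ℝ} (hw : Un P ξ w p θ)
    (l : Fin n) : (∑ l, w l * star (w l)) * w l = w l := by
  rw [sum_mul, sum_eq_single l (fun l' _ h => by rw [mul_assoc, hw.ne _ _ h, mul_zero]) (by simp),
    mul_assoc, hw.same, hw.vp]

/-- The target inequality. -/
def TI (M N : VonNeumannAlgebra H) (ξ : H) (L : ℝ) : Prop := ∀ x ∈ M, ∀ y ∈ N.commutant,
  ‖⟪ξ, (x * y - y * x) ξ⟫_ℂ‖ ≤ L * (‖star x ξ‖ * ‖y ξ‖ + ‖x ξ‖ * ‖star y ξ‖)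

theorem sand {a b a' b' x y : H →L[ℂ] H} (h1 : Commute x a') (h2 : Commute x b') (h3 : Commute a y)
    (h4 : Commute b y) (h5 : Commute a a') (h6 : Commute a b') (h7 : Commute b a')
    (h8 : Commute b b') :
    a * x * b * (a' * y * b') - a' * y * b' * (a * x * b) = a * a' * (x * y - y * x) * (b * b') := by
  have e1 : a * x * b * (a' * y * b') = a * a' * (x * y) * (b * b') := by
    simp only [mul_assoc]
    rw [h7.left_comm, h4.left_comm, h1.left_comm]
  have e2 : a' * y * b' * (a * x * b) = a * a' * (y * x) * (b * b') := by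
    simp only [mul_assoc]
    rw [h6.symm.left_comm, h2.symm.left_comm, h8.symm.eq, h3.symm.left_comm, h5.symm.left_comm]
  rw [e1, e2, mul_sub, sub_mul]

theorem step (h1 : F1Stmt.{u}) (hM : SPos M ξ G ρ σ e r) (hN : SPos N ξ G ρ σ e r) {c L : ℝ}
    (c0 : 0 ≤ c) (L0 : 0 ≤ L)
    (hc : ∀ x ∈ M, ∀ y ∈ N.commutant, ‖x * y - y * x‖ ≤ c * ‖x‖ * ‖y‖) (hL : TI M N ξ L)
    {x y : H →L[ℂ] H} (hx : x ∈ M) (hy : y ∈ N.commutant) {n : ℕ} (n0 : 0 < n)
    (x0 : 0 < ‖x ξ‖) (y0 : 0 < ‖y ξ‖) :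
    √n * ‖⟪ξ, (x * y - y * x) ξ⟫_ℂ‖ ≤ 32 * c * √(n * ‖x ξ‖ ^ 2 + ‖star x ξ‖ ^ 2) *
      √(n * ‖y ξ‖ ^ 2 + ‖star y ξ‖ ^ 2) + √n * (L / 2) * (‖star x ξ‖ * ‖y ξ‖ + ‖x ξ‖ * ‖star y ξ‖) := by
  have d := dbl hM.toRep
  set f : ℕ → H →L[ℂ] H := fun n => star (r n) with hf
  have fM : ∀ i, f i ∈ M.commutant := fun i => star_mem (hM.rM i)
  have fN : ∀ i, f i ∈ N.commutant := fun i => star_mem (hN.rM i)
  have eN : ∀ i, e i ∈ N.commutant.commutant := fun i => by rw [N.commutant_commutant]; exact hN.eM i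
  have u1 := d.un hM.eM fM n
  have u2 := d.un1 hM.eM fM n
  have u3 := d.swap.un fN eN n
  have u4 := d.swap.un1 fN eN n
  have u5 := d.un hN.eM fN n
  have u6 := d.swap.un fM (fun i => by rw [M.commutant_commutant]; exact hM.eM i) n
  rw [← d.pv] at u3 u4 u6
  have s1 := side hM
  have s2 := (side hN).swap
  set θ := ‖pp e n ξ‖ ^ 2 with hθ
  set p := pp e n with hp
  set v : Fin n → H →L[ℂ] H := fun l => e l * p with hv
  set v' : Fin n → H →L[ℂ] H := fun l => f l * pp f n with hv'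
  set Q := ∑ l, v l * star (v l) with hQ
  have θ0 : 0 < θ := by
    refine pow_pos (norm_pos_iff.2 fun h => d.l.ne (fun h1 => ?_) n (hM.cs.2 _ (pp_mem hM.eM n) h)) 2
    have : ‖(1 : H →L[ℂ] H) ξ‖ = 1 := hM.unit
    rw [h1, zero_apply, norm_zero] at this
    exact zero_ne_one this
  have nr : (0 : ℝ) < n := by exact_mod_cast n0
  have sn : 0 < √(n : ℝ) := Real.sqrt_pos.2 nr
  set μ : ℝ := (√(n : ℝ))⁻¹ with hμ
  have μ0 : 0 < μ := inv_pos.2 sn
  have μn : μ * √n = 1 := inv_mul_cancel₀ sn.ne'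
  have nn : √(n : ℝ) * √n = n := Real.mul_self_sqrt nr.le
  have pM : p ∈ M := pp_mem hM.eM n
  have pN : p ∈ N := pp_mem hN.eM n
  have QM : Q ∈ M := sum_mem fun l _ => mul_mem (u1.mem l) (star_mem (u1.mem l))
  have QN : Q ∈ N := sum_mem fun l _ => mul_mem (u5.mem l) (star_mem (u5.mem l))
  have pj : IsStarProjection p := ⟨d.l.idem n, d.l.st n⟩
  have pQ : p * Q = 0 := by
    rw [hQ, mul_sum]
    refine sum_eq_zero fun l _ => ?_
    have := congrArg star (d.l.kill l.2)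
    rw [star_mul, d.l.st, star_star, star_zero] at this
    simp only [hv]
    rw [← mul_assoc, ← mul_assoc, this, zero_mul, zero_mul]
  have Qp : Q * p = 0 := by
    have := congrArg star pQ
    rwa [star_mul, pj.isSelfAdjoint.star_eq, show star Q = Q from u1.proj.isSelfAdjoint.star_eq,
      star_zero] at this
  let β : (H →L[ℂ] H) →ₗ[ℂ] (H →L[ℂ] H) →ₗ[ℂ] ℂ := LinearMap.mk₂ ℂ
    (fun x y => (μ : ℂ) * ⟪ξ, (Q * x * p * y - y * (Q * x * p)) ξ⟫_ℂ)
    (fun a b y => by simp only [mul_add, add_mul, sub_apply, add_apply, inner_sub_right,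
      inner_add_right]; ring)
    (fun t a y => by simp only [mul_smul_comm, smul_mul_assoc, sub_apply, smul_apply,
      inner_sub_right, inner_smul_right, smul_eq_mul]; ring)
    (fun a b y => by simp only [mul_add, add_mul, sub_apply, add_apply, inner_sub_right,
      inner_add_right]; ring)
    (fun t a y => by simp only [mul_smul_comm, smul_mul_assoc, sub_apply, smul_apply,
      inner_sub_right, inner_smul_right, smul_eq_mul]; ring)
  have hβ : ∀ x y, β x y = (μ : ℂ) * ⟪ξ, (Q * x * p * y - y * (Q * x * p)) ξ⟫_ℂ := fun _ _ => rfl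
  have b1 : ∀ x ∈ M, ∀ y ∈ N.commutant, ‖β x y‖ ≤ 2 * θ * c * ‖x‖ * ‖y‖ := fun x hx y hy => by
    set k := p + (μ : ℂ) • Q with hk
    have ks : star k = k := by
      rw [hk, star_add, star_smul, pj.isSelfAdjoint.star_eq, u1.proj.isSelfAdjoint.star_eq,
        Complex.star_def, Complex.conj_ofReal]
    have ky := commute_of_mem (add_mem pN (vn_smul_mem (μ : ℂ) QN)) hy
    rw [← hk] at ky
    have k1 : k * Q = (μ : ℂ) • Q := by rw [hk, add_mul, pQ, zero_add, smul_mul_assoc, u1.PP]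
    have k2 : p * k = p := by rw [hk, mul_add, mul_smul_comm, pQ, smul_zero, add_zero, d.l.idem]
    have k3 : ‖k ξ‖ ^ 2 = 2 * θ := by
      rw [nsq, ks]
      conv_lhs => rw [hk, add_mul, ← hk, k2, smul_mul_assoc, hk, mul_add, Qp, zero_add,
        mul_smul_comm, u1.PP, add_apply, inner_add_right, smul_apply, smul_apply, inner_smul_right,
        inner_smul_right, u1.tr, u1.trP]
      simp only [← Complex.ofReal_mul, ← Complex.ofReal_add, Complex.ofReal_re]
      rw [← nn]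
      linear_combination (θ * (μ * √n + 1)) * μn
    have e1 : β x y = ⟪k ξ, (Q * x * p * y - y * (Q * x * p)) (k ξ)⟫_ℂ := by
      have : k * (Q * x * p * y - y * (Q * x * p)) * k =
          (μ : ℂ) • (Q * x * p * y - y * (Q * x * p)) := by
        have kz : k * (Q * x * p) * k = (μ : ℂ) • (Q * x * p) := by
          rw [← mul_assoc, ← mul_assoc, k1, mul_assoc _ p k, k2, smul_mul_assoc, smul_mul_assoc]
        calc _ = k * (Q * x * p) * (y * k) - (k * y) * (Q * x * p) * k := by noncomm_ring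
          _ = k * (Q * x * p) * (k * y) - (y * k) * (Q * x * p) * k := by rw [ky]
          _ = k * (Q * x * p) * k * y - y * (k * (Q * x * p) * k) := by noncomm_ring
          _ = _ := by rw [kz, smul_mul_assoc, mul_smul_comm, smul_sub]
      rw [hβ, ← inner_smul_right, ← smul_apply, ← this, mul_apply_eq_comp, mul_apply_eq_comp,
        ← inner_star_left, ks]
    rw [e1]
    have b2 := hc _ (mul_mem (mul_mem QM hx) pM) y hy
    have b3 := nm_le (nm_le u1.proj.norm_le (le_refl ‖x‖)) pj.norm_le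
    refine (norm_inner_le_norm _ _).trans ?_
    have b4 := ContinuousLinearMap.le_of_opNorm_le _ (b2.trans (mul_le_mul_of_nonneg_right
      (mul_le_mul_of_nonneg_left b3 c0) (norm_nonneg _))) (k ξ)
    refine (mul_le_mul_of_nonneg_left b4 (norm_nonneg _)).trans (le_of_eq ?_)
    linear_combination (c * ‖x‖ * ‖y‖) * k3
  have b2 : ∀ x ∈ M, ∀ y ∈ N.commutant,
      ‖β x y‖ ≤ μ * L * (‖star x ξ‖ * ‖y ξ‖ + ‖x ξ‖ * ‖star y ξ‖) := fun x hx y hy => by
    rw [hβ, norm_mul, Complex.norm_real, Real.norm_of_nonneg μ0.le, mul_assoc μ]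
    refine mul_le_mul_of_nonneg_left ((hL _ (mul_mem (mul_mem QM hx) pM) y hy).trans
      (mul_le_mul_of_nonneg_left (add_le_add (mul_le_mul_of_nonneg_right ?_ (norm_nonneg _))
        (mul_le_mul_of_nonneg_right ?_ (norm_nonneg _))) L0)) μ0.le
    · have q1 : Q ξ = (∑ l, v' l * star (v' l)) ξ := by
        simp only [hQ, _root_.sum_apply, mul_apply_eq_comp]
        refine sum_congr rfl fun l _ => ?_
        rw [d.vv, ca (commute_of_mem (u1.mem l) (u6.mem l)), d.swap.vv]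
      rw [star_mul, star_mul, u1.proj.isSelfAdjoint.star_eq, pj.isSelfAdjoint.star_eq,
        mul_apply_eq_comp, mul_apply_eq_comp, q1, ca (commute_of_mem (star_mem hx)
          (sum_mem fun l _ => mul_mem (u6.mem l) (star_mem (u6.mem l))))]
      exact (p.le_of_opNorm_le pj.norm_le _).trans (by
        simpa using ContinuousLinearMap.le_of_opNorm_le _ u6.proj.norm_le _)
    · rw [mul_apply_eq_comp, mul_apply_eq_comp, hp, d.pv, ca (commute_of_mem hx (pp_mem fM n))]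
      exact (Q.le_of_opNorm_le u1.proj.norm_le _).trans (by
        simpa using ContinuousLinearMap.le_of_opNorm_le _
          (show IsStarProjection (pp f n) from ⟨d.r.idem n, d.r.st n⟩).norm_le _)
  have am : ∀ {R : VonNeumannAlgebra H} {τ : Γ →* (H →L[ℂ] H)} {m : ℕ} {w : Fin m → H →L[ℂ] H},
      (∀ g, τ g ∈ R) → (∀ l, w l ∈ R) → ∀ k a, al G τ k w a ∈ R := fun h h' k a =>
    vn_smul_mem _ (mul_mem (h' _) (h _))
  have av : ∀ {m : ℕ} {w w' : Fin m → H →L[ℂ] H}, (∀ l, w l ∈ M) →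
      (∀ l, star (w' l) ξ = w l ξ) → (∀ l, w' l ∈ M.commutant) →
      ∀ k a, star (al G σ k w' a) ξ = al G ρ k w a ξ := fun h h' h'' k a => by
    rw [star_al hM.σ_star, al, smul_apply, smul_apply, mul_apply_eq_comp, mul_apply_eq_comp, h',
      ← ca (commute_of_mem (h _) (hM.σM _)), s1.flip]
  have e2 : ∀ k, ∑ i, β (fam G ρ k v (fun _ : Fin 1 => p) x i)
      (fam G σ k v' (fun _ : Fin 1 => pp f n) y i) = (μ : ℂ) *
      ⟪(∑ a, star (al G ρ k v a) * al G ρ k v a) ξ, (x * y - y * x)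
        ((∑ a, star (al G ρ k (fun _ : Fin 1 => p) a) * al G ρ k (fun _ : Fin 1 => p) a) ξ)⟫_ℂ :=
      fun k => by
    simp only [_root_.sum_apply, sum_inner, map_sum, inner_sum, mul_sum]
    rw [Fintype.sum_prod_type_right]
    refine sum_congr rfl fun b _ => sum_congr rfl fun a _ => ?_
    have a1 := am hM.ρM u1.mem k a
    have a2 := star_mem (am hM.ρM u2.mem k b)
    have a3 := am hM.σM u6.mem k a
    have a4 := star_mem (am (w := fun _ : Fin 1 => pp f n) hM.σM (fun _ => pp_mem fM n) k b)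
    have e3 : Q * fam G ρ k v (fun _ : Fin 1 => p) x (a, b) * p =
        fam G ρ k v (fun _ : Fin 1 => p) x (a, b) := by
      simp only [fam, star_al hM.ρ_star]
      simp only [al, smul_mul_assoc, mul_smul_comm, mul_assoc, hp, d.l.st, d.l.idem]
      rw [← mul_assoc Q, u1.Pv]
    rw [hβ, e3]
    simp only [fam]
    rw [sand (commute_of_mem hx a3) (commute_of_mem hx a4)
      (commute_of_mem (am hN.ρM u5.mem k a) hy)
      (commute_of_mem (star_mem (am (w := fun _ : Fin 1 => p) hN.ρM (fun _ => pN) k b)) hy)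
      (commute_of_mem a1 a3) (commute_of_mem a1 a4) (commute_of_mem a2 a3) (commute_of_mem a2 a4)]
    simp only [mul_apply_eq_comp]
    rw [av u2.mem (fun _ => by rw [d.r.st, hp, d.pv]) (fun _ => pp_mem fM n), ← inner_star_left,
      ← inner_star_left, ← ca (commute_of_mem (star_mem a1) (star_mem a3)),
      av u1.mem (fun l => d.swap.vv l n) u6.mem]
  obtain ⟨B, hB⟩ : ∃ B, B = n * ‖x ξ‖ ^ 2 + ‖star x ξ‖ ^ 2 := ⟨_, rfl⟩
  obtain ⟨D, hD⟩ : ∃ D, D = n * ‖y ξ‖ ^ 2 + ‖star y ξ‖ ^ 2 := ⟨_, rfl⟩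
  have B0 : 0 < √B := Real.sqrt_pos.2 (by rw [hB]; positivity)
  have D0 : 0 < √D := Real.sqrt_pos.2 (by rw [hD]; positivity)
  have t0 : 0 < √θ := Real.sqrt_pos.2 θ0
  have key := fun k => h1 H M N.commutant ξ β (2 * θ * c) (μ * L) (by positivity) (by positivity)
    b1 b2 _ (fam G ρ k v (fun _ : Fin 1 => p) x) (fam G σ k v' (fun _ : Fin 1 => pp f n) y)
    (fun i => mul_mem (mul_mem (am hM.ρM u1.mem k _) hx) (star_mem (am hM.ρM u2.mem k _)))
    (fun i => mul_mem (mul_mem (am hN.σM u3.mem k _) hy) (star_mem (am hN.σM u4.mem k _)))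
    (4 * (√θ * √B)) (4 * (√θ * √D)) (by positivity) (by positivity)
  simp only [e2, star_fam, m2_swap, m4_swap] at key
  have l0 := (((sv_in s1 u1).lim ξ).inner (𝕜 := ℂ) (((x * y - y * x).continuous.tendsto _).comp
    ((sv_in s1 u2).lim ξ))).const_mul (μ : ℂ) |>.norm
  have q2 : ∀ {a : ℝ}, 0 ≤ a → √(n * θ ^ 2 * a ^ 2) = √n * θ * a := fun h => by
    rw [Real.sqrt_mul (by positivity), Real.sqrt_mul nr.le, Real.sqrt_sq θ0.le, Real.sqrt_sq h]
  have q4 : ∀ {a b : ℝ}, 0 ≤ a → √(n * θ ^ 2 * a ^ 2 * (θ * b)) = √n * θ * a * (√θ * √b) :=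
    fun h => by rw [Real.sqrt_mul (by positivity), q2 h, Real.sqrt_mul θ0.le]
  have x1 := (lim2 s1 u1 u2 hx).sqrt
  have x2 := (lim2 s1 u2 u1 (star_mem hx)).sqrt
  have x3 := (lim4 s1 u1 u2 hx).sqrt
  have x4 := (lim4 s1 u2 u1 (star_mem hx)).sqrt
  have y1 := (lim2 s2 u3 u4 hy).sqrt
  have y2 := (lim2 s2 u4 u3 (star_mem hy)).sqrt
  have y3 := (lim4 s2 u3 u4 hy).sqrt
  have y4 := (lim4 s2 u4 u3 (star_mem hy)).sqrt
  simp only [Nat.cast_one, one_mul, mul_one, star_star, q2 (norm_nonneg _), q4 (norm_nonneg _),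
    add_comm (‖star x ξ‖ ^ 2), add_comm (‖star y ξ‖ ^ 2), ← hB, ← hD] at x1 x2 x3 x4 y1 y2 y3 y4
  have fin := le_of_tendsto_of_tendsto' l0 (((((x4.mul y1).add (x3.mul y2)).div_const _).add
    (((x2.mul y3).add (x1.mul y4)).div_const _)).const_mul (μ * L) |>.const_add _) key
  simp only [smul_apply, one_apply_eq_self, map_smul, inner_smul_left, inner_smul_right, norm_mul,
    Complex.norm_real, Complex.conj_ofReal, Real.norm_eq_abs, Nat.cast_one, one_mul,
    abs_of_pos μ0, abs_of_pos θ0, abs_of_pos nr] at fin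
  rw [← hB, ← hD]
  have tt : √θ * √θ = θ := Real.mul_self_sqrt θ0.le
  refine le_of_mul_le_mul_left ?_ (pow_pos θ0 2)
  generalize √(n : ℝ) = a at *
  generalize √θ = b at *
  have a1 : μ = a⁻¹ := hμ
  rw [← nn, a1] at fin
  refine (le_of_eq ?_).trans (fin.trans (le_of_eq ?_))
  · field_simp
  · rw [← tt]
    field_simp
    ring

theorem arith {a a' b b' n : ℝ} (a0 : 0 < a) (b0 : 0 < b) (a1 : 0 ≤ a') (b1 : 0 ≤ b') (n0 : 0 < n)
    (h1 : a' * b' ≤ n * (a * b)) (h2 : n * (a * b) ≤ 2 * (a' * b')) :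
    √(n * a ^ 2 + a' ^ 2) * √(n * b ^ 2 + b' ^ 2) ≤ √n * (2 * (a' * b + a * b')) := by
  rw [← Real.sqrt_mul (by positivity), ← Real.sqrt_sq (x := 2 * (a' * b + a * b')) (by positivity),
    ← Real.sqrt_mul n0.le]
  refine Real.sqrt_le_sqrt ?_
  have h3 := mul_le_mul_of_nonneg_left h2 (show 0 ≤ n * (a * b) by positivity)
  have h4 := mul_le_mul_of_nonneg_left h1 (show 0 ≤ a' * b' by positivity)
  have h5 : 0 ≤ n * (a' * b) ^ 2 := by positivity
  have h6 : 0 ≤ n * (a * b') ^ 2 := by positivity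
  have h7 : 0 ≤ n * (a * b * (a' * b')) := by positivity
  nlinarith

theorem half (h1 : F1Stmt.{u}) (hM : SPos M ξ G ρ σ e r) (hN : SPos N ξ G ρ σ e r) {c L : ℝ}
    (c0 : 0 ≤ c) (L0 : 0 ≤ L)
    (hc : ∀ x ∈ M, ∀ y ∈ N.commutant, ‖x * y - y * x‖ ≤ c * ‖x‖ * ‖y‖) (hL : TI M N ξ L) :
    TI M N ξ (64 * c + L / 2) := by
  have key : ∀ x ∈ M, ∀ y ∈ N.commutant, x ≠ 0 → y ≠ 0 →
      ‖x ξ‖ * ‖y ξ‖ ≤ ‖star x ξ‖ * ‖star y ξ‖ → ‖⟪ξ, (x * y - y * x) ξ⟫_ℂ‖ ≤
        (64 * c + L / 2) * (‖star x ξ‖ * ‖y ξ‖ + ‖x ξ‖ * ‖star y ξ‖) := fun x hx y hy x0 y0 h => by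
    have x1 : 0 < ‖x ξ‖ := norm_pos_iff.2 fun h => x0 (hM.cs.2 x hx h)
    have y1 : 0 < ‖y ξ‖ := norm_pos_iff.2 fun h => y0 ((cs_comm hN.cs).2 y hy h)
    have xy := mul_pos x1 y1
    set q := ‖star x ξ‖ * ‖star y ξ‖ / (‖x ξ‖ * ‖y ξ‖) with hq
    have q1 : 1 ≤ q := (one_le_div xy).2 h
    have q2 : q * (‖x ξ‖ * ‖y ξ‖) = ‖star x ξ‖ * ‖star y ξ‖ := div_mul_cancel₀ _ xy.ne'
    have n1 := Nat.le_ceil q
    have n2 := (Nat.ceil_lt_add_one (zero_le_one.trans q1)).le
    have n0 : 0 < ⌈q⌉₊ := Nat.ceil_pos.2 (by linarith)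
    have nr : (0 : ℝ) < ⌈q⌉₊ := by linarith
    have s1 := step h1 hM hN c0 L0 hc hL hx hy n0 x1 y1
    have s2 := arith x1 y1 (norm_nonneg (star x ξ)) (norm_nonneg (star y ξ)) nr (by nlinarith)
      (by nlinarith)
    refine le_of_mul_le_mul_left (s1.trans ?_) (Real.sqrt_pos.2 nr)
    nlinarith [mul_le_mul_of_nonneg_left s2 c0]
  intro x hx y hy
  rcases eq_or_ne x 0 with rfl | x0
  · simp
  rcases eq_or_ne y 0 with rfl | y0
  · simp
  rcases le_total (‖x ξ‖ * ‖y ξ‖) (‖star x ξ‖ * ‖star y ξ‖) with h | h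
  · exact key x hx y hy x0 y0 h
  have := key _ (star_mem hx) _ (star_mem hy) (star_ne_zero.2 x0) (star_ne_zero.2 y0)
    (by simpa only [star_star] using h)
  rw [← star_mul, ← star_mul, ← star_sub, inner_star_right, norm_inner_symm, ← neg_sub, neg_apply,
    inner_neg_right, norm_neg, star_star, star_star, add_comm (‖x ξ‖ * _)] at this
  exact this

end F2

open F2 in
theorem fS (h1 : F1Stmt.{u}) : FStmt.{u} := by
  refine ⟨128, by norm_num, fun H _ _ _ M N ξ Γ _ G ρ σ e r c hM hN c0 hc x hx y hy => ?_⟩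
  have h : ∀ j : ℕ, TI M N ξ (128 * c + (1 / 2) ^ j) := fun j => by
    induction j with
    | zero =>
      intro x _ y _
      rw [sub_apply, inner_sub_right, mul_apply_eq_comp, mul_apply_eq_comp, ← inner_star_left x ξ,
        ← inner_star_left y ξ (x ξ)]
      have h1 := norm_inner_le_norm (𝕜 := ℂ) (star x ξ) (y ξ)
      have h2 := norm_inner_le_norm (𝕜 := ℂ) (star y ξ) (x ξ)
      have h3 : 0 ≤ c * (‖star x ξ‖ * ‖y ξ‖ + ‖x ξ‖ * ‖star y ξ‖) := by positivity
      refine (norm_sub_le _ _).trans ?_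
      nlinarith
    | succ j ih =>
      have := half h1 hM hN c0 (by positivity) hc ih
      rwa [show 64 * c + (128 * c + (1 / 2) ^ j) / 2 = 128 * c + (1 / 2) ^ (j + 1) by ring] at this
  have l := ((tendsto_pow_atTop_nhds_zero_of_lt_one (r := (1 / 2 : ℝ)) (by norm_num)
    (by norm_num)).const_add (128 * c)).mul_const (‖star x ξ‖ * ‖y ξ‖ + ‖x ξ‖ * ‖star y ξ‖)
  rw [add_zero] at l
  exact ge_of_tendsto' l fun j => h j x hx y hy

end Vale.Agent.P096
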