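import Vale.Agent.P096.Dist
import Vale.Agent.P132.L0a
import Vale.Agent.P082.Base

/-! A robust form of the theorem of Kadison and Sakai for type III factors. -/

namespace Vale.Agent.P096

open scoped InnerProductSpace ComplexOrder
open Vale.Agent.P104 Vale.Agent.P082

universe u

variable {H : Type u} [NormedAddCommGroup H] [InnerProductSpace ℂ H] [CompleteSpace H]
  {M : VonNeumannAlgebra H}

theorem h1_near (hM : P132.AllEq M) {x : H →L[ℂ] H} (xM : x ∈ M) (hx : IsSelfAdjoint x) {r γ : ℝ}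
    (hr : r ∈ spectrum ℝ x) (γ0 : 0 < γ) :
    ∃ w ∈ M, star w * w = 1 ∧ ‖(x - (r : ℂ) • 1) * w‖ ≤ γ := by
  let k : ℝ → ℝ := fun t => max 0 (γ - |t - r|)
  have kc : Continuous k := by fun_prop
  obtain ⟨e, e1, e2, -, e4, e5⟩ := P132.L.ex_range (a := cfc k x) (cfc_predicate k x)
  have eM : e ∈ M := mem_of_commute fun y hy =>
    e5 y (Commute.cfc_real (commute_of_mem xM hy) k)
      (Commute.cfc_real (commute_of_mem xM (star_mem hy)) k)
  have e0 : e ≠ 0 := fun h => by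
    have := norm_apply_le_norm_cfc k x hr
    rw [← e2, h, zero_mul, norm_zero, norm_le_zero_iff] at this
    simp [k, γ0.le, γ0.ne'] at this
  obtain ⟨w, wM, w1, w2⟩ := hM e eM e1 e0
  refine ⟨w, wM, w1, ?_⟩
  let q : ℝ → ℝ := fun t => max (-γ) (min γ (t - r))
  have e6 : x - (r : ℂ) • 1 = cfc (fun t : ℝ => t - r) x := by
    rw [cfc_sub _ _ x, cfc_id' ℝ x, cfc_const r x, Algebra.algebraMap_eq_smul_one,
      Complex.coe_smul]
  have e7 := e4 (x - (r : ℂ) • 1 - cfc q x) (by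
    rw [e6, ← cfc_sub _ _ x, ← cfc_mul _ _ x, ← cfc_zero ℝ x]
    refine cfc_congr fun t _ => ?_
    rcases le_total γ |t - r| with h | h
    · simp [k, h]
    · have := abs_le.1 h
      simp [q, this.1, this.2])
  rw [sub_mul, sub_eq_zero] at e7
  have e8 : e * w = w := by rw [← w2, mul_assoc, w1, mul_one]
  have w3 : ‖w‖ ≤ 1 := by
    have := CStarRing.norm_star_mul_self (x := w)
    rw [w1] at this
    nlinarith [norm_nonneg w, ContinuousLinearMap.norm_id_le (𝕜 := ℂ) (E := H),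
      show ‖(1 : H →L[ℂ] H)‖ ≤ 1 from ContinuousLinearMap.norm_id_le]
  rw [← e8, ← mul_assoc, e7, mul_assoc, e8]
  exact (norm_mul_le _ _).trans ((mul_le_of_le_one_right (norm_nonneg _) w3).trans
    (norm_cfc_le γ0.le fun t _ =>
      abs_le.2 ⟨le_max_left _ _, max_le (by linarith) (min_le_left _ _)⟩))

theorem h1_norm {w : H →L[ℂ] H} (h : star w * w = 1) (ζ : H) : ‖w ζ‖ = ‖ζ‖ := by
  have : ⟪w ζ, w ζ⟫_ℂ = ⟪ζ, ζ⟫_ℂ := by
    rw [← inner_star_right, ← mul_apply_eq_comp, h]; rfl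
  rw [norm_eq_sqrt_re_inner (𝕜 := ℂ), this, ← norm_eq_sqrt_re_inner]

theorem h1_le {w : H →L[ℂ] H} (h : star w * w = 1) : ‖w‖ ≤ 1 :=
  w.opNorm_le_bound zero_le_one fun ζ => by rw [h1_norm h, one_mul]

theorem h1_mul {v w : H →L[ℂ] H} (h : star v * v = 1) (h' : star w * w = 1) :
    star (v * w) * (v * w) = 1 := by
  rw [star_mul, mul_assoc, ← mul_assoc (star v), h, one_mul, h']

theorem sakai_sa (hM : P132.AllEq M) {T : H →L[ℂ] H} (hT : IsSelfAdjoint T) {κ : ℝ} (κ0 : 0 < κ)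
    (h : ∀ v ∈ M, star v * v = 1 → ∃ a ∈ M, ‖star v * T * v - T - a‖ ≤ κ) :
    ∃ v ∈ M, star v * v = 1 ∧ ∀ u ∈ M, star u * u = 1 →
      ‖star (v * u) * T * (v * u) - star v * T * v‖ ≤ 6 * κ := by
  obtain hH | hH := subsingleton_or_nontrivial H
  · refine ⟨1, one_mem _, by simp, fun u _ _ => ?_⟩
    rw [Subsingleton.elim (_ - _) (0 : H →L[ℂ] H), norm_zero]
    positivity
  obtain ⟨ξ, hξ⟩ := exists_norm_eq H zero_le_one
  let g : (H →L[ℂ] H) → ℝ := fun v => (⟪v ξ, T (v ξ)⟫_ℂ).re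
  have gb : ∀ v, star v * v = 1 → |g v| ≤ ‖T‖ := fun v hv => by
    refine (Complex.abs_re_le_norm _).trans ((norm_inner_le_norm _ _).trans ?_)
    have := T.le_opNorm (v ξ)
    rw [h1_norm hv, hξ] at *
    linarith
  let P : Set ℝ := {r | ∃ v ∈ M, star v * v = 1 ∧ ∀ w ∈ M, star w * w = 1 → r ≤ g (v * w)}
  have P1 : P.Nonempty := ⟨-‖T‖, 1, one_mem _, by simp, fun w _ hw =>
    (abs_le.1 (gb _ (by rwa [one_mul]))).1⟩
  have P2 : BddAbove P := ⟨‖T‖, fun r ⟨v, _, v1, hv⟩ =>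
    (hv 1 (one_mem _) (by simp)).trans (abs_le.1 (gb _ (by rwa [mul_one]))).2⟩
  obtain ⟨r, ⟨v, vM, v1, hv⟩, hr⟩ := exists_lt_of_lt_csSup P1 (sub_lt_self (sSup P) κ0)
  have key : ∀ w₁ ∈ M, ∀ w₂ ∈ M, ∀ w ∈ M, star w₁ * w₁ = 1 → star w₂ * w₂ = 1 → star w * w = 1 →
      ∀ l : ℝ, ‖(star (v * w₁) * T * (v * w₁) - star (v * w₂) * T * (v * w₂) - (l : ℂ) • 1) * w‖ ≤
        3 * κ → l ≤ 4 * κ := fun w₁ m1 w₂ m2 w m h1 h2 h3 l hl => by
    have : r + l - 3 * κ ∈ P := by
      refine ⟨v * w₁ * w, mul_mem (mul_mem vM m1) m, h1_mul (h1_mul v1 h1) h3, fun z mz hz => ?_⟩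
      have a1 := hv (w₂ * w * z) (mul_mem (mul_mem m2 m) mz) (h1_mul (h1_mul h2 h3) hz)
      have n1 : ‖w (z ξ)‖ = 1 := by rw [h1_norm h3, h1_norm hz, hξ]
      have a2 := (norm_inner_le_norm (𝕜 := ℂ) (w (z ξ)) _).trans (mul_le_mul_of_nonneg_left
        ((ContinuousLinearMap.le_opNorm _ (z ξ)).trans (mul_le_mul_of_nonneg_right hl
          (norm_nonneg _))) (norm_nonneg _))
      rw [n1, h1_norm hz, hξ, one_mul, mul_one] at a2
      have a3 := (abs_le.1 ((Complex.abs_re_le_norm _).trans a2)).1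
      simp only [mul_apply_eq_comp, sub_apply, smul_apply, one_apply_eq_self, inner_sub_right,
        inner_smul_right, inner_star_right, inner_self_eq_norm_sq_to_K, n1, Complex.sub_re] at a3
      simp only [g, mul_apply_eq_comp] at a1 ⊢
      simp at a3
      linarith
    linarith [le_csSup P2 this]
  refine ⟨v, vM, v1, fun u uM hu => ?_⟩
  obtain ⟨a, aM, ha⟩ := h (v * u) (mul_mem vM uM) (h1_mul v1 hu)
  obtain ⟨b, bM, hb⟩ := h v vM v1
  set X := star (v * u) * T * (v * u) - star v * T * v with hX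
  have X1 : star X = X := by simp only [hX, star_sub, star_mul, star_star, hT.star_eq, mul_assoc]
  have c1 : ‖X - (a - b)‖ ≤ 2 * κ := by
    rw [show X - (a - b) = star (v * u) * T * (v * u) - T - a - (star v * T * v - T - b) by
      rw [hX]; abel]
    linarith [norm_sub_le (star (v * u) * T * (v * u) - T - a) (star v * T * v - T - b)]
  let c : H →L[ℂ] H := (2⁻¹ : ℂ) • (a - b + star (a - b))
  have cM : c ∈ M := vn_smul_mem _ (add_mem (sub_mem aM bM) (star_mem (sub_mem aM bM)))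
  have cs : IsSelfAdjoint c := by
    rw [IsSelfAdjoint, star_smul, star_add, star_star, add_comm]
    simp only [c, star_inv₀, star_ofNat]
  have c2 : ‖X - c‖ ≤ 2 * κ := by
    rw [show X - c = (2⁻¹ : ℂ) • (X - (a - b) + star (X - (a - b))) by
      rw [star_sub X, X1]; simp only [c]; module, norm_smul]
    have := norm_add_le (X - (a - b)) (star (X - (a - b)))
    rw [norm_star] at this
    simp only [norm_inv, Complex.norm_ofNat]
    linarith
  have c3 : ∀ (l : ℝ) w, star w * w = 1 → ‖(c - (l : ℂ) • 1) * w‖ ≤ κ →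
      ‖(X - (l : ℂ) • 1) * w‖ ≤ 3 * κ := fun l w hw hl => by
    rw [show X - (l : ℂ) • 1 = X - c + (c - (l : ℂ) • 1) by abel, add_mul]
    have := (norm_mul_le (X - c) w).trans (mul_le_of_le_one_right (norm_nonneg _) (h1_le hw))
    linarith [norm_add_le ((X - c) * w) ((c - (l : ℂ) • 1) * w)]
  have c4 : ‖c‖ ≤ 4 * κ := by
    rcases CStarAlgebra.norm_or_neg_norm_mem_spectrum cs with s | s
    · obtain ⟨w, wM, w1, w2⟩ := h1_near hM cM cs s κ0
      exact key u uM 1 (one_mem _) w wM hu (by simp) w1 _ (by rw [mul_one]; exact c3 _ w w1 w2)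
    · obtain ⟨w, wM, w1, w2⟩ := h1_near hM cM cs s κ0
      refine key 1 (one_mem _) u uM w wM (by simp) hu w1 _ ?_
      rw [mul_one, ← norm_neg, ← neg_mul]
      refine le_of_eq_of_le ?_ (c3 _ w w1 w2)
      rw [hX, Complex.ofReal_neg, neg_smul]
      congr 2
      abel
  linarith [norm_sub_norm_le X c]

theorem sakai_sa' (hM : P132.AllEq M) {T : H →L[ℂ] H} (hT : IsSelfAdjoint T) {κ : ℝ} (κ0 : 0 < κ)
    (h : ∀ x ∈ M, ∃ z ∈ M, ‖T * x - x * T - z‖ ≤ κ * ‖x‖) :
    ∃ a ∈ M, ∃ b ∈ M.commutant, ‖T - a - b‖ ≤ (12 * distK + 1) * κ := by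
  have h' : ∀ v ∈ M, star v * v = 1 → ∃ a ∈ M, ‖star v * T * v - T - a‖ ≤ κ := fun v vM v1 => by
    obtain ⟨z, zM, hz⟩ := h v vM
    refine ⟨star v * z, mul_mem (star_mem vM) zM, ?_⟩
    rw [show star v * T * v - T - star v * z = star v * (T * v - v * T - z) by
      rw [mul_sub, mul_sub, ← mul_assoc, ← mul_assoc, v1, one_mul]]
    have := h1_le v1
    refine (norm_mul_le _ _).trans ((mul_le_of_le_one_left (norm_nonneg _) ?_).trans
      (hz.trans (mul_le_of_le_one_right κ0.le this)))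
    rwa [norm_star]
  obtain ⟨v, vM, v1, hv⟩ := sakai_sa hM hT κ0 h'
  obtain ⟨a, aM, ha⟩ := h' v vM v1
  obtain ⟨b, bM, hb⟩ := dist_commutant M (star v * T * v) (c := 12 * κ) (by positivity)
    fun x xM => by
      obtain ⟨u, c, e, hc⟩ := CStarAlgebra.exists_sum_four_unitary (⟨x, xM⟩ : Alg M)
      have e' : x = ∑ i, c i • (u i).1.1 := by simpa using congrArg Subtype.val e
      have n : ∀ i, ‖star v * T * v * (u i).1.1 - (u i).1.1 * (star v * T * v)‖ ≤ 6 * κ :=
        fun i => by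
          have u1 : star (u i).1.1 * (u i).1.1 = 1 := congrArg Subtype.val (u i).2.1
          have u2 : (u i).1.1 * star (u i).1.1 = 1 := congrArg Subtype.val (u i).2.2
          refine le_trans ?_ (((norm_mul_le _ _).trans
            (mul_le_of_le_one_left (norm_nonneg _) (h1_le u1))).trans (hv _ (u i).1.2 u1))
          simp only [star_mul, mul_sub, ← mul_assoc, u2, one_mul, le_refl]
      conv_lhs => rw [e', Finset.mul_sum, Finset.sum_mul, ← Finset.sum_sub_distrib]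
      refine (norm_sum_le _ _).trans ((Finset.sum_le_sum fun i _ =>
        (?_ : _ ≤ ‖x‖ / 2 * (6 * κ))).trans (by simp; linarith))
      rw [mul_smul_comm, smul_mul_assoc, ← smul_sub, norm_smul]
      exact mul_le_mul (hc i) (n i) (norm_nonneg _) (by positivity)
  refine ⟨-a, neg_mem aM, b, bM, ?_⟩
  rw [show T - -a - b = star v * T * v - b - (star v * T * v - T - a) by abel]
  linarith [norm_sub_le (star v * T * v - b) (star v * T * v - T - a)]

/-- An operator whose commutators with `M` are close to `M` is close to `M + M'`. -/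
theorem sakai (hM : P132.AllEq M) (T : H →L[ℂ] H) {κ : ℝ} (κ0 : 0 < κ)
    (h : ∀ x ∈ M, ∃ z ∈ M, ‖T * x - x * T - z‖ ≤ κ * ‖x‖) :
    ∃ a ∈ M, ∃ b ∈ M.commutant, ‖T - a - b‖ ≤ (24 * distK + 2) * κ := by
  have s : ∀ t : ℂ, ‖t‖ = 1 → ∃ a ∈ M, ∃ b ∈ M.commutant,
      ‖t • T + star (t • T) - a - b‖ ≤ (12 * distK + 1) * (2 * κ) := fun t ht => by
    refine sakai_sa' hM (IsSelfAdjoint.add_star_self _) (by positivity) fun x xM => ?_
    obtain ⟨z, zM, hz⟩ := h x xM
    obtain ⟨y, yM, hy⟩ := h _ (star_mem xM)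
    refine ⟨t • z - star (t • y), sub_mem (vn_smul_mem _ zM) (star_mem (vn_smul_mem _ yM)), ?_⟩
    rw [show (t • T + star (t • T)) * x - x * (t • T + star (t • T)) - (t • z - star (t • y)) =
      t • (T * x - x * T - z) - star (t • (T * star x - star x * T - y)) by
        simp only [star_smul, star_sub, star_mul, star_star, add_mul, mul_add, smul_mul_assoc,
          mul_smul_comm, smul_sub]
        abel]
    refine (norm_sub_le _ _).trans ?_
    rw [norm_star, norm_smul, norm_smul, ht]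
    rw [norm_star] at hy
    linarith
  obtain ⟨a, aM, b, bM, h1⟩ := s 1 norm_one
  obtain ⟨c, cM, d, dM, h2⟩ := s Complex.I Complex.norm_I
  refine ⟨(2⁻¹ : ℂ) • (a - Complex.I • c), vn_smul_mem _ (sub_mem aM (vn_smul_mem _ cM)),
    (2⁻¹ : ℂ) • (b - Complex.I • d), vn_smul_mem _ (sub_mem bM (vn_smul_mem _ dM)), ?_⟩
  rw [show T - (2⁻¹ : ℂ) • (a - Complex.I • c) - (2⁻¹ : ℂ) • (b - Complex.I • d) =
    (2⁻¹ : ℂ) • (((1 : ℂ) • T + star ((1 : ℂ) • T) - a - b) -
      Complex.I • (Complex.I • T + star (Complex.I • T) - c - d)) by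
    simp only [star_smul, smul_sub, smul_add, smul_smul, RCLike.star_def, Complex.conj_I, mul_neg,
      Complex.I_mul_I, star_one]
    module, norm_smul]
  have := norm_sub_le ((1 : ℂ) • T + star ((1 : ℂ) • T) - a - b)
    (Complex.I • (Complex.I • T + star (Complex.I • T) - c - d))
  rw [norm_smul, Complex.norm_I] at this
  simp only [norm_inv, Complex.norm_ofNat]
  linarith

/-- Robust vanishing of the first cohomology for a type III factor and its commutant. -/
theorem h1III (hM : P132.AllEq M) (T : H →L[ℂ] H) {η : ℝ} (η0 : 0 < η)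
    (h : ∀ x ∈ M, ∀ y ∈ M.commutant,
      ‖(T * x - x * T) * y - y * (T * x - x * T)‖ ≤ η * ‖x‖ * ‖y‖) :
    ∃ a ∈ M, ∃ b ∈ M.commutant, ‖T - a - b‖ ≤ (24 * distK + 2) * (distK * η) := by
  refine sakai hM T (mul_pos distK_pos η0) fun x xM => ?_
  obtain ⟨z, zM, hz⟩ := dist_commutant M.commutant (T * x - x * T) (c := η * ‖x‖) (by positivity)
    (h x xM)
  exact ⟨z, by rwa [M.commutant_commutant] at zM, by rwa [mul_assoc]⟩

end Vale.Agent.P096
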