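import Vale.Agent.P096.Stm3
import Vale.Agent.P096.H1
import Vale.Agent.P096.Erg

/-! WP J: the gap for almost normalizing unitaries. -/

namespace Vale.Agent.P096

open scoped InnerProductSpace
open Filter Topology Vale.Agent.P104

universe u

namespace J

open Vale.Agent.P132 (AllEq)

variable {H : Type u} [NormedAddCommGroup H] [InnerProductSpace ℂ H] [CompleteSpace H]
  {M : VonNeumannAlgebra H}

/-- The double commutator. -/
def dc (T x y : H →L[ℂ] H) : H →L[ℂ] H := (T * x - x * T) * y - y * (T * x - x * T)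

/-- `W` almost normalizes `M`. -/
def AN (M : VonNeumannAlgebra H) (W : H →L[ℂ] H) (κ : ℝ) : Prop :=
  W ∈ unitary (H →L[ℂ] H) ∧ ∀ x ∈ M, ∃ z ∈ M, ‖W * x * star W - z‖ ≤ κ * ‖x‖

/-- The constant of the cohomology estimate. -/
noncomputable def cH : ℝ := (24 * distK + 2) * distK

theorem cH_pos : 0 < cH := by have := distK_pos; unfold cH; positivity

theorem h1w (hM : AllEq M) (T : H →L[ℂ] H) {β : ℝ} (β0 : 0 < β)
    (h : ∀ x ∈ M, ∀ y ∈ M.commutant, ‖x‖ ≤ 1 → ‖y‖ ≤ 1 → ∀ ζ η : H, ‖ζ‖ ≤ 1 → ‖η‖ ≤ 1 →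
      ‖⟪ζ, dc T x y η⟫_ℂ‖ ≤ β) : ∃ a ∈ M, ∃ b ∈ M.commutant, ‖T - a - b‖ ≤ cH * β := by
  rw [cH, mul_assoc]
  have n1 : ∀ {E : Type u} [NormedAddCommGroup E] [NormedSpace ℂ E] (x : E),
      ‖((‖x‖ : ℂ)⁻¹) • x‖ ≤ 1 := fun x => by
    rw [norm_smul, norm_inv, Complex.norm_real, norm_norm]
    exact inv_mul_le_one_of_le₀ le_rfl (norm_nonneg _)
  refine h1III hM T β0 fun x hx y hy => ?_
  rcases eq_or_ne x 0 with rfl | x0
  · simp
  rcases eq_or_ne y 0 with rfl | y0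
  · simp
  have a1 : ‖dc T ((‖x‖ : ℂ)⁻¹ • x) ((‖y‖ : ℂ)⁻¹ • y)‖ ≤ β := by
    refine ContinuousLinearMap.opNorm_le_of_unit_norm β0.le fun η hη => ?_
    set v := dc T ((‖x‖ : ℂ)⁻¹ • x) ((‖y‖ : ℂ)⁻¹ • y) η
    have := h _ (vn_smul_mem _ hx) _ (vn_smul_mem _ hy) (n1 x) (n1 y) _ η (n1 v) hη.le
    rcases eq_or_ne v 0 with v0 | v0
    · rw [v0, norm_zero]; exact β0.le
    rw [inner_smul_left, inner_self_eq_norm_sq_to_K, norm_mul, RCLike.norm_conj, norm_inv,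
      Complex.norm_real, norm_norm, norm_pow, RCLike.norm_ofReal, abs_norm, sq,
      inv_mul_cancel_left₀ (norm_ne_zero_iff.2 v0)] at this
    exact this
  have x1 : (‖x‖ : ℂ) ≠ 0 := by simpa using x0
  have y1 : (‖y‖ : ℂ) ≠ 0 := by simpa using y0
  have e : (T * x - x * T) * y - y * (T * x - x * T) =
      ((‖x‖ : ℂ) * ‖y‖) • dc T ((‖x‖ : ℂ)⁻¹ • x) ((‖y‖ : ℂ)⁻¹ • y) := by
    simp only [dc, mul_smul_comm, smul_mul_assoc, ← smul_sub, smul_smul, mul_comm (‖y‖ : ℂ)⁻¹]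
    rw [show (‖x‖ : ℂ) * ‖y‖ * ((‖x‖ : ℂ)⁻¹ * (‖y‖ : ℂ)⁻¹) = 1 by field_simp, one_smul]
  rw [e, norm_smul, norm_mul, Complex.norm_real, Complex.norm_real, norm_norm, norm_norm, mul_comm,
    mul_assoc]
  exact mul_le_mul_of_nonneg_right a1 (by positivity)

theorem quad {W x y : H →L[ℂ] H} {κ : ℝ} (h : AN M W κ) (κ0 : 0 ≤ κ) (hx : x ∈ M)
    (hy : y ∈ M.commutant) (x1 : ‖x‖ ≤ 1) (y1 : ‖y‖ ≤ 1) {ζ η : H} (ζ1 : ‖ζ‖ ≤ 1) (η1 : ‖η‖ ≤ 1) :
    ‖⟪ζ, dc (W - 1) x y η⟫_ℂ‖ ≤ 2 * κ + (‖(W - 1) ζ‖ ^ 2 + ‖(W - 1) (star x ζ)‖ ^ 2 +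
      ‖(W - 1) (y η)‖ ^ 2 + ‖(W - 1) η‖ ^ 2) := by
  obtain ⟨z, hz, b⟩ := h.2 x hx
  have w1 : star W * W = 1 := h.1.1
  have w2 : W * star W = 1 := h.1.2
  have w3 : star (star W) * star W = 1 := by rwa [star_star]
  set e := W * x * star W - z
  have c1 := commute_of_mem hx hy
  have c2 := commute_of_mem hz hy
  have id : dc (W - 1) x y = ((W - 1) * x - x * (W - 1)) * (star W * ((W - 1) * y - y * (W - 1))) +
      (e * y - y * e) * W := by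
    have w4 : ∀ a, star W * (W * a) = a := fun a => by rw [← mul_assoc, w1, one_mul]
    have w5 : ∀ a, W * (star W * a) = a := fun a => by rw [← mul_assoc, w2, one_mul]
    have c3 : ∀ a, x * (y * a) = y * (x * a) := fun a => by rw [← mul_assoc, c1, mul_assoc]
    have c4 : ∀ a, z * (y * a) = y * (z * a) := fun a => by rw [← mul_assoc, c2, mul_assoc]
    simp only [dc, e, mul_sub, sub_mul, mul_assoc, mul_one, one_mul, w4, w5, w1, c1, c3, c4]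
    abel
  have e1 : ‖e‖ ≤ κ := b.trans (mul_le_of_le_one_right κ0 x1)
  have ap : ∀ {a : H →L[ℂ] H} (v : H), ‖a‖ ≤ 1 → ‖a v‖ ≤ ‖v‖ := fun v ha =>
    (ContinuousLinearMap.le_opNorm _ v).trans (mul_le_of_le_one_left (norm_nonneg _) ha)
  have b1 : ‖((e * y - y * e) * W) η‖ ≤ 2 * κ := by
    rw [mul_apply_eq_comp]
    refine (ContinuousLinearMap.le_opNorm _ _).trans ?_
    rw [h1_norm w1]
    have := norm_sub_le (e * y) (y * e)
    have := (norm_mul_le e y).trans (mul_le_of_le_one_right (norm_nonneg _) y1)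
    have := (norm_mul_le y e).trans (mul_le_of_le_one_left (norm_nonneg _) y1)
    exact (mul_le_of_le_one_right (norm_nonneg _) η1).trans (by linarith)
  have st : ∀ v, ‖star (W - 1) v‖ = ‖(W - 1) v‖ := fun v => by
    rw [← h1_norm w1, ← mul_apply_eq_comp, star_sub, star_one, mul_sub, w2, mul_one, ← neg_sub,
      neg_apply, norm_neg]
  have b2 : ‖star ((W - 1) * x - x * (W - 1)) ζ‖ ≤ ‖(W - 1) ζ‖ + ‖(W - 1) (star x ζ)‖ := by
    rw [star_sub, star_mul, star_mul, sub_apply, mul_apply_eq_comp, mul_apply_eq_comp]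
    refine (norm_sub_le _ _).trans (add_le_add ((ap _ (by rwa [norm_star])).trans (st _).le)
      (st _).le)
  have b3 : ‖(star W * ((W - 1) * y - y * (W - 1))) η‖ ≤ ‖(W - 1) (y η)‖ + ‖(W - 1) η‖ := by
    rw [mul_apply_eq_comp, h1_norm w3, sub_apply, mul_apply_eq_comp, mul_apply_eq_comp]
    exact (norm_sub_le _ _).trans (add_le_add le_rfl (ap _ y1))
  rw [id, add_apply, inner_add_right, mul_apply_eq_comp, ← inner_star_left]
  refine (norm_add_le _ _).trans ?_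
  have b4 := (norm_inner_le_norm (𝕜 := ℂ) _ _).trans
    (mul_le_mul b2 b3 (norm_nonneg _) (by positivity))
  have b5 := (norm_inner_le_norm (𝕜 := ℂ) ζ _).trans
    ((mul_le_of_le_one_left (norm_nonneg _) ζ1).trans b1)
  nlinarith [sq_nonneg (‖(W - 1) ζ‖ - ‖(W - 1) (star x ζ)‖),
    sq_nonneg (‖(W - 1) (y η)‖ - ‖(W - 1) η‖),
    sq_nonneg (‖(W - 1) ζ‖ + ‖(W - 1) (star x ζ)‖ - (‖(W - 1) (y η)‖ + ‖(W - 1) η‖))]

theorem pin1 {Γ : Type u} [Group Γ] {G : ℕ → Finset Γ} {ρ σ : Γ →* (H →L[ℂ] H)} {ξ : H}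
    (lf : LocFin G) (st : ∀ g, star (ρ g) = ρ g⁻¹) (ρM : ∀ g, ρ g ∈ M)
    (σM : ∀ g, σ g ∈ M.commutant) (fix : ∀ g, ρ g (σ g ξ) = ξ)
    (erg : ∀ η, Tendsto (fun k => av (G k) fun g => ρ g (σ g η)) atTop (𝓝 (⟪ξ, η⟫_ℂ • ξ)))
    (hd : Dense {η | ∃ y ∈ M.commutant, y ξ = η}) {S a : H →L[ℂ] H}
    (hS : ∀ g, Commute S (ρ g)) (ha : a ∈ M) : ‖S - ⟪ξ, a ξ⟫_ℂ • 1‖ ≤ ‖S - a‖ := by
  refine ContinuousLinearMap.opNorm_le_bound _ (norm_nonneg _) fun η => ?_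
  refine (isClosed_le (by fun_prop) (by fun_prop) :
    IsClosed {η | ‖(S - ⟪ξ, a ξ⟫_ℂ • 1) η‖ ≤ ‖S - a‖ * ‖η‖}).closure_subset_iff.2 ?_ (hd η)
  rintro _ ⟨y, hy, rfl⟩
  have i1 : ∀ g η, ρ g (ρ g⁻¹ η) = η := fun g η => by
    rw [← mul_apply_eq_comp, ← map_mul, mul_inv_cancel, map_one]; rfl
  have n1 : ∀ g η, ‖ρ g η‖ = ‖η‖ := fun g =>
    h1_norm (by rw [st, ← map_mul, inv_mul_cancel, map_one])
  have c : ∀ {x z : H →L[ℂ] H}, x * z = z * x → ∀ η, x (z η) = z (x η) := fun h η =>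
    DFunLike.congr_fun h η
  have e : ∀ g, ρ g ((S - a) (ρ g⁻¹ (y ξ))) = S (y ξ) - y (ρ g (σ g (a ξ))) := fun g => by
    have : ρ g⁻¹ ξ = σ g ξ := by
      conv_lhs => rw [← fix g]
      simpa using i1 g⁻¹ (σ g ξ)
    rw [sub_apply, map_sub, ← c (hS g), i1, c (commute_of_mem (ρM _) hy), this,
      c (commute_of_mem ha hy), c (commute_of_mem ha (σM g)), c (commute_of_mem (ρM _) hy)]
  have l := (tendsto_const_nhds (x := S (y ξ))).sub ((y.continuous.tendsto _).comp (erg (a ξ)))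
  rw [map_smul] at l
  refine le_of_tendsto' l.norm fun k => ?_
  have := av_map (s := G k) (y : H →ₗ[ℂ] H) fun g => ρ g (σ g (a ξ))
  simp only [ContinuousLinearMap.coe_coe] at this
  rw [Function.comp_apply, this, ← av_const₂ (lf.ne k) (S (y ξ)), ← av_sub]
  refine av_norm_le₂ (lf.ne k) fun g _ => ?_
  rw [← e, n1, ← n1 g⁻¹ (y ξ)]
  exact ContinuousLinearMap.le_opNorm _ _

theorem pin {Γ : Type u} [Group Γ] {G : ℕ → Finset Γ} {ρ σ : Γ →* (H →L[ℂ] H)} {ξ : H}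
    {e r : ℕ → H →L[ℂ] H} (h : SPos M ξ G ρ σ e r) {T a b : H →L[ℂ] H}
    (hT : ∀ g, Commute T (ρ g) ∧ Commute T (σ g)) (T0 : T ξ = 0) (ha : a ∈ M)
    (hb : b ∈ M.commutant) : ‖T‖ ≤ 2 * ‖T - a - b‖ := by
  have c : ∀ g η, σ g (ρ g η) = ρ g (σ g η) := fun g η =>
    (DFunLike.congr_fun (commute_of_mem (h.ρM g) (h.σM g)) η).symm
  have a1 := pin1 h.lf h.ρ_star h.ρM h.σM h.fix h.erg (P132.dense_comm h.cs.2) (S := T - b)
    (fun g => (hT g).1.sub_left (commute_of_mem (h.ρM g) hb).symm) ha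
  have a2 := pin1 (M := M.commutant) h.lf h.σ_star h.σM
    (fun g => by rw [M.commutant_commutant]; exact h.ρM g) (fun g => by rw [c, h.fix])
    (fun η => by simpa only [c] using h.erg η) (by rw [M.commutant_commutant]; exact h.cs.1)
    (S := T - ⟪ξ, a ξ⟫_ℂ • 1) (fun g => (hT g).2.sub_left ((Commute.one_left _).smul_left _)) hb
  rw [sub_right_comm] at a1
  rw [sub_right_comm T b] at a1
  have a3 := a2.trans a1
  rw [sub_sub, ← add_smul] at a3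
  have a4 := ((T - (⟪ξ, a ξ⟫_ℂ + ⟪ξ, b ξ⟫_ℂ) • 1).le_opNorm ξ)
  rw [sub_apply, T0, zero_sub, norm_neg, smul_apply, norm_smul, one_apply_eq_self, h.unit, mul_one,
    mul_one] at a4
  have a5 := norm_le_norm_sub_add T ((⟪ξ, a ξ⟫_ℂ + ⟪ξ, b ξ⟫_ℂ) • 1)
  have a6 := (norm_smul_le (⟪ξ, a ξ⟫_ℂ + ⟪ξ, b ξ⟫_ℂ) (1 : H →L[ℂ] H)).trans
    (mul_le_of_le_one_right (norm_nonneg _) ContinuousLinearMap.norm_id_le)
  linarith

end J

open J

theorem jS : JStmt.{u} := by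
  have c0 := cH_pos
  refine ⟨16 * cH * (8 * cH + 3) + (8 * cH + 2), by nlinarith, ?_⟩
  intro H _ _ _ M ξ Γ _ G ρ σ e r ε w v h hM ε0 hC w1 w2 w3 w4 w0 vc hv
  have gap : ∀ t, ‖w t - 1‖ ≤ (8 * cH + 3) * ε → ‖w t - 1‖ ≤ 8 * cH * ε := fun t ht => by
    obtain ⟨a, ha, b, hb, d⟩ := h1w hM (w t - 1) (β := 2 * ε + 4 * ‖w t - 1‖ ^ 2) (by positivity)
      fun x hx y hy x1 y1 ζ η ζ1 η1 => by
        have ap : ∀ {a : H →L[ℂ] H} {v : H}, ‖a‖ ≤ 1 → ‖v‖ ≤ 1 → ‖a v‖ ≤ 1 := fun ha hv =>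
          (ContinuousLinearMap.le_opNorm _ _).trans (mul_le_one₀ ha (norm_nonneg _) hv)
        have q : ∀ {v : H}, ‖v‖ ≤ 1 → ‖(w t - 1) v‖ ^ 2 ≤ ‖w t - 1‖ ^ 2 := fun hv =>
          pow_le_pow_left₀ (norm_nonneg _) ((ContinuousLinearMap.le_opNorm _ _).trans
            (mul_le_of_le_one_right (norm_nonneg _) hv)) 2
        linarith [quad ⟨w1 t, w4 t⟩ ε0.le hx hy x1 y1 ζ1 η1, q ζ1, q η1, q (ap y1 η1),
          q (ap (a := star x) (by rwa [norm_star]) ζ1)]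
    have p := pin h (T := w t - 1) (fun g => ⟨(w2 t g).1.sub_left (Commute.one_left _),
      (w2 t g).2.sub_left (Commute.one_left _)⟩) (by simp [w3]) ha hb
    have n0 := norm_nonneg (w t - 1)
    have s1 : 16 * cH * ‖w t - 1‖ ≤ 1 := by
      have := mul_le_mul_of_nonneg_left ht (show 0 ≤ 16 * cH by positivity)
      nlinarith [mul_pos (show 0 < 8 * cH + 2 by positivity) ε0]
    nlinarith [mul_le_mul_of_nonneg_right s1 n0]
  have tri : ∀ t, ‖w t - 1‖ ≤ ‖v t - 1‖ + ε ∧ ‖v t - 1‖ ≤ ‖w t - 1‖ + ε := fun t => by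
    have := abs_le.1 (abs_norm_sub_norm_le (w t - 1) (v t - 1))
    rw [sub_sub_sub_cancel_right] at this
    constructor <;> linarith [hv t]
  have cl : IsClopen {t | ‖v t - 1‖ ≤ (8 * cH + 1) * ε} := by
    refine ⟨isClosed_le (by fun_prop) continuous_const, ?_⟩
    have : {t | ‖v t - 1‖ ≤ (8 * cH + 1) * ε} = {t | ‖v t - 1‖ < (8 * cH + 2) * ε} := by
      ext t
      refine ⟨fun ht => lt_of_le_of_lt (b := (8 * cH + 1) * ε) ht (by linarith), fun ht => ?_⟩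
      have ht : ‖v t - 1‖ < (8 * cH + 2) * ε := ht
      change ‖v t - 1‖ ≤ _
      linarith [gap t (by linarith [(tri t).1]), (tri t).2]
    rw [this]
    exact isOpen_lt (by fun_prop) continuous_const
  have all := cl.eq_univ ⟨0, by
    have := (tri 0).2
    rw [w0, sub_self, norm_zero] at this
    change ‖v 0 - 1‖ ≤ _
    nlinarith [mul_pos c0 ε0]⟩
  intro t
  have ht : ‖v t - 1‖ ≤ (8 * cH + 1) * ε := all.ge (Set.mem_univ t)
  nlinarith [(tri t).1, mul_pos (show 0 < 16 * cH * (8 * cH + 3) by positivity) ε0]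

end Vale.Agent.P096
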