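import Vale.Agent.P096.Stm3

/-! WP H: decomposition of bilinear forms. -/

namespace Vale.Agent.P096

open scoped InnerProductSpace ComplexConjugate TensorProduct
open Finset

universe u

namespace HB

theorem diag {I J : Type} [Fintype I] [Fintype J] (R : Submodule ℂ (EuclideanSpace ℂ (I ⊕ J))) :
    ∃ (n : ℕ) (r : Fin n → EuclideanSpace ℂ (I ⊕ J)) (c : Fin n → ℝ), (∀ k, r k ∈ R) ∧
      (∀ k l, ∑ i, conj (r k (.inl i)) * r l (.inl i) = if k = l then (c k : ℂ) else 0) ∧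
      (∀ k l, ∑ j, conj (r k (.inr j)) * r l (.inr j) =
        if k = l then ((1 - c k : ℝ) : ℂ) else 0) ∧
      ∀ v ∈ R, ∀ s, v s = ∑ k, (∑ t, conj (r k t) * v t) * r k s := by
  let Q : R →ₗ[ℂ] EuclideanSpace ℂ I :=
    { toFun := fun v => WithLp.toLp 2 fun i => v.1 (.inl i)
      map_add' := fun _ _ => rfl
      map_smul' := fun _ _ => rfl }
  let T : R →ₗ[ℂ] R := (LinearMap.adjoint (𝕜 := ℂ) (E := R) Q) ∘ₗ Q
  have hT : LinearMap.IsSymmetric (𝕜 := ℂ) (E := R) T := fun x y => by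
    simp only [T, LinearMap.comp_apply, LinearMap.adjoint_inner_left, LinearMap.adjoint_inner_right]
  let b := hT.eigenvectorBasis rfl
  have ip : ∀ x y : R, ⟪x, y⟫_ℂ = ∑ t, conj (x.1 t) * y.1 t := fun x y => by
    rw [Submodule.coe_inner, PiLp.inner_apply]
    exact sum_congr rfl fun t _ => by simp [mul_comm]
  have h1 : ∀ k l, ∑ i, conj ((b k).1 (.inl i)) * (b l).1 (.inl i) =
      if k = l then (hT.eigenvalues rfl k : ℂ) else 0 := fun k l => by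
    have := congrArg (fun v => ⟪b k, v⟫_ℂ) (hT.apply_eigenvectorBasis rfl l)
    simp only [T, LinearMap.comp_apply, LinearMap.adjoint_inner_right, inner_smul_right] at this
    rw [orthonormal_iff_ite.1 b.orthonormal, PiLp.inner_apply] at this
    refine Eq.trans (sum_congr rfl fun t _ => mul_comm _ _) (this.trans ?_)
    split_ifs with h
    · simp [h]
    · simp
  refine ⟨_, fun k => (b k).1, hT.eigenvalues rfl, fun k => (b k).2, h1, fun k l => ?_,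
    fun v hv s => ?_⟩
  · have := orthonormal_iff_ite.1 b.orthonormal k l
    rw [ip, Fintype.sum_sum_type, h1] at this
    rw [eq_sub_of_add_eq' this]
    split_ifs <;> simp
  · have := congrArg (fun w : R => w.1 s) (b.sum_repr' ⟨v, hv⟩)
    simp only [ip] at this
    simpa using this.symm

variable {H : Type*} [NormedAddCommGroup H] [InnerProductSpace ℂ H] {I K : Type} [Fintype I]
  [Fintype K] [DecidableEq K] {a : K → I → ℂ} {c : K → ℝ}

theorem orth (ha : ∀ k l, ∑ i, conj (a k i) * a l i = if k = l then (c k : ℂ) else 0) (v : K → H) :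
    ∑ i, ‖∑ k, a k i • v k‖ ^ 2 = ∑ k, c k * ‖v k‖ ^ 2 := by
  have : ∑ i, ⟪∑ k, a k i • v k, ∑ k, a k i • v k⟫_ℂ = ∑ k, c k * ⟪v k, v k⟫_ℂ := by
    simp only [sum_inner, inner_sum, inner_smul_left, inner_smul_right, mul_sum]
    rw [sum_comm]
    refine sum_congr rfl fun k _ => ?_
    rw [sum_comm]
    simp only [mul_left_comm (a k _), ← mul_assoc, ← sum_mul, ha, ite_mul, zero_mul]
    simp
  simp only [inner_self_eq_norm_sq_to_K, Complex.coe_algebraMap] at this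
  exact_mod_cast this

theorem conj_ha (ha : ∀ k l, ∑ i, conj (a k i) * a l i = if k = l then (c k : ℂ) else 0) (k l : K) :
    ∑ i, conj (conj (a k i)) * conj (a l i) = if k = l then (c k : ℂ) else 0 := by
  simp only [← map_mul, ← map_sum, ha]
  split_ifs <;> simp

theorem key (ha : ∀ k l, ∑ i, conj (a k i) * a l i = if k = l then (c k : ℂ) else 0) (h : I → H)
    (v : K → H) : ∑ k, ‖∑ i, a k i • h i‖ * ‖v k‖ ≤
      (∑ i, ‖h i‖ ^ 2 + ∑ k, c k * ‖v k‖ ^ 2) / 2 := by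
  have : ∀ k, ∃ e : H, c k * ‖e‖ ^ 2 ≤ c k * ‖v k‖ ^ 2 ∧
      (⟪e, ∑ i, a k i • h i⟫_ℂ).re = ‖∑ i, a k i • h i‖ * ‖v k‖ := fun k => by
    have c0 : 0 ≤ c k := by
      have := ha k k
      simp only [Complex.conj_mul', if_true] at this
      have e : ∑ i, ‖a k i‖ ^ 2 = c k := by exact_mod_cast this
      rw [← e]; positivity
    generalize ∑ i, a k i • h i = g
    rcases eq_or_ne g 0 with rfl | g0
    · exact ⟨0, by simpa using mul_nonneg c0 (sq_nonneg _), by simp⟩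
    have := norm_ne_zero_iff.2 g0
    refine ⟨((‖v k‖ / ‖g‖ : ℝ) : ℂ) • g, le_of_eq ?_, ?_⟩
    · rw [norm_smul, Complex.norm_real, norm_div, norm_norm, norm_norm, div_mul_cancel₀ _ this]
    · rw [inner_smul_left, Complex.conj_ofReal, Complex.re_ofReal_mul]
      change _ * RCLike.re ⟪g, g⟫_ℂ = _
      rw [inner_self_eq_norm_sq]
      field_simp
  choose e e1 e2 using this
  have o := orth (conj_ha ha) e
  have s : ∑ k, ⟪e k, ∑ i, a k i • h i⟫_ℂ = ∑ i, ⟪∑ k, conj (a k i) • e k, h i⟫_ℂ := by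
    simp only [sum_inner, inner_sum, inner_smul_left, inner_smul_right, Complex.conj_conj]
    exact sum_comm
  simp only [← e2, ← Complex.re_sum, s]
  rw [Complex.re_sum]
  refine (sum_le_sum fun i _ => (?_ : _ ≤ (‖h i‖ ^ 2 + ‖∑ k, conj (a k i) • e k‖ ^ 2) / 2)).trans ?_
  · refine (Complex.re_le_norm _).trans ((norm_inner_le_norm _ _).trans ?_)
    nlinarith [sq_nonneg (‖h i‖ - ‖∑ k, conj (a k i) • e k‖)]
  · rw [← sum_div, sum_add_distrib, o]
    linarith [sum_le_sum fun k (_ : k ∈ univ) => e1 k]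

variable {E F : Type*} [AddCommGroup E] [Module ℂ E] [AddCommGroup F] [Module ℂ F]

theorem two {b : E →ₗ[ℂ] F →ₗ[ℂ] ℂ} {α₁ : E →ₗ⋆[ℂ] H} {β₁ : F →ₗ[ℂ] H} {α₂ : E →ₗ[ℂ] H}
    {β₂ : F →ₗ⋆[ℂ] H} {C : ℝ} (C0 : 0 ≤ C)
    (hb : ∀ x y, ‖b x y‖ ≤ C * (‖α₁ x‖ * ‖β₁ y‖ + ‖α₂ x‖ * ‖β₂ y‖)) {J : Type} [Fintype J]
    (x : I → E) (y : I → F) (x' : J → E) (y' : J → F)
    (e : ∑ i, x i ⊗ₜ[ℂ] y i = ∑ j, x' j ⊗ₜ[ℂ] y' j) :
    ‖∑ i, b (x i) (y i)‖ ≤ C * (∑ i, (‖α₁ (x i)‖ ^ 2 + ‖β₁ (y i)‖ ^ 2) / 2 +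
      ∑ j, (‖α₂ (x' j)‖ ^ 2 + ‖β₂ (y' j)‖ ^ 2) / 2) := by
  let L : Module.Dual ℂ F →ₗ[ℂ] EuclideanSpace ℂ (I ⊕ J) :=
    { toFun := fun φ => WithLp.toLp 2 fun s => φ (Sum.elim y y' s)
      map_add' := fun _ _ => rfl
      map_smul' := fun _ _ => rfl }
  obtain ⟨n, r, c, h0, h1, h2, h3⟩ := diag (LinearMap.range L)
  let η : Fin n → F := fun k => ∑ t, conj (r k t) • Sum.elim y y' t
  have hy : ∀ s, Sum.elim y y' s = ∑ k, r k s • η k := fun s => by
    rw [← sub_eq_zero, ← Module.forall_dual_apply_eq_zero_iff ℂ]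
    intro φ
    have := h3 _ ⟨φ, rfl⟩ s
    simp only [η, map_sub, map_sum, map_smul, smul_eq_mul, sub_eq_zero]
    exact this.trans (sum_congr rfl fun k _ => mul_comm _ _)
  have hx : ∀ k, ∑ i, r k (.inl i) • x i = ∑ j, r k (.inr j) • x' j := fun k => by
    obtain ⟨φ, hφ⟩ := h0 k
    have := congrArg (fun w => TensorProduct.rid ℂ E (TensorProduct.map LinearMap.id φ w)) e
    simp only [map_sum, TensorProduct.map_tmul, TensorProduct.rid_tmul, LinearMap.id_apply] at this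
    rw [← hφ]
    exact this
  have y1 : ∀ i, y i = ∑ k, r k (.inl i) • η k := fun i => hy (.inl i)
  have y2 : ∀ j, y' j = ∑ k, r k (.inr j) • η k := fun j => hy (.inr j)
  have e1 : ∑ i, b (x i) (y i) = ∑ k, b (∑ i, r k (.inl i) • x i) (η k) := by
    conv_lhs => simp only [y1]
    simp only [map_sum, map_smul, LinearMap.sum_apply, LinearMap.smul_apply]
    exact sum_comm
  have k1 := key (conj_ha h1) (fun i => α₁ (x i)) fun k => β₁ (η k)
  have k2 := key h2 (fun j => α₂ (x' j)) fun k => β₂ (η k)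
  rw [← orth h1] at k1
  rw [← orth (conj_ha h2)] at k2
  simp only [← map_smul, ← map_sum, ← y1, ← hx] at k1 k2
  simp only [← map_smulₛₗ, ← map_sum, ← y2] at k1 k2
  rw [e1, ← sum_div, ← sum_div, sum_add_distrib, sum_add_distrib]
  refine (norm_sum_le _ _).trans ((sum_le_sum fun k _ => hb _ _).trans ?_)
  rw [← mul_sum, sum_add_distrib]
  exact mul_le_mul_of_nonneg_left (add_le_add k1 k2) C0

/-- The values of the quadratic gauge on the representations of a tensor. -/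
def vals (f : E → ℝ) (g : F → ℝ) (w : E ⊗[ℂ] F) : Set ℝ :=
  {r | ∃ (I : Type) (_ : Fintype I) (x : I → E) (y : I → F), w = ∑ i, x i ⊗ₜ[ℂ] y i ∧
    r = ∑ i, (f (x i) ^ 2 + g (y i) ^ 2) / 2}

variable {f : E → ℝ} {g : F → ℝ}

theorem vals_ne (w : E ⊗[ℂ] F) : (vals f g w).Nonempty := by
  obtain ⟨k, x, y, e⟩ := TensorProduct.exists_sum_tmul_eq w
  exact ⟨_, _, _, x, y, e, rfl⟩

theorem vals_nn {w : E ⊗[ℂ] F} : ∀ r ∈ vals f g w, 0 ≤ r := by
  rintro _ ⟨I, _, x, y, -, rfl⟩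
  positivity

theorem vals_le {w : E ⊗[ℂ] F} {r : ℝ} (h : r ∈ vals f g w) : sInf (vals f g w) ≤ r :=
  csInf_le ⟨0, vals_nn⟩ h

theorem le_add {S T : Set ℝ} (hS : S.Nonempty) (hT : T.Nonempty) {t : ℝ}
    (h : ∀ r ∈ S, ∀ s ∈ T, t ≤ r + s) : t ≤ sInf S + sInf T := by
  rw [← sub_le_iff_le_add]
  refine le_csInf hS fun r hr => ?_
  rw [sub_le_comm]
  exact le_csInf hT fun s hs => by linarith [h r hr s hs]

/-- The projective seminorm. -/
noncomputable def sn (hf : ∀ (t : ℂ) x, f (t • x) = ‖t‖ * f x)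
    (hg : ∀ (t : ℂ) y, g (t • y) = ‖t‖ * g y) : Seminorm ℂ (E ⊗[ℂ] F) :=
  Seminorm.ofSMulLE (fun w => sInf (vals f g w))
    (le_antisymm (vals_le ⟨Empty, inferInstance, Empty.elim, Empty.elim, by simp, by simp⟩)
      (le_csInf (vals_ne _) vals_nn))
    (fun w w' => le_add (vals_ne _) (vals_ne _) (by
      rintro _ ⟨I, _, x, y, rfl, rfl⟩ _ ⟨J, _, x', y', rfl, rfl⟩
      exact vals_le ⟨I ⊕ J, inferInstance, Sum.elim x x', Sum.elim y y', by simp, by simp⟩))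
    fun t w => by
      rcases eq_or_ne t 0 with rfl | t0
      · rw [zero_smul, norm_zero, zero_mul]
        exact vals_le ⟨Empty, inferInstance, Empty.elim, Empty.elim, by simp, by simp⟩
      have t1 := norm_pos_iff.2 t0
      have t2 := Real.sqrt_pos.2 t1
      rw [← div_le_iff₀' t1]
      refine le_csInf (vals_ne _) ?_
      rintro _ ⟨I, _, x, y, rfl, rfl⟩
      rw [div_le_iff₀' t1]
      refine vals_le ⟨I, inferInstance, fun i => (t / (√‖t‖ : ℝ)) • x i, fun i => ((√‖t‖ : ℝ) : ℂ) • y i, ?_, ?_⟩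
      · simp only [smul_sum, TensorProduct.smul_tmul_smul]
        rw [div_mul_cancel₀ _ (Complex.ofReal_ne_zero.2 t2.ne')]
      · simp only [mul_sum, hf, hg, norm_div, Complex.norm_real, Real.norm_of_nonneg t2.le,
          Real.div_sqrt, mul_pow, Real.sq_sqrt t1.le]
        exact sum_congr rfl fun i _ => by ring

theorem prod_le {b : E →ₗ[ℂ] F →ₗ[ℂ] ℂ} {C : ℝ} (C0 : 0 ≤ C)
    (hf : ∀ (t : ℂ) x, f (t • x) = ‖t‖ * f x) (hg : ∀ (t : ℂ) y, g (t • y) = ‖t‖ * g y)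
    (f0 : ∀ x, 0 ≤ f x) (g0 : ∀ y, 0 ≤ g y)
    (h : ∀ x y, ‖b x y‖ ≤ C * ((f x ^ 2 + g y ^ 2) / 2)) (x : E) (y : F) :
    ‖b x y‖ ≤ C * f x * g y := by
  refine le_of_forall_pos_le_add fun ε ε0 => ?_
  obtain ⟨δ, δ0, hδ⟩ : ∃ δ > 0, C * ((f x + δ) * (g y + δ)) ≤ C * f x * g y + ε := by
    have : ContinuousAt (fun δ : ℝ => C * ((f x + δ) * (g y + δ))) 0 := by fun_prop
    exact (((this.eventually (ge_mem_nhds (by simp [mul_assoc, ε0]))).filter_mono
      nhdsWithin_le_nhds).and (self_mem_nhdsWithin (s := Set.Ioi 0))).exists.imp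
        fun _ h => ⟨h.2, h.1⟩
  have a : 0 < f x + δ := by linarith [f0 x]
  have a' : 0 < g y + δ := by linarith [g0 y]
  have := h (((f x + δ)⁻¹ : ℝ) • x) (((g y + δ)⁻¹ : ℝ) • y)
  rw [← Complex.coe_smul, ← Complex.coe_smul, hf, hg, map_smul, map_smul, LinearMap.smul_apply,
    norm_smul, norm_smul, Complex.norm_real, Complex.norm_real, Real.norm_of_nonneg (inv_pos.2 a).le,
    Real.norm_of_nonneg (inv_pos.2 a').le] at this
  have b1 : (f x + δ)⁻¹ * f x ≤ 1 := inv_mul_le_one_of_le₀ (by linarith) a.le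
  have b2 : (g y + δ)⁻¹ * g y ≤ 1 := inv_mul_le_one_of_le₀ (by linarith) a'.le
  have b3 := pow_le_one₀ (n := 2) (mul_nonneg (inv_pos.2 a).le (f0 x)) b1
  have b4 := pow_le_one₀ (n := 2) (mul_nonneg (inv_pos.2 a').le (g0 y)) b2
  have b5 := this.trans (mul_le_of_le_one_right C0 (by linarith))
  rw [inv_mul_le_iff₀ a', inv_mul_le_iff₀ a] at b5
  linarith

theorem toOp [CompleteSpace H] (b : E →ₗ[ℂ] F →ₗ[ℂ] ℂ) {α : E →ₗ⋆[ℂ] H} {β : F →ₗ[ℂ] H} {C : ℝ}
    (C0 : 0 ≤ C) (hα : DenseRange α) (hβ : DenseRange β)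
    (h : ∀ x y, ‖b x y‖ ≤ C * ‖α x‖ * ‖β y‖) :
    ∃ A : H →L[ℂ] H, ‖A‖ ≤ C ∧ ∀ x y, b x y = ⟪α x, A (β y)⟫_ℂ := by
  have e : ∀ x y, (b x).extendOfNorm β (β y) = b x y := fun x =>
    LinearMap.extendOfNorm_eq hβ ⟨_, h x⟩
  have u : ∀ {φ ψ : H →L[ℂ] ℂ}, (∀ y, φ (β y) = ψ (β y)) → φ = ψ := fun h =>
    DFunLike.ext' (hβ.equalizer (by fun_prop) (by fun_prop) (funext h))
  let L : E →ₗ[ℂ] (H →L[ℂ] ℂ) :=
    { toFun := fun x => (b x).extendOfNorm β
      map_add' := fun x x' => u fun y => by rw [add_apply, e, e, e, map_add, LinearMap.add_apply]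
      map_smul' := fun t x => u fun y => by
        rw [smul_apply, e, e, map_smul, LinearMap.smul_apply, RingHom.id_apply] }
  let D := InnerProductSpace.toDual ℂ H
  let α' : E →ₗ[ℂ] (H →L[ℂ] ℂ) := D.toLinearEquiv.toLinearMap.comp α
  have hd : DenseRange α' := D.surjective.denseRange.comp hα D.continuous
  have hn : ∀ x, ‖L x‖ ≤ C * ‖α' x‖ := fun x => by
    rw [show ‖α' x‖ = ‖α x‖ from D.norm_map _]
    exact LinearMap.opNorm_extendOfNorm_le hβ (by positivity) (h x)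
  let S := L.extendOfNorm α'
  have S1 : ‖S‖ ≤ C := LinearMap.opNorm_extendOfNorm_le hd C0 hn
  let A : H →L[ℂ] H := LinearMap.mkContinuous
    { toFun := fun v => D.symm (S (D v))
      map_add' := fun _ _ => by simp
      map_smul' := fun _ _ => by
        rw [map_smulₛₗ, map_smul, map_smulₛₗ, RingHom.id_apply, Complex.conj_conj] } C fun v => by
    change ‖D.symm (S (D v))‖ ≤ _
    rw [D.symm.norm_map, ← D.norm_map v]
    exact (S.le_opNorm _).trans (mul_le_mul_of_nonneg_right S1 (norm_nonneg _))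
  refine ⟨star A, by rw [norm_star]; exact LinearMap.mkContinuous_norm_le _ C0 _, fun x y => ?_⟩
  rw [P104.inner_star_right, ← e]
  change _ = ⟪D.symm (S (α' x)), β y⟫_ℂ
  rw [InnerProductSpace.toDual_symm_apply, LinearMap.extendOfNorm_eq hd ⟨_, hn⟩]
  rfl

end HB

open HB

theorem hS : HStmt.{u} := by
  intro E F H _ _ _ _ _ _ _ b α₁ β₁ α₂ β₂ c c0 d1 d2 d3 d4 hb
  have s1 : ∀ (t : ℂ) x, ‖α₁ (t • x)‖ = ‖t‖ * ‖α₁ x‖ := fun t x => by simp [norm_smul]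
  have s2 : ∀ (t : ℂ) x, ‖β₁ (t • x)‖ = ‖t‖ * ‖β₁ x‖ := fun t x => by simp [norm_smul]
  have s3 : ∀ (t : ℂ) x, ‖α₂ (t • x)‖ = ‖t‖ * ‖α₂ x‖ := fun t x => by simp [norm_smul]
  have s4 : ∀ (t : ℂ) x, ‖β₂ (t • x)‖ = ‖t‖ * ‖β₂ x‖ := fun t x => by simp [norm_smul]
  let T := E ⊗[ℂ] F
  let c' : NNReal := ⟨c, c0⟩
  let q₁ : Seminorm ℂ T := sn (f := fun x => ‖α₁ x‖) (g := fun x => ‖β₁ x‖) s1 s2
  let q₂ : Seminorm ℂ T := sn (f := fun x => ‖α₂ x‖) (g := fun x => ‖β₂ x‖) s3 s4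
  let p : Seminorm ℂ (T × T) := c' •
    (q₁.comp (LinearMap.fst ℂ T T) + q₂.comp (LinearMap.snd ℂ T T))
  have hp : ∀ z, p z = c * (q₁ z.1 + q₂ z.2) := fun _ => rfl
  let S : Submodule ℂ (T × T) := LinearMap.range (LinearMap.prod LinearMap.id LinearMap.id)
  obtain ⟨G, G1, G2⟩ := Module.Dual.exists_extension_of_le_seminorm S
    (TensorProduct.lift b ∘ₗ LinearMap.fst ℂ T T ∘ₗ S.subtype) (p := p) (by
      rintro ⟨_, w, rfl⟩
      rw [hp]
      change ‖TensorProduct.lift b w‖ ≤ c * (sInf (vals _ _ w) + sInf (vals _ _ w))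
      rcases c0.eq_or_lt with rfl | c1
      · obtain ⟨k, x, y, rfl⟩ := TensorProduct.exists_sum_tmul_eq w
        simpa using two le_rfl hb x y x y rfl
      rw [← div_le_iff₀' c1]
      refine le_add (vals_ne _) (vals_ne _) ?_
      rintro _ ⟨I, _, x, y, rfl, rfl⟩ _ ⟨J, _, x', y', e, rfl⟩
      rw [div_le_iff₀' c1]
      simpa using two c0 hb x y x' y' e)
  let b₁ := (TensorProduct.mk ℂ E F).compr₂ (G ∘ₗ LinearMap.inl ℂ T T)
  let b₂ := (TensorProduct.mk ℂ E F).compr₂ (G ∘ₗ LinearMap.inr ℂ T T)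
  obtain ⟨A, A1, A2⟩ := toOp b₁ c0 d1 d2 (prod_le (f := fun x => ‖α₁ x‖) (g := fun x => ‖β₁ x‖) c0 s1 s2 (fun _ => norm_nonneg _)
    (fun _ => norm_nonneg _) fun x y => (G2 (x ⊗ₜ y, 0)).trans (by
      rw [hp, map_zero, add_zero]
      exact mul_le_mul_of_nonneg_left (vals_le ⟨Unit, inferInstance, fun _ => x, fun _ => y, by simp,
        by simp⟩) c0))
  obtain ⟨B, B1, B2⟩ := toOp b₂.flip c0 d4 d3 (prod_le (f := fun x => ‖β₂ x‖) (g := fun x => ‖α₂ x‖) c0 s4 s3 (fun _ => norm_nonneg _)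
    (fun _ => norm_nonneg _) fun y x => (G2 (0, x ⊗ₜ y)).trans (by
      rw [hp, map_zero, zero_add]
      exact mul_le_mul_of_nonneg_left (vals_le ⟨Unit, inferInstance, fun _ => x, fun _ => y, by simp,
        by simp [add_comm]⟩) c0))
  refine ⟨A, B, A1, B1, fun x y => ?_⟩
  rw [← A2, ← B2]
  have := G1 ⟨_, x ⊗ₜ y, rfl⟩
  change G (x ⊗ₜ y, x ⊗ₜ y) = b x y at this
  change _ = G (x ⊗ₜ y, 0) + G (0, x ⊗ₜ y)
  rw [← map_add, ← this, Prod.mk_add_mk, add_zero, zero_add]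

end Vale.Agent.P096
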