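import Vale.Agent.P096.SA
import Vale.Agent.P132.BI

/-! WP SAI, part 2: the interpolating family. -/

namespace Vale.Agent.P096

open scoped BoundedContinuousFunction
open Filter Topology Set Complex Vale.Agent.P132

universe u

namespace SAI

theorem norm_cexp (z : ℂ) (s : ℝ) : ‖cexp (I * z * s)‖ = Real.exp (-z.im * s) := by
  rw [norm_exp]; simp

theorem ent {g : ℝ →ᵇ ℂ} (hg : HasCompactSupport g) : ∃ e : ℂ → ℝ →ᵇ ℂ, Differentiable ℂ e ∧
    (∀ z s, e z s = g s * cexp (I * z * s)) ∧ ∃ C, ∀ z : ℂ, |z.im| ≤ 1 → ‖e z‖ ≤ C := by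
  obtain ⟨n, hn⟩ : ∃ n : ℕ, ∀ s, g s ≠ 0 → |s| ≤ n := by
    obtain ⟨r, hr⟩ := hg.isCompact.isBounded.subset_closedBall 0
    obtain ⟨n, h⟩ := exists_nat_ge r
    exact ⟨n, fun s hs => le_trans (by simpa using hr (subset_tsupport _ hs)) h⟩
  obtain ⟨a, -, ha⟩ := exists_bmul (chi_supp0 n) (g := fun s => I * s) (by fun_prop)
  have e : ∀ (z : ℂ) s, (g * NormedSpace.exp (z • a)) s = g s * cexp (I * z * s) := fun z s => by
    rw [BoundedContinuousFunction.mul_apply]
    by_cases c : g s = 0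
    · simp [c]
    let ev : (ℝ →ᵇ ℂ) →+* ℂ :=
      { toFun := fun f => f s
        map_one' := rfl
        map_mul' := fun _ _ => rfl
        map_zero' := rfl
        map_add' := fun _ _ => rfl }
    have := NormedSpace.map_exp ev (continuous_eval_const s) (z • a)
    change _ = NormedSpace.exp (z * a s) at this
    rw [show NormedSpace.exp (z • a) s = _ from this, ha, chi_one (hn s c), ← exp_eq_exp_ℂ]
    congr 2
    ring
  refine ⟨fun z => g * NormedSpace.exp (z • a), fun z => (differentiableAt_const _).mul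
    (hasDerivAt_exp_smul_const a z).differentiableAt, e, ‖g‖ * Real.exp n, fun z hz =>
      (BoundedContinuousFunction.norm_le (by positivity)).2 fun s => ?_⟩
  rw [e, norm_mul, norm_cexp]
  by_cases c : g s = 0
  · rw [c, norm_zero, zero_mul]; positivity
  refine mul_le_mul (g.norm_coe_le_norm s) (Real.exp_le_exp.2 ((le_abs_self _).trans ?_))
    (by positivity) (norm_nonneg _)
  rw [abs_mul, abs_neg]
  exact (mul_le_of_le_one_left (abs_nonneg _) hz).trans (hn s c)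

theorem den (s : ℝ) : (1 + (Real.exp (s / 2) : ℝ) : ℂ) ≠ 0 := by
  have : (0 : ℝ) < 1 + Real.exp (s / 2) := by positivity
  exact_mod_cast this.ne'

theorem exists_f (z : ℂ) : ∃ f : ℝ →ᵇ ℂ, -1 / 2 ≤ z.im → z.im ≤ 0 → ‖f‖ ≤ 1 ∧
    ∀ s, f s = cexp (I * z * s) / (1 + (Real.exp (s / 2) : ℝ)) := by
  by_cases h : -1 / 2 ≤ z.im ∧ z.im ≤ 0
  swap
  · exact ⟨0, fun a b => (h ⟨a, b⟩).elim⟩
  have b : ∀ s : ℝ, ‖cexp (I * z * s) / (1 + (Real.exp (s / 2) : ℝ))‖ ≤ 1 := fun s => by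
    have p := Real.exp_pos (s / 2)
    rw [norm_div, norm_cexp, ← ofReal_one, ← ofReal_add, norm_real,
      Real.norm_of_nonneg (by positivity), div_le_one (by positivity)]
    rcases le_total s 0 with c | c
    · linarith [Real.exp_le_one_iff.2 (show -z.im * s ≤ 0 by nlinarith [h.2])]
    · linarith [Real.exp_le_exp.2 (show -z.im * s ≤ s / 2 by nlinarith [h.1])]
  exact ⟨.ofNormedAddCommGroup _ (Continuous.div (by fun_prop) (by fun_prop) den) 1 b,
    fun _ _ => ⟨(BoundedContinuousFunction.norm_le zero_le_one).2 b, fun _ => rfl⟩⟩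

variable {H : Type u} [NormedAddCommGroup H] [InnerProductSpace ℂ H] [CompleteSpace H]
  {Γ Γ₁ Γ₂ : Set (H × H)}

theorem sa_Φ (m : HMod Γ) {e : ℂ → ℝ →ᵇ ℂ} (h : Differentiable ℂ e) {C : ℝ}
    (hC : ∀ z : ℂ, |z.im| ≤ 1 → ‖e z‖ ≤ C) (V : H →L[ℂ] H) : SA fun z => V * m.Φ (e z) :=
  sa_ent ((differentiable_const V).mul ((BF.PL m.Φ).differentiable.comp h)) (C := ‖V‖ * C)
    fun z a b => (norm_mul_le _ _).trans (mul_le_mul_of_nonneg_left ((m.norm_Φ_le _).trans
      (hC z (abs_le.2 ⟨by linarith, by linarith⟩))) (norm_nonneg _))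

theorem cut0 (m : HMod Γ) (η : H) : Tendsto (fun n => ‖η - m.Φ (chi n) η‖) atTop (𝓝 0) := by
  simpa only [norm_sub_rev] using tendsto_iff_norm_sub_tendsto_zero.1 (m.cut η)

theorem sa_f (m : HMod Γ) {f : ℂ → ℝ →ᵇ ℂ} (hf : ∀ z : ℂ, -1 / 2 ≤ z.im → z.im ≤ 0 → ‖f z‖ ≤ 1 ∧
    ∀ s, f z s = cexp (I * z * s) / (1 + (Real.exp (s / 2) : ℝ))) : SA fun z => m.Φ (f z) := by
  choose g g1 g2 using fun n => exists_bmul (chi_supp0 n)
    (g := fun s => (1 + (Real.exp (s / 2) : ℝ) : ℂ)⁻¹) (Continuous.inv₀ (by fun_prop) den)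
  choose e e1 e2 C e3 using fun n => ent (g1 n)
  refine sa_lim (fun n => sa_Φ m (e1 n) (e3 n) 1) (C := 1)
    (fun z a b => (m.norm_Φ_le _).trans (hf z a b).1) fun η => ⟨_, cut0 m η, fun n z a b => ?_⟩
  have : e n z = f z * chi n := by
    ext s
    rw [e2, g2, BoundedContinuousFunction.mul_apply, (hf z a b).2]
    ring
  rw [one_mul, this, m.Φ_mul_apply, ← map_sub]
  exact (m.norm_Φ_apply_le _ _).trans (mul_le_of_le_one_left (norm_nonneg _) (hf z a b).1)

theorem norm_le_cut (m : HMod Γ) {x : H →L[ℂ] H} {C : ℝ} (h : ∀ n, ‖m.Φ (chi n) * x‖ ≤ C) :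
    ‖x‖ ≤ C :=
  x.opNorm_le_bound ((norm_nonneg _).trans (h 0)) fun η => le_of_tendsto' (m.cut (x η)).norm
    fun n => ((m.Φ (chi n) * x).le_opNorm η).trans
      (mul_le_mul_of_nonneg_right (h n) (norm_nonneg _))

theorem ext2 (m₁ : HMod Γ₁) (m₂ : HMod Γ₂) {x y : H →L[ℂ] H}
    (h : ∀ n k, m₂.Φ (chi n) * x * m₁.Φ (chi k) = m₂.Φ (chi n) * y * m₁.Φ (chi k)) : x = y := by
  ext η
  refine tendsto_nhds_unique ((x.continuous.tendsto _).comp (m₁.cut η))
    (((y.continuous.tendsto _).comp (m₁.cut η)).congr fun k => ?_)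
  exact m₂.ext_cut fun n => (DFunLike.congr_fun (h n k) η).symm

theorem sandw (m₁ : HMod Γ₁) (m₂ : HMod Γ₂) {f g : ℝ →ᵇ ℂ} (hf : ‖f‖ ≤ 1) (hg : ‖g‖ ≤ 1)
    (V : H →L[ℂ] H) : ‖m₂.Φ f * V * m₁.Φ g‖ ≤ ‖V‖ :=
  (norm_mul_le _ _).trans ((mul_le_of_le_one_right (norm_nonneg _) ((m₁.norm_Φ_le _).trans hg)).trans
    ((norm_mul_le _ _).trans (mul_le_of_le_one_left (norm_nonneg _) ((m₂.norm_Φ_le _).trans hf))))

end SAI

open SAI

theorem iS : IStmt.{u} := by
  intro H _ _ _ Γ₁ Γ₂ m₁ m₂ V W h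
  choose f hf using exists_f
  choose g g1 g2 using fun n => exists_exp (chi_supp0 n)
  choose e e1 e2 C e3 using fun n => ent (chi_supp0 n)
  choose d d1 d2 D d3 using fun n => ent (g1 n)
  let G : ℕ → ℂ → H →L[ℂ] H := fun k z => m₂.Φ (f z) * (V * m₁.Φ (e k (-z)) - -W * m₁.Φ (d k (-z)))
  have sa : ∀ k, SA (G k) := fun k => sa_mul (sa_f m₂ hf) ((saS H).2.1 _ _
    (sa_Φ m₁ ((e1 k).comp differentiable_neg) (fun z hz => e3 k _ (by simpa using hz)) V)
    (sa_Φ m₁ ((d1 k).comp differentiable_neg) (fun z hz => d3 k _ (by simpa using hz)) (-W)))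
  have G1 : ∀ n k (z : ℂ), -1 / 2 ≤ z.im → z.im ≤ 0 →
      m₂.Φ (chi n) * G k z = m₂.Φ (e n z) * V * m₁.Φ (e k (-z)) := fun n k z a b => by
    have := h (chi n * f z) (g n * f z) (e k (-z)) (d k (-z))
      (fun s => by simp only [BoundedContinuousFunction.mul_apply, g2]; ring)
      (fun s => by rw [d2, e2, g2]; ring)
    have e4 : e n z = chi n * f z + g n * f z := by
      ext s
      have := den s
      simp only [BoundedContinuousFunction.mul_apply, BoundedContinuousFunction.add_apply, g2, e2,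
        (hf z a b).2]
      field_simp
    simp only [G, neg_mul, sub_neg_eq_add, mul_add, ← mul_assoc, ← map_mul, ← this]
    rw [e4, map_add, add_mul, add_mul]
  have c1 : ∀ n k (z : ℂ) (t : ℝ), m₂.Φ (e n (t + z)) * V * m₁.Φ (e k (-(t + z))) =
      m₂.U t * (m₂.Φ (e n z) * V * m₁.Φ (e k (-z))) * m₁.U (-t) := fun n k z t => by
    have a : e n (t + z) = P132.ex t * e n z := by
      ext s
      rw [BoundedContinuousFunction.mul_apply, e2, e2, P132.ex_apply, mul_left_comm, ← Complex.exp_add]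
      congr 2; push_cast; ring
    have b : e k (-(t + z)) = e k (-z) * P132.ex (-t) := by
      ext s
      rw [BoundedContinuousFunction.mul_apply, e2, e2, P132.ex_apply, mul_assoc (chi k s),
        ← Complex.exp_add]
      congr 2; push_cast; ring
    simp only [a, b, map_mul, HMod.U, mul_assoc]
  have c2 : ∀ n k, m₂.Φ (e n 0) * V * m₁.Φ (e k (-0)) = m₂.Φ (chi n) * V * m₁.Φ (chi k) :=
    fun n k => by congr 3 <;> ext s <;> simp [e2]
  have c3 : ∀ n k, m₂.Φ (e n (-I / 2)) * V * m₁.Φ (e k (-(-I / 2))) =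
      m₂.Φ (chi n) * W * m₁.Φ (chi k) := fun n k => by
    refine h _ _ _ _ (fun s => ?_) fun s => ?_
    · rw [e2, ofReal_exp]
      congr 2; push_cast; linear_combination (-(s : ℂ) / 2) * I_mul_I
    · rw [e2, ofReal_exp, mul_assoc, ← Complex.exp_add,
        show I * -(-I / 2) * s + ((s / 2 : ℝ) : ℂ) = 0 by
          push_cast; linear_combination ((s : ℂ) / 2) * I_mul_I, Complex.exp_zero, mul_one]
  have un : ∀ (t : ℝ) x, ‖m₂.U t * x * m₁.U (-t)‖ ≤ ‖x‖ := fun t x =>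
    sandw m₁ m₂ (BF.norm_ex_le _) (BF.norm_ex_le _) x
  have G2 : ∀ k (z : ℂ), -1 / 2 ≤ z.im → z.im ≤ 0 → ‖G k z‖ ≤ max ‖V‖ ‖W‖ := fun k z =>
    sa_max (sa k) (fun t => norm_le_cut m₂ fun n => by
      rw [G1 _ _ _ (by norm_num) (by simp), ← add_zero (t : ℂ), c1, c2]
      exact (un _ _).trans ((sandw _ _ (norm_chi_le _) (norm_chi_le _) _).trans (le_max_left _ _)))
      fun t => norm_le_cut m₂ fun n => by
        rw [G1 _ _ _ (by norm_num) (by norm_num), sub_eq_add_neg, ← neg_div, c1, c3]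
        exact (un _ _).trans ((sandw _ _ (norm_chi_le _) (norm_chi_le _) _).trans (le_max_right _ _))
  have G3 : ∀ l k z, l < k → G k z * m₁.Φ (chi l) = G l z := fun l k z hk => by
    have : ∀ s, chi k s * chi l s = chi l s := fun s => by
      rcases le_total |s| k with c | c
      · rw [chi_one c, one_mul]
      · rw [chi_zero (n := l) (le_trans (by exact_mod_cast hk) c), mul_zero]
    simp only [G, mul_assoc, sub_mul, ← map_mul]
    congr 4 <;> ext s <;> simp only [BoundedContinuousFunction.mul_apply, e2, d2, g2] <;>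
      conv_rhs => rw [← this s]
    all_goals ring
  have G4 : ∀ l k (z : ℂ) η, -1 / 2 ≤ z.im → z.im ≤ 0 → l < k →
      ‖G k z η - G l z η‖ ≤ max ‖V‖ ‖W‖ * ‖η - m₁.Φ (chi l) η‖ := fun l k z η a b hk => by
    rw [← G3 l k z hk, mul_apply_eq_comp (G k z), ← map_sub]
    exact ((G k z).le_opNorm _).trans (mul_le_mul_of_nonneg_right (G2 k z a b) (norm_nonneg _))
  have lim : ∀ η, Tendsto (fun l => max ‖V‖ ‖W‖ * ‖η - m₁.Φ (chi l) η‖) atTop (𝓝 0) := fun η => by
    simpa using (cut0 m₁ η).const_mul (max ‖V‖ ‖W‖)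
  have : ∀ z : ℂ, ∃ T : H →L[ℂ] H, -1 / 2 ≤ z.im → z.im ≤ 0 →
      ∀ η, Tendsto (fun k => G k z η) atTop (𝓝 (T η)) := fun z => by
    by_cases hz : -1 / 2 ≤ z.im ∧ z.im ≤ 0
    swap
    · exact ⟨0, fun a b => (hz ⟨a, b⟩).elim⟩
    choose T hT using fun η => cauchySeq_tendsto_of_complete (u := fun k => G k z η)
      (Metric.cauchySeq_iff'.2 fun ε ε0 => by
        obtain ⟨N, hN⟩ := ((lim η).eventually (gt_mem_nhds ε0)).exists
        refine ⟨N, fun n hn => ?_⟩
        rcases hn.eq_or_lt with rfl | c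
        · simpa using ε0
        · rw [dist_eq_norm]; exact (G4 N n z η hz.1 hz.2 c).trans_lt hN)
    exact ⟨continuousLinearMapOfTendsto (fun k => G k z) (tendsto_pi_nhds.2 hT), fun _ _ => hT⟩
  choose F hF using this
  have F1 : ∀ n k (z : ℂ), -1 / 2 ≤ z.im → z.im ≤ 0 →
      m₂.Φ (chi n) * F z * m₁.Φ (chi k) = m₂.Φ (e n z) * V * m₁.Φ (e k (-z)) := fun n k z a b => by
    rw [← G1 n k z a b, mul_assoc]
    congr 1
    ext η
    refine tendsto_nhds_unique (hF z a b _) (tendsto_const_nhds.congr' ?_)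
    exact (eventually_gt_atTop k).mono fun j hj => (DFunLike.congr_fun (G3 k j z hj) η).symm
  refine ⟨F, sa_lim sa (C := max ‖V‖ ‖W‖) (fun z a b => ContinuousLinearMap.opNorm_le_bound _
    (by positivity) fun η => le_of_tendsto' (hF z a b η).norm fun k => ((G k z).le_opNorm _).trans
      (mul_le_mul_of_nonneg_right (G2 k z a b) (norm_nonneg _))) fun η => ⟨_, lim η,
        fun l z a b => le_of_tendsto ((hF z a b η).sub_const _).norm
          ((eventually_gt_atTop l).mono fun k hk => G4 l k z η a b hk)⟩,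
    ext2 m₁ m₂ fun n k => by rw [F1 _ _ _ (by norm_num) (by simp), c2],
    ext2 m₁ m₂ fun n k => by rw [F1 _ _ _ (by norm_num) (by norm_num), c3],
    fun z t a b => ext2 m₁ m₂ fun n k => ?_⟩
  rw [F1 _ _ _ (by simpa using a) (by simpa using b), c1, ← F1 _ _ _ a b]
  simp only [HMod.U, ← mul_assoc, ← map_mul, mul_comm (chi n)]
  simp only [mul_assoc, ← map_mul, mul_comm (chi k)]

end Vale.Agent.P096
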