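import Vale.Agent.P096.Stm3

/-! WP SAI, part 1: strongly analytic families on a strip. -/

namespace Vale.Agent.P096

open Filter Topology Set Complex

universe u

namespace SAI

variable {H : Type u} [NormedAddCommGroup H] [InnerProductSpace ℂ H] [CompleteSpace H]

theorem clos : closure (im ⁻¹' Ioo (-1 / 2 : ℝ) 0) = im ⁻¹' Icc (-1 / 2) 0 := by
  rw [closure_preimage_im, closure_Ioo (by norm_num)]

theorem isOpen_strip : IsOpen (im ⁻¹' Ioo (-1 / 2 : ℝ) 0) := isOpen_Ioo.preimage continuous_im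

omit [CompleteSpace H] in
theorem joint {ι : Type*} {l : Filter ι} {A : ι → H →L[ℂ] H} {w : ι → H} {C : ℝ} {w₀ y : H}
    (hb : ∀ᶠ i in l, ‖A i‖ ≤ C) (hw : Tendsto w l (𝓝 w₀)) (hA : Tendsto (fun i => A i w₀) l (𝓝 y)) :
    Tendsto (fun i => A i (w i)) l (𝓝 y) := by
  have : Tendsto (fun i => A i (w i - w₀)) l (𝓝 0) := by
    refine squeeze_zero_norm' (hb.mono fun i hi => ((A i).le_opNorm _).trans
      (mul_le_mul_of_nonneg_right hi (norm_nonneg _))) ?_
    simpa using (tendsto_iff_norm_sub_tendsto_zero.1 hw).const_mul C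
  simpa using this.add hA

omit [CompleteSpace H] in
theorem sa_mul {F F' : ℂ → H →L[ℂ] H} (h : SA F) (h' : SA F') : SA fun z => F z * F' z := by
  obtain ⟨C, hC⟩ := h.bdd
  obtain ⟨C', hC'⟩ := h'.bdd
  refine ⟨⟨C * C', fun z a b => (norm_mul_le _ _).trans (mul_le_mul (hC z a b) (hC' z a b)
    (norm_nonneg _) ((norm_nonneg _).trans (hC z a b)))⟩, fun η => ⟨fun z hz => ?_, fun z hz => ?_⟩⟩
  · have hn := isOpen_strip.mem_nhds hz
    have d := fun v => ((h.dc v).differentiableAt isOpen_strip hz)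
    have d1 := hasDerivAt_iff_tendsto_slope.1 ((h'.dc η).differentiableAt isOpen_strip hz).hasDerivAt
    have d2 := hasDerivAt_iff_tendsto_slope.1 (d (F' z η)).hasDerivAt
    have d3 := (joint (A := F) (mem_nhdsWithin_of_mem_nhds
      (mem_of_superset hn fun w hw => hC w hw.1.le hw.2.le)) d1
      ((d _).continuousAt.tendsto.mono_left nhdsWithin_le_nhds)).add d2
    refine (hasDerivAt_iff_tendsto_slope.2 (d3.congr fun w => ?_)).differentiableAt
      |>.differentiableWithinAt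
    simp only [slope_def_module, map_smul, map_sub, ← smul_add, mul_apply_eq_comp,
      sub_add_sub_cancel]
  · exact joint (A := F) (eventually_mem_nhdsWithin.mono fun w hw => by
      rw [clos] at hw; exact hC w hw.1 hw.2) ((h'.dc η).continuousOn z hz)
      ((h.dc _).continuousOn z hz)

omit [CompleteSpace H] in
theorem sa_max {F : ℂ → H →L[ℂ] H} {C : ℝ} (h : SA F) (h0 : ∀ t : ℝ, ‖F t‖ ≤ C)
    (h1 : ∀ t : ℝ, ‖F (t - I / 2)‖ ≤ C) {z : ℂ} (a : -1 / 2 ≤ z.im) (b : z.im ≤ 0) : ‖F z‖ ≤ C := by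
  obtain ⟨B, hB⟩ := h.bdd
  refine ContinuousLinearMap.opNorm_le_bound _ ((norm_nonneg _).trans (h0 0)) fun η => ?_
  have ap : ∀ {w c}, ‖F w‖ ≤ c → ‖F w η‖ ≤ c * ‖η‖ := fun hw =>
    ((F _).le_opNorm _).trans (mul_le_mul_of_nonneg_right hw (norm_nonneg _))
  refine PhragmenLindelof.horizontal_strip (h.dc η) ⟨0, by positivity, 0, ?_⟩ (fun w hw => ap ?_)
    (fun w hw => ap ?_) a b
  · refine Asymptotics.IsBigO.of_bound (B * ‖η‖) (mem_inf_of_right fun w hw => ?_)
    simpa using ap (hB w hw.1.le hw.2.le)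
  · convert h1 w.re
    apply Complex.ext <;> simp [hw]
    norm_num
  · convert h0 w.re
    apply Complex.ext <;> simp [hw]

omit [CompleteSpace H] in
theorem sa_cont {F : ℂ → H →L[ℂ] H} (h : SA F) {s : ℝ} (s0 : 0 < s) (s1 : s < 1 / 2) :
    Continuous fun t : ℝ => F (t - s * I) := by
  obtain ⟨B, hB⟩ := h.bdd
  set r := min s (1 / 2 - s)
  have r0 : 0 < r := lt_min s0 (by linarith)
  have r1 : r ≤ s := min_le_left _ _
  have r2 : r ≤ 1 / 2 - s := min_le_right _ _
  have im1 : ∀ (t : ℝ) (w : ℂ), |w.im + s| ≤ dist w (t - s * I) := fun t w => by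
    simpa [dist_eq_norm] using abs_im_le_norm (w - (t - s * I))
  refine (LipschitzWith.of_dist_le' (K := B / r) fun t t' => ?_).continuous
  have B0 : 0 ≤ B := (norm_nonneg _).trans (hB 0 (by norm_num) le_rfl)
  rw [dist_eq_norm]
  refine ContinuousLinearMap.opNorm_le_bound _ (by positivity) fun η => ?_
  have d : ∀ t : ℝ, HasDerivAt (fun t : ℝ => F (t - s * I) η)
      (deriv (fun z => F z η) (t - s * I)) t := fun t => by
    have := ((h.dc η).differentiableAt isOpen_strip (x := t - s * I)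
      ⟨by simp; linarith, by simpa using s0⟩).hasDerivAt
    simpa [Function.comp_def] using HasDerivAt.scomp (𝕜 := ℝ) (𝕜' := ℂ) (h := ofReal) t
      (this.comp_sub_const (t : ℂ) (s * I)) ofRealCLM.hasDerivAt
  have := convex_univ.norm_image_sub_le_of_norm_hasDerivWithin_le (C := B * ‖η‖ / r)
    (fun t _ => (d t).hasDerivWithinAt) (fun t _ =>
      norm_deriv_le_of_forall_mem_sphere_norm_le r0 ((h.dc η).mono fun w hw => by
        have := abs_lt.1 ((im1 t w).trans_lt hw)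
        constructor <;> linarith) fun w hw => by
        have := abs_le.1 ((im1 t w).trans (le_of_eq hw))
        exact ((F _).le_opNorm _).trans (mul_le_mul_of_nonneg_right
          (hB w (by linarith) (by linarith)) (norm_nonneg _))) (mem_univ t') (mem_univ t)
  rw [sub_apply, dist_eq_norm]
  exact this.trans (le_of_eq (by ring))

omit [CompleteSpace H] in
theorem sa_ent {F : ℂ → H →L[ℂ] H} (h : Differentiable ℂ F) {C : ℝ}
    (hC : ∀ z : ℂ, -1 / 2 ≤ z.im → z.im ≤ 0 → ‖F z‖ ≤ C) : SA F :=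
  ⟨⟨C, hC⟩, fun η => (h.clm_apply (differentiable_const η)).diffContOnCl⟩

theorem sa_lim {F : ℂ → H →L[ℂ] H} {G : ℕ → ℂ → H →L[ℂ] H} (hG : ∀ n, SA (G n)) {C : ℝ}
    (hC : ∀ z : ℂ, -1 / 2 ≤ z.im → z.im ≤ 0 → ‖F z‖ ≤ C)
    (h : ∀ η, ∃ δ : ℕ → ℝ, Tendsto δ atTop (𝓝 0) ∧
      ∀ n (z : ℂ), -1 / 2 ≤ z.im → z.im ≤ 0 → ‖F z η - G n z η‖ ≤ δ n) : SA F := by
  refine ⟨⟨C, hC⟩, fun η => ?_⟩
  obtain ⟨δ, h1, h2⟩ := h η
  have u : TendstoUniformlyOn (fun n z => G n z η) (fun z => F z η) atTop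
      (closure (im ⁻¹' Ioo (-1 / 2 : ℝ) 0)) := by
    rw [Metric.tendstoUniformlyOn_iff, clos]
    exact fun ε ε0 => (h1.eventually (gt_mem_nhds ε0)).mono fun n hn z hz => by
      rw [dist_eq_norm]; exact (h2 n z hz.1 hz.2).trans_lt hn
  exact ⟨(u.mono subset_closure).tendstoLocallyUniformlyOn.differentiableOn
    (.of_forall fun n => ((hG n).dc η).differentiableOn) isOpen_strip,
    u.continuousOn (.of_forall fun n => ((hG n).dc η).continuousOn)⟩

end SAI

open SAI

theorem saS : SAStmt.{u} := fun _ _ _ _ =>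
  ⟨fun x => sa_ent (differentiable_const x) fun _ _ _ => le_rfl, fun _ _ h h' => by
    obtain ⟨C, hC⟩ := h.bdd
    obtain ⟨C', hC'⟩ := h'.bdd
    exact ⟨⟨C + C', fun z a b => (norm_sub_le _ _).trans (add_le_add (hC z a b) (hC' z a b))⟩,
      fun η => (h.dc η).sub (h'.dc η)⟩, fun _ _ => sa_mul,
    fun _ _ h h0 h1 _ => sa_max h h0 h1, fun _ h _ => sa_cont h⟩

end Vale.Agent.P096
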