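import Vale.Agent.P096.Site0

/-! Infinite tensor products of two by two matrix algebras. -/

namespace Vale.Agent.P096

open scoped InnerProductSpace InnerProduct ComplexOrder
open Vale.Agent.P104 Vale.Agent.P082 ContinuousLinearMap Sit

universe u

namespace Sit

/-- The sign character. -/
noncomputable def sg (a : ZMod 2) : ℂ := if a = 0 then 1 else -1

theorem two (a : ZMod 2) : a = 0 ∨ a = 1 := by
  revert a
  decide

theorem sg_add (a : ZMod 2) : sg (a + 1) = -sg a := by
  rcases two a with rfl | rfl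
  · simp [sg]
  · simp [sg, show (1 : ZMod 2) + 1 = 0 from rfl]

theorem sg_sq (a : ZMod 2) : sg a * sg a = 1 := by
  unfold sg
  split_ifs <;> simp

theorem add_two {S : Type} (g : S →₀ ZMod 2) (s : S) :
    g + Finsupp.single s 1 + Finsupp.single s 1 = g := by
  rw [add_assoc, ← Finsupp.single_add, show (1 : ZMod 2) + 1 = 0 from rfl, Finsupp.single_zero,
    add_zero]

variable {H K : Type u} [NormedAddCommGroup H] [InnerProductSpace ℂ H] [CompleteSpace H]
  [NormedAddCommGroup K] [InnerProductSpace ℂ K] [CompleteSpace K] {S : Type}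
  {A : (H →L[ℂ] H) →⋆ₐ[ℂ] (K →L[ℂ] K)} {ι : (S →₀ ZMod 2) → H →L[ℂ] K}

theorem pauli (h : Amp A ι) : ∃ X Z : S → K →L[ℂ] K,
    (∀ s g η, X s (ι g η) = ι (g + Finsupp.single s 1) η) ∧
    (∀ s g η, Z s (ι g η) = sg (g s) • ι g η) ∧ (∀ s, star (X s) = X s) ∧
    (∀ s, star (Z s) = Z s) ∧ (∀ s, X s * X s = 1) ∧ (∀ s, Z s * Z s = 1) ∧
    (∀ s, Z s * X s = -(X s * Z s)) ∧ (∀ s t, Commute (X s) (X t)) ∧
    (∀ s t, Commute (Z s) (Z t)) ∧ (∀ s t, s ≠ t → Commute (Z s) (X t)) ∧
    ∀ x s, Commute (A x) (X s) ∧ Commute (A x) (Z s) := by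
  choose X _ x1 x2 using fun s : S => h.perm (Equiv.addRight (Finsupp.single s 1))
  choose Z _ z1 z2 using fun s : S => h.diag (fun g => sg (g s) • 1) 1 zero_le_one fun g => by
    refine (norm_smul_le _ _).trans (mul_le_one₀ ?_ (norm_nonneg _) norm_id_le)
    unfold sg
    split_ifs <;> simp
  simp only [Equiv.coe_addRight, smul_apply, one_apply_eq_self, map_smul] at x1 z1
  refine ⟨X, Z, x1, z1, fun s => h.ext _ _ fun g η => ?_, fun s => h.ext _ _ fun g η => ?_,
    fun s => h.ext _ _ fun g η => ?_, fun s => h.ext _ _ fun g η => ?_,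
    fun s => h.ext _ _ fun g η => ?_, fun s t => h.ext _ _ fun g η => ?_,
    fun s t => h.ext _ _ fun g η => ?_, fun s t st => h.ext _ _ fun g η => ?_,
    fun x s => ⟨h.ext _ _ fun g η => ?_, h.ext _ _ fun g η => ?_⟩⟩
  · rw [x2, x1, (Equiv.symm_apply_eq _).2 (add_two g s).symm]
  · rw [z2, z1]
    unfold sg
    split_ifs <;> simp
  · simp [x1, add_two]
  · simp [z1, smul_smul, sg_sq]
  · simp [x1, z1, sg_add]
  · simp [x1, add_right_comm]
  · simp [z1, smul_smul, mul_comm]
  · simp [x1, z1, Finsupp.single_eq_of_ne st]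
  · simp [x1, h.Aι]
  · simp [z1, h.Aι]

end Sit

theorem site (hA : AmpStmt.{u}) : SiteStmt.{u} := by
  intro H _ _ _ _ c c0
  classical
  obtain ⟨K, _, _, _, _, A, ι, h⟩ := hA H ((ℕ × Bool) →₀ ZMod 2)
  obtain ⟨X, Z, x1, z1, sx, sz, xx, zz, zx, cxx, czz, czx, ca⟩ := pauli h
  have ne : ∀ n : ℕ, (n, false) ≠ (n, true) := fun n => by simp
  have q : ∀ n, Q4 (X (n, false)) (X (n, true)) (Z (n, false)) (Z (n, true)) := fun n =>
    ⟨sx _, sx _, sz _, sz _, DFunLike.congr_fun (xx _), DFunLike.congr_fun (xx _),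
      DFunLike.congr_fun (zz _), DFunLike.congr_fun (zz _), DFunLike.congr_fun (zx _),
      DFunLike.congr_fun (zx _), DFunLike.congr_fun (cxx _ _).eq,
      DFunLike.congr_fun (czx _ _ (ne n)).eq, DFunLike.congr_fun (czx _ _ (ne n).symm).eq,
      DFunLike.congr_fun (czz _ _).eq⟩
  obtain ⟨α, a0, a1⟩ : ∃ α : ℕ → ℝ, (∀ n, α n ≠ 0) ∧ ∀ n, α n ^ 2 + (c n * α n) ^ 2 = 1 :=
    ⟨fun n => (√(1 + c n ^ 2))⁻¹, fun n => by positivity, fun n => by
      rw [mul_pow, inv_pow, Real.sq_sqrt (by positivity)]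
      field_simp⟩
  let R : ℕ → (K →L[ℂ] K) → K →L[ℂ] K := fun n =>
    rot (α n) (c n * α n) (X (n, false)) (X (n, true)) (Z (n, false))
  let e : ℕ → K →L[ℂ] K := fun n => R n (ee (X (n, false)) (Z (n, false)))
  let r : ℕ → K →L[ℂ] K := fun n => R n (ee (X (n, true)) (-Z (n, true)))
  have nz : ∀ n v, (-Z (n, true)) (X (n, true) v) = -X (n, true) ((-Z (n, true)) v) := fun n v => by
    simp [(q n).wy]
  have sn : ∀ s, star (-Z s) = -Z s := fun s => by rw [star_neg, sz]
  have se : ∀ n, star (e n) = R n (ee (X (n, false)) (-Z (n, false))) := fun n => by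
    rw [(q n).rot_star, ee_star (sx _) (sz _) (q n).zx]
  have sr : ∀ n, star (r n) = R n (ee (X (n, true)) (Z (n, true))) := fun n => by
    rw [(q n).rot_star, ee_star (sx _) (sn _) (nz n), neg_neg]
  have cm : ∀ n T, (∀ b, Commute T (X (n, b)) ∧ Commute T (Z (n, b))) →
      (Commute T (e n) ∧ Commute T (star (e n))) ∧ Commute T (r n) ∧ Commute T (star (r n)) :=
    fun n T k => by
      rw [se, sr]
      refine ⟨⟨?_, ?_⟩, ?_, ?_⟩ <;> refine rot_comm (k _).1 (k _).1 (k _).2 (ee_comm (k _).1 ?_)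
      exacts [(k _).2, (k _).2.neg_right, (k _).2.neg_right, (k _).2]
  have cm2 : ∀ n m, n ≠ m → (∀ b, Commute (e n) (X (m, b)) ∧ Commute (e n) (Z (m, b))) ∧
      ∀ b, Commute (r n) (X (m, b)) ∧ Commute (r n) (Z (m, b)) := fun n m nm => by
    have k1 := fun b => cm n (X (m, b)) fun b' => ⟨cxx _ _, (czx _ _ (by simp [nm])).symm⟩
    have k2 := fun b => cm n (Z (m, b)) fun b' => ⟨czx _ _ (by simp [nm.symm]), czz _ _⟩
    exact ⟨fun b => ⟨(k1 b).1.1.symm, (k2 b).1.1.symm⟩, fun b => ⟨(k1 b).2.1.symm, (k2 b).2.1.symm⟩⟩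
  refine ⟨K, _, _, inferInstance, inferInstance, A, ι 0, e, r, ⟨fun n => (q n).rot_hv (a1 n)
    (ee_hv (sx _) (sz _) (q n).zx (q n).xx (q n).zz), fun n => (q n).rot_hv (a1 n)
    (ee_hv (sx _) (sn _) (nz n) (q n).yy fun v => by simp [(q n).ww]),
    fun n m nm => (cm m _ (cm2 n m nm).1).1, fun n m nm => (cm m _ (cm2 n m nm).2).2,
    fun n m => ?_⟩, c0, h.iso 0, fun x => h.Aι x 0,
    fun x n => ⟨(cm n _ fun b => ca x _).1.1, (cm n _ fun b => ca x _).2.1⟩,
    fun ζ => ⟨fun v => ?_, ?_⟩, fun S _ s0 s1 => ?_⟩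
  · rcases eq_or_ne n m with rfl | nm
    · have k1 : Commute (X (n, true)) _ := ee_comm (cxx _ (n, false)) (czx _ _ (ne n)).symm
      have k2 : Commute (Z (n, true)) _ := ee_comm (czx _ _ (ne n).symm) (czz _ (n, false))
      rw [sr]
      exact ⟨(q n).rot_cm (a1 n) (ee_comm k1.symm k2.symm.neg_right),
        (q n).rot_cm (a1 n) (ee_comm k1.symm k2.symm)⟩
    · exact (cm m _ (cm2 n m nm).1).2
  · have k : ∀ s, Z s ζ = ζ := fun ⟨n, b⟩ => by
      have := (q n).vac2 (a1 n) (a0 n) rfl (v n).1 (by simpa only [se, sr] using (v n).2)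
      cases b
      exacts [this.1, this.2]
    refine ⟨((ι 0)†) ζ, (hasSum_single (f := fun g => ι g (((ι g)†) ζ)) 0 fun g g0 => ?_).unique
      (h.sum ζ)⟩
    obtain ⟨s, hs⟩ := Finsupp.ne_iff.1 g0
    have : ((ι g)†) ζ = -((ι g)†) ζ := ext_inner_left ℂ fun η => by
      conv_lhs => rw [adjoint_inner_right, ← k s, ← inner_star_left, sz, z1, sg, if_neg (show g s ≠ 0 from hs)]
      simp [adjoint_inner_right]
    rw [← add_eq_zero_iff_eq_neg, ← two_smul ℂ, smul_eq_zero_iff_right two_ne_zero] at this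
    rw [this, map_zero]
  · rintro ⟨η, rfl⟩ n
    rw [se, sr]
    exact (q n).vac1 rfl (by simp [z1, sg]) (by simp [z1, sg])
  · have k : ∀ (F : Finset ℕ) (g : (ℕ × Bool) →₀ ZMod 2), (∀ s, s.1 ∉ F → g s = 0) →
        ∀ η, ι g η ∈ S := fun F => by
      induction F using Finset.induction_on with
      | empty => exact fun g hg η => by rw [show g = 0 from Finsupp.ext fun s => hg s (by simp)]; exact s0 η
      | insert n F _ ih =>
        intro g hg η
        obtain ⟨g', hg'⟩ : ∃ g', g' = (g.erase (n, false)).erase (n, true) := ⟨_, rfl⟩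
        have m0 := ih g' (fun ⟨k, b⟩ hs => by
          rcases eq_or_ne k n with rfl | kn
          · cases b <;> simp [hg']
          · simp [hg', kn, hg (k, b) (by simp [kn, hs])]) η
        obtain ⟨m1, m2, m3⟩ := (q n).span (a1 n) (a0 n) (mul_ne_zero (c0 n).ne' (a0 n))
          (by simp [z1, hg', sg]) m0 (fun u hu => (s1 n u hu).1) fun u hu => by
            simpa only [se] using (s1 n u hu).2
        have e1 : g = g' + Finsupp.single (n, true) (g (n, true)) +
            Finsupp.single (n, false) (g (n, false)) := by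
          ext ⟨k, b⟩
          rcases eq_or_ne k n with rfl | kn
          · cases b <;> simp [hg']
          · simp [hg', kn]
        simp only [x1] at m1 m2 m3
        rw [e1]
        rcases two (g (n, true)) with a | a <;> rcases two (g (n, false)) with b | b <;> rw [a, b]
        · simpa using m0
        · simpa using m1
        · simpa using m2
        · simpa using m3
    refine eq_top_iff.2 fun ζ _ => (‹IsClosed _›).mem_of_tendsto (h.sum ζ)
      (Filter.Eventually.of_forall fun s => S.sum_mem fun g _ => ?_)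
    exact k (g.support.image Prod.fst) g (fun s hs => by
      by_contra c
      exact hs (Finset.mem_image_of_mem _ (Finsupp.mem_support_iff.2 c))) _

end Vale.Agent.P096
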