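import Vale.Agent.P096.Stm3
import Vale.Agent.P132.T2

/-! WP VW: invariant intertwiners of the modular operators. -/

namespace Vale.Agent.P096

open scoped InnerProductSpace ComplexOrder BigOperators BoundedContinuousFunction ComplexConjugate
open Filter Topology Vale.Agent.P104 Vale.Agent.P082 Finset TopologicalSpace

universe u

namespace VW

variable {H : Type u} [NormedAddCommGroup H] [InnerProductSpace ℂ H] [CompleteSpace H]
  {Γ : Type u} [Group Γ] {G : ℕ → Finset Γ}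

theorem cavg (hG : LocFin G) (α : Γ →* (H →L[ℂ] H)) (hα : ∀ g, star (α g) = α g⁻¹)
    (T : H →L[ℂ] H) : ∃ T' : H →L[ℂ] H, (∀ g, Commute T' (α g)) ∧
      (∀ c, ‖T - 1‖ ≤ c → ‖T' - 1‖ ≤ c) ∧
      (∀ S, (∀ g, Commute S (α g)) → Commute S T → Commute S T') ∧
      ∀ a b, Tendsto (fun k => av (G k) fun g => ⟪a, (α g * T * α g⁻¹) b⟫_ℂ)
        (Ultrafilter.of (atTop : Filter ℕ)) (𝓝 ⟪a, T' b⟫_ℂ) := by
  have hm := mean_spec (allOp H) hG
  let j : (H →L[ℂ] H) → Alg (allOp H) := fun x => ⟨x, trivial⟩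
  let f : Γ → Alg (allOp H) := fun g => j (α g * T * α g⁻¹)
  have n1 := rep_norm_le α hα
  have nb : ∀ (X : H →L[ℂ] H) g, ‖α g * X * α g⁻¹‖ ≤ ‖X‖ := fun X g => by
    simpa using nm_le (nm_le (n1 g) (le_refl ‖X‖)) (n1 g⁻¹)
  have hf : ∀ g, ‖f g‖ ≤ ‖T‖ := fun g => nb T g
  have inv : ∀ g, α g * α g⁻¹ = 1 := fun g => by rw [← map_mul, mul_inv_cancel, map_one]
  have inv' : ∀ g, α g⁻¹ * α g = 1 := fun g => by rw [← map_mul, inv_mul_cancel, map_one]
  refine ⟨(mean (allOp H) G f).1, fun g => ?_, fun c hc => ?_, fun S hS hT => ?_, fun a b => ?_⟩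
  · have h1 := hm.inv (fun h => f h * j (α g)) (‖T‖ * 1) g fun h => nm_le (hf h) (n1 g)
    have h2 : (fun h => f (g * h) * j (α g)) = fun h => j (α g) * f h := by
      funext h
      refine Subtype.ext ?_
      change α (g * h) * T * α (g * h)⁻¹ * α g = α g * (α h * T * α h⁻¹)
      rw [mul_inv_rev, map_mul, map_mul]
      simp only [mul_assoc, inv', mul_one]
    rw [h2, hm.left f _ _ hf, hm.right f _ _ hf] at h1
    exact (congrArg Subtype.val h1).symm
  · have h1 := hm.sub f (fun _ => 1) _ _ hf fun _ => le_refl _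
    rw [hm.const] at h1
    have h2 := hm.norm (fun g => f g - 1) c fun g => by
      change ‖α g * T * α g⁻¹ - 1‖ ≤ c
      have : α g * T * α g⁻¹ - 1 = α g * (T - 1) * α g⁻¹ := by
        rw [mul_sub, sub_mul, mul_one, inv]
      rw [this]
      exact (nb _ g).trans hc
    rw [h1] at h2
    exact h2
  · have h2 : (fun h => j S * f h) = fun h => f h * j S := by
      funext h
      exact Subtype.ext (((hS h).mul_right hT).mul_right (hS h⁻¹)).eq
    have h1 := hm.left f _ (j S) hf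
    rw [h2, hm.right f _ _ hf] at h1
    exact (congrArg Subtype.val h1).symm
  · refine (wlim_spec (U := Ultrafilter.of (atTop : Filter ℕ)) (v := fun k => av (G k) f)
      (fun k => av_norm_le (hG.ne k) hf) b a).congr fun k => ?_
    let L : Alg (allOp H) →ₗ[ℂ] ℂ :=
      { toFun := fun x => ⟪a, x.1 b⟫_ℂ
        map_add' := fun x y => by simp [inner_add_right]
        map_smul' := fun c x => by simp [inner_smul_right] }
    exact av_map L f

/-- The sesquilinear relation between the two operators. -/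
def Rl (M N : VonNeumannAlgebra H) (ξ : H) (P V : H →L[ℂ] H) : Prop :=
  ∀ x ∈ M, ∀ y ∈ N.commutant, ⟪star x ξ, P (y ξ)⟫_ℂ = ⟪star y ξ, V (x ξ)⟫_ℂ

theorem Rl.avg {M N : VonNeumannAlgebra H} {ξ : H} (hG : LocFin G) {α β : Γ →* (H →L[ℂ] H)}
    (hα : ∀ g, star (α g) = α g⁻¹) (hβ : ∀ g, star (β g) = β g⁻¹) {P V : H →L[ℂ] H}
    (h : ∀ g, Rl M N ξ (α g * P * α g⁻¹) (β g * V * β g⁻¹)) :
    ∃ P' V' : H →L[ℂ] H, Rl M N ξ P' V' ∧ (∀ g, Commute P' (α g)) ∧ (∀ g, Commute V' (β g)) ∧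
      (∀ c, ‖P - 1‖ ≤ c → ‖P' - 1‖ ≤ c) ∧ (∀ c, ‖V - 1‖ ≤ c → ‖V' - 1‖ ≤ c) ∧
      (∀ S, (∀ g, Commute S (α g)) → Commute S P → Commute S P') ∧
      ∀ S, (∀ g, Commute S (β g)) → Commute S V → Commute S V' := by
  obtain ⟨P', a1, a2, a3, a4⟩ := cavg hG α hα P
  obtain ⟨V', b1, b2, b3, b4⟩ := cavg hG β hβ V
  refine ⟨P', V', fun x hx y hy => tendsto_nhds_unique (a4 _ _) ((b4 _ _).congr fun k => ?_),
    a1, b1, a2, b2, a3, b3⟩
  exact av_congr₂ fun g _ => (h g x hx y hy).symm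

variable {M : VonNeumannAlgebra H} {ξ : H} {ρ σ : Γ →* (H →L[ℂ] H)} {e r : ℕ → H →L[ℂ] H}

theorem rs (h : Rep M ξ G ρ σ e r) (g : Γ) : ρ g ξ = σ g⁻¹ ξ := by
  conv_rhs => rw [← h.fix g]
  rw [← mul_apply_eq_comp, ← commute_of_mem (h.ρM g) (h.σM g⁻¹), mul_apply_eq_comp,
    ← mul_apply_eq_comp (σ g⁻¹), ← map_mul, inv_mul_cancel, map_one, one_apply_eq_self]

theorem R_rho (hC : CentStmt.{u}) (h : Rep M ξ G ρ σ e r) (m : P132.Mod M ξ) (g : Γ) :
    m.R (ρ g) = σ g⁻¹ :=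
  (hC H M ξ m h.cs _ (h.ρM g) _ (h.σM g⁻¹) (rs h g).symm
    (by rw [h.σ_star, h.ρ_star, rs h])).1

theorem J_rho (hC : CentStmt.{u}) (h : Rep M ξ G ρ σ e r) (m : P132.Mod M ξ) (g : Γ) (η : H) :
    m.J (ρ g η) = σ g (m.J η) := by
  rw [m.J_apply, h.ρ_star, R_rho hC h, inv_inv]

theorem J_sig (hC : CentStmt.{u}) (h : Rep M ξ G ρ σ e r) (m : P132.Mod M ξ) (g : Γ) (η : H) :
    m.J (σ g η) = ρ g (m.J η) := by
  conv_lhs => rw [← m.JJ η, ← J_rho hC h, m.JJ]

theorem ist (x : H →L[ℂ] H) (a b : H) : ⟪a, x b⟫_ℂ = ⟪star x a, b⟫_ℂ := by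
  rw [ContinuousLinearMap.star_eq_adjoint, ContinuousLinearMap.adjoint_inner_left]

end VW

open VW in
theorem vw (hH : HStmt.{u}) (hC : CentStmt.{u}) : VWStmt.{u} := by
  intro H _ _ _ M N ξ Γ _ G ρ σ e r c m n hM hN c0 hb
  let b : Alg M →ₗ[ℂ] Alg N.commutant →ₗ[ℂ] ℂ := LinearMap.mk₂ ℂ
    (fun x y => ⟪ξ, (x.1 * y.1 - y.1 * x.1) ξ⟫_ℂ)
    (fun x x' y => by
      rw [← inner_add_right, ← ContinuousLinearMap.add_apply]
      congr 2
      change (x.1 + x'.1) * y.1 - y.1 * (x.1 + x'.1) = _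
      noncomm_ring)
    (fun t x y => by
      rw [smul_eq_mul, ← inner_smul_right, ← ContinuousLinearMap.smul_apply]
      congr 2
      change (t • x.1) * y.1 - y.1 * (t • x.1) = _
      rw [smul_sub, smul_mul_assoc, mul_smul_comm])
    (fun x y y' => by
      rw [← inner_add_right, ← ContinuousLinearMap.add_apply]
      congr 2
      change x.1 * (y.1 + y'.1) - (y.1 + y'.1) * x.1 = _
      noncomm_ring)
    (fun t x y => by
      rw [smul_eq_mul, ← inner_smul_right, ← ContinuousLinearMap.smul_apply]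
      congr 2
      change x.1 * (t • y.1) - (t • y.1) * x.1 = _
      rw [smul_sub, smul_mul_assoc, mul_smul_comm])
  let ev : ∀ P : VonNeumannAlgebra H, Alg P →ₗ[ℂ] H := fun P =>
    { toFun := fun x => x.1 ξ
      map_add' := fun x y => rfl
      map_smul' := fun t x => rfl }
  let es : ∀ P : VonNeumannAlgebra H, Alg P →ₗ⋆[ℂ] H := fun P =>
    { toFun := fun x => star x.1 ξ
      map_add' := fun x y => by
        change star (x.1 + y.1) ξ = _
        rw [star_add]; rfl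
      map_smul' := fun t x => by
        change star (t • x.1) ξ = _
        rw [star_smul]; rfl }
  have d1 : ∀ P : VonNeumannAlgebra H, Dense {η | ∃ x ∈ P, x ξ = η} → DenseRange (ev P) :=
    fun P h => h.mono (by rintro _ ⟨x, hx, rfl⟩; exact ⟨⟨x, hx⟩, rfl⟩)
  have d2 : ∀ P : VonNeumannAlgebra H, Dense {η | ∃ x ∈ P, x ξ = η} → DenseRange (es P) :=
    fun P h => h.mono (by
      rintro _ ⟨x, hx, rfl⟩
      exact ⟨⟨star x, star_mem hx⟩, by change star (star x) ξ = _; rw [star_star]⟩)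
  have dN := P132.dense_comm hN.cs.2
  obtain ⟨A, B, nA, nB, hAB⟩ := hH (Alg M) (Alg N.commutant) H b (es M) (ev N.commutant) (ev M)
    (es N.commutant) c c0 (d2 _ hM.cs.1) (d1 _ dN) (d1 _ hM.cs.1) (d2 _ dN)
    fun x y => hb x.1 x.2 y.1 y.2
  have r0 : Rl M N ξ (1 - A) (1 + B) := fun x hx y hy => by
    have h1 : ⟪ξ, (x * y - y * x) ξ⟫_ℂ = ⟪star x ξ, A (y ξ)⟫_ℂ + ⟪star y ξ, B (x ξ)⟫_ℂ :=
      hAB ⟨x, hx⟩ ⟨y, hy⟩
    rw [ContinuousLinearMap.sub_apply, inner_sub_right, mul_apply_eq_comp, mul_apply_eq_comp,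
      ist x, ist y ξ] at h1
    rw [ContinuousLinearMap.sub_apply, ContinuousLinearMap.add_apply, inner_sub_right,
      inner_add_right, one_apply_eq_self, one_apply_eq_self]
    linear_combination h1
  have cm : ∀ {P : VonNeumannAlgebra H} {x y : H →L[ℂ] H}, x ∈ P → y ∈ P.commutant → ∀ η,
      x (y η) = y (x η) := fun hx hy η => by
    rw [← mul_apply_eq_comp, commute_of_mem hx hy, mul_apply_eq_comp]
  have t1 : ∀ P V, Rl M N ξ P V → ∀ g, Rl M N ξ (σ g * P * σ g⁻¹) (ρ g * V * ρ g⁻¹) :=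
    fun P V h g x hx y hy => by
      have := h (ρ g⁻¹ * x) (mul_mem (hM.ρM _) hx) (σ g⁻¹ * y) (mul_mem (hN.σM _) hy)
      simp only [star_mul, mul_apply_eq_comp, hM.ρ_star, hM.σ_star, inv_inv] at this ⊢
      rw [ist (σ g), ist (ρ g), hM.ρ_star, hM.σ_star, ← cm (star_mem hx) (hM.σM _),
        cm (hN.ρM _) (star_mem hy), ← rs hM.toRep, rs hM.toRep g⁻¹, inv_inv, this]
  have t2 : ∀ P V, Rl M N ξ P V → ∀ g, Rl M N ξ (ρ g * P * ρ g⁻¹) (σ g * V * σ g⁻¹) :=
    fun P V h g x hx y hy => by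
      have := h (x * ρ g) (mul_mem hx (hM.ρM _)) (y * σ g) (mul_mem hy (hN.σM _))
      simp only [star_mul, mul_apply_eq_comp, hM.ρ_star, hM.σ_star, inv_inv] at this ⊢
      rw [ist (σ g), ist (ρ g), hM.ρ_star, hM.σ_star, ← cm hx (hM.σM _),
        cm (hN.ρM _) hy, ← rs hM.toRep, rs hM.toRep g⁻¹, inv_inv, this]
  obtain ⟨P1, V1, r1, a1, a2, a3, a4, -, -⟩ := Rl.avg hM.lf hM.σ_star hM.ρ_star (t1 _ _ r0)
  obtain ⟨P, V, r2, b1, b2, b3, b4, b5, b6⟩ := Rl.avg hM.lf hM.ρ_star hM.σ_star (t2 _ _ r1)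
  have rs' : ∀ g h, Commute (ρ g) (σ h) := fun g h => commute_of_mem (hM.ρM g) (hM.σM h)
  have p1 : ∀ g, Commute P (σ g) := fun g =>
    (b5 _ (fun h => (rs' h g).symm) (a1 g).symm).symm
  have p2 : ∀ g, Commute V (ρ g) := fun g => (b6 _ (fun h => rs' g h) (a2 g).symm).symm
  have nP : ‖P - 1‖ ≤ c := b3 _ (a3 _ (by rw [sub_sub_cancel_left, norm_neg]; exact nA))
  have nV : ‖V - 1‖ ≤ c := b4 _ (a4 _ (by rw [add_sub_cancel_left]; exact nB))
  let Y : H →L[ℂ] H := LinearMap.mkContinuous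
    { toFun := fun η => n.J (m.J η)
      map_add' := fun a b => by simp only [map_add]
      map_smul' := fun t a => by simp [map_smulₛₗ] } 1 fun η => by
    change ‖n.J (m.J η)‖ ≤ _
    rw [n.J.norm_map, m.J.norm_map, one_mul]
  have nY : ‖Y‖ ≤ 1 := LinearMap.mkContinuous_norm_le _ zero_le_one _
  have hW : ∀ η, (n.R P * Y) η = n.J (star P (m.J η)) := fun η => by
    change n.J (star P (n.J (n.J (m.J η)))) = _
    rw [n.JJ]
  have sP : ∀ {x : H →L[ℂ] H}, Commute P (star x) → ∀ η, star P (x η) = x (star P η) :=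
    fun {x} h η => by
      have := h.star_star
      rw [star_star] at this
      rw [← mul_apply_eq_comp, this.eq, mul_apply_eq_comp]
  refine ⟨V, n.R P * Y, Y, nV, ?_, fun η => rfl, fun g => ⟨p2 g, b2 g, ?_, ?_⟩, ?_⟩
  · have : n.R P * Y - Y = n.R (P - 1) * Y := by rw [n.R_sub, n.R_one, sub_mul, one_mul]
    rw [this]
    simpa using nm_le ((n.norm_R _).le.trans nP) nY
  · ext η
    rw [mul_apply_eq_comp _ (ρ g), mul_apply_eq_comp (ρ g), hW, hW, J_rho hC hM.toRep,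
      sP (by rw [hM.σ_star]; exact p1 _), J_sig hC hN.toRep]
  · ext η
    rw [mul_apply_eq_comp _ (σ g), mul_apply_eq_comp (σ g), hW, hW, J_sig hC hM.toRep,
      sP (by rw [hM.ρ_star]; exact b1 _), J_rho hC hN.toRep]
  · have k1 : ∀ x ∈ M, ∀ q ∈ P132.graphS N ξ,
        ⟪star x ξ, P (n.J q.1)⟫_ℂ = ⟪n.J q.2, V (x ξ)⟫_ℂ := fun x hx q hq => by
      refine (isClosed_eq (f := fun q : H × H => ⟪star x ξ, P (n.J q.1)⟫_ℂ)
        (g := fun q => ⟪n.J q.2, V (x ξ)⟫_ℂ) (by fun_prop) (by fun_prop)).closure_subset_iff.2 ?_ hq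
      rintro _ ⟨x', hx', rfl⟩
      have := r2 x hx _ (n.rt x' hx')
      rw [← n.cj_star, P132.cj_apply, P132.cj_apply, n.Jξ] at this
      exact this
    have k2 : ∀ p ∈ P132.graphS M ξ, ∀ q ∈ P132.graphS N ξ,
        ⟪p.2, P (n.J q.1)⟫_ℂ = ⟪n.J q.2, V p.1⟫_ℂ := fun p hp q hq => by
      refine (isClosed_eq (f := fun p : H × H => ⟪p.2, P (n.J q.1)⟫_ℂ)
        (g := fun p => ⟪n.J q.2, V p.1⟫_ℂ) (by fun_prop) (by fun_prop)).closure_subset_iff.2 ?_ hp
      rintro _ ⟨x, hx, rfl⟩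
      exact k1 x hx q hq
    intro f g f' g' h h'
    ext η
    refine ext_inner_left ℂ fun ζ => ?_
    have hs : ∀ s, (star g) s = (star f) s * (Real.exp (s / 2) : ℝ) := fun s => by
      rw [BoundedContinuousFunction.star_apply, BoundedContinuousFunction.star_apply, h,
        star_mul', RCLike.star_def, Complex.conj_ofReal]
    have := k2 _ (m.core f' g' h' η) _ (n.core _ _ hs ζ)
    rw [n.JJ, n.inner_Φ, star_star, ist P, n.inner_J_right, n.inner_Φ, star_star] at this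
    rw [mul_apply_eq_comp, mul_apply_eq_comp, mul_apply_eq_comp (n.Φ f * _),
      mul_apply_eq_comp (n.Φ f), hW]
    exact this.symm

end Vale.Agent.P096
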