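import Vale.Agent.P096.Top3
import Vale.Agent.P096.Site
import Vale.Agent.P096.Amp3
import Vale.Agent.P096.Big
import Vale.Agent.P096.Dix3
import Vale.Agent.P096.D3
import Vale.Agent.P096.E3
import Vale.Agent.P096.F1
import Vale.Agent.P096.F2
import Vale.Agent.P096.VW
import Vale.Agent.P096.HB
import Vale.Agent.P096.Cent
import Vale.Agent.P096.SA
import Vale.Agent.P096.I3
import Vale.Agent.P096.Gap
import Vale.Agent.P096.End

/-! The type III case from the last two work packages. -/

namespace Vale.Agent.P096

universe u

theorem lAll : LStmt'.{u} :=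
  lS (P132.tt P132.t1 P132.bi P132.filt) (fS f1) (vw hS cent) saS iS cent jS endS

theorem iiiA (hF : FullStmt.{u}) (hP : StepStmt.{u}) : IIIStmt.{u} :=
  iiiS (site ampS) bigS hF dixS hP dS eS lAll

end Vale.Agent.P096
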