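import Mathlib

/-! Definitions for the perturbation theorem. -/

namespace Vale.Agent.P096

variable {H : Type*} [NormedAddCommGroup H] [InnerProductSpace ℂ H] [CompleteSpace H]

/-- The closed operator norm unit ball of `M`. -/
def unitBall (M : VonNeumannAlgebra H) : Set (H →L[ℂ] H) := {x | x ∈ M ∧ ‖x‖ ≤ 1}

/-- The Kadison-Kastler distance: the Hausdorff distance of the unit balls. -/
noncomputable def kkDist (M N : VonNeumannAlgebra H) : ℝ :=
  Metric.hausdorffDist (unitBall M) (unitBall N)

/-- A type II_1 factor: trivial centre, every isometry is unitary, no minimal projection. -/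
structure IsFactorII1 (M : VonNeumannAlgebra H) : Prop where
  factor : ∀ z ∈ M, (∀ x ∈ M, z * x = x * z) → ∃ c : ℂ, z = c • 1
  finite : ∀ v ∈ M, star v * v = 1 → v * star v = 1
  diffuse : ∀ e ∈ M, IsStarProjection e → e ≠ 0 →
    ∃ f ∈ M, IsStarProjection f ∧ f ≠ 0 ∧ f ≠ e ∧ e * f = f

end Vale.Agent.P096
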