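import Vale.Agent.P096.Type
import Vale.Agent.P096.Defs

/-! Assembly of the perturbation theorem. -/

namespace Vale.Agent.P096

open Vale.Agent.P104 Vale.Agent.P082

universe u

section

variable {K : Type u} [NormedAddCommGroup K] [InnerProductSpace ℂ K] [CompleteSpace K]
  {M N : VonNeumannAlgebra K}

theorem kkDist_comm : kkDist M N = kkDist N M := Metric.hausdorffDist_comm

theorem near_of_dist {δ : ℝ} (h : kkDist M N < δ) : Near M N δ := by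
  intro a ha
  rcases eq_or_ne a 0 with rfl | a0
  · exact ⟨0, zero_mem _, le_rfl, by simp⟩
  have p : 0 < ‖a‖ := norm_pos_iff.2 a0
  have b : ∀ P : VonNeumannAlgebra K, Bornology.IsBounded (unitBall P) := fun P =>
    (Metric.isBounded_closedBall (x := (0 : K →L[ℂ] K)) (r := 1)).subset fun x hx => by
      simpa using hx.2
  have n : ∀ P : VonNeumannAlgebra K, (unitBall P).Nonempty := fun P =>
    ⟨0, zero_mem _, by simp⟩
  have e : ‖((‖a‖ : ℝ) : ℂ)‖ = ‖a‖ := by simp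
  have c0 : ((‖a‖ : ℝ) : ℂ) ≠ 0 := by exact_mod_cast p.ne'
  obtain ⟨y, ⟨y1, y2⟩, y3⟩ := Metric.exists_dist_lt_of_hausdorffDist_lt
    (x := ((‖a‖ : ℝ) : ℂ)⁻¹ • a) (s := unitBall M) ⟨vn_smul_mem _ ha, by
      rw [norm_smul, norm_inv, e, inv_mul_cancel₀ p.ne']⟩ h
    (Metric.hausdorffEDist_ne_top_of_nonempty_of_bounded (n M) (n N) (b M) (b N))
  refine ⟨((‖a‖ : ℝ) : ℂ) • y, vn_smul_mem _ y1, ?_, ?_⟩
  · rw [norm_smul, e]
    exact mul_le_of_le_one_right p.le y2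
  · have : a - ((‖a‖ : ℝ) : ℂ) • y = ((‖a‖ : ℝ) : ℂ) • (((‖a‖ : ℝ) : ℂ)⁻¹ • a - y) := by
      rw [smul_sub, smul_inv_smul₀ c0]
    rw [this, norm_smul, e, mul_comm, ← dist_eq_norm]
    exact mul_le_mul_of_nonneg_right y3.le p.le

theorem Near.mono {δ γ : ℝ} (h : Near M N δ) (c : δ ≤ γ) : Near M N γ := fun a ha => by
  obtain ⟨b, b1, b2, b3⟩ := h a ha
  exact ⟨b, b1, b2, b3.trans (mul_le_mul_of_nonneg_right c (norm_nonneg _))⟩

end

theorem assemble (hI : InitStmt.{u}) (hM : MidStmt.{u}) (hF : FinalStmt.{u}) (ε : ℝ) (hε : 0 < ε) :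
    ∃ δ : ℝ, 0 < δ ∧ ∀ (H : Type u) [NormedAddCommGroup H] [InnerProductSpace ℂ H]
      [CompleteSpace H] [TopologicalSpace.SeparableSpace H] (M N : VonNeumannAlgebra H),
      IsFactorII1 M → kkDist M N < δ → ∃ u ∈ unitary (H →L[ℂ] H), ‖u - 1‖ < ε ∧
        (fun x => u * x * star u) '' (M : Set (H →L[ℂ] H)) = N := by
  obtain ⟨C₁, c1, hI⟩ := hI
  obtain ⟨C₂, c2, hM⟩ := hM
  obtain ⟨C₃, c3, hF⟩ := hF
  have p : 0 < C₃ * (C₂ * C₁) := by positivity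
  obtain ⟨δ, d0, d1, d2⟩ : ∃ δ : ℝ, 0 < δ ∧ C₃ * (C₂ * (C₁ * δ)) ≤ 1 / 100 ∧
      C₃ * (C₂ * (C₁ * δ)) < ε := by
    have e : C₃ * (C₂ * (C₁ * (min (1 / 100) (ε / 2) / (C₃ * (C₂ * C₁))))) =
        min (1 / 100) (ε / 2) := by field_simp
    refine ⟨min (1 / 100) (ε / 2) / (C₃ * (C₂ * C₁)), by positivity, ?_, ?_⟩
    · rw [e]; exact min_le_left _ _
    · rw [e]; exact (min_le_right _ _).trans_lt (by linarith)
  have l1 : δ ≤ C₁ * δ := le_mul_of_one_le_left d0.le c1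
  have l2 : C₁ * δ ≤ C₂ * (C₁ * δ) := le_mul_of_one_le_left (by linarith) c2
  have l3 : C₂ * (C₁ * δ) ≤ C₃ * (C₂ * (C₁ * δ)) := le_mul_of_one_le_left (by linarith) c3
  refine ⟨δ, d0, fun H _ _ _ _ M N h hd => ?_⟩
  rcases subsingleton_or_nontrivial H with _ | _
  · refine ⟨1, one_mem _, by simpa using hε, Set.ext fun x => ⟨fun _ => ?_, fun _ => ?_⟩⟩
    · rw [Subsingleton.elim x 0]; exact zero_mem N
    · exact ⟨0, zero_mem M, Subsingleton.elim _ _⟩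
  have h1 : IsII1 M := ⟨h.1, h.2, h.3⟩
  have n1 := near_of_dist hd
  have n2 : Near N M δ := near_of_dist (kkDist_comm.trans_lt hd)
  obtain ⟨τM, t1⟩ := traceS H M h1
  obtain ⟨τN, t2⟩ := traceS H N (typeS H M N δ d0.le (by linarith) h1 n1 n2)
  obtain ⟨E, _, _, _, Γ, _, ρ, L, R, ξ, G, ι, σ, s1, s2, s3⟩ :=
    hI H M N τM τN δ d0.le (by linarith) t1 t2 n1 n2
  obtain ⟨W, W', w1, w2, w3, w4, w5⟩ := hM _ _ E Γ ρ L R ξ G ι σ _ (by linarith) (by linarith) s1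
  obtain ⟨u, u1, u2, u3⟩ := hF H M N E ρ L W W' _ (by linarith) (by linarith) s1.ρiso s1.Liso
    w1 w2 w3 w4 (fun a => s3 _ (w5 a)) (n1.mono (by linarith)) (n2.mono (by linarith))
    fun a b => (s2 a b).trans (by gcongr)
  exact ⟨u, u1, u2.trans_lt d2, u3⟩

end Vale.Agent.P096
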