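import Vale.Agent.P096.Extr

/-! From unitaries in the relative commutant of the matrix units to all elements. -/

namespace Vale.Agent.P096

open scoped InnerProductSpace ComplexOrder BigOperators
open Filter Topology Vale.Agent.P104 Vale.Agent.P082 Finset

variable {A B E Γ : Type*} [CStarAlgebra A] [CStarAlgebra B] [NormedAddCommGroup E]
  [InnerProductSpace ℂ E] [CompleteSpace E] [Group Γ]
  {π π₁ : A →ₐ[ℂ] (E →L[ℂ] E)} {L : B →⋆ₐ[ℂ] (E →L[ℂ] E)} {R : B →ₗ[ℂ] (E →L[ℂ] E)} {ξ : E}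
  {γ ε t κ : ℝ} {p p' : A} {q q' v : B}

/-- The commutator as a bilinear map. -/
noncomputable def FL (π : A →ₐ[ℂ] (E →L[ℂ] E)) (R : B →ₗ[ℂ] (E →L[ℂ] E)) (ξ : E) :
    A →ₗ[ℂ] B →ₗ[ℂ] E :=
  LinearMap.mk₂ ℂ (Fm π R ξ) (fun _ _ _ => by simp only [Fm, map_add, add_apply]; abel)
    (fun _ _ _ => by simp only [Fm, map_smul, smul_apply, smul_sub])
    (fun _ _ _ => by simp only [Fm, map_add, add_apply]; abel)
    (fun _ _ _ => by simp only [Fm, map_smul, smul_apply, smul_sub])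

omit [CompleteSpace E] in
theorem FL_apply (x : A) (y : B) : FL π R ξ x y = Fm π R ξ x y := rfl

theorem four0 {b : B} (hb : C0 v (star v) b) : ∃ (u : Fin 4 → B) (c : Fin 4 → ℂ),
    (∀ i, u i ∈ unitary B ∧ C0 v (star v) (u i) ∧ ‖c i‖ ≤ ‖b‖ / 2) ∧ b = ∑ i, c i • u i := by
  let S := StarSubalgebra.centralizer ℂ ({v} : Set B)
  have hS : IsClosed (S : Set B) := by
    rw [StarSubalgebra.coe_centralizer]
    exact Set.isClosed_centralizer _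
  letI : CStarAlgebra S := StarSubalgebra.cstarAlgebra S (h_closed := hS)
  have hm : ∀ z, z ∈ S ↔ C0 v (star v) z := fun z => by
    rw [StarSubalgebra.mem_centralizer_iff]
    exact ⟨fun h => ⟨(h v rfl).1, (h v rfl).2⟩, by rintro h _ rfl; exact ⟨h.v, h.w⟩⟩
  obtain ⟨u, c, h1, h2⟩ := CStarAlgebra.exists_sum_four_unitary (⟨b, (hm b).2 hb⟩ : S)
  refine ⟨fun i => (u i).1.1, c, fun i => ⟨⟨congrArg Subtype.val (u i).2.1,
    congrArg Subtype.val (u i).2.2⟩, (hm _).1 (u i).1.2, h2 i⟩, ?_⟩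
  simpa using congrArg Subtype.val h1

theorem norm_four {E : Type*} [NormedAddCommGroup E] [NormedSpace ℂ E] {c : Fin 4 → ℂ}
    {f : Fin 4 → E} {r s : ℝ} (hc : ∀ i, ‖c i‖ ≤ r) (hf : ∀ i, ‖f i‖ ≤ s) :
    ‖∑ i, c i • f i‖ ≤ 4 * (r * s) := by
  refine (norm_sum_le _ _).trans ((sum_le_card_nsmul _ _ (r * s) fun i _ => ?_).trans (by simp))
  rw [norm_smul]
  exact mul_le_mul (hc i) (hf i) (norm_nonneg _) ((norm_nonneg _).trans (hc i))

theorem c11_le {A : Type*} [NormedRing A] {v w : A} (hv : ‖v‖ ≤ 1) (hw : ‖w‖ ≤ 1) (z : A) :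
    ‖c11 v w z‖ ≤ 2 * ‖z‖ := by
  have := nrm1 (b := z) (nrm2 hw hv) (nrm2 hw hv)
  have := nrm1 (b := z) hv hw
  unfold c11
  linarith [norm_add_le (w * v * z * (w * v)) (v * z * w)]

theorem Rel.c11 (k : StdB L R ξ) (hu : Un p p' v) (c1 : Cmn π L R p v) (c2 : Cmn π L R p' (star v))
    {x : A} {y : B} (r : Rel π L ξ γ ε t x y) :
    Rel π L ξ γ ε (t + t) (c11 p p' x) (c11 v (star v) y) :=
  (r.cm k (c2.mul k c1) (c2.mul k c1) (nrm2 hu.n2 hu.n1) (nrm2 hu.n2 hu.n1) (nrm2 hu.n4 hu.n3)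
    (nrm2 hu.n4 hu.n3)).add (r.cm k c1 c2 hu.n1 hu.n2 hu.n3 hu.n4)

theorem Pos.uhat0 (h : Pos π L R ξ γ ε) (hu : Un p p' v) (c1 : Cmn π L R p v)
    (c2 : Cmn π L R p' (star v)) {a : B} (au : a ∈ unitary B) (a0 : C0 v (star v) a) :
    ∃ x : Aˣ, C0 p p' (x : A) ∧ Rel π L ξ γ ε 22 x a ∧ Rel π L ξ γ ε 88 (↑x⁻¹ : A) (star a) := by
  obtain ⟨x, hx⟩ := h.hat a
  have r := (h.mono hx (show 11 * ‖a‖ ≤ 11 by linarith [un_le au])).c11 h.toStdB hu c1 c2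
  rw [c11_fix hu.mB a0] at r
  obtain ⟨w, hw, hw'⟩ := h.inv r au (by norm_num) (by norm_num)
  exact ⟨w, hw ▸ c11_c0 hu.mA x, hw ▸ h.mono r (by norm_num), h.mono hw' (by norm_num)⟩

theorem Cmn.FL (k : StdB L R ξ) (c : Cmn π L R p q) (c' : Cmn π L R p' q') (x : A) {y : B}
    (hy : q * y = y * q) : FL π R ξ (x * p) (y * q') = R (q * q') (FL π R ξ x y) := by
  simp only [FL_apply, Fm, ← ππ, c.eq, ← k.RR, map_sub, k.LRa q, c'.comm, k.cen, c.comm]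
  rw [k.RR y q, hy, ← k.RR, c.comm, k.RR y q, hy, ← k.RR]

theorem Pos.bil (h : Pos π L R ξ γ ε) (hu : Un p p' v) (c1 : Cmn π L R p v)
    (c2 : Cmn π L R p' (star v)) (d1 : Cmn π₁ L R p v) (d2 : Cmn π₁ L R p' (star v))
    (hF : ∀ (x : Aˣ) (a y : B), a ∈ unitary B → y ∈ unitary B → C0 p p' (x : A) →
      C0 v (star v) a → C0 v (star v) y → Rel π L ξ γ ε 88 x a →
      Rel π L ξ γ ε 88 (↑x⁻¹ : A) (star a) → ‖FL π₁ R ξ x y‖ ≤ κ) (x : A) (y : B) :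
    ‖FL π₁ R ξ x y‖ ≤ 60160 * κ * ‖x‖ * ‖y‖ := by
  have k := h.toStdB
  have r1 : Rel π L ξ γ ε 1 1 1 := h.exact k.cm1.eq one_le one_le
  have o1 : C0 v (star v) 1 := ⟨by simp, by simp⟩
  have κ0 : 0 ≤ κ := (norm_nonneg _).trans (hF 1 1 1 (one_mem _) (one_mem _) ⟨by simp, by simp⟩
    o1 o1 (h.mono r1 (by norm_num)) (by simpa using h.mono r1 (by norm_num)))
  have s1 : ∀ (x : Aˣ) (a y : B), a ∈ unitary B → C0 p p' (x : A) →
      C0 v (star v) a → C0 v (star v) y → Rel π L ξ γ ε 88 x a →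
      Rel π L ξ γ ε 88 (↑x⁻¹ : A) (star a) → ‖FL π₁ R ξ x y‖ ≤ 2 * ‖y‖ * κ :=
    fun x a y au x0 a0 y0 r r' => by
      obtain ⟨u, c, h1, h2⟩ := four0 y0
      conv_lhs => rw [h2]
      simp only [map_sum, map_smul]
      exact (norm_four (fun i => (h1 i).2.2) fun i =>
        hF x a _ au (h1 i).1 x0 a0 (h1 i).2.1 r r').trans (by linarith)
  have s2 : ∀ (z : A) (y : B) (t : ℝ), C0 p p' z → C0 v (star v) y → Rel π L ξ γ ε t z 0 →
      ‖FL π₁ R ξ z y‖ ≤ t * (2 * ‖y‖ * κ) := fun z y t z0 y0 r => by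
    rcases r.t0.eq_or_lt with rfl | t0
    · simp [norm_le_zero_iff.1 r.nx]
    have r2 := r1.add (r.smul (c := ((t⁻¹ : ℝ) : ℂ)) (s := t⁻¹) (by simp [abs_of_pos t0]))
    rw [smul_zero, add_zero, inv_mul_cancel₀ t0.ne'] at r2
    obtain ⟨w, hw, hw'⟩ := h.inv r2 (one_mem _) (by norm_num) (by norm_num)
    have := s1 w 1 y (one_mem _) (hw ▸ ⟨by simp [mul_add, add_mul, z0.v],
      by simp [mul_add, add_mul, z0.w]⟩) o1 y0 (hw ▸ h.mono r2 (by norm_num))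
      (h.mono hw' (by norm_num))
    rw [hw, map_add, map_smul, LinearMap.add_apply, LinearMap.smul_apply, FL_apply, Fm, π1, π1,
      sub_self, zero_add, norm_smul, Complex.norm_real, Real.norm_of_nonneg (by positivity),
      inv_mul_le_iff₀ t0] at this
    exact this
  have s3 : ∀ (x : A) (y : B), C0 p p' x → C0 v (star v) y →
      ‖FL π₁ R ξ x y‖ ≤ 940 * κ * ‖x‖ * ‖y‖ := fun x y x0 y0 => by
    obtain ⟨b, hb⟩ := h.tilde x
    have r := hb.c11 k hu c1 c2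
    rw [c11_fix hu.mA x0] at r
    obtain ⟨u, c, h1, h2⟩ := four0 (c11_c0 hu.mB b)
    choose w w0 w1 w2 using fun i => h.uhat0 hu c1 c2 (h1 i).1 (h1 i).2.1
    have c5 : ∀ i, ‖c i‖ ≤ 5 * ‖x‖ := fun i => (h1 i).2.2.trans (by linarith [r.ny])
    have r3 := fun i => (w1 i).smul (c5 i)
    have r4 := r.add (((((r3 0).add (r3 1)).add (r3 2)).add (r3 3)).smul (c := -1) (s := 1)
      (by simp))
    rw [← Fin.sum_univ_four fun i => c i • (w i : A), ← Fin.sum_univ_four fun i => c i • u i,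
      ← h2, neg_smul, neg_smul, one_smul, one_smul, add_neg_cancel] at r4
    have a1 := s2 _ y _ ⟨by simp [mul_add, add_mul, x0.v, mul_sum, sum_mul, (w0 _).v],
      by simp [mul_add, add_mul, x0.w, mul_sum, sum_mul, (w0 _).w]⟩ y0 r4
    have a2 := norm_four c5 fun i =>
      s1 (w i) _ y (h1 i).1 (w0 i) (h1 i).2.1 y0 (h.mono (w1 i) (by norm_num)) (w2 i)
    have e : FL π₁ R ξ x y = FL π₁ R ξ (x + -∑ i, c i • (w i : A)) y +
        ∑ i, c i • FL π₁ R ξ (w i) y := by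
      simp [LinearMap.sum_apply]
    rw [e]
    refine (norm_add_le _ _).trans ?_
    linarith
  have s4 : ∀ (x : A) (y : B) (a a' : A) (b b' : B) (x' : A) (y' : B), Cmn π₁ L R a b →
      Cmn π₁ L R a' b' → ‖b‖ ≤ 1 → ‖b'‖ ≤ 1 → ‖x'‖ ≤ ‖x‖ → ‖y'‖ ≤ ‖y‖ →
      (∀ z, C0 v (star v) z → b * z = z * b) →
      ‖FL π₁ R ξ (c11 p p' x' * a) (c11 v (star v) y' * b')‖ ≤ 3760 * κ * ‖x‖ * ‖y‖ :=
    fun x y a a' b b' x' y' m1 m2 n1 n2 n3 n4 hb => by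
      rw [m1.FL k m2 _ (hb _ (c11_c0 hu.mB _))]
      refine (k.Rle _ _).trans ((mul_le_of_le_one_left (norm_nonneg _) (nrm2 n1 n2)).trans
        ((s3 _ _ (c11_c0 hu.mA _) (c11_c0 hu.mB _)).trans ?_))
      have a1 := (c11_le hu.n1 hu.n2 x').trans (show _ ≤ 2 * ‖x‖ by linarith)
      have a2 := (c11_le hu.n3 hu.n4 y').trans (show _ ≤ 2 * ‖y‖ by linarith)
      calc _ ≤ 940 * κ * (2 * ‖x‖) * (2 * ‖y‖) := by gcongr
        _ = _ := by ring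
  have s5 : ∀ (a : A) (b : B) (x' : A), Cmn π₁ L R a b → ‖b‖ ≤ 1 → ‖x'‖ ≤ ‖x‖ →
      (∀ z, C0 v (star v) z → b * z = z * b) →
      ‖FL π₁ R ξ (c11 p p' x' * a) y‖ ≤ 15040 * κ * ‖x‖ * ‖y‖ := fun a b x' m1 n1 n3 hb => by
    have a1 := s4 x y a _ b _ x' y m1 (d2.mul k d1) n1 (nrm2 hu.n4 hu.n3) n3 le_rfl hb
    have a2 := s4 x y a _ b _ x' (y * v) m1 d2 n1 hu.n4 n3 (by simpa using nrm1 one_le hu.n3) hb
    have a3 := s4 x y a _ b _ x' (star v * y) m1 d1 n1 hu.n3 n3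
      (by simpa using nrm1 hu.n4 one_le) hb
    have a4 := s4 x y a _ b _ x' (star v * y * v) m1 (d1.mul k d2) n1 (nrm2 hu.n3 hu.n4) n3
      (nrm1 hu.n4 hu.n3) hb
    conv_lhs => rw [c11_dec hu.mB y, map_add, map_add, map_add]
    refine norm_add₄_le.trans ?_
    linarith
  have a1 := s5 _ _ x (d2.mul k d1) (nrm2 hu.n4 hu.n3) le_rfl fun z hz => by
    rw [mul_assoc, hz.v, hz.w']
  have a2 := s5 _ _ (x * p) d2 hu.n4 (by simpa using nrm1 one_le hu.n1) fun z hz => hz.w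
  have a3 := s5 _ _ (p' * x) d1 hu.n3 (by simpa using nrm1 hu.n2 one_le) fun z hz => hz.v
  have a4 := s5 _ _ (p' * x * p) (d1.mul k d2) (nrm2 hu.n3 hu.n4) (nrm1 hu.n2 hu.n1) fun z hz => by
    rw [mul_assoc, hz.w, hz.v']
  conv_lhs => rw [c11_dec hu.mA x, map_add, map_add, map_add]
  simp only [LinearMap.add_apply]
  refine norm_add₄_le.trans ?_
  linarith

end Vale.Agent.P096
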