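import Vale.Agent.P096.Core

/-! Making the solutions bimodular over the common group. -/

namespace Vale.Agent.P096

open scoped InnerProductSpace ComplexOrder BigOperators
open Filter Topology Vale.Agent.P104 Vale.Agent.P082 Finset

variable {A B E Γ : Type*} [CStarAlgebra A] [CStarAlgebra B] [NormedAddCommGroup E]
  [InnerProductSpace ℂ E] [CompleteSpace E] [Group Γ]
  {π : A →ₐ[ℂ] (E →L[ℂ] E)} {L : B →⋆ₐ[ℂ] (E →L[ℂ] E)} {R : B →ₗ[ℂ] (E →L[ℂ] E)} {ξ : E}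
  {γ ε t κ : ℝ} {ν : A → ℝ} {G : ℕ → Finset Γ} {ι : Γ →* B} {σ : Γ →* A}

/-- A common element of the two algebras. -/
structure Cmn (π : A →ₐ[ℂ] (E →L[ℂ] E)) (L : B →⋆ₐ[ℂ] (E →L[ℂ] E)) (R : B →ₗ[ℂ] (E →L[ℂ] E))
    (p : A) (q : B) : Prop where
  eq : π p = L q
  comm : ∀ x η, π x (R q η) = R q (π x η)

/-- Bimodularity with respect to a common element. -/
structure Bm (L : B →⋆ₐ[ℂ] (E →L[ℂ] E)) (R : B →ₗ[ℂ] (E →L[ℂ] E)) (β : A →ₗ[ℂ] E) (p : A)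
    (q : B) : Prop where
  l : ∀ x, β (p * x) = L q (β x)
  r : ∀ x, β (x * p) = R q (β x)

/-- The common group. -/
structure GrpD (π : A →ₐ[ℂ] (E →L[ℂ] E)) (L : B →⋆ₐ[ℂ] (E →L[ℂ] E)) (R : B →ₗ[ℂ] (E →L[ℂ] E))
    (G : ℕ → Finset Γ) (ι : Γ →* B) (σ : Γ →* A) : Prop where
  lf : LocFin G
  ι_star : ∀ g, star (ι g) = ι g⁻¹
  σ_star : ∀ g, star (σ g) = σ g⁻¹
  cm : ∀ g, Cmn π L R (σ g) (ι g)

theorem hom_unitary {ι : Γ →* B} (h : ∀ g, star (ι g) = ι g⁻¹) (g : Γ) : ι g ∈ unitary B :=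
  ⟨by rw [h, ← map_mul, inv_mul_cancel, map_one], by rw [h, ← map_mul, mul_inv_cancel, map_one]⟩

theorem GrpD.ιu (h : GrpD π L R G ι σ) (g : Γ) : ι g ∈ unitary B := hom_unitary h.ι_star g

theorem GrpD.ι1 (h : GrpD π L R G ι σ) (g : Γ) : ‖ι g‖ ≤ 1 := un_le (h.ιu g)

theorem GrpD.σ1 (h : GrpD π L R G ι σ) (g : Γ) : ‖σ g‖ ≤ 1 := un_le (hom_unitary h.σ_star g)

variable {p p' x : A} {q q' y : B}

theorem Cmn.vec (h : StdB L R ξ) (c : Cmn π L R p q) (c' : Cmn π L R p' q') (x : A) :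
    π (p * x * p') ξ = L q (R q' (π x ξ)) := by
  rw [← ππ, ← ππ, c.eq, c'.eq, h.cen, c'.comm]

theorem nrm1 {A : Type*} [NormedRing A] {a b c : A} (ha : ‖a‖ ≤ 1) (hc : ‖c‖ ≤ 1) :
    ‖a * b * c‖ ≤ ‖b‖ := by
  simpa using nrm3 ha (le_refl ‖b‖) hc

theorem Rel.cm (h : StdB L R ξ) (r : Rel π L ξ γ ε t x y) (c : Cmn π L R p q)
    (c' : Cmn π L R p' q') (p1 : ‖p‖ ≤ 1) (p2 : ‖p'‖ ≤ 1) (q1 : ‖q‖ ≤ 1) (q2 : ‖q'‖ ≤ 1) :
    Rel π L ξ γ ε t (p * x * p') (q * y * q') := by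
  refine ⟨(nrm1 p1 p2).trans r.nx, (nrm1 q1 q2).trans r.ny, ?_, ?_⟩
  · rw [map_mul, map_mul, map_mul, map_mul, c.eq, c'.eq, ← sub_mul, ← mul_sub]
    exact (nrm1 ((h.Liso _).trans_le q1) ((h.Liso _).trans_le q2)).trans r.op
  · rw [c.vec h c', ← LL, ← LL, h.cen q', h.LRa y, ← map_sub, ← map_sub]
    exact (h.LRle q1 q2 _).trans r.vec

/-- Twisting a map by a pair of group elements. -/
noncomputable def tw (L : B →⋆ₐ[ℂ] (E →L[ℂ] E)) (R : B →ₗ[ℂ] (E →L[ℂ] E)) (ι : Γ →* B)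
    (σ : Γ →* A) (β : A →ₗ[ℂ] E) (a b : Γ) : A →ₗ[ℂ] E where
  toFun x := L (ι a⁻¹) (R (ι b⁻¹) (β (σ a * x * σ b)))
  map_add' x y := by simp [mul_add, add_mul]
  map_smul' c x := by simp

theorem tw_apply (β : A →ₗ[ℂ] E) (a b : Γ) (x : A) :
    tw L R ι σ β a b x = L (ι a⁻¹) (R (ι b⁻¹) (β (σ a * x * σ b))) := rfl

variable {α β : A →ₗ[ℂ] E} {ζ : E}

theorem Sol.tw (h : StdB L R ξ) (e0 : 0 ≤ ε) (hg : GrpD π L R G ι σ)
    (hν : ∀ a b x, ν (σ a * x * σ b) ≤ ν x) (s : Sol π L R ξ γ ε ν (unitary B) t κ α β ζ)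
    (a b : Γ) : Sol π L R ξ γ ε ν (unitary B) t κ (tw L R ι σ α b⁻¹ a⁻¹) (tw L R ι σ β a b)
      (L (ι b) (R (ι b⁻¹) ζ)) := by
  refine ⟨fun x => ?_, fun x => ?_, (h.LRle (hg.ι1 _) (hg.ι1 _) _).trans s.nζ, fun x => ?_,
    fun g gu x r r' => ?_⟩
  · have e : π x ξ = L (ι a⁻¹) (R (ι b⁻¹) (π (σ a * x * σ b) ξ)) := by
      rw [(hg.cm a).vec h (hg.cm b), ← h.LRa, h.RR, LL, ← map_mul, ← map_mul, inv_mul_cancel,
        mul_inv_cancel, map_one, L1, h.R1]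
    rw [e, tw_apply, ← map_sub, ← map_sub]
    exact (h.LRle (hg.ι1 _) (hg.ι1 _) _).trans ((s.nβ _).trans
      (mul_le_mul_of_nonneg_left (nrm1 (hg.σ1 _) (hg.σ1 _)) (by positivity)))
  · exact (h.LRle (hg.ι1 _) (hg.ι1 _) _).trans ((s.nα _).trans
      (mul_le_mul_of_nonneg_left (nrm1 (hg.σ1 _) (hg.σ1 _)) (by positivity)))
  · exact (h.LRle (hg.ι1 _) (hg.ι1 _) _).trans ((s.l2 _).trans
      (mul_le_mul_of_nonneg_left (hν _ _ _) (by positivity)))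
  · have k := s.rel (ι b⁻¹ * g * ι a⁻¹) (mul_mem (mul_mem (hg.ιu _) gu) (hg.ιu _))
      (σ.toHomUnits b⁻¹ * x * σ.toHomUnits a⁻¹)
      (r.cm h (hg.cm _) (hg.cm _) (hg.σ1 _) (hg.σ1 _) (hg.ι1 _) (hg.ι1 _)) (by
        have := r'.cm h (hg.cm a) (hg.cm b) (hg.σ1 _) (hg.σ1 _) (hg.ι1 _) (hg.ι1 _)
        simpa [hg.ι_star, mul_assoc] using this)
    refine le_trans (le_of_eq ?_) ((h.LRle (hg.ι1 b) (hg.ι1 b⁻¹) _).trans k)
    congr 1
    simp only [map_add, map_sub, tw_apply, mul_inv_rev, inv_inv, Units.val_mul, star_mul,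
      hg.ι_star, h.RR, ← h.LRa, LL, ← map_inv, MonoidHom.coe_toHomUnits]
    simp only [← mul_assoc, ← map_mul, mul_inv_cancel, map_one, one_mul,
      mul_assoc (ι a * star g), mul_one]

theorem Sol.av {Ω : Type*} {s : Finset Ω} (hs : s.Nonempty) {S : Set B} {α β : Ω → A →ₗ[ℂ] E}
    {ζ : Ω → E} (h : ∀ ω, Sol π L R ξ γ ε ν S t κ (α ω) (β ω) (ζ ω)) :
    Sol π L R ξ γ ε ν S t κ (av s α) (av s β) (av s ζ) := by
  refine ⟨fun x => ?_, fun x => ?_, av_norm_le₂ hs fun ω _ => (h ω).nζ, fun x => ?_,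
    fun g gu x r r' => ?_⟩
  · rw [av_apply, ← av_const₂ hs (π x ξ), ← av_sub]
    exact av_norm_le₂ hs fun ω _ => (h ω).nβ x
  · rw [av_apply]
    exact av_norm_le₂ hs fun ω _ => (h ω).nα x
  · rw [av_apply]
    exact av_norm_le₂ hs fun ω _ => (h ω).l2 x
  · rw [av_apply, av_apply]
    erw [av_map (L g).toLinearMap, av_map (R (star g)).toLinearMap]
    rw [← av_add₂, ← av_sub]
    exact av_norm_le₂ hs fun ω _ => (h ω).rel g gu x r r'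

theorem bm_av (h : StdB L R ξ) (hl : LocFin G) {k : ℕ} {c : Γ} (hc : c ∈ G k) (β : A →ₗ[ℂ] E) :
    Bm L R (av (G k) fun a => av (G k) fun b => tw L R ι σ β a b) (σ c) (ι c) := by
  constructor <;> intro x <;> simp only [av_apply]
  · erw [av_map (L (ι c)).toLinearMap]
    rw [← hl.av_right (hl.inv k c hc)]
    refine av_congr₂ fun a _ => ?_
    erw [av_map (L (ι c)).toLinearMap]
    refine av_congr₂ fun b _ => ?_
    simp only [tw_apply, ContinuousLinearMap.coe_coe, LL, ← map_mul, mul_inv_rev, inv_inv,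
      ← mul_assoc, inv_mul_cancel_right]
  · erw [av_map (R (ι c)).toLinearMap]
    refine av_congr₂ fun a _ => ?_
    erw [av_map (R (ι c)).toLinearMap]
    rw [← hl.av_left (hl.inv k c hc)]
    refine av_congr₂ fun b _ => ?_
    simp only [tw_apply, ContinuousLinearMap.coe_coe, ← h.LRa, h.RR, ← map_mul, mul_inv_rev,
      inv_inv, mul_assoc, mul_inv_cancel_left]

theorem Pos.sol_bim (h : Pos π L R ξ γ ε) (hg : GrpD π L R G ι σ)
    (hν : ∀ a b x, ν (σ a * x * σ b) ≤ ν x) (s : Sol π L R ξ γ ε ν (unitary B) t κ α β ζ) :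
    ∃ α' β' ζ', Sol π L R ξ γ ε ν (unitary B) t κ α' β' ζ' ∧
      ∀ c, Bm L R α' (σ c) (ι c) ∧ Bm L R β' (σ c) (ι c) := by
  have k1 : ∀ k, Sol π L R ξ γ ε ν (unitary B) t κ
      (av (G k) fun a => av (G k) fun b => tw L R ι σ α a b)
      (av (G k) fun a => av (G k) fun b => tw L R ι σ β a b)
      (av (G k) fun _ => av (G k) fun b => L (ι b) (R (ι b⁻¹) ζ)) := fun k => by
    have := Sol.av (hg.lf.ne k) fun a => Sol.av (hg.lf.ne k) fun b =>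
      s.tw h.toStdB h.ε0.le hg hν a b
    rwa [av_comm, hg.lf.av_inv k fun b => av (G k) fun a => tw L R ι σ α b a⁻¹,
      show (fun b => av (G k) fun a => tw L R ι σ α b a⁻¹) =
        fun b => av (G k) fun a => tw L R ι σ α b a from funext fun b => hg.lf.av_inv k _] at this
  obtain ⟨α', β', ζ', h1, h2, h3⟩ := h.sol_lim (Ultrafilter.of atTop) k1
  have k2 : ∀ {β β' : A →ₗ[ℂ] E}, (∀ x, WV (Ultrafilter.of atTop : Ultrafilter ℕ)
      (fun k => (av (G k) fun a => av (G k) fun b => tw L R ι σ β a b) x) (β' x)) →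
      ∀ c, Bm L R β' (σ c) (ι c) := fun h2 c =>
    ⟨fun x => (h2 _).unique ((h2 x).map _) ((Ultrafilter.of_le atTop)
      ((hg.lf.ev c).mono fun k hk => (bm_av h.toStdB hg.lf hk _).l x)),
    fun x => (h2 _).unique ((h2 x).map _) ((Ultrafilter.of_le atTop)
      ((hg.lf.ev c).mono fun k hk => (bm_av h.toStdB hg.lf hk _).r x))⟩
  exact ⟨α', β', ζ', h1.sub fun g hg => Eventually.of_forall fun _ => hg,
    fun c => ⟨k2 h2 c, k2 h3 c⟩⟩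

end Vale.Agent.P096
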