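import Vale.Agent.P096.Stm3

/-! Conjugated von Neumann algebras and the polar decomposition of almost unitaries. -/

namespace Vale.Agent.P096

open scoped InnerProductSpace ComplexOrder BigOperators
open Filter Topology Vale.Agent.P104 Vale.Agent.P082

universe u

section Gen

variable {A : Type*} [CStarAlgebra A] [PartialOrder A] [StarOrderedRing A]

theorem polar_unit (T T' : A) {c : ℝ} (c0 : 0 ≤ c) (hc : c ≤ 1 / 100) (h1 : ‖T‖ ≤ 1 + c)
    (h2 : ‖T'‖ ≤ 1 + c) (h3 : ‖T' * T - 1‖ ≤ 3 * c) (h4 : ‖T * T' - 1‖ ≤ 3 * c) :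
    ∃ w ∈ unitary A, ‖T - w‖ ≤ 5 * c ∧ ‖T' - star w‖ ≤ 9 * c ∧
      ∀ y, Commute y T → Commute y (star T) → Commute y w := by
  rcases subsingleton_or_nontrivial A with hA | hA
  · exact ⟨1, one_mem _, by rw [Subsingleton.elim (T - 1) 0, norm_zero]; positivity,
      by rw [Subsingleton.elim (T' - star 1) 0, norm_zero]; positivity,
      fun y _ _ => Commute.one_right y⟩
  have a1 : IsUnit (T' * T) := isUnit_of_near (by linarith)
  have a2 : IsUnit (T * T') := isUnit_of_near (by linarith)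
  have hTu : IsUnit T := by
    obtain ⟨a, ha⟩ := a1.exists_left_inv
    obtain ⟨b, hb⟩ := a2.exists_right_inv
    rw [← mul_assoc] at ha
    rw [mul_assoc] at hb
    exact ⟨⟨T, T' * b, hb, by rw [← left_inv_eq_right_inv ha hb]; exact ha⟩, rfl⟩
  have hp : 0 ≤ star T * T := star_mul_self_nonneg T
  set Q := CFC.sqrt (star T * T) with hQd
  have hQ : 0 ≤ Q := CFC.sqrt_nonneg _
  have hQQ : Q * Q = star T * T := CFC.sqrt_mul_sqrt_self _ hp
  have hQu : IsUnit Q := (CFC.isUnit_sqrt_iff _ hp).2 (hTu.star.mul hTu)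
  have hs : IsSelfAdjoint Q := IsSelfAdjoint.of_nonneg hQ
  have hQs : star Q = Q := hs.star_eq
  obtain ⟨q, hq⟩ := hQu
  have e1 : Q * ↑q⁻¹ = 1 := by rw [← hq]; exact q.mul_inv
  have e2 : ↑q⁻¹ * Q = 1 := by rw [← hq]; exact q.inv_mul
  have e3 : star (↑q⁻¹ : A) * Q = 1 := by rw [← hQs, ← star_mul, e1, star_one]
  have h5 : star (T * ↑q⁻¹) * (T * ↑q⁻¹) = 1 := by
    calc star (T * ↑q⁻¹) * (T * ↑q⁻¹) = star (↑q⁻¹ : A) * (star T * T) * ↑q⁻¹ := by
          rw [star_mul]; noncomm_ring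
      _ = (star (↑q⁻¹ : A) * Q) * (Q * ↑q⁻¹) := by rw [← hQQ]; noncomm_ring
      _ = 1 := by rw [e1, e3, one_mul]
  have hu : T * ↑q⁻¹ ∈ unitary A :=
    (IsUnit.mem_unitary_iff_star_mul_self (hTu.mul q⁻¹.isUnit)).2 h5
  set w := T * ↑q⁻¹ with hw
  have hTe : T = w * Q := by rw [hw, mul_assoc, e2, mul_one]
  have nw : ‖w‖ = 1 := CStarRing.norm_of_mem_unitary hu
  have nQ : ‖Q‖ ≤ 1 + c := by rwa [hTe, CStarRing.norm_mem_unitary_mul _ hu] at h1
  have nq : ‖(↑q⁻¹ : A)‖ ≤ 1 + 5 * c := by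
    have e : (↑q⁻¹ : A) = T' * w - (T' * T - 1) * ↑q⁻¹ := by rw [hw]; noncomm_ring
    have b1 := norm_mul_le T' w
    have b2 := norm_mul_le (T' * T - 1) (↑q⁻¹ : A)
    have b3 := norm_sub_le (T' * w) ((T' * T - 1) * ↑q⁻¹)
    rw [← e] at b3
    rw [nw] at b1
    nlinarith [norm_nonneg (↑q⁻¹ : A), mul_le_mul_of_nonneg_right h3 (norm_nonneg (↑q⁻¹ : A))]
  have hQ1 : ‖Q - 1‖ ≤ 5 * c := by
    have h1 : Q - 1 = cfc (fun x : ℝ => x - 1) Q := by
      rw [cfc_sub _ _ Q, cfc_id' ℝ Q, cfc_const_one ℝ Q]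
    rw [h1]
    refine norm_cfc_le (by positivity) fun x hx => ?_
    have hx0 : 0 ≤ x := spectrum_nonneg_of_nonneg hQ hx
    have x1 : ‖x‖ ≤ ‖Q‖ := spectrum.norm_le_norm_of_mem hx
    have xn : x ≠ 0 := fun h => by
      rw [h] at hx
      exact (spectrum.zero_mem_iff ℝ).1 hx ⟨q, hq⟩
    have hx' : x⁻¹ ∈ spectrum ℝ (↑q⁻¹ : A) := by
      have := (spectrum.inv_mem_iff (R := ℝ) (r := Units.mk0 x xn) (a := q)).1 (by rw [hq]; exact hx)
      simpa using this
    have x2 : ‖x⁻¹‖ ≤ ‖(↑q⁻¹ : A)‖ := spectrum.norm_le_norm_of_mem hx'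
    have xp : 0 < x := lt_of_le_of_ne hx0 xn.symm
    rw [Real.norm_of_nonneg hx0] at x1
    rw [Real.norm_of_nonneg (inv_nonneg.2 hx0)] at x2
    have x3 : 1 ≤ x * (1 + 5 * c) := by
      have := mul_le_mul_of_nonneg_left (x2.trans nq) hx0
      rwa [mul_inv_cancel₀ xn] at this
    rw [Real.norm_eq_abs, abs_le]
    constructor <;> nlinarith
  have d1 : ‖T - w‖ ≤ 5 * c := by
    have e : T - w = w * (Q - 1) := by rw [mul_sub, ← hTe, mul_one]
    rwa [e, CStarRing.norm_mem_unitary_mul _ hu]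
  refine ⟨w, hu, d1, ?_, fun y h h' => ?_⟩
  · have e : T' - star w = ((T' * T - 1) - T' * (T - w)) * star w := by
      rw [mul_sub, sub_mul, sub_mul, sub_mul, mul_assoc T' w, hu.2]
      noncomm_ring
    rw [e, CStarRing.norm_mul_mem_unitary _ (Unitary.star_mem hu)]
    have b1 := norm_sub_le (T' * T - 1) (T' * (T - w))
    have b2 := nm_le h2 d1
    nlinarith
  · have cq : Commute y Q := by
      rw [hQd, CFC.sqrt_eq_cfc]
      exact ((h'.mul_right h).symm.cfc_nnreal _).symm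
    exact h.mul_right (Commute.units_inv_right (by rwa [hq]))

end Gen

variable {H : Type u} [NormedAddCommGroup H] [InnerProductSpace ℂ H] [CompleteSpace H]

/-- The algebra `w N w*`. -/
noncomputable def cjv (w : H →L[ℂ] H) (N : VonNeumannAlgebra H) : VonNeumannAlgebra H :=
  cmt ((fun y => w * y * star w) '' (N.commutant : Set (H →L[ℂ] H)))

theorem mem_cjv {w : H →L[ℂ] H} (hw : w ∈ unitary (H →L[ℂ] H)) {N : VonNeumannAlgebra H}
    {x : H →L[ℂ] H} : x ∈ cjv w N ↔ star w * x * w ∈ N := by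
  have k : ∀ y, w * y * star w * x = x * (w * y * star w) ↔
      y * (star w * x * w) = star w * x * w * y := fun y => by
    constructor
    · intro h
      have := congrArg (fun a => star w * a * w) h
      simp only [mul_assoc, hw.1, mul_one] at this ⊢
      rwa [← mul_assoc (star w) w, hw.1, one_mul] at this
    · intro h
      have := congrArg (fun a => w * a * star w) h
      simp only [mul_assoc, hw.2, mul_one] at this ⊢
      rwa [← mul_assoc w (star w), hw.2, one_mul] at this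
  rw [cjv, mem_cmt]
  constructor
  · intro h
    exact mem_of_commute fun y hy => (k y).1 (h _ ⟨y, hy, rfl⟩).1
  · rintro h _ ⟨y, hy, rfl⟩
    refine ⟨(k y).2 (commute_of_mem h hy).symm, ?_⟩
    rw [star_mul, star_mul, star_star, ← mul_assoc]
    exact (k _).2 (commute_of_mem h (star_mem hy)).symm

end Vale.Agent.P096
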