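import Vale.Agent.P096.Erg

/-! Linear maps solving the averaged equation on unitaries. -/

namespace Vale.Agent.P096

open scoped InnerProductSpace ComplexOrder BigOperators
open Filter Topology Vale.Agent.P104 Vale.Agent.P082 Finset

variable {A B E : Type*} [CStarAlgebra A] [CStarAlgebra B] [NormedAddCommGroup E]
  [InnerProductSpace ℂ E] [CompleteSpace E]
  {π : A →ₐ[ℂ] (E →L[ℂ] E)} {L : B →⋆ₐ[ℂ] (E →L[ℂ] E)} {R : B →ₗ[ℂ] (E →L[ℂ] E)} {ξ : E}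
  {γ ε t κ : ℝ} {ν : A → ℝ}

omit [CompleteSpace E] in
theorem Fm_sub (x x' : A) (y : B) : Fm π R ξ (x - x') y = Fm π R ξ x y - Fm π R ξ x' y := by
  simp only [Fm, map_sub, sub_apply]; abel

theorem nrm3 {A : Type*} [NormedRing A] {a b c : A} {r s t : ℝ} (ha : ‖a‖ ≤ r) (hb : ‖b‖ ≤ s)
    (hc : ‖c‖ ≤ t) : ‖a * b * c‖ ≤ r * s * t :=
  have r0 := (norm_nonneg _).trans ha
  (norm_mul_le _ _).trans (mul_le_mul ((norm_mul_le _ _).trans
    (mul_le_mul ha hb (norm_nonneg _) r0)) hc (norm_nonneg _)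
    (mul_nonneg r0 ((norm_nonneg _).trans hb)))

theorem StdB.LRle (h : StdB L R ξ) {a b : B} (ha : ‖a‖ ≤ 1) (hb : ‖b‖ ≤ 1) (η : E) :
    ‖L a (R b η)‖ ≤ ‖η‖ := by
  have h1 := h.Lle a (R b η)
  have h2 := h.Rle b η
  have := norm_nonneg η
  have := norm_nonneg (R b η)
  nlinarith

theorem Pos.lemD (h : Pos π L R ξ γ ε) {g : B} (hg : g ∈ unitary B) {x : Aˣ}
    (r : Rel π L ξ γ ε t x g) (r' : Rel π L ξ γ ε t (↑x⁻¹ : A) (star g)) {x₀ : A}
    (h0 : ‖π x₀ - L g‖ ≤ γ) :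
    ‖L g (π (↑x⁻¹ : A) ξ) + R (star g) (π x ξ) - (ξ + ξ) + Fm π R ξ x₀ (star g)‖ ≤
      (t ^ 2 + 2 * (t + 1)) * (γ * ε) := by
  have e : L g (π (↑x⁻¹ : A) ξ) + R (star g) (π x ξ) - (ξ + ξ) + Fm π R ξ x₀ (star g) =
      Fm π R ξ (x₀ - x) (star g) - (π x (π (↑x⁻¹ : A) ξ - L (star g) ξ) -
        L g (π (↑x⁻¹ : A) ξ - L (star g) ξ)) := by
    rw [Fm_sub, map_sub, map_sub, LL, hg.2, L1, ππ, x.mul_inv, π1, h.cen (star g)]
    simp only [Fm]
    abel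
  have t0 := r.t0
  have g0 := h.γ0
  have e0 := h.ε0
  have a1 : ‖x₀ - x‖ ≤ 2 * (γ + t * γ) := by
    have := h.low (x₀ - x)
    rw [map_sub, show π x₀ - π x = (π x₀ - L g) - (π x - L g) by abel] at this
    have h2 := norm_sub_le (π x₀ - L g) (π x - L g)
    linarith [r.op]
  have a2 : ‖Fm π R ξ (x₀ - x) (star g)‖ ≤ ε * (2 * (γ + t * γ)) * 1 := (h.F _ _).trans
    (mul_le_mul (mul_le_mul_of_nonneg_left a1 e0.le) (by rw [norm_star]; exact un_le hg)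
      (norm_nonneg _) (by positivity))
  have a3 := (r.opa (π (↑x⁻¹ : A) ξ - L (star g) ξ)).trans
    (mul_le_mul_of_nonneg_left r'.vec (by positivity))
  rw [e]
  refine (norm_sub_le _ _).trans ?_
  nlinarith

/-- Approximate solutions of the equation on a set of unitaries. -/
structure Sol (π : A →ₐ[ℂ] (E →L[ℂ] E)) (L : B →⋆ₐ[ℂ] (E →L[ℂ] E)) (R : B →ₗ[ℂ] (E →L[ℂ] E))
    (ξ : E) (γ ε : ℝ) (ν : A → ℝ) (S : Set B) (t κ : ℝ) (α β : A →ₗ[ℂ] E) (ζ : E) : Prop where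
  nβ : ∀ x, ‖β x - π x ξ‖ ≤ 200000 * ε * ‖x‖
  nα : ∀ x, ‖α x‖ ≤ 4000 * ‖x‖
  nζ : ‖ζ‖ ≤ ε + 3
  l2 : ∀ x, ‖β x‖ ≤ 4000 * ν x
  rel : ∀ g ∈ S, ∀ x : Aˣ, Rel π L ξ γ ε t x g → Rel π L ξ γ ε t (↑x⁻¹ : A) (star g) →
    ‖L g (β (↑x⁻¹ : A)) + R (star g) (α x) - ζ‖ ≤ κ

/-- The two-sided translate of the basic map. -/
noncomputable def tm (π : A →ₐ[ℂ] (E →L[ℂ] E)) (ξ : E) (T : E →L[ℂ] E) (a a' : A) : A →ₗ[ℂ] E where
  toFun x := T (π (a * x * a') ξ)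
  map_add' x y := by simp [mul_add, add_mul]
  map_smul' c x := by simp

omit [CompleteSpace E] in
theorem tm_apply (T : E →L[ℂ] E) (a a' x : A) : tm π ξ T a a' x = T (π (a * x * a') ξ) := rfl

theorem Pos.uhat (h : Pos π L R ξ γ ε) (u : unitary B) : ∃ x : Aˣ,
    Rel π L ξ γ ε 44 x u ∧ Rel π L ξ γ ε 44 (↑x⁻¹ : A) (star u) := by
  obtain ⟨x, hx⟩ := h.hat u
  have r := h.mono hx (show 11 * ‖(u : B)‖ ≤ 11 by linarith [un_le u.2])
  obtain ⟨w, rfl, hw⟩ := h.inv r u.2 (by norm_num) (by norm_num)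
  exact ⟨w, h.mono r (by norm_num), h.mono hw (by norm_num)⟩

theorem Pos.sol_fin (h : Pos π L R ξ γ ε)
    (hν : ∀ a x a', ‖π (a * x * a') ξ‖ ≤ 2 * ‖a‖ * ‖a'‖ * ν x) (ν0 : ∀ x, 0 ≤ ν x)
    (T : Finset (unitary B)) : ∃ α β ζ, Sol π L R ξ γ ε ν {g | ∃ u ∈ T, u = g} t
      (((30976 * t) ^ 2 + 2 * (30976 * t + 1) + 1) * (γ * ε)) α β ζ := by
  have g0 := h.γ0
  have e0 := h.ε0
  choose hat h1 h2 using h.uhat
  choose nr n1 n2 using h.nearB
  have n3 : ∀ g : unitary B, ‖π (nr g) - L g‖ ≤ γ := fun g =>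
    (n2 g).trans (mul_le_of_le_one_right g0.le (un_le g.2))
  have us : ∀ g : unitary B, ‖star (g : B)‖ ≤ 1 := fun g => by rw [norm_star]; exact un_le g.2
  obtain ⟨Ω, _, _, u, g₀, ζ, z1, hz⟩ := ergo (fun g : unitary B => Fm π R ξ (nr g) (star g))
    (c := ε) (fun g => (h.F _ _).trans (by
      have := mul_le_mul ((n1 g).trans (un_le g.2)) (us g) (norm_nonneg _) zero_le_one
      rw [mul_assoc]
      nlinarith)) T (mul_pos g0 e0)
  obtain ⟨v, rfl⟩ : ∃ v : unitary B, g₀ = star v := ⟨star g₀, (star_star _).symm⟩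
  have ne : (univ : Finset Ω).Nonempty := univ_nonempty
  refine ⟨av univ fun ω => tm π ξ (L v * R (star (u ω))) (↑(hat v)⁻¹) (hat (u ω)),
    av univ fun ω => tm π ξ (L (u ω) * R (star v)) (↑(hat (u ω))⁻¹) (hat v),
    (ξ + ξ) - L v (R (star v) ζ), fun x => ?_, fun x => ?_, ?_, fun x => ?_, ?_⟩
  · obtain ⟨b, hb⟩ := h.tilde x
    rw [av_apply, ← av_const₂ ne (π x ξ), ← av_sub]
    refine av_norm_le₂ ne fun ω _ => ?_
    have r := h.mul (h.mul (h2 (u ω)) hb) (h1 v)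
    have e : tm π ξ (L (u ω) * R (star v)) (↑(hat (u ω))⁻¹) (hat v) x - π x ξ =
        L (u ω) (R (star v) (π (↑(hat (u ω))⁻¹ * x * hat v) ξ - L (star ↑(u ω) * b * v) ξ)) -
          (π x ξ - L b ξ) := by
      rw [tm_apply, mul_apply_eq_comp, map_sub, map_sub, ← h.LRa, ← h.cen, LL, LL,
        mul_assoc (u ω : B), mul_assoc _ (v : B), v.2.2, mul_one, ← mul_assoc (u ω : B), (u ω).2.2,
        one_mul]
      abel
    rw [e]
    refine (norm_sub_le _ _).trans ?_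
    have := (h.LRle (un_le (u ω).2) (us v) _).trans r.vec
    have := hb.vec
    have := mul_nonneg e0.le (norm_nonneg x)
    linarith
  · rw [av_apply]
    refine av_norm_le₂ ne fun ω _ => ?_
    rw [tm_apply, mul_apply_eq_comp]
    refine (h.LRle (un_le v.2) (us _) _).trans ((h.πle _ _).trans ?_)
    have := nrm3 (h2 v).nx (le_refl ‖x‖) (h1 (u ω)).nx
    rw [h.unit]
    linarith [norm_nonneg x]
  · refine (norm_sub_le _ _).trans ?_
    have := norm_add_le ξ ξ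
    have := h.LRle (un_le v.2) (us v) ζ
    linarith [h.unit]
  · rw [av_apply]
    refine av_norm_le₂ ne fun ω _ => ?_
    rw [tm_apply, mul_apply_eq_comp]
    refine (h.LRle (un_le (u ω).2) (us _) _).trans ((hν _ _ _).trans
      (mul_le_mul_of_nonneg_right ?_ (ν0 x)))
    have := mul_le_mul (h2 (u ω)).nx (h1 v).nx (norm_nonneg _) (by norm_num)
    linarith
  · rintro _ ⟨g, hg, rfl⟩ x r r'
    have k : ∀ ω, ‖L g (tm π ξ (L (u ω) * R (star v)) (↑(hat (u ω))⁻¹) (hat v) (↑x⁻¹ : A)) +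
        R (star g) (tm π ξ (L v * R (star (u ω))) (↑(hat v)⁻¹) (hat (u ω)) x) - (ξ + ξ) +
        L v (R (star v) (Fm π R ξ (nr ↑(star v * g * u ω)) (star ↑(star v * g * u ω))))‖ ≤
        ((30976 * t) ^ 2 + 2 * (30976 * t + 1)) * (γ * ε) := fun ω => by
      have r1 := h.mul (h.mul (h2 v) r) (h1 (u ω))
      have r2 := h.mul (h.mul (h2 (u ω)) r') (h1 v)
      rw [show 4 * (4 * 44 * t) * 44 = 30976 * t by ring] at r1 r2
      have := h.lemD (star v * g * u ω).2 (x := (hat v)⁻¹ * x * hat (u ω)) (t := 30976 * t)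
        (by simpa using r1) (by simpa [mul_assoc] using r2) (n3 _)
      refine le_trans (le_of_eq ?_) ((h.LRle (un_le v.2) (us v) _).trans this)
      congr 1
      have e1 : L v (R (star v) ξ) = ξ := by rw [← h.cen, LL, v.2.2, L1]
      simp only [map_add, map_sub, e1, tm_apply, mul_apply_eq_comp, mul_inv_rev, inv_inv,
        Units.val_mul, Submonoid.coe_mul, Unitary.coe_star, star_mul, star_star, h.RR, ← h.LRa, LL]
      simp only [← mul_assoc, v.2.2, one_mul, mul_assoc (star (u ω : B) * star (g : B)), mul_one]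
    have e : L g ((av univ fun ω => tm π ξ (L (u ω) * R (star v)) (↑(hat (u ω))⁻¹) (hat v))
        (↑x⁻¹ : A)) + R (star g) ((av univ fun ω => tm π ξ (L v * R (star (u ω))) (↑(hat v)⁻¹)
        (hat (u ω))) x) - ((ξ + ξ) - L v (R (star v) ζ)) = (av univ fun ω =>
        L g (tm π ξ (L (u ω) * R (star v)) (↑(hat (u ω))⁻¹) (hat v) (↑x⁻¹ : A)) +
        R (star g) (tm π ξ (L v * R (star (u ω))) (↑(hat v)⁻¹) (hat (u ω)) x) - (ξ + ξ) +
        L v (R (star v) (Fm π R ξ (nr ↑(star v * g * u ω)) (star ↑(star v * g * u ω))))) -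
        L v (R (star v) ((av univ fun ω => Fm π R ξ (nr ↑(star v * g * u ω))
          (star ↑(star v * g * u ω))) - ζ)) := by
      rw [av_add₂, av_sub, av_add₂, av_const₂ ne, av_apply, av_apply, map_sub, map_sub]
      erw [av_map (L g).toLinearMap, av_map (R (star g)).toLinearMap,
        av_map (R (star v)).toLinearMap, av_map (L v).toLinearMap]
      simp only [ContinuousLinearMap.coe_coe]
      abel
    rw [e]
    refine (norm_sub_le _ _).trans ?_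
    have a1 := av_norm_le₂ ne fun ω _ => k ω
    have a2 := (h.LRle (un_le v.2) (us v) _).trans (hz g hg)
    linarith

theorem Pos.sol_lim (h : Pos π L R ξ γ ε) {ι : Type*} (U : Ultrafilter ι) {S : ι → Set B}
    {α β : ι → A →ₗ[ℂ] E} {ζ : ι → E} (hs : ∀ i, Sol π L R ξ γ ε ν (S i) t κ (α i) (β i) (ζ i)) :
    ∃ α' β' ζ', Sol π L R ξ γ ε ν {g | ∀ᶠ i in U, g ∈ S i} t κ α' β' ζ' ∧
      (∀ x, WV U (fun i => α i x) (α' x)) ∧ ∀ x, WV U (fun i => β i x) (β' x) := by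
  obtain ⟨α', ha⟩ := exists_wvL U α _ fun i => (hs i).nα
  obtain ⟨β', hb⟩ := exists_wvL U β _ fun i => (hs i).l2
  obtain ⟨ζ', hz⟩ := exists_wv U ζ fun i => (hs i).nζ
  exact ⟨α', β', ζ', ⟨fun x => ((hb x).sub (wv_const _)).norm_le
    (Eventually.of_forall fun i => (hs i).nβ x),
    fun x => (ha x).norm_le (Eventually.of_forall fun i => (hs i).nα x),
    hz.norm_le (Eventually.of_forall fun i => (hs i).nζ),
    fun x => (hb x).norm_le (Eventually.of_forall fun i => (hs i).l2 x),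
    fun g hg x r r' => ((((hb _).map _).add ((ha _).map _)).sub hz).norm_le
      (hg.mono fun i hi => (hs i).rel g hi x r r')⟩, ha, hb⟩

theorem Sol.sub {S S' : Set B} {α β : A →ₗ[ℂ] E} {ζ : E} (h : Sol π L R ξ γ ε ν S t κ α β ζ)
    (hS : S' ⊆ S) : Sol π L R ξ γ ε ν S' t κ α β ζ :=
  ⟨h.nβ, h.nα, h.nζ, h.l2, fun g hg => h.rel g (hS hg)⟩

theorem Pos.sol_all (h : Pos π L R ξ γ ε)
    (hν : ∀ a x a', ‖π (a * x * a') ξ‖ ≤ 2 * ‖a‖ * ‖a'‖ * ν x) (ν0 : ∀ x, 0 ≤ ν x) :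
    ∃ α β ζ, Sol π L R ξ γ ε ν (unitary B) t
      (((30976 * t) ^ 2 + 2 * (30976 * t + 1) + 1) * (γ * ε)) α β ζ := by
  classical
  choose α β ζ hs using h.sol_fin (t := t) hν ν0
  obtain ⟨α', β', ζ', h1, -⟩ := h.sol_lim (Ultrafilter.of atTop) hs
  exact ⟨α', β', ζ', h1.sub fun g hg => (Ultrafilter.of_le atTop)
    ((eventually_ge_atTop {⟨g, hg⟩}).mono fun T hT => ⟨⟨g, hg⟩, hT (mem_singleton_self _), rfl⟩)⟩

end Vale.Agent.P096
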