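import Vale.Agent.P096.Polar
import Vale.Agent.P104.Halv

/-! Perturbation of isometries and projections. -/

namespace Vale.Agent.P096

open scoped InnerProductSpace
open Vale.Agent.P104

section Gen

variable {A : Type*} [CStarAlgebra A]

theorem norm_iso_le {s : A} (hs : star s * s = 1) : ‖s‖ ≤ 1 := by
  have h1 : ‖star s * s‖ ≤ 1 := by rw [hs]; exact IsStarProjection.norm_le _ (.one A)
  rw [CStarRing.norm_star_mul_self] at h1
  nlinarith [norm_nonneg s]

theorem proj_eq_zero {p : A} (hp : IsStarProjection p) (h : ‖p‖ < 1) : p = 0 := by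
  have h1 : ‖p‖ * ‖p‖ = ‖p‖ := by
    rw [← CStarRing.norm_star_mul_self, hp.2.star_eq, hp.1.eq]
  rw [← norm_eq_zero]
  nlinarith [norm_nonneg p]

variable [PartialOrder A] [StarOrderedRing A]

/-- An element close to an isometry has an isometric polar part. -/
theorem iso_near {T s : A} {c : ℝ} (hs : star s * s = 1) (hT : ‖T - s‖ ≤ c) (hc : c ≤ 1 / 5) :
    ∃ R : A, star R = R ∧ star (T * R) * (T * R) = 1 ∧ ‖T * R - s‖ ≤ 4 * c ∧
      ∀ y, Commute y (star T * T) → Commute y R := by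
  have hc0 : 0 ≤ c := (norm_nonneg _).trans hT
  have s1 := norm_iso_le hs
  have n1 : ‖star T * T - 1‖ ≤ 2 * c + c ^ 2 := by
    have e : star T * T - 1 = star (T - s) * (T - s) + star (T - s) * s + star s * (T - s) := by
      rw [star_sub, ← hs]; noncomm_ring
    rw [e]
    have h1 := norm_mul_le (star (T - s)) (T - s)
    have h3 := norm_mul_le (star (T - s)) s
    have h4 := norm_mul_le (star s) (T - s)
    have h2 := norm_add₃_le (a := star (T - s) * (T - s)) (b := star (T - s) * s)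
      (c := star s * (T - s))
    rw [norm_star] at h1 h3 h4
    nlinarith [norm_nonneg (T - s), norm_nonneg s]
  have hp : 0 ≤ star T * T := star_mul_self_nonneg T
  have hu : IsUnit (star T * T) := isUnit_of_near (by nlinarith)
  set Q := CFC.sqrt (star T * T) with hQd
  have hQ : 0 ≤ Q := CFC.sqrt_nonneg _
  have hQQ : Q * Q = star T * T := CFC.sqrt_mul_sqrt_self _ hp
  have hQu : IsUnit Q := (CFC.isUnit_sqrt_iff _ hp).2 hu
  have hQs : star Q = Q := (IsSelfAdjoint.of_nonneg hQ).star_eq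
  obtain ⟨q, hq⟩ := hQu
  have e1 : Q * ↑q⁻¹ = 1 := by rw [← hq]; exact q.mul_inv
  have e2 : ↑q⁻¹ * Q = 1 := by rw [← hq]; exact q.inv_mul
  have e3 : star (↑q⁻¹ : A) * Q = 1 := by rw [← hQs, ← star_mul, e1, star_one]
  have e4 : star (↑q⁻¹ : A) = ↑q⁻¹ := by
    calc star (↑q⁻¹ : A) = star (↑q⁻¹ : A) * (Q * ↑q⁻¹) := by rw [e1, mul_one]
      _ = ↑q⁻¹ := by rw [← mul_assoc, e3, one_mul]
  have h1 : star (T * ↑q⁻¹) * (T * ↑q⁻¹) = 1 := by
    calc star (T * ↑q⁻¹) * (T * ↑q⁻¹) = star (↑q⁻¹ : A) * (star T * T) * ↑q⁻¹ := by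
          rw [star_mul]; noncomm_ring
      _ = (star (↑q⁻¹ : A) * Q) * (Q * ↑q⁻¹) := by rw [← hQQ]; noncomm_ring
      _ = 1 := by rw [e1, e3, one_mul]
  have hQ1 : ‖Q - 1‖ ≤ 2 * c + c ^ 2 := (norm_sub_one_le_sq hQ).trans (by rw [hQQ]; exact n1)
  refine ⟨_, e4, h1, ?_, fun y hy => ?_⟩
  · have e : T * ↑q⁻¹ - s = (T - s) - T * ↑q⁻¹ * (Q - 1) := by
      rw [mul_sub, mul_assoc, e2, mul_one, mul_one]; abel
    have h2 := norm_mul_le (T * ↑q⁻¹) (Q - 1)
    have h3 := norm_iso_le h1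
    rw [e]
    refine (norm_sub_le _ _).trans ?_
    nlinarith [norm_nonneg (Q - 1), norm_nonneg (T * ↑q⁻¹)]
  · have : Commute y Q := by
      rw [hQd, CFC.sqrt_eq_cfc]
      exact (hy.symm.cfc_nnreal _).symm
    rw [← hq] at this
    exact this.units_inv_right

/-- An element close to a projection is close to a projection in its bicommutant. -/
theorem proj_near {x f : A} {c : ℝ} (hf : IsStarProjection f) (hx : ‖x - f‖ ≤ c)
    (hc : c ≤ 1 / 10) : ∃ q : A, IsStarProjection q ∧ ‖q - f‖ ≤ 4 * c ∧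
      ∀ y, Commute y x → Commute y (star x) → Commute y q := by
  have fs := hf.2.star_eq
  have ff := hf.1.eq
  set T := x + star x - 1 with hT
  have Ts : star T = T := by rw [hT, star_sub, star_add, star_star, star_one, add_comm]
  have h1 : star (f + f - 1) * (f + f - 1) = 1 := by
    rw [star_sub, star_add, star_one, fs]
    simp only [mul_sub, sub_mul, mul_add, add_mul, ff, one_mul, mul_one]
    abel
  have h2 : ‖T - (f + f - 1)‖ ≤ 2 * c := by
    have e : T - (f + f - 1) = (x - f) + star (x - f) := by rw [hT, star_sub, fs]; abel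
    rw [e]
    refine (norm_add_le _ _).trans ?_
    rw [norm_star]
    linarith
  obtain ⟨R, R1, R2, R3, R4⟩ := iso_near h1 h2 (by linarith)
  have c1 : ∀ y, Commute y T → Commute y R := fun y hy => R4 y (by rw [Ts]; exact hy.mul_right hy)
  have c2 : star (T * R) = T * R := by rw [star_mul, R1, Ts, (c1 T (Commute.refl T)).eq]
  rw [c2] at R2
  refine ⟨(2⁻¹ : ℂ) • (T * R + 1), ⟨?_, ?_⟩, ?_, fun y hy hy' => ?_⟩
  · rw [IsIdempotentElem, smul_mul_smul_comm]
    simp only [mul_add, add_mul, R2, one_mul, mul_one]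
    module
  · rw [IsSelfAdjoint, star_smul, star_add, c2, star_one]
    simp
  · have e : (2⁻¹ : ℂ) • (T * R + 1) - f = (2⁻¹ : ℂ) • (T * R - (f + f - 1)) := by module
    rw [e, norm_smul, norm_inv, Complex.norm_two]
    linarith
  · have : Commute y T := (hy.add_right hy').sub_right (Commute.one_right y)
    exact ((this.mul_right (c1 y this)).add_right (Commute.one_right y)).smul_right _

end Gen

variable {K : Type*} [NormedAddCommGroup K] [InnerProductSpace ℂ K] [CompleteSpace K]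

theorem proj_near_mem {M : VonNeumannAlgebra K} {x f : K →L[ℂ] K} {c : ℝ} (hxM : x ∈ M)
    (hf : IsStarProjection f) (hx : ‖x - f‖ ≤ c) (hc : c ≤ 1 / 10) :
    ∃ q ∈ M, IsStarProjection q ∧ ‖q - f‖ ≤ 4 * c ∧
      ∀ y, Commute y x → Commute y (star x) → Commute y q := by
  obtain ⟨q, h1, h2, h3⟩ := proj_near hf hx hc
  exact ⟨q, mem_of_commute fun y hy => h3 y (commute_of_mem hxM hy).symm
    (commute_of_mem (star_mem hxM) hy).symm, h1, h2, h3⟩

theorem iso_near_mem {M : VonNeumannAlgebra K} {x s : K →L[ℂ] K} {c : ℝ} (hxM : x ∈ M)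
    (hs : star s * s = 1) (hx : ‖x - s‖ ≤ c) (hc : c ≤ 1 / 5) :
    ∃ w ∈ M, star w * w = 1 ∧ ‖w - s‖ ≤ 4 * c := by
  obtain ⟨R, -, h2, h3, h4⟩ := iso_near hs hx hc
  exact ⟨_, mul_mem hxM (mem_of_commute fun y hy =>
    h4 y (commute_of_mem (mul_mem (star_mem hxM) hxM) hy).symm), h2, h3⟩

/-- The centre. -/
noncomputable def centre (M : VonNeumannAlgebra K) : VonNeumannAlgebra K where
  toStarSubalgebra := StarSubalgebra.centralizer ℂ
    ((M.commutant : Set (K →L[ℂ] K)) ∪ (M : Set (K →L[ℂ] K)))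
  centralizer_centralizer' := by simp

theorem mem_centre {M : VonNeumannAlgebra K} {x : K →L[ℂ] K} :
    x ∈ centre M ↔ x ∈ M ∧ ∀ y ∈ M, x * y = y * x := by
  have h1 : x ∈ centre M ↔ x ∈ StarSubalgebra.centralizer ℂ
      ((M.commutant : Set (K →L[ℂ] K)) ∪ (M : Set (K →L[ℂ] K))) := Iff.rfl
  rw [h1, StarSubalgebra.mem_centralizer_iff]
  constructor
  · intro h
    exact ⟨mem_of_commute fun y hy => (h y (.inl hy)).1, fun y hy => (h y (.inr hy)).1.symm⟩
  · rintro ⟨hx, hxe⟩ g (hg | hg)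
    · exact ⟨(commute_of_mem hx hg).symm, (commute_of_mem hx (star_mem hg)).symm⟩
    · exact ⟨(hxe g hg).symm, (hxe _ (star_mem hg)).symm⟩

theorem scalar_of_central {z : K →L[ℂ] K} (h : ∀ y, z * y = y * z) : ∃ c : ℂ, z = c • 1 := by
  rcases subsingleton_or_nontrivial K with _ | _
  · exact ⟨0, Subsingleton.elim _ _⟩
  obtain ⟨η, hη⟩ := exists_norm_eq K (show (0 : ℝ) ≤ 1 by norm_num)
  refine ⟨⟪η, z η⟫_ℂ, ContinuousLinearMap.ext fun ξ => ?_⟩
  have := congrArg (fun T : K →L[ℂ] K => T η) (h ((innerSL ℂ η).smulRight ξ))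
  simpa [hη] using this

theorem factor_of_proj {M : VonNeumannAlgebra K}
    (h : ∀ z ∈ M, IsStarProjection z → (∀ x ∈ M, z * x = x * z) → z = 0 ∨ z = 1) :
    ∀ z ∈ M, (∀ x ∈ M, z * x = x * z) → ∃ c : ℂ, z = c • 1 := fun z hz hc =>
  scalar_of_central fun y => commute_of_proj (M := centre M) (one_mem _) (.one _)
    (fun E hE hp _ => by
      rcases h E (mem_centre.1 hE).1 hp (mem_centre.1 hE).2 with rfl | rfl <;> simp)
    z (mem_centre.2 ⟨hz, hc⟩) (by rw [one_mul, mul_one])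

end Vale.Agent.P096
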