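import Vale.Agent.P096.Stmts
import Vale.Agent.P096.Type0

/-! The trace of a II_1 factor and stability of the type. -/

namespace Vale.Agent.P096

open scoped InnerProductSpace ComplexOrder BigOperators
open Vale.Agent.P104 Vale.Agent.P082 Finset

universe u

variable {K : Type u} [NormedAddCommGroup K] [InnerProductSpace ℂ K] [CompleteSpace K]
  {M N : VonNeumannAlgebra K}

theorem cen_eq (h : ∀ z ∈ M, (∀ x ∈ M, z * x = x * z) → ∃ c : ℂ, z = c • 1) {z : Alg M}
    (hz : Cen z) (h0 : z ≠ 0) : z = 1 := by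
  obtain ⟨c, hc⟩ := h z.1 z.2 fun x hx => congrArg Subtype.val (hz.comm ⟨x, hx⟩)
  have e : z = c • 1 := Subtype.ext hc
  have c0 : c ≠ 0 := fun d => h0 (by rw [e, d, zero_smul])
  have h1 : c • z = c • 1 := by
    calc c • z = z * z := by nth_rw 2 [e]; rw [smul_mul_assoc, one_mul]
      _ = c • 1 := by rw [hz.proj.1.eq, e]
  exact smul_right_injective _ c0 h1

theorem prime (h : ∀ z ∈ M, (∀ x ∈ M, z * x = x * z) → ∃ c : ℂ, z = c • 1) {y q : K →L[ℂ] K}
    (hy : y ∈ M) (hq : q ∈ M) (hp : IsStarProjection q) (h0 : ∀ x ∈ M, y * x * q = 0) :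
    y = 0 ∨ q = 0 := by
  obtain ⟨z, z1, z2, z3⟩ := exists_supp (M := M) (q := ⟨q, hq⟩) (proj_coe.2 hp)
  by_cases c : z = 0
  · rw [c, zero_mul] at z2
    exact .inr (congrArg Subtype.val z2).symm
  · have := z3 ⟨y, hy⟩ fun x => Subtype.ext (h0 x.1 x.2)
    rw [cen_eq h z1 c, mul_one] at this
    exact .inl (congrArg Subtype.val this)

theorem traceS : TraceStmt.{u} := by
  intro H _ _ _ _ M hM
  have n1 : (1 : Alg M) ≠ 0 := fun h => one_ne_zero (congrArg Subtype.val h)
  obtain ⟨z, z1, z2, -, h⟩ := struct (M := M) 1 ⟨.one _, by simp⟩ n1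
  rw [cen_eq hM.factor z1 z2] at h
  rcases h with ⟨s, s1, s2⟩ | ⟨I, _, _, v, g, hv, ha⟩ | ⟨hH, τ, ⟨I, _, ξ, η, hv⟩, t1, -, t3⟩
  · have h1 : s 0 * star (s 0) = 1 :=
      Subtype.ext (hM.finite _ (s 0).2 (congrArg Subtype.val (s1 0)))
    have h2 : s 1 = 0 := by rw [← one_mul (s 1), ← h1, mul_assoc, s2 0 1 zero_ne_one, mul_zero]
    exact absurd (by rw [← s1 1, h2, mul_zero]) n1
  · have gp : IsStarProjection g := ⟨hv.idem, hv.sa⟩
    have g0 : g ≠ 0 := fun c => n1 (by
      rw [← hv.sum]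
      exact sum_eq_zero fun i _ => by rw [← hv.fix i, c, mul_zero, zero_mul])
    obtain ⟨f, fM, f1, f2, f3, f4⟩ := hM.diffuse g.1 g.2 (proj_coe.1 gp)
      fun c => g0 (Subtype.ext c)
    have gp' := proj_coe.1 gp
    have f5 : f * g.1 = f := proj_mul_symm gp'.2 f1.2 f1.2 f4
    have p := f1.sub_of_mul_eq_right gp' f4
    rcases prime hM.factor fM (sub_mem g.2 fM) p (fun x hx => by
      have e : (g.1 * f * g.1) * (g.1 * x * g.1) = (g.1 * x * g.1) * (g.1 * f * g.1) :=
        congrArg Subtype.val (ha ⟨f, fM⟩ ⟨x, hx⟩)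
      rw [f4, f5] at e
      have e1 : g.1 * (g.1 - f) = g.1 - f := by rw [mul_sub, gp'.1.eq, f4]
      calc f * x * (g.1 - f) = f * (g.1 * x * g.1) * (g.1 - f) := by
            rw [← mul_assoc f, ← mul_assoc f, f5, mul_assoc _ g.1, e1]
        _ = 0 := by rw [e, mul_assoc, mul_sub, f5, f1.1.eq, sub_self, mul_zero]) with c | c
    · exact absurd c f2
    · exact absurd (sub_eq_zero.1 c).symm f3
  · have t0 : τ 1 ≠ 0 := fun c => n1 (by simpa using t3 1 (by simpa using c))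
    have p1 : 0 ≤ τ 1 := τ.map_nonneg zero_le_one
    refine ⟨(τ 1)⁻¹ • τ.toLinearMap, fun z hz => ?_, hH,
      ⟨I, inferInstance, fun i => (τ 1)⁻¹ • ξ i, η, fun a => ?_⟩, fun x y => ?_, fun x => ?_, ?_,
      fun x hx => ?_⟩
    · obtain ⟨c, hc⟩ := hM.factor z.1 z.2 fun x hx => congrArg Subtype.val (hz ⟨x, hx⟩)
      exact ⟨c, Subtype.ext hc⟩
    · simp only [LinearMap.smul_apply, hv, map_smul, inner_smul_right, smul_eq_mul, mul_sum]
    · exact congrArg (fun t => (τ 1)⁻¹ * t) (t1 x y)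
    · exact mul_nonneg (inv_nonneg.2 p1) (τ.map_nonneg (star_mul_self_nonneg x))
    · exact inv_mul_cancel₀ t0
    · simpa using t3 x ((mul_eq_zero.1 hx).resolve_left (inv_ne_zero t0))

theorem Near.proj {δ : ℝ} (h : Near N M δ) (h0 : 0 ≤ δ) {e : K →L[ℂ] K} (he : e ∈ N)
    (h1 : ‖e‖ ≤ 1) : ∃ x ∈ M, ‖x - e‖ ≤ δ := by
  obtain ⟨x, x1, -, x2⟩ := h e he
  exact ⟨x, x1, by rw [norm_sub_rev]; nlinarith⟩

theorem nm3 {A : Type*} [NormedRing A] {a b c : A} {r : ℝ} (ha : ‖a‖ ≤ 1) (hb : ‖b‖ ≤ r)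
    (hc : ‖c‖ ≤ 1) : ‖a * b * c‖ ≤ r := by
  have h1 := norm_mul_le (a * b) c
  have h2 := norm_mul_le a b
  have := norm_nonneg b
  have := norm_nonneg (a * b)
  nlinarith [norm_nonneg a, norm_nonneg c]

theorem typeS : TypeStmt.{u} := by
  intro H _ _ _ M N δ h0 h1 hM hMN hNM
  have o1 : ‖(1 : H →L[ℂ] H)‖ ≤ 1 := IsStarProjection.norm_le _ (.one _)
  refine ⟨factor_of_proj fun z hz hp hc => ?_, fun v hv hvv => ?_, fun e he hp e0 => ?_⟩
  · obtain ⟨x, x1, x2⟩ := hNM.proj h0 hz hp.norm_le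
    obtain ⟨p, pM, p1, p2, -⟩ := proj_near_mem x1 hp x2 (by linarith)
    rcases prime hM.factor (sub_mem (one_mem _) pM) pM p1 (fun x hx => by
      set w := (1 - p) * x * p with hw
      obtain ⟨y, y1, -, y2⟩ := hMN w (mul_mem (mul_mem (sub_mem (one_mem _) pM) hx) pM)
      have w1 : w * p = w := by rw [hw, mul_assoc, p1.1.eq]
      have w2 : p * w = 0 := by
        rw [hw, ← mul_assoc, ← mul_assoc, p1.mul_one_sub_self, zero_mul, zero_mul]
      have e : w = (w * (p - z) - (p - z) * w) + ((w - y) * z - z * (w - y)) := by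
        simp only [mul_sub, sub_mul, w1, w2, hc y y1]
        abel
      have a1 := norm_mul_le w (p - z)
      have a2 := norm_mul_le (p - z) w
      have a3 := norm_mul_le (w - y) z
      have a4 := norm_mul_le z (w - y)
      have a5 := norm_add_le_of_le (norm_sub_le (w * (p - z)) ((p - z) * w))
        (norm_sub_le ((w - y) * z) (z * (w - y)))
      rw [← e] at a5
      have a6 := hp.norm_le
      have a7 : ‖w - y‖ * ‖z‖ ≤ δ * ‖w‖ := by nlinarith [norm_nonneg (w - y)]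
      have a8 : ‖w‖ * ‖p - z‖ ≤ 4 * δ * ‖w‖ := by nlinarith [norm_nonneg w]
      rw [← norm_eq_zero]
      nlinarith [norm_nonneg w]) with c | c
    · rw [← sub_eq_zero.1 c] at p2
      exact .inr (sub_eq_zero.1 (proj_eq_zero hp.one_sub (by linarith))).symm
    · rw [c, zero_sub, norm_neg] at p2
      exact .inl (proj_eq_zero hp (by linarith))
  · have v1 := norm_iso_le hvv
    obtain ⟨x, x1, x2⟩ := hNM.proj h0 hv v1
    obtain ⟨w, wM, w1, w2⟩ := iso_near_mem x1 hvv x2 (by linarith)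
    have w3 := hM.finite w wM w1
    have p : IsStarProjection (v * star v) := pi_fin (by rw [mul_assoc, hvv, mul_one])
    refine (sub_eq_zero.1 (proj_eq_zero p.one_sub ?_)).symm
    have e : 1 - v * star v = (w - v) * star w + v * star (w - v) := by
      rw [← w3, star_sub]; noncomm_ring
    have a1 := norm_mul_le (w - v) (star w)
    have a2 := norm_mul_le v (star (w - v))
    have a3 := norm_iso_le w1
    rw [norm_star] at a1 a2
    rw [e]
    refine (norm_add_le _ _).trans_lt ?_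
    nlinarith [norm_nonneg (w - v), norm_nonneg v, norm_nonneg w]
  · obtain ⟨x, x1, x2⟩ := hNM.proj h0 he hp.norm_le
    obtain ⟨p, pM, p1, p2, -⟩ := proj_near_mem x1 hp x2 (by linarith)
    have p0 : p ≠ 0 := fun c => e0 (proj_eq_zero hp (by
      rw [c, zero_sub, norm_neg] at p2
      linarith))
    obtain ⟨f, fM, f1, f2, f3, f4⟩ := hM.diffuse p pM p1 p0
    have f5 : f * p = f := proj_mul_symm p1.2 f1.2 f1.2 f4
    obtain ⟨y, y1, y2⟩ := hMN.proj h0 fM f1.norm_le
    have p3 : ‖e - p‖ ≤ 4 * δ := by rwa [norm_sub_rev]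
    have a1 : ‖e * y * e - f‖ ≤ 9 * δ := by
      have e1 : e * y * e - f = e * (y - f) * e + 1 * (e - p) * (f * e) + f * (e - p) * 1 := by
        simp only [mul_sub, sub_mul, one_mul, mul_one, ← mul_assoc, f4, f5]
        abel
      have b1 := nm3 hp.norm_le y2 hp.norm_le
      have b2 := nm3 o1 p3 (show ‖f * e‖ ≤ 1 by simpa using nm3 f1.norm_le hp.norm_le o1)
      have b3 := nm3 f1.norm_le p3 o1
      rw [e1]
      exact norm_add₃_le.trans (by linarith)
    obtain ⟨q, qN, q1, q2, q3⟩ := proj_near_mem (mul_mem (mul_mem he y1) he) f1 a1 (by linarith)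
    have k : ∀ t : H →L[ℂ] H, Commute e (e * t * e) := fun t => by
      rw [Commute, SemiconjBy, ← mul_assoc, ← mul_assoc, hp.1.eq, mul_assoc _ e e, hp.1.eq]
    have q4 := q3 e (k y) (by
      rw [star_mul, star_mul, hp.2.star_eq, ← mul_assoc]
      exact k _)
    have a2 : ‖e * q - f‖ ≤ 40 * δ := by
      have e1 : e * q - f = e * (q - f) * 1 + 1 * (e - p) * f := by
        simp only [mul_sub, sub_mul, one_mul, mul_one, f4]
        abel
      have b1 := nm3 hp.norm_le q2 o1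
      have b2 := nm3 o1 p3 f1.norm_le
      rw [e1]
      exact (norm_add_le _ _).trans (by linarith)
    refine ⟨e * q, mul_mem he qN, hp.mul q1 q4, fun c => f2 (proj_eq_zero f1 ?_),
      fun c => f3 (sub_eq_zero.1 (proj_eq_zero (f1.sub_of_mul_eq_right p1 f4) ?_)).symm,
      by rw [← mul_assoc, hp.1.eq]⟩
    · rw [c, zero_sub, norm_neg] at a2
      linarith
    · rw [c] at a2
      have := norm_sub_le_norm_sub_add_norm_sub p e f
      linarith

end Vale.Agent.P096
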