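import Vale.Agent.P096.Main
import Vale.Agent.P096.Type

/-! Reduced and induced algebras. -/

namespace Vale.Agent.P096

open scoped InnerProductSpace InnerProduct
open Vale.Agent.P104 Vale.Agent.P082 ContinuousLinearMap

universe u

variable {H K : Type u} [NormedAddCommGroup H] [InnerProductSpace ℂ H] [CompleteSpace H]
  [NormedAddCommGroup K] [InnerProductSpace ℂ K] [CompleteSpace K]
  {M N : VonNeumannAlgebra H} {V V' : K →L[ℂ] H}

/-- Compression. -/
noncomputable def cp (V : K →L[ℂ] H) (x : H →L[ℂ] H) : K →L[ℂ] K := V† ∘L x ∘L V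

/-- Extension by zero. -/
noncomputable def ex (V : K →L[ℂ] H) (T : K →L[ℂ] K) : H →L[ℂ] H := V ∘L T ∘L V†

/-- An isometry. -/
def Iso (V : K →L[ℂ] H) : Prop := ∀ k, (V†) (V k) = k

theorem cp_apply (x : H →L[ℂ] H) (k : K) : cp V x k = (V†) (x (V k)) := rfl

theorem ex_apply (T : K →L[ℂ] K) (η : H) : ex V T η = V (T ((V†) η)) := rfl

theorem cp_star (x : H →L[ℂ] H) : cp V (star x) = star (cp V x) := by
  simp [cp, star_eq_adjoint, adjoint_comp, comp_assoc]

theorem ex_star (T : K →L[ℂ] K) : ex V (star T) = star (ex V T) := by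
  simp [ex, star_eq_adjoint, adjoint_comp, comp_assoc]

theorem cp_add (x y : H →L[ℂ] H) : cp V (x + y) = cp V x + cp V y := by
  ext k; simp [cp_apply]

theorem cp_sub (x y : H →L[ℂ] H) : cp V (x - y) = cp V x - cp V y := by
  ext k; simp [cp_apply]

theorem cp_smul (c : ℂ) (x : H →L[ℂ] H) : cp V (c • x) = c • cp V x := by
  ext k; simp [cp_apply]

theorem cp_zero : cp V 0 = 0 := by
  ext k; simp [cp_apply]

theorem ex_zero : ex V 0 = 0 := by
  ext k; simp [ex_apply]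

theorem ex_cp (x : H →L[ℂ] H) : ex V (cp V x) = ex V 1 * x * ex V 1 := rfl

theorem cp_mid (x y : H →L[ℂ] H) : cp V (x * ex V 1 * y) = cp V x * cp V y := rfl

theorem Iso.norm (h : Iso V) (k : K) : ‖V k‖ = ‖k‖ := by
  rw [← sq_eq_sq₀ (norm_nonneg _) (norm_nonneg _), ← inner_self_eq_norm_sq (𝕜 := ℂ),
    ← inner_self_eq_norm_sq (𝕜 := ℂ), ← adjoint_inner_left, h]

theorem Iso.op (h : Iso V) : ‖V‖ ≤ 1 :=
  opNorm_le_bound _ zero_le_one fun k => by rw [h.norm, one_mul]

theorem Iso.op' (h : Iso V) : ‖V†‖ ≤ 1 := by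
  rw [LinearIsometryEquiv.norm_map]; exact h.op

theorem Iso.cp_ex (h : Iso V) (T : K →L[ℂ] K) : cp V (ex V T) = T := by
  ext k; rw [cp_apply, ex_apply, h, h]

theorem Iso.cp_one (h : Iso V) : cp V 1 = 1 := by
  ext k; exact h k

theorem Iso.ex_mul (h : Iso V) (S T : K →L[ℂ] K) : ex V (S * T) = ex V S * ex V T := by
  ext η; simp only [ex_apply, mul_apply_eq_comp, h _]

theorem Iso.proj (h : Iso V) {T : K →L[ℂ] K} (hT : IsStarProjection T) :
    IsStarProjection (ex V T) :=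
  ⟨by rw [IsIdempotentElem, ← h.ex_mul, hT.1.eq], by rw [IsSelfAdjoint, ← ex_star, hT.2.star_eq]⟩

theorem Iso.cp_left (h : Iso V) (x : H →L[ℂ] H) : cp V (ex V 1 * x) = cp V x := by
  ext k; simp only [cp_apply, ex_apply, mul_apply_eq_comp, h _, one_apply_eq_self]

theorem Iso.cp_right (h : Iso V) (x : H →L[ℂ] H) : cp V (x * ex V 1) = cp V x := by
  ext k; simp only [cp_apply, ex_apply, mul_apply_eq_comp, h _, one_apply_eq_self]

theorem Iso.cp_mul (h : Iso V) {x : H →L[ℂ] H} (y : H →L[ℂ] H) (hx : ex V 1 * x = x * ex V 1) :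
    cp V (x * y) = cp V x * cp V y := by
  rw [← cp_mid, ← hx, mul_assoc, h.cp_left]

theorem Iso.cp_mul' (h : Iso V) (x : H →L[ℂ] H) {y : H →L[ℂ] H} (hy : ex V 1 * y = y * ex V 1) :
    cp V (x * y) = cp V x * cp V y := by
  rw [← cp_mid, mul_assoc, hy, ← mul_assoc, h.cp_right]

theorem comp3 {A B C D : Type*} [NormedAddCommGroup A] [NormedSpace ℂ A] [NormedAddCommGroup B]
    [NormedSpace ℂ B] [NormedAddCommGroup C] [NormedSpace ℂ C] [NormedAddCommGroup D]
    [NormedSpace ℂ D] {f : C →L[ℂ] D} {g : B →L[ℂ] C} {k : A →L[ℂ] B} {r s t : ℝ} (hf : ‖f‖ ≤ r)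
    (hg : ‖g‖ ≤ s) (hk : ‖k‖ ≤ t) : ‖f ∘L g ∘L k‖ ≤ r * (s * t) :=
  (opNorm_comp_le _ _).trans (mul_le_mul hf ((opNorm_comp_le _ _).trans (mul_le_mul hg hk
    (norm_nonneg _) ((norm_nonneg _).trans hg))) (norm_nonneg _) ((norm_nonneg _).trans hf))

theorem Iso.cp_le (h : Iso V) (x : H →L[ℂ] H) : ‖cp V x‖ ≤ ‖x‖ := by
  simpa [cp] using comp3 h.op' (le_refl ‖x‖) h.op

theorem Iso.ex_le (h : Iso V) (T : K →L[ℂ] K) : ‖ex V T‖ ≤ ‖T‖ := by
  simpa [ex] using comp3 h.op (le_refl ‖T‖) h.op'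

theorem Iso.cp_near (h : Iso V) (h' : Iso V') {c : ℝ} (hc : ‖V - V'‖ ≤ c) (x y : H →L[ℂ] H) :
    ‖cp V x - cp V' y‖ ≤ ‖x - y‖ + 2 * c * ‖x‖ := by
  have e : cp V x - cp V' y = (V - V')† ∘L x ∘L V + V'† ∘L x ∘L (V - V') + cp V' (x - y) := by
    ext k; simp [cp_apply]
  have a1 := comp3 (show ‖(V - V')†‖ ≤ c by rwa [LinearIsometryEquiv.norm_map]) (le_refl ‖x‖) h.op
  have a2 := comp3 h'.op' (le_refl ‖x‖) hc
  have a3 := h'.cp_le (x - y)
  rw [e]
  exact norm_add₃_le.trans (by linarith)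

/-- The reduced algebra. -/
noncomputable def corner (M : VonNeumannAlgebra H) (V : K →L[ℂ] H) : VonNeumannAlgebra K where
  toStarSubalgebra := StarSubalgebra.centralizer ℂ (cp V '' (M.commutant : Set (H →L[ℂ] H)))
  centralizer_centralizer' := by simp

theorem mem_corner₀ {T : K →L[ℂ] K} :
    T ∈ corner M V ↔ ∀ y ∈ M.commutant, cp V y * T = T * cp V y := by
  change T ∈ StarSubalgebra.centralizer ℂ _ ↔ _
  rw [StarSubalgebra.mem_centralizer_iff]
  refine ⟨fun h y hy => (h _ ⟨y, hy, rfl⟩).1, ?_⟩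
  rintro h _ ⟨y, hy, rfl⟩
  exact ⟨h y hy, by rw [← cp_star]; exact h _ (star_mem hy)⟩

theorem Iso.cp_mem (h : Iso V) (he : ex V 1 ∈ M) {x : H →L[ℂ] H} (hx : x ∈ M) :
    cp V x ∈ corner M V := mem_corner₀.2 fun y hy => by
  rw [← h.cp_mul _ (commute_of_mem he hy), ← h.cp_mul' _ (commute_of_mem he hy),
    commute_of_mem hx hy]

theorem Iso.ex_mem (h : Iso V) (he : ex V 1 ∈ M) {T : K →L[ℂ] K} (hT : T ∈ corner M V) :
    ex V T ∈ M := mem_of_commute fun y hy => by
  have c := commute_of_mem he hy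
  have e1 : ex V 1 * ex V T = ex V T := by rw [← h.ex_mul, one_mul]
  have e2 : ex V T * ex V 1 = ex V T := by rw [← h.ex_mul, mul_one]
  have p := (h.proj (.one _)).1.eq
  have := congrArg (ex V) (mem_corner₀.1 hT y hy)
  rw [h.ex_mul, h.ex_mul, ex_cp] at this
  calc y * ex V T = ex V 1 * y * ex V 1 * ex V T := by rw [c, mul_assoc y, p, mul_assoc, e1]
    _ = ex V T * y := by rw [this, mul_assoc (ex V 1), ← c, ← mul_assoc (ex V 1), p, ← mul_assoc, e2]

theorem near_corner (h : Iso V) (h' : Iso V') (he : ex V 1 ∈ M) (he' : ex V' 1 ∈ N) {c δ : ℝ}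
    (hc : ‖V - V'‖ ≤ c) (hδ : 0 ≤ δ) (hn : Near M N δ) :
    Near (corner M V) (corner N V') (δ + 2 * c) := fun T hT => by
  obtain ⟨y, y1, y2, y3⟩ := hn _ (h.ex_mem he hT)
  have a1 := h.ex_le T
  have a2 := h.cp_near h' hc (ex V T) y
  have c0 := (norm_nonneg _).trans hc
  rw [h.cp_ex] at a2
  refine ⟨_, h'.cp_mem he' y1, (h'.cp_le y).trans (y2.trans a1), a2.trans ?_⟩
  nlinarith [mul_le_mul_of_nonneg_left a1 hδ, mul_le_mul_of_nonneg_left a1 c0]

theorem induce_unitary (h : Iso V) {T : K →L[ℂ] K} (hu : star T * T = 1)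
    (hT : ∀ b ∈ M, cp V b * T = T * cp V b) : ∃ z ∈ M.commutant, cp V z = T := by
  let f : (K →L[ℂ] K) → ((Alg M × K) →₀ ℂ) →ₗ[ℂ] H := fun S =>
    Finsupp.linearCombination ℂ fun p => p.1.1 (V (S p.2))
  have f1 : ∀ S p c, f S (Finsupp.single p c) = c • p.1.1 (V (S p.2)) := fun S p c =>
    Finsupp.linearCombination_single _ _ _
  have k : ∀ x y, ⟪f T x, f T y⟫_ℂ = ⟪f 1 x, f 1 y⟫_ℂ := fun x y => by
    induction x using Finsupp.induction_linear with
    | zero => simp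
    | add a b ha hb => simp only [map_add, inner_add_left, ha, hb]
    | single p c =>
      induction y using Finsupp.induction_linear with
      | zero => simp
      | add a b ha hb => simp only [map_add, inner_add_right, ha, hb]
      | single q d =>
        have e : ∀ a b : K, ⟪p.1.1 (V a), q.1.1 (V b)⟫_ℂ = ⟪a, cp V (star p.1.1 * q.1.1) b⟫_ℂ :=
          fun a b => by rw [cp_apply, adjoint_inner_right, mul_apply_eq_comp, inner_star_right]
        rw [f1, f1, f1, f1, inner_smul_left, inner_smul_left, inner_smul_right, inner_smul_right,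
          e, e, ← mul_apply_eq_comp, hT _ (mul_mem (star_mem p.1.2) q.1.2), mul_apply_eq_comp,
          ← inner_star_right, ← mul_apply_eq_comp, hu]
        rfl
  have m : ∀ (b : Alg M) S x, b.1 (f S x) = f S (x.mapDomain fun p => (b * p.1, p.2)) :=
    fun b S x => by
      induction x using Finsupp.induction_linear with
      | zero => simp
      | add a b ha hb => simp only [map_add, Finsupp.mapDomain_add, ha, hb]
      | single p c => rw [Finsupp.mapDomain_single, f1, f1, map_smul]; rfl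
  obtain ⟨S, -, s1, s2⟩ := exists_extend₂ (f 1) (f T) zero_le_one fun x => by
    rw [one_mul, norm_eq_sqrt_re_inner (𝕜 := ℂ), k, ← norm_eq_sqrt_re_inner]
  refine ⟨S, VonNeumannAlgebra.mem_commutant_iff.2 fun b hb => (s2 b (fun x =>
    ⟨_, m ⟨b, hb⟩ 1 x, m ⟨b, hb⟩ T x⟩) fun x => ⟨_, m (star ⟨b, hb⟩) 1 x⟩).symm, ?_⟩
  ext a
  have := s1 (Finsupp.single (1, a) 1)
  rw [f1, f1, one_smul, one_smul] at this
  rw [cp_apply]
  exact (congrArg _ this).trans (h _)

theorem induce (h : Iso V) (he : ex V 1 ∈ M) {T : K →L[ℂ] K} (hT : T ∈ (corner M V).commutant) :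
    ∃ z ∈ M.commutant, cp V z = T := by
  obtain ⟨u, c, h1, -⟩ := CStarAlgebra.exists_sum_four_unitary (⟨T, hT⟩ : Alg (corner M V).commutant)
  choose z z1 z2 using fun i => induce_unitary (M := M) h (T := (u i).1.1)
    (congrArg Subtype.val (u i).2.1) fun b hb => commute_of_mem (h.cp_mem he hb) (u i).1.2
  refine ⟨∑ i, c i • z i, sum_mem fun i _ => vn_smul_mem _ (z1 i), ?_⟩
  have := congrArg Subtype.val h1
  simp only [Fin.sum_univ_four, cp_add, cp_smul, z2] at this ⊢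
  exact this.symm

theorem cp_mem' {y : H →L[ℂ] H} (hy : y ∈ M.commutant) :
    cp V y ∈ (corner M V).commutant :=
  VonNeumannAlgebra.mem_commutant_iff.2 fun _ hT => (mem_corner₀.1 hT y hy).symm

/-- The induction homomorphism. -/
noncomputable def ind (h : Iso V) (he : ex V 1 ∈ M) : Alg M.commutant →⋆ₐ[ℂ] (K →L[ℂ] K) where
  toFun y := cp V y.1
  map_one' := h.cp_one
  map_mul' x y := h.cp_mul _ (commute_of_mem he x.2)
  map_zero' := cp_zero
  map_add' x y := cp_add _ _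
  commutes' c := by
    rw [Algebra.algebraMap_eq_smul_one, Algebra.algebraMap_eq_smul_one]
    exact (cp_smul c 1).trans (by rw [h.cp_one])
  map_star' x := cp_star _

theorem ind_iso (h : Iso V) (he : ex V 1 ∈ M) (hi : ∀ y ∈ M.commutant, cp V y = 0 → y = 0)
    (y : Alg M.commutant) : ‖ind h he y‖ = ‖y‖ :=
  NonUnitalStarAlgHom.norm_map (A := Alg M.commutant) (ind h he)
    ((injective_iff_map_eq_zero _).2 fun a ha => Subtype.ext (hi a.1 a.2 ha)) y

end Vale.Agent.P096
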