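import Vale.Agent.P096.Corner

/-! Stability passes from corners and commutants to the algebra. -/

namespace Vale.Agent.P096

open scoped InnerProductSpace InnerProduct
open Vale.Agent.P104 Vale.Agent.P082 ContinuousLinearMap

universe u

section

variable {H K : Type u} [NormedAddCommGroup H] [InnerProductSpace ℂ H] [CompleteSpace H]
  [NormedAddCommGroup K] [InnerProductSpace ℂ K] [CompleteSpace K]
  {M N : VonNeumannAlgebra H} {V V' : K →L[ℂ] H}

theorem near_of_le {κ : ℝ} (h0 : 0 ≤ κ) (h : ∀ a ∈ M, ∃ b ∈ N, ‖a - b‖ ≤ κ * ‖a‖) :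
    Near M N (2 * κ) := fun a ha => by
  obtain ⟨b, b1, b2⟩ := h a ha
  have p : 0 < 1 + κ := by linarith
  have b3 : ‖b‖ ≤ (1 + κ) * ‖a‖ := by
    have := norm_sub_norm_le b a
    rw [norm_sub_rev] at this
    linarith
  have b4 : (1 + κ)⁻¹ * ‖b‖ ≤ ‖a‖ := by rwa [inv_mul_le_iff₀ p]
  have n : ‖(((1 + κ)⁻¹ : ℝ) : ℂ) • b‖ = (1 + κ)⁻¹ * ‖b‖ := by
    rw [norm_smul, Complex.norm_real, Real.norm_of_nonneg (by positivity)]
  refine ⟨(((1 + κ)⁻¹ : ℝ) : ℂ) • b, vn_smul_mem _ b1, n.trans_le b4, ?_⟩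
  have e : a - (((1 + κ)⁻¹ : ℝ) : ℂ) • b = (a - b) + (κ : ℂ) • (((1 + κ)⁻¹ : ℝ) : ℂ) • b := by
    have : (1 : ℂ) + κ ≠ 0 := by exact_mod_cast p.ne'
    rw [smul_smul, sub_add, ← one_smul ℂ b, smul_smul, smul_smul, ← sub_smul]
    congr 2
    push_cast
    field_simp
    ring
  rw [e]
  refine (norm_add_le _ _).trans ?_
  rw [norm_smul, n, Complex.norm_real, Real.norm_of_nonneg h0]
  nlinarith [mul_le_mul_of_nonneg_left b4 h0]

theorem near_comm {δ : ℝ} (h0 : 0 ≤ δ) (h : Near M N δ) :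
    Near N.commutant M.commutant (4 * distK * δ) := by
  have := distK_pos
  rw [show 4 * distK * δ = 2 * (2 * distK * δ) by ring]
  refine near_of_le (by positivity) fun y hy => ?_
  obtain ⟨T, t1, t2⟩ := dist_commutant M y (c := 2 * δ * ‖y‖) (by positivity) fun x hx => by
    obtain ⟨n, n1, -, n2⟩ := h x hx
    have e : y * x - x * y = y * (x - n) - (x - n) * y := by
      rw [mul_sub, sub_mul, commute_of_mem n1 hy]; abel
    have a1 := norm_mul_le y (x - n)
    have a2 := norm_mul_le (x - n) y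
    rw [e]
    refine (norm_sub_le _ _).trans ?_
    nlinarith [mul_le_mul_of_nonneg_left n2 (norm_nonneg y)]
  exact ⟨T, t1, t2.trans (le_of_eq (by ring))⟩

theorem conj_comm {u : H →L[ℂ] H} (hu : u ∈ unitary (H →L[ℂ] H))
    (h : (fun x => u * x * star u) '' (M : Set (H →L[ℂ] H)) = N) :
    (fun x => u * x * star u) '' (M.commutant : Set (H →L[ℂ] H)) = N.commutant := by
  have k : ∀ x y, u * x * star u * (u * y * star u) = u * (x * y) * star u := fun x y => by
    rw [mul_assoc (u * x), ← mul_assoc (star u), ← mul_assoc (star u), hu.1, one_mul]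
    simp only [mul_assoc]
  have c : ∀ x, u * (star u * x * u) * star u = x := fun x => by
    rw [← mul_assoc, ← mul_assoc, hu.2, one_mul, mul_assoc, hu.2, mul_one]
  have c' : ∀ x, star u * (u * x * star u) * u = x := fun x => by
    rw [← mul_assoc, ← mul_assoc, hu.1, one_mul, mul_assoc, hu.1, mul_one]
  ext z
  constructor
  · rintro ⟨y, hy, rfl⟩
    refine VonNeumannAlgebra.mem_commutant_iff.2 fun n hn => ?_
    obtain ⟨x, hx, rfl⟩ := h.ge hn
    simp only [k, commute_of_mem hx hy]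
  · intro hz
    refine ⟨star u * z * u, VonNeumannAlgebra.mem_commutant_iff.2 fun x hx => ?_, c z⟩
    have := commute_of_mem (h.le ⟨x, hx, rfl⟩) hz
    rw [← c z, k, k] at this
    rw [← c' (x * _), this, c']

theorem KK.comm {C : ℝ} (h : KK M.commutant C) : KK M (4 * distK * C) :=
  fun N δ d0 d1 n1 n2 => by
    have := distK_pos
    obtain ⟨u, u1, u2, u3⟩ := h N.commutant (4 * distK * δ) (by positivity) (by linarith)
      (near_comm d0.le n2) (near_comm d0.le n1)
    have u4 := conj_comm u1 u3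
    rw [M.commutant_commutant, N.commutant_commutant] at u4
    exact ⟨u, u1, by linarith, u4⟩

theorem move_proj {e : H →L[ℂ] H} (he : IsStarProjection e) {f : H →L[ℂ] H}
    (hf : IsStarProjection f) {c : ℝ} (h : ‖f - e‖ ≤ c) (hc : c ≤ 1 / 10) :
    ∃ u ∈ unitary (H →L[ℂ] H), ‖u - 1‖ ≤ 4 * c ∧ u * f = e * u := by
  have ee := he.1.eq
  have ff := hf.1.eq
  have s : ‖e + e - 1‖ ≤ 1 := norm_iso_le (by
    rw [star_sub, star_add, star_one, he.2.star_eq]
    simp only [mul_sub, sub_mul, mul_add, add_mul, ee, one_mul, mul_one]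
    abel)
  obtain ⟨T, hT⟩ : ∃ T, T = e * f + (1 - e) * (1 - f) := ⟨_, rfl⟩
  have t1 : T * f = e * T := by
    simp only [hT, mul_sub, sub_mul, mul_add, add_mul, one_mul, mul_one, mul_assoc, ff,
      ← mul_assoc e e, ee]
    abel
  obtain ⟨u, u1, Q, -, q1, q2, -, u2, -, q3⟩ := polar_near T (c := c) (by
    have : T - 1 = (e + e - 1) * (f - e) := by
      simp only [hT, mul_sub, sub_mul, add_mul, one_mul, mul_one, ee]
      abel
    rw [this]
    refine (norm_mul_le _ _).trans ?_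
    nlinarith [norm_nonneg (f - e)]) hc
  have t2 := congrArg star t1
  rw [star_mul, star_mul, he.2.star_eq, hf.2.star_eq] at t2
  have q4 := (q3 f (by rw [Commute, SemiconjBy, ← mul_assoc, t2, mul_assoc, ← t1, mul_assoc])).eq
  refine ⟨u, u1, u2, q1.mul_right_cancel ?_⟩
  rw [mul_assoc, q4, ← mul_assoc, ← q2, t1, mul_assoc, ← q2]

end

theorem cut : ∃ c : ℝ, 1 ≤ c ∧ ∀ (H K : Type u) [NormedAddCommGroup H] [InnerProductSpace ℂ H]
    [CompleteSpace H] [NormedAddCommGroup K] [InnerProductSpace ℂ K] [CompleteSpace K]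
    (M : VonNeumannAlgebra H) (V : K →L[ℂ] H) (C : ℝ), 1 ≤ C → Iso V → ex V 1 ∈ M →
    (∀ y ∈ M.commutant, cp V y = 0 → y = 0) → KK (corner M V) C → KK M (c * C) := by
  obtain ⟨c, c1, hc⟩ := final.{u}
  have k0 := distK_pos
  refine ⟨c * (100 + 10 * distK), by nlinarith, fun H K _ _ _ _ _ _ M V C C1 h he hi hK N δ d0 d1
    n1 n2 => ?_⟩
  obtain ⟨γ, hγ⟩ : ∃ γ, γ = (100 + 10 * distK) * (C * δ) := ⟨_, rfl⟩
  have g1 : c * γ ≤ 1 := by rw [hγ]; linarith
  have a0 : δ ≤ C * δ := le_mul_of_one_le_left d0.le C1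
  have a1 : distK * δ ≤ distK * (C * δ) := mul_le_mul_of_nonneg_left a0 k0.le
  have a2 : 0 < distK * δ := by positivity
  have g2 : γ ≤ 1 := (le_mul_of_one_le_left (by rw [hγ]; positivity) c1).trans g1
  have g3 : γ = 100 * (C * δ) + 10 * (distK * (C * δ)) := by rw [hγ]; ring
  have ep := h.proj (.one _)
  obtain ⟨x, x1, x2⟩ := n1.proj d0.le he ep.norm_le
  obtain ⟨f, fN, f1, f2, -⟩ := proj_near_mem x1 ep x2 (by linarith)
  obtain ⟨u, u1, u2, u3⟩ := move_proj ep f1 f2 (by linarith)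
  obtain ⟨V', hV'⟩ : ∃ V' : K →L[ℂ] H, V' = star u ∘L V := ⟨_, rfl⟩
  have v1 : V'† = V† ∘L u := by rw [hV', adjoint_comp, star_eq_adjoint, adjoint_adjoint]
  have h' : Iso V' := fun k => by
    rw [v1, hV', comp_apply, comp_apply, ← mul_apply_eq_comp, u1.2]
    exact h k
  have he' : ex V' 1 ∈ N := by
    have : ex V' 1 = star u * (ex V 1 * u) := by rw [ex, v1, hV']; rfl
    rwa [this, ← u3, ← mul_assoc, u1.1, one_mul]
  have v2 : ‖V - V'‖ ≤ 16 * δ := by
    have : V - V' = -(star (u - 1) ∘L V) := by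
      rw [hV']; ext k; simp
    rw [this, norm_neg]
    refine (opNorm_comp_le _ _).trans ?_
    rw [norm_star]
    nlinarith [h.op, norm_nonneg (u - 1), norm_nonneg V]
  obtain ⟨w, w1, w2, w3⟩ := hK (corner N V') (δ + 2 * (16 * δ)) (by linarith) (by linarith)
    (near_corner h h' he he' v2 d0.le n1)
    (near_corner h' h he' he (by rwa [norm_sub_rev]) d0.le n2)
  have m1 := near_comm d0.le n1
  have m2 := near_comm d0.le n2
  have i1 := ind_iso h he hi
  have hi' : ∀ z ∈ N.commutant, cp V' z = 0 → z = 0 := fun z hz h0 => by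
    obtain ⟨y, y1, y2, y3⟩ := m1 z hz
    have b1 := h.cp_near h' v2 y z
    have b2 : ‖cp V y‖ = ‖y‖ := i1 ⟨y, y1⟩
    have b3 := norm_sub_norm_le z y
    rw [h0, sub_zero, b2, norm_sub_rev] at b1
    rw [← norm_eq_zero]
    nlinarith [norm_nonneg z, mul_le_mul_of_nonneg_left y2 d0.le]
  obtain ⟨t, t1, t2, t3⟩ := hc H M.commutant N.commutant K (ind h he) (ind h' he') w (star w) γ
    (by linarith) g1 i1 (ind_iso h' he' hi') w1.2 w1.1 (by linarith)
    (by rw [← norm_star, star_sub, star_star, star_one]; linarith)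
    (fun a => by
      obtain ⟨z, z1, z2⟩ := induce h' he' ((conj_comm w1 w3).le ⟨_, cp_mem' a.2, rfl⟩)
      exact ⟨⟨z, z1⟩, z2⟩) (m2.mono (by linarith)) (m1.mono (by linarith))
    fun a b => (h.cp_near h' v2 a.1 b.1).trans (by
      have : 2 * (16 * δ) * ‖a.1‖ ≤ γ * ‖a.1‖ := mul_le_mul_of_nonneg_right (by linarith)
        (norm_nonneg _)
      exact add_le_add_right this _)
  have t4 := conj_comm t1 t3
  rw [M.commutant_commutant, N.commutant_commutant] at t4
  exact ⟨t, t1, by rw [hγ] at t2; linarith, t4⟩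

end Vale.Agent.P096
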