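import Vale.Agent.P096.Defs2

/-! Semifinite von Neumann algebras. -/

namespace Vale.Agent.P096

variable {H : Type*} [NormedAddCommGroup H] [InnerProductSpace ℂ H] [CompleteSpace H]

/-- No type III summand: every nonzero central projection dominates a nonzero finite projection. -/
def IsSemifinite (M : VonNeumannAlgebra H) : Prop :=
  ∀ z ∈ M, IsStarProjection z → (∀ x ∈ M, z * x = x * z) → z ≠ 0 →
    ∃ e, IsFiniteProj M e ∧ e ≠ 0 ∧ z * e = e

end Vale.Agent.P096
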