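import Vale.Agent.P104.Final
import Vale.Agent.P104.Flat
import Vale.Agent.P104.Main

/-! The uniform distance property: approximate intertwiners are close to intertwiners. -/

namespace Vale.Agent.P096

open scoped InnerProductSpace ComplexOrder
open Vale.Agent.P104

universe u v

theorem exists_ext' {A : Type u} [CStarAlgebra A] {H : Type v} [NormedAddCommGroup H]
    [InnerProductSpace ℂ H] [CompleteSpace H] (π : A →ₐ[ℂ] (H →L[ℂ] H)) (c : ℝ)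
    (hc : ∀ a, ‖π a‖ ≤ c * ‖a‖) :
    ∃ (K : Type (max u v)) (_ : NormedAddCommGroup K) (_ : InnerProductSpace ℂ K)
      (_ : CompleteSpace K) (ρ : A →⋆ₐ[ℂ] (K →L[ℂ] K)) (M : VonNeumannAlgebra K)
      (π' : (K →L[ℂ] K) →ₗ[ℂ] (H →L[ℂ] H)),
      (∀ a, ρ a ∈ M) ∧ (∀ a, π' (ρ a) = π a) ∧ NP M π' (2 * c ^ 2) (4 * (2 * c ^ 2) ^ 4) := by
  obtain ⟨K, _, _, _, ρ, hρ⟩ := exists_rep (fun b => if b then π else dagA π) c (by
    rintro (_ | _) a
    · simpa using hc (star a)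
    · exact hc a)
  choose T Ω t1 t2 t3 t4 using (hρ true : IntA ρ π _)
  choose T' Ω' s1 _ _ s4 using (hρ false : IntA ρ (dagA π) _)
  let N : VonNeumannAlgebra K :=
    { toStarSubalgebra := StarSubalgebra.centralizer ℂ (Set.range ρ)
      centralizer_centralizer' := by simp }
  have hN : ∀ y, y ∈ N ↔ ∀ a, ρ a * y = y * ρ a := fun y => by
    refine (StarSubalgebra.mem_centralizer_iff ℂ).trans ⟨fun h a => (h _ ⟨a, rfl⟩).1, ?_⟩
    rintro h _ ⟨a, rfl⟩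
    exact ⟨h a, by rw [← map_star]; exact h _⟩
  have key : ∀ x ∈ N.commutant, ∀ (S S' : K →L[ℂ] H), (∀ a ζ, S (ρ a ζ) = π a (S ζ)) →
      (∀ a ζ, S' (ρ a ζ) = dagA π a (S' ζ)) → ∀ ζ ζ',
      ⟪S' ζ', S (x ζ)⟫_ℂ = ⟪S' (star x ζ'), S ζ⟫_ℂ := by
    intro x hx S S' h1 h2 ζ ζ'
    have := bicomm_dense ρ (x := x) (fun y hy => VonNeumannAlgebra.mem_commutant_iff.1 hx y
      ((hN y).2 hy)) ![S.adjoint (S' ζ'), -ζ'] ![ζ, S'.adjoint (S ζ)] fun a => by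
        have e : ⟪ζ', ρ a (S'.adjoint (S ζ))⟫_ℂ = ⟪S' ζ', π a (S ζ)⟫_ℂ := by
          rw [← ContinuousLinearMap.adjoint_inner_left, ContinuousLinearMap.adjoint_inner_right,
            ← ContinuousLinearMap.star_eq_adjoint, ← map_star, h2, dagA_apply, star_star,
            ContinuousLinearMap.star_eq_adjoint, ContinuousLinearMap.adjoint_inner_left]
        simp [ContinuousLinearMap.adjoint_inner_left, h1, e]
    simp only [Fin.sum_univ_two, Matrix.cons_val_zero, Matrix.cons_val_one, inner_neg_left,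
      ContinuousLinearMap.adjoint_inner_left] at this
    rw [add_neg_eq_zero.1 this, ← ContinuousLinearMap.adjoint_inner_left,
      ContinuousLinearMap.adjoint_inner_right, ContinuousLinearMap.star_eq_adjoint]
  have k1 : ∀ x ∈ N.commutant, ∀ (S : K →L[ℂ] H), (∀ a ζ, S (ρ a ζ) = π a (S ζ)) → ∀ ζ η,
      ⟪η, S (x ζ)⟫_ℂ = ⟪T' η (star x (Ω' η)), S ζ⟫_ℂ := fun x hx S h ζ η => by
    rw [← key x hx S _ h (s4 η), s1]
  let p : (Subalgebra.toSubmodule N.commutant.toStarSubalgebra.toSubalgebra) →ₗ[ℂ] H →ₗ[ℂ] H :=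
    LinearMap.mk₂ ℂ (fun x ξ => T ξ (x.1 (Ω ξ))) (fun x y ξ => by simp) (fun z x ξ => by simp)
      (fun x ξ ξ' => ext_inner_left ℂ fun η => by
        rw [inner_add_right, k1 _ x.2 _ (t4 _), k1 _ x.2 _ (t4 _), k1 _ x.2 _ (t4 _), t1, t1, t1,
          inner_add_right])
      (fun z x ξ => ext_inner_left ℂ fun η => by
        rw [inner_smul_right, k1 _ x.2 _ (t4 _), k1 _ x.2 _ (t4 _), t1, t1, inner_smul_right])
  have hp : ∀ x ξ, ‖p x ξ‖ ≤ 2 * c ^ 2 * ‖x‖ * ‖ξ‖ := fun x ξ => by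
    refine (t3 ξ _).trans ?_
    have := (x.1.le_opNorm (Ω ξ)).trans (mul_le_of_le_one_right (norm_nonneg _) (t2 ξ))
    rw [mul_right_comm]
    gcongr
    exact this
  obtain ⟨π', hπ⟩ := (p.mkContinuous₂ _ hp).toLinearMap.exists_extend
  have e1 : ∀ x ∈ N.commutant, ∀ ξ, π' x ξ = T ξ (x (Ω ξ)) := fun x hx ξ =>
    DFunLike.congr_fun (LinearMap.congr_fun hπ ⟨x, hx⟩) ξ
  have e2 : ∀ x ∈ N.commutant, ∀ ξ ζ, T ξ (x ζ) = π' x (T ξ ζ) := fun x hx ξ ζ =>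
    ext_inner_left ℂ fun η => by rw [e1 x hx, k1 x hx _ (t4 _), k1 x hx _ (t4 _), t1]
  have e3 : ∀ x ∈ N.commutant, ∀ η ζ, T' η (x ζ) = dagL π' x (T' η ζ) := fun x hx η ζ =>
    ext_inner_right ℂ fun ξ => by
      rw [dagL_apply, ContinuousLinearMap.star_eq_adjoint, ContinuousLinearMap.adjoint_inner_left,
        e1 _ (star_mem hx), key _ (star_mem hx) _ _ (t4 ξ) (s4 η), star_star, t1]
  have one : π' 1 = 1 := by
    ext ξ
    simp [e1 1 (one_mem _), t1]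
  have mul : ∀ x ∈ N.commutant, ∀ y ∈ N.commutant, π' (x * y) = π' x * π' y := fun x hx y hy => by
    ext ξ
    rw [e1 _ (mul_mem hx hy), mul_apply_eq_comp, mul_apply_eq_comp, e2 x hx, ← e1 y hy]
  have bd : ∀ x ∈ N.commutant, ‖π' x‖ ≤ 2 * c ^ 2 * ‖x‖ := fun x hx =>
    ContinuousLinearMap.opNorm_le_bound _ (by positivity) fun ξ => by
      rw [e1 x hx]; exact hp ⟨x, hx⟩ ξ
  have cl : IsClosed (N.commutant.toStarSubalgebra : Set (K →L[ℂ] K)) := vn_isClosed _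
  let σ : N.commutant.toStarSubalgebra →ₐ[ℂ] (H →L[ℂ] H) :=
    AlgHom.ofLinearMap (π' ∘ₗ N.commutant.toStarSubalgebra.subtype.toAlgHom.toLinearMap) one
      fun x y => mul _ x.2 _ y.2
  have m : ∀ a, ρ a ∈ N.commutant := fun a =>
    VonNeumannAlgebra.mem_commutant_iff.2 fun y hy => ((hN y).1 hy a).symm
  have nm : ∀ (ι : Type) [Fintype ι] (x : ι → N.commutant.toStarSubalgebra),
      ‖∑ i, star (x i) * x i‖ = ‖∑ i, star (x i).1 * (x i).1‖ := fun ι _ x => by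
    change ‖((∑ i, star (x i) * x i : N.commutant.toStarSubalgebra) : K →L[ℂ] K)‖ = _
    simp
  refine ⟨K, _, _, _, ρ, N.commutant, π', m, fun a => ?_, one, mul,
    by positivity, by positivity, bd, fun ι _ x hx ξ => ?_, fun ι _ x hx ξ => ?_,
    fun ξ => ⟨T ξ, Ω ξ, t1 ξ, fun x hx => e2 x hx ξ⟩,
    fun ξ => ⟨T' ξ, Ω' ξ, s1 ξ, fun x hx => e3 x hx ξ⟩⟩
  · ext ξ
    rw [e1 _ (m a), t4, t1]
    rfl
  · have := col_bound σ _ (fun a => bd _ a.2) (fun i => ⟨x i, hx i⟩) ξ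
    rwa [nm] at this
  · have := col_bound (dagA σ) (2 * c ^ 2) (fun a => by
      rw [dagA_apply, norm_star, ← norm_star a]; exact bd _ (star a).2) (fun i => ⟨x i, hx i⟩) ξ
    rwa [nm] at this

/-- The uniform similarity constant. -/
def simL (c : ℝ) : ℝ :=
  4 * (2 * c ^ 2) ^ 4 * (4 * (2 * c ^ 2) ^ 4 + 4 * (2 * c ^ 2) ^ 4 * (2 * c ^ 2) +
    bigK (2 * c ^ 2) * (2 * c ^ 2))

theorem exists_inv_form {A : Type u} [CStarAlgebra A] {H : Type v} [NormedAddCommGroup H]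
    [InnerProductSpace ℂ H] [CompleteSpace H] (π : A →ₐ[ℂ] (H →L[ℂ] H)) (c : ℝ)
    (hc : ∀ a, ‖π a‖ ≤ c * ‖a‖) : ∃ P : H →L[ℂ] H, (∀ ξ, ‖ξ‖ ^ 2 ≤ (⟪P ξ, ξ⟫_ℂ).re) ∧ 0 ≤ P ∧
      ‖P‖ ≤ simL c ^ 2 + 1 ∧ ∀ u : unitary A, star (π u) * P * π u = P := by
  obtain ⟨K, _, _, _, ρ, M, π', hρ, hπ, h⟩ := exists_ext' π c hc
  have h1 := h.Kc_nonneg
  have h2 := mul_nonneg h1 h.c_nonneg
  have h3 := mul_nonneg (bigK_nonneg (2 * c ^ 2)) h.c_nonneg
  have h4 := nice_one h (4 * (2 * c ^ 2) ^ 4 + 4 * (2 * c ^ 2) ^ 4 * (2 * c ^ 2) +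
      bigK (2 * c ^ 2) * (2 * c ^ 2)) (by positivity) fun p hp hpp hp0 => by
    obtain ⟨e, he, hep, he0, hpe, h5⟩ := trichotomy p hp hpp hp0
    refine ⟨e, he, hep, he0, hpe, ?_⟩
    rcases h5 with h5 | h5 | ⟨h5, Ω, h6⟩
    · exact (nice_abelian h he hep h5).mono h1 (by linarith)
    · exact (nice_copies h he hep h5).mono h2 (by linarith)
    · exact (nice_tracial_of @partC
        (fun he hep hcen hH _ hτ _ _ F hF δ hδ => flat he hep hcen hH hτ F hF δ hδ)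
        h he hep h5 h6).mono h3 (by linarith)
  obtain ⟨Λ, l1, l2⟩ := exists_mean (ρ := ρ) (π := π) (L := simL c) fun R _ X hX => by
    have := h4 R (fun i j => ρ (X i j)) (fun i j => ⟨hρ _, by rw [one_mul, mul_one]⟩) hX
    simpa only [hπ, simL] using this
  obtain ⟨P, hP⟩ := exists_form Λ _ fun ξ => ⟨(sq_nonneg _).trans (l1 ξ).1, (l1 ξ).2⟩
  have p0 : 0 ≤ P := by
    rw [ContinuousLinearMap.nonneg_iff_isPositive, ContinuousLinearMap.isPositive_iff_complex]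
    intro ξ
    rw [hP]
    exact ⟨rfl, (sq_nonneg _).trans (l1 ξ).1⟩
  refine ⟨P, fun ξ => by rw [hP]; exact (l1 ξ).1, p0, ?_, fun u => ?_⟩
  · refine (CStarAlgebra.norm_le_iff_le_algebraMap P (by positivity) p0).2 ?_
    rw [← sub_nonneg, ContinuousLinearMap.nonneg_iff_isPositive,
      ContinuousLinearMap.isPositive_iff_complex]
    intro ξ
    have : ⟪(algebraMap ℝ (H →L[ℂ] H) (simL c ^ 2 + 1) - P) ξ, ξ⟫_ℂ =
        ((simL c ^ 2 + 1) * ‖ξ‖ ^ 2 - Λ (qf ξ) : ℝ) := by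
      rw [Algebra.algebraMap_eq_smul_one, sub_apply, inner_sub_left, hP, smul_apply,
        ← Complex.coe_smul, inner_smul_left, Complex.conj_ofReal, one_apply_eq_self,
        inner_self_eq_norm_sq_to_K]
      simp
    rw [this]
    exact ⟨rfl, sub_nonneg.2 (l1 ξ).2⟩
  · refine ContinuousLinearMap.coe_injective ((ext_inner_map _ _).1 fun ξ => ?_)
    change ⟪ContinuousLinearMap.adjoint (π u) (P (π u ξ)), ξ⟫_ℂ = ⟪P ξ, ξ⟫_ℂ
    rw [ContinuousLinearMap.adjoint_inner_left, hP, hP, l2]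

/-- The universal constant of the distance property. -/
def distK : ℝ := simL 2 ^ 2 + 1

theorem distK_pos : 0 < distK := by
  unfold distK
  positivity

theorem dist_intertw {A : Type u} [CStarAlgebra A] {H : Type v} [NormedAddCommGroup H]
    [InnerProductSpace ℂ H] [CompleteSpace H] (ρ σ : A →⋆ₐ[ℂ] (H →L[ℂ] H)) (T : H →L[ℂ] H)
    {c : ℝ} (hc0 : 0 ≤ c) (hc : ∀ a, ‖T * ρ a - σ a * T‖ ≤ c * ‖a‖) :
    ∃ T' : H →L[ℂ] H, (∀ a, T' * ρ a = σ a * T') ∧ ‖T - T'‖ ≤ distK * c := by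
  rcases hc0.eq_or_lt with rfl | hc0
  · exact ⟨T, fun a => sub_eq_zero.1 (norm_le_zero_iff.1 (by simpa using hc a)), by simp⟩
  let E := WithLp 2 (H × H)
  let f : E →L[ℂ] H := WithLp.fstL 2 ℂ H H
  let s : E →L[ℂ] H := WithLp.sndL 2 ℂ H H
  let i : H →L[ℂ] E := (WithLp.prodContinuousLinearEquiv 2 ℂ H H).symm.toContinuousLinearMap ∘L
    ContinuousLinearMap.inl ℂ H H
  let j : H →L[ℂ] E := (WithLp.prodContinuousLinearEquiv 2 ℂ H H).symm.toContinuousLinearMap ∘L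
    ContinuousLinearMap.inr ℂ H H
  obtain ⟨d, hd⟩ : ∃ d : A → H →L[ℂ] H, ∀ a, d a = (c : ℂ)⁻¹ • (T * ρ a - σ a * T) :=
    ⟨_, fun _ => rfl⟩
  have d1 : ∀ a, ‖d a‖ ≤ ‖a‖ := fun a => by
    rw [hd, norm_smul, norm_inv, Complex.norm_real, Real.norm_of_nonneg hc0.le,
      inv_mul_le_iff₀ hc0]
    exact hc a
  have i1 : ∀ ξ, f (i ξ) = ξ := fun _ => rfl
  have i2 : ∀ ξ, s (i ξ) = 0 := fun _ => rfl
  have j1 : ∀ ξ, f (j ξ) = 0 := fun _ => rfl
  have j2 : ∀ ξ, s (j ξ) = ξ := fun _ => rfl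
  have ext2 : ∀ x y : E, f x = f y → s x = s y → x = y := fun x y h1 h2 =>
    WithLp.ofLp_injective 2 (Prod.ext h1 h2)
  obtain ⟨π₀, hπ⟩ : ∃ π₀ : A → E →L[ℂ] E, ∀ a,
      π₀ a = i ∘L (σ a ∘L f + d a ∘L s) + j ∘L ρ a ∘L s := ⟨_, fun _ => rfl⟩
  have e1 : ∀ a x, f (π₀ a x) = σ a (f x) + d a (s x) := fun a x => by simp [hπ, i1, j1]
  have e2 : ∀ a x, s (π₀ a x) = ρ a (s x) := fun a x => by simp [hπ, i2, j2]
  have ext3 : ∀ X Y : E →L[ℂ] E, (∀ x, f (X x) = f (Y x)) → (∀ x, s (X x) = s (Y x)) → X = Y :=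
    fun X Y h1 h2 => ContinuousLinearMap.ext fun x => ext2 _ _ (h1 x) (h2 x)
  let π : A →ₐ[ℂ] (E →L[ℂ] E) := AlgHom.ofLinearMap
    { toFun := π₀
      map_add' := fun a b => ext3 _ _ (fun x => by
        simp [e1, hd, mul_add, add_mul, smul_sub, smul_add]; abel) fun x => by simp [e2]
      map_smul' := fun t a => ext3 _ _ (fun x => by simp [e1, hd, smul_sub, smul_comm t])
        fun x => by simp [e2] }
    (ext3 _ _ (fun x => by simp [e1, hd]) fun x => by simp [e2]) fun a b =>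
      ext3 _ _ (fun x => by simp [e1, e2, hd, smul_sub]; abel) fun x => by simp [e2]
  replace e1 : ∀ a x, f (π a x) = σ a (f x) + d a (s x) := e1
  replace e2 : ∀ a x, s (π a x) = ρ a (s x) := e2
  have n1 : ∀ x : E, ‖x‖ ^ 2 = ‖f x‖ ^ 2 + ‖s x‖ ^ 2 := fun x => WithLp.prod_norm_sq_eq_of_L2 x
  have n2 : ∀ x y : E, ⟪x, y⟫_ℂ = ⟪f x, f y⟫_ℂ + ⟪s x, s y⟫_ℂ := fun x y => rfl
  obtain ⟨P, p1, p0, p2, p3⟩ := exists_inv_form π 2 fun a => by
    refine ContinuousLinearMap.opNorm_le_bound _ (by positivity) fun x =>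
      le_of_sq_le_sq ?_ (by positivity)
    have a1 := (σ a).le_of_opNorm_le (NonUnitalStarAlgHom.norm_apply_le σ a) (f x)
    have a2 := (ρ a).le_of_opNorm_le (NonUnitalStarAlgHom.norm_apply_le ρ a) (s x)
    have a3 := (d a).le_of_opNorm_le (d1 a) (s x)
    have a4 := (norm_add_le _ _).trans (add_le_add a1 a3)
    have a5 := pow_le_pow_left₀ (norm_nonneg _) a4 2
    have a6 := pow_le_pow_left₀ (norm_nonneg _) a2 2
    rw [n1, e1, e2, mul_pow, n1 x]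
    nlinarith [sq_nonneg (‖a‖ * ‖f x‖ - ‖a‖ * ‖s x‖), sq_nonneg (‖a‖ * ‖f x‖), sq_nonneg (‖a‖ * ‖s x‖)]
  have fi : ∀ ξ x, ⟪ξ, f x⟫_ℂ = ⟪i ξ, x⟫_ℂ := fun ξ x => by rw [n2, i1, i2, inner_zero_left, add_zero]
  have ni : ∀ ξ, ‖i ξ‖ = ‖ξ‖ := fun ξ => (sq_eq_sq₀ (norm_nonneg _) (norm_nonneg _)).1 (by
    rw [n1, i1, i2]; simp)
  have nj : ∀ ξ, ‖j ξ‖ = ‖ξ‖ := fun ξ => (sq_eq_sq₀ (norm_nonneg _) (norm_nonneg _)).1 (by
    rw [n1, j1, j2]; simp)
  obtain ⟨a₀, ha⟩ : ∃ a₀ : H →L[ℂ] H, ∀ ξ, a₀ ξ = f (P (i ξ)) := ⟨f ∘L P ∘L i, fun _ => rfl⟩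
  obtain ⟨b, hb⟩ : ∃ b : H →L[ℂ] H, ∀ ξ, b ξ = f (P (j ξ)) := ⟨f ∘L P ∘L j, fun _ => rfl⟩
  have q1 : ∀ (u : unitary A) x, f (P (π u x)) = σ u (f (P x)) := fun u x => by
    refine ext_inner_left ℂ fun η => ?_
    have k : π u (i (σ (star u.1) η)) = i η := ext2 _ _ (by
      rw [e1, i1, i2, i1, map_zero, add_zero, ← mul_apply_eq_comp, ← map_mul, u.2.2, map_one]
      rfl) (by rw [e2, i2, i2, map_zero])
    rw [fi, ← k, ← inner_star_right, ← mul_apply_eq_comp P, ← mul_apply_eq_comp, ← mul_assoc, p3,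
      ← fi, map_star, inner_star_left]
  have q2 : ∀ u : unitary A, a₀ * σ u = σ u * a₀ := fun u => by
    ext ξ
    rw [mul_apply_eq_comp, mul_apply_eq_comp, ha, ha, ← q1]
    congr 2
    exact ext2 _ _ (by rw [e1, i1, i1, i2, map_zero, add_zero]) (by rw [e2, i2, i2, map_zero])
  have q3 : ∀ u : unitary A, a₀ * d u + b * ρ u = σ u * b := fun u => by
    ext ξ
    rw [add_apply, mul_apply_eq_comp, mul_apply_eq_comp, mul_apply_eq_comp, ha, hb, hb, ← q1,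
      ← map_add, ← map_add]
    congr 2
    exact ext2 _ _ (by rw [e1, map_add, i1, j1, j1, j2, map_zero, add_zero, zero_add])
      (by rw [e2, map_add, i2, j2, j2, zero_add])
  have a1 : ∀ ξ, ‖ξ‖ ^ 2 ≤ (⟪a₀ ξ, ξ⟫_ℂ).re := fun ξ => by
    have := p1 (i ξ)
    rwa [ni, n2, i1, i2, inner_zero_right, add_zero, ← ha] at this
  have a2 : IsUnit a₀ := by
    refine CStarAlgebra.isUnit_of_le 1 ?_ isStrictlyPositive_one
    rw [← sub_nonneg, ContinuousLinearMap.nonneg_iff_isPositive,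
      ContinuousLinearMap.isPositive_iff_complex]
    intro ξ
    have k := ((ContinuousLinearMap.isPositive_iff_complex _).1
      ((ContinuousLinearMap.nonneg_iff_isPositive _).1 p0) (i ξ)).1
    rw [n2, i1, i2, inner_zero_right, add_zero, ← ha] at k
    have : ⟪(a₀ - 1) ξ, ξ⟫_ℂ = ((⟪a₀ ξ, ξ⟫_ℂ).re - ‖ξ‖ ^ 2 : ℝ) := by
      rw [sub_apply, inner_sub_left, one_apply_eq_self, inner_self_eq_norm_sq_to_K, ← k]
      simp
    rw [this]
    exact ⟨rfl, sub_nonneg.2 (a1 ξ)⟩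
  obtain ⟨a, rfl⟩ := a2
  have a3 : ∀ ξ, ‖(↑a⁻¹ : H →L[ℂ] H) ξ‖ ≤ ‖ξ‖ := fun ξ => by
    have k := a1 ((↑a⁻¹ : H →L[ℂ] H) ξ)
    rw [← mul_apply_eq_comp, a.mul_inv, one_apply_eq_self] at k
    have k2 := k.trans (re_inner_le_norm (𝕜 := ℂ) _ _)
    rcases (norm_nonneg ((↑a⁻¹ : H →L[ℂ] H) ξ)).eq_or_lt with h0 | h0
    · rw [← h0]; positivity
    · rw [sq] at k2
      exact le_of_mul_le_mul_right k2 h0
  have c0 : (c : ℂ) ≠ 0 := by exact_mod_cast hc0.ne'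
  refine ⟨T + (c : ℂ) • (↑a⁻¹ * b), fun x => ?_, ?_⟩
  · obtain ⟨u, t, rfl, -⟩ := CStarAlgebra.exists_sum_four_unitary x
    have k : ∀ u : unitary A, (T + (c : ℂ) • (↑a⁻¹ * b)) * ρ u = σ u * (T + (c : ℂ) • (↑a⁻¹ * b)) :=
      fun u => by
        have k1 : σ u * ↑a⁻¹ = ↑a⁻¹ * σ u := by
          rw [Units.eq_inv_mul_iff_mul_eq, ← mul_assoc, q2, a.mul_inv_cancel_right]
        have k2 : T * ρ u - σ u * T = (c : ℂ) • d u := by rw [hd, smul_inv_smul₀ c0]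
        have k3 : d u + ↑a⁻¹ * b * ρ u = σ u * (↑a⁻¹ * b) := by
          rw [← mul_assoc, k1, mul_assoc, mul_assoc, ← q3, mul_add, a.inv_mul_cancel_left]
        rw [add_mul, mul_add, smul_mul_assoc, mul_smul_comm, ← k3, smul_add, ← k2]
        abel
    simp only [map_sum, map_smul, Finset.mul_sum, Finset.sum_mul, mul_smul_comm, smul_mul_assoc, k]
  · rw [sub_add_cancel_left, norm_neg, norm_smul, Complex.norm_real, Real.norm_of_nonneg hc0.le,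
      mul_comm]
    refine mul_le_mul_of_nonneg_right (ContinuousLinearMap.opNorm_le_bound _ distK_pos.le
      fun ξ => (a3 _).trans ?_) hc0.le
    change ‖b ξ‖ ≤ _
    rw [hb, ← nj ξ]
    refine le_trans ?_ (P.le_of_opNorm_le p2 _)
    exact WithLp.norm_fst_le H (P (j ξ))

/-- The distance property for a von Neumann algebra. -/
theorem dist_commutant {H : Type u} [NormedAddCommGroup H] [InnerProductSpace ℂ H]
    [CompleteSpace H] (M : VonNeumannAlgebra H) (T : H →L[ℂ] H) {c : ℝ} (hc0 : 0 ≤ c)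
    (hc : ∀ x ∈ M, ‖T * x - x * T‖ ≤ c * ‖x‖) : ∃ T' ∈ M.commutant, ‖T - T'‖ ≤ distK * c := by
  have cl : IsClosed (M.toStarSubalgebra : Set (H →L[ℂ] H)) := vn_isClosed _
  obtain ⟨T', h1, h2⟩ := dist_intertw M.toStarSubalgebra.subtype M.toStarSubalgebra.subtype T hc0
    fun a => hc a.1 a.2
  exact ⟨T', VonNeumannAlgebra.mem_commutant_iff.2 fun x hx => (h1 ⟨x, hx⟩).symm, h2⟩

end Vale.Agent.P096
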