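import Vale.Agent.P096.Erg

/-! Averaging over unitary representations of abelian groups. -/

namespace Vale.Agent.P096.En

open scoped InnerProductSpace ComplexOrder BigOperators
open Filter Topology Vale.Agent.P104 Vale.Agent.P082 Finset

theorem av_prod {A B V : Type*} [Fintype A] [Fintype B] [AddCommGroup V] [Module ℂ V]
    (f : A × B → V) : av univ f = av univ fun a => av univ fun b => f (a, b) := by
  simp only [av, ← smul_sum, smul_smul, Fintype.sum_prod_type, card_univ, Fintype.card_prod]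
  push_cast
  rw [mul_inv]

theorem foel {G V : Type*} [AddCommGroup G] [NormedAddCommGroup V] [NormedSpace ℂ V]
    (F : Finset G) (n : ℕ) : ∃ (Ω : Type) (_ : Fintype Ω) (_ : Nonempty Ω) (u : Ω → G),
      ∀ g ∈ F, ∀ (f : G → V) (C : ℝ), (∀ x, ‖f x‖ ≤ C) →
        ‖av univ (fun ω => f (g + u ω)) - av univ fun ω => f (u ω)‖ ≤ 2 * C / (n + 1) := by
  classical
  induction F using Finset.induction_on with
  | empty => exact ⟨Unit, inferInstance, inferInstance, 0, by simp⟩
  | insert a F _ ih =>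
    obtain ⟨Ω, _, _, u, hu⟩ := ih
    refine ⟨Ω × Fin (n + 1), inferInstance, inferInstance, fun p => u p.1 + (p.2 : ℕ) • a,
      fun g hg f C hf => ?_⟩
    rw [av_prod, av_prod]
    rcases mem_insert.1 hg with rfl | hg
    · rw [← av_sub]
      refine av_norm_le₂ univ_nonempty fun ω _ => ?_
      rw [← av_sub, av, Fin.sum_univ_eq_sum_range
        (fun k => f (g + (u ω + k • g)) - f (u ω + k • g)) (n + 1)]
      have e : ∀ k : ℕ, g + (u ω + k • g) = u ω + (k + 1) • g := fun k => by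
        rw [succ_nsmul]; abel
      simp only [e]
      rw [sum_range_sub (fun k => f (u ω + k • g)), norm_smul, card_univ, Fintype.card_fin,
        norm_inv, Complex.norm_natCast, div_eq_inv_mul]
      push_cast
      refine mul_le_mul_of_nonneg_left ((norm_sub_le _ _).trans ?_) (by positivity)
      linarith [hf (u ω + (n + 1) • g), hf (u ω + 0 • g)]
    · rw [av_comm, av_comm univ fun ω (k : Fin (n + 1)) => f (u ω + (k : ℕ) • a), ← av_sub]
      refine av_norm_le₂ univ_nonempty fun k _ => ?_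
      simpa only [add_assoc] using hu g hg (fun x => f (x + (k : ℕ) • a)) C fun x => hf _

variable {K : Type*} [NormedAddCommGroup K] [InnerProductSpace ℂ K] [CompleteSpace K]
  {G : Type*} {S : G → K →L[ℂ] K} {X : K →L[ℂ] K}

/-- A weak form of membership in the weakly closed convex hull. -/
def Hl (S : G → K →L[ℂ] K) (X : K →L[ℂ] K) : Prop :=
  ∀ (a b c d : K) (z : ℂ) (r : ℝ), (∀ g, ‖⟪a, S g b⟫_ℂ + ⟪c, S g d⟫_ℂ - z‖ ≤ r) →
    ‖⟪a, X b⟫_ℂ + ⟪c, X d⟫_ℂ - z‖ ≤ r

omit [CompleteSpace K] in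
theorem Hl.one (h : Hl S X) (a b : K) (z : ℂ) (r : ℝ) (hr : ∀ g, ‖⟪a, S g b⟫_ℂ - z‖ ≤ r) :
    ‖⟪a, X b⟫_ℂ - z‖ ≤ r := by
  simpa using h a b 0 0 z r (by simpa using hr)

omit [CompleteSpace K] in
theorem norm_le_inner {K' : Type*} [NormedAddCommGroup K'] [InnerProductSpace ℂ K']
    {T : K →L[ℂ] K'} {r : ℝ} (r0 : 0 ≤ r) (h : ∀ a b, ‖⟪a, T b⟫_ℂ‖ ≤ r * ‖a‖ * ‖b‖) : ‖T‖ ≤ r :=
  T.opNorm_le_bound r0 fun b => by
    have := h (T b) b
    rw [inner_self_eq_norm_sq_to_K, norm_pow, RCLike.norm_ofReal, abs_norm] at this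
    rcases (norm_nonneg (T b)).eq_or_lt with h0 | h0
    · rw [← h0]; positivity
    · nlinarith

omit [CompleteSpace K] in
theorem Hl.near (h : Hl S X) {Z : K →L[ℂ] K} {r : ℝ} (r0 : 0 ≤ r) (hr : ∀ g, ‖S g - Z‖ ≤ r) :
    ‖X - Z‖ ≤ r := norm_le_inner r0 fun a b => by
  rw [sub_apply, inner_sub_right]
  refine h.one a b _ _ fun g => ?_
  rw [← inner_sub_right, ← sub_apply, mul_comm r, mul_assoc]
  exact (norm_inner_le_norm _ _).trans
    (mul_le_mul_of_nonneg_left ((S g - Z).le_of_opNorm_le (hr g) b) (norm_nonneg _))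

theorem Hl.comm (h : Hl S X) {Y : K →L[ℂ] K} (hY : ∀ g, Y * S g = S g * Y) : Y * X = X * Y := by
  ext b
  refine ext_inner_left ℂ fun a => ?_
  have := h (star Y a) b (-a) (Y b) 0 0 fun g => by
    rw [inner_star_left, ← mul_apply_eq_comp, hY, mul_apply_eq_comp]
    simp
  rw [sub_zero, norm_le_zero_iff, inner_neg_left, add_neg_eq_zero, inner_star_left] at this
  exact this

theorem meanG [AddCommGroup G] (w : G → K →L[ℂ] K) (hu : ∀ g, w g ∈ unitary (K →L[ℂ] K))
    (ha : ∀ g h, w (g + h) = w g * w h) : ∃ E : (K →L[ℂ] K) →ₗ[ℂ] (K →L[ℂ] K),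
      (∀ g X, w g * E X = E X * w g) ∧ ∀ X, Hl (fun g => w g * X * star (w g)) (E X) := by
  classical
  choose Ω i1 i2 u hF using fun p : Finset G × ℕ => foel (V := K →L[ℂ] K) p.1 p.2
  let U : Ultrafilter (Finset G × ℕ) := Ultrafilter.of atTop
  let A : Finset G × ℕ → (K →L[ℂ] K) → K →L[ℂ] K := fun p X =>
    av univ fun ω => w (u p ω) * X * star (w (u p ω))
  have n1 : ∀ g (X : K →L[ℂ] K), ‖w g * X * star (w g)‖ = ‖X‖ := fun g X => by
    rw [CStarRing.norm_mul_mem_unitary _ (Unitary.star_mem (hu g)),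
      CStarRing.norm_mem_unitary_mul _ (hu g)]
  have n2 : ∀ p X η, ‖A p X η‖ ≤ ‖X‖ * ‖η‖ := fun p X =>
    (A p X).le_of_opNorm_le (av_norm_le₂ univ_nonempty fun ω _ => (n1 _ X).le)
  choose e he using fun X => exists_wvL U (fun p => (A p X : K →ₗ[ℂ] K)) _ fun p => n2 p X
  let e' : (K →L[ℂ] K) → K →L[ℂ] K := fun X => (e X).mkContinuous ‖X‖ fun η =>
    (he X η).norm_le (Eventually.of_forall fun p => n2 p X η)
  have he' : ∀ X η, WV U (fun p => A p X η) (e' X η) := he
  refine ⟨⟨⟨e', fun X Y => ?_⟩, fun c X => ?_⟩, fun g X => ?_, fun X a b c d z r h => ?_⟩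
  · ext η
    exact (he' _ η).unique ((he' X η).add (he' Y η)) (Eventually.of_forall fun p => by
      simp only [A, mul_add, add_mul, av_add₂, add_apply])
  · ext η
    exact (he' _ η).unique ((he' X η).smul c) (Eventually.of_forall fun p => by
      simp only [A, av, mul_smul_comm, smul_mul_assoc, ← smul_sum, smul_apply, smul_comm c])
  · change w g * e' X = e' X * w g
    ext η
    rw [← sub_eq_zero, ← norm_le_zero_iff]
    refine le_of_forall_pos_le_add fun ε ε0 => ?_
    refine (((he' X η).map (w g)).sub (he' X (w g η))).norm_le ?_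
    have t : Tendsto (fun n : ℕ => 2 * ‖X‖ / (n + 1) * ‖η‖) atTop (𝓝 (2 * ‖X‖ * 0 * ‖η‖)) := by
      simpa only [div_eq_mul_inv, one_mul] using
        (tendsto_one_div_add_atTop_nhds_zero_nat.const_mul (2 * ‖X‖)).mul_const ‖η‖
    obtain ⟨n, hn⟩ := eventually_atTop.1 (t.eventually (ge_mem_nhds (by simpa using ε0)))
    refine Ultrafilter.of_le atTop ((eventually_ge_atTop ({g}, n)).mono fun p hp => ?_)
    have h1 := hF p g (hp.1 (mem_singleton_self g)) (fun g => w g * X * star (w g)) _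
      fun g => (n1 g X).le
    have h2 : w g (A p X η) - A p X (w g η) = ((av univ fun ω => w (g + u p ω) * X *
        star (w (g + u p ω))) - A p X) (w g η) := by
      simp only [A, ha, star_mul, av, sub_apply, smul_apply, _root_.sum_apply,
        mul_apply_eq_comp, map_smul, map_sum]
      simp only [← mul_apply_eq_comp (star (w g)), (hu g).1, one_apply_eq_self]
    rw [h2, zero_add]
    refine (ContinuousLinearMap.le_of_opNorm_le _ h1 _).trans ?_
    rw [Unitary.norm_map ⟨w g, hu g⟩ η]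
    exact hn _ hp.2
  · refine le_of_tendsto (((he' X b a).add (he' X d c)).sub_const z).norm
      (Eventually.of_forall fun p => ?_)
    refine le_of_eq_of_le (congrArg _ ?_) (av_norm_le₂ univ_nonempty fun ω _ => h (u p ω))
    rw [av_sub, av_add₂, av_const₂ univ_nonempty]
    simp only [A, av, smul_apply, _root_.sum_apply, inner_smul_right, inner_sum,
      smul_eq_mul]

end Vale.Agent.P096.En
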