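import Vale.Agent.P096.Stmts

/-! Pairs of elements that are close in norm and very close on the trace vector. -/

namespace Vale.Agent.P096

open scoped InnerProductSpace ComplexOrder BigOperators
open Filter Topology Vale.Agent.P104 Vale.Agent.P082 Finset

variable {A B E : Type*} [CStarAlgebra A] [CStarAlgebra B] [NormedAddCommGroup E]
  [InnerProductSpace ℂ E] [CompleteSpace E]
  {π : A →ₐ[ℂ] (E →L[ℂ] E)} {L : B →⋆ₐ[ℂ] (E →L[ℂ] E)} {R : B →ₗ[ℂ] (E →L[ℂ] E)} {ξ : E}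
  {γ ε t t' : ℝ}

theorem un_le {y : B} (hy : y ∈ unitary B) : ‖y‖ ≤ 1 := by
  have := CStarRing.norm_star_mul_self (x := y)
  rw [hy.1] at this
  have h1 : ‖(1 : B)‖ ≤ 1 := IsStarProjection.norm_le _ (IsStarProjection.one B)
  nlinarith [norm_nonneg y]

theorem StdB.Lle (h : StdB L R ξ) (b : B) (η : E) : ‖L b η‖ ≤ ‖b‖ * ‖η‖ :=
  (L b).le_of_opNorm_le (h.Liso b).le η

theorem StdB.Rle (h : StdB L R ξ) (b : B) (η : E) : ‖R b η‖ ≤ ‖b‖ * ‖η‖ :=
  (R b).le_of_opNorm_le (h.R_norm b) η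

theorem StdB.LRa (h : StdB L R ξ) (a b : B) (η : E) : L a (R b η) = R b (L a η) := by
  rw [← mul_apply_eq_comp, h.LR, mul_apply_eq_comp]

theorem StdB.RR (h : StdB L R ξ) (a b : B) (η : E) : R a (R b η) = R (b * a) η := by
  rw [h.R_mul, mul_apply_eq_comp]

theorem StdB.R1 (h : StdB L R ξ) (η : E) : R 1 η = η := by
  rw [h.R_one, one_apply_eq_self]

theorem LL (a b : B) (η : E) : L a (L b η) = L (a * b) η := by
  rw [map_mul, mul_apply_eq_comp]

theorem L1 (η : E) : L 1 η = η := by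
  rw [map_one, one_apply_eq_self]

omit [CompleteSpace E] in
theorem ππ (a b : A) (η : E) : π a (π b η) = π (a * b) η := by
  rw [map_mul, mul_apply_eq_comp]

omit [CompleteSpace E] in
theorem π1 (η : E) : π 1 η = η := by
  rw [map_one, one_apply_eq_self]

theorem L_sq_le {x y : B} [PartialOrder B] [StarOrderedRing B] (h : star x * x ≤ star y * y)
    (η : E) :
    ‖L x η‖ ≤ ‖L y η‖ := by
  have h1 : 0 ≤ L (star y * y - star x * x) := by
    obtain ⟨s, hs⟩ := CStarAlgebra.nonneg_iff_eq_star_mul_self.1 (sub_nonneg.2 h)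
    rw [hs, map_mul, map_star]
    exact star_mul_self_nonneg _
  have h2 := ((ContinuousLinearMap.isPositive_iff_complex _).1
    ((ContinuousLinearMap.nonneg_iff_isPositive _).1 h1) η).2
  refine le_of_sq_le (norm_nonneg _) ?_
  rw [norm_sq_apply, norm_sq_apply, ← map_star, ← map_star, ← map_mul, ← map_mul, ← sub_nonneg,
    ← Complex.sub_re, ← inner_sub_right, ← sub_apply, ← map_sub, ← inner_conj_symm, Complex.conj_re]
  exact h2

/-- Truncation: an almost right bounded vector is close to a bounded element. -/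
theorem StdB.trunc (h : StdB L R ξ) (η : E) {c e : ℝ} (hc : 0 < c) (he : 0 < e)
    (hη : ∀ z, ‖R z η‖ ≤ c * ‖L z ξ‖ + e * ‖z‖) : ∃ n, ‖n‖ ≤ 3 * c ∧ ‖η - L n ξ‖ ≤ 5 * e := by
  letI := CStarAlgebra.spectralOrder B
  letI := CStarAlgebra.spectralOrderedRing B
  obtain ⟨n, hn⟩ := h.cyc.exists_dist_lt η he
  rw [dist_eq_norm] at hn
  obtain ⟨φ, φc, φ0, φ1, φa, φb⟩ : ∃ φ : ℝ → ℝ, Continuous φ ∧ (∀ s, 0 ≤ φ s) ∧ (∀ s, φ s ≤ 1) ∧
      (∀ s, s ≤ 4 * c ^ 2 → φ s = 0) ∧ ∀ s, 9 * c ^ 2 ≤ s → φ s = 1 := by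
    have c5 : 0 < 5 * c ^ 2 := by positivity
    refine ⟨fun s => max 0 (min 1 ((s - 4 * c ^ 2) / (5 * c ^ 2))), by fun_prop,
      fun s => le_max_left _ _, fun s => max_le zero_le_one (min_le_left _ _), fun s hs =>
      max_eq_left (min_le_of_right_le (div_nonpos_of_nonpos_of_nonneg (by linarith) c5.le)),
      fun s hs => ?_⟩
    have : 1 ≤ (s - 4 * c ^ 2) / (5 * c ^ 2) := by rw [le_div_iff₀ c5]; linarith
    simp only [min_eq_left this, max_eq_right zero_le_one]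
  obtain ⟨a, ha⟩ : ∃ a, a = star n * n := ⟨_, rfl⟩
  have a0 : 0 ≤ a := ha ▸ star_mul_self_nonneg n
  have as : IsSelfAdjoint a := a0.isSelfAdjoint
  obtain ⟨z, hz⟩ : ∃ z, z = cfc φ a := ⟨_, rfl⟩
  have zs : star z = z := hz ▸ cfc_predicate φ a
  have z1 : ‖z‖ ≤ 1 := hz ▸ norm_cfc_le zero_le_one fun s _ => by
    rw [Real.norm_of_nonneg (φ0 s)]; exact φ1 s
  have k : ∀ f : ℝ → ℝ, Continuous f → cfc f a * a * cfc f a = cfc (fun s => f s * s * f s) a :=
    fun f hf => by rw [cfc_mul _ _ a, cfc_mul _ _ a, cfc_id' ℝ a]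
  have e1 : star (((2 * c : ℝ) : ℂ) • z) * (((2 * c : ℝ) : ℂ) • z) ≤ star (n * z) * (n * z) := by
    have e : star (((2 * c : ℝ) : ℂ) • z) * (((2 * c : ℝ) : ℂ) • z) =
        cfc (fun s => (2 * c * φ s) * (2 * c * φ s)) a := by
      rw [cfc_mul _ _ a, cfc_const_mul _ _ a, ← hz, Complex.coe_smul, star_smul, zs, star_trivial]
    rw [e, star_mul, zs, mul_assoc, ← mul_assoc (star n), ← ha, ← mul_assoc, hz, k φ φc]
    refine cfc_mono (fun s _ => ?_) (by fun_prop) (by fun_prop)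
    rcases le_total s (4 * c ^ 2) with hs | hs
    · simp [φa s hs]
    · nlinarith [mul_nonneg (sub_nonneg.2 hs) (mul_self_nonneg (φ s))]
  have e2 : ‖n * (1 - z)‖ ≤ 3 * c := by
    have e : 1 - z = cfc (fun s => 1 - φ s) a := by
      rw [cfc_sub _ _ a, cfc_const_one ℝ a, hz]
    refine le_of_sq_le (by positivity) ?_
    rw [sq, ← CStarRing.norm_star_mul_self, star_mul, star_sub, star_one, zs, mul_assoc,
      ← mul_assoc (star n), ← ha, ← mul_assoc, e, k _ (by fun_prop)]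
    refine norm_cfc_le (by positivity) fun s hs => ?_
    have s0 : 0 ≤ s := spectrum_nonneg_of_nonneg a0 hs
    have := φ0 s
    have := φ1 s
    rw [Real.norm_of_nonneg (by positivity)]
    rcases le_total (9 * c ^ 2) s with hs | hs
    · rw [φb s hs]; nlinarith
    · have : (1 - φ s) * (1 - φ s) ≤ 1 := by nlinarith
      nlinarith
  have e3 := L_sq_le (L := L) e1 ξ
  rw [map_smul, smul_apply, norm_smul, Complex.norm_real, Real.norm_of_nonneg (by positivity)] at e3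
  have e4 : L (n * z) ξ = R z η - R z (η - L n ξ) := by
    rw [← LL, h.cen z, h.LRa, map_sub, sub_sub_cancel]
  have e5 : ‖L (n * z) ξ‖ ≤ c * ‖L z ξ‖ + 2 * e := by
    rw [e4]
    have := hη z
    have := h.Rle z (η - L n ξ)
    have := norm_sub_le (R z η) (R z (η - L n ξ))
    nlinarith [norm_nonneg (η - L n ξ), norm_nonneg z]
  refine ⟨n * (1 - z), e2, ?_⟩
  have e6 : η - L (n * (1 - z)) ξ = (η - L n ξ) + L (n * z) ξ := by
    rw [mul_sub, mul_one, map_sub, sub_apply]; abel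
  rw [e6]
  have := norm_add_le (η - L n ξ) (L (n * z) ξ)
  linarith

/-- The commutator evaluated at the trace vector. -/
noncomputable def Fm (π : A →ₐ[ℂ] (E →L[ℂ] E)) (R : B →ₗ[ℂ] (E →L[ℂ] E)) (ξ : E) (a : A) (b : B) : E :=
  π a (R b ξ) - R b (π a ξ)

/-- A bounded representation close to the standard form. -/
structure Pos (π : A →ₐ[ℂ] (E →L[ℂ] E)) (L : B →⋆ₐ[ℂ] (E →L[ℂ] E)) (R : B →ₗ[ℂ] (E →L[ℂ] E))
    (ξ : E) (γ ε : ℝ) : Prop extends StdB L R ξ where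
  γ0 : 0 < γ
  ε0 : 0 < ε
  γ1 : γ ≤ 1 / 1000
  up : ∀ a, ‖π a‖ ≤ 2 * ‖a‖
  low : ∀ a, ‖a‖ ≤ 2 * ‖π a‖
  nearA : ∀ a, ∃ b, ‖b‖ ≤ ‖a‖ ∧ ‖π a - L b‖ ≤ γ * ‖a‖
  nearB : ∀ b, ∃ a, ‖a‖ ≤ ‖b‖ ∧ ‖π a - L b‖ ≤ γ * ‖b‖
  F : ∀ a b, ‖Fm π R ξ a b‖ ≤ ε * ‖a‖ * ‖b‖

/-- Related elements. -/
structure Rel (π : A →ₐ[ℂ] (E →L[ℂ] E)) (L : B →⋆ₐ[ℂ] (E →L[ℂ] E)) (ξ : E) (γ ε t : ℝ) (x : A)
    (y : B) : Prop where
  nx : ‖x‖ ≤ t
  ny : ‖y‖ ≤ t
  op : ‖π x - L y‖ ≤ t * γ
  vec : ‖π x ξ - L y ξ‖ ≤ t * ε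

variable {x x' : A} {y y' : B}

theorem Rel.t0 (h : Rel π L ξ γ ε t x y) : 0 ≤ t := (norm_nonneg _).trans h.nx

theorem Rel.opa (h : Rel π L ξ γ ε t x y) (η : E) : ‖π x η - L y η‖ ≤ t * γ * ‖η‖ :=
  (π x - L y).le_of_opNorm_le h.op η

theorem Pos.πle (h : Pos π L R ξ γ ε) (a : A) (η : E) : ‖π a η‖ ≤ 2 * ‖a‖ * ‖η‖ :=
  (π a).le_of_opNorm_le (h.up a) η

theorem Pos.mono (h : Pos π L R ξ γ ε) (r : Rel π L ξ γ ε t x y) (ht : t ≤ t') :
    Rel π L ξ γ ε t' x y :=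
  ⟨r.nx.trans ht, r.ny.trans ht, r.op.trans (mul_le_mul_of_nonneg_right ht h.γ0.le),
    r.vec.trans (mul_le_mul_of_nonneg_right ht h.ε0.le)⟩

theorem Rel.add (r : Rel π L ξ γ ε t x y) (r' : Rel π L ξ γ ε t' x' y') :
    Rel π L ξ γ ε (t + t') (x + x') (y + y') := by
  refine ⟨(norm_add_le _ _).trans (add_le_add r.nx r'.nx),
    (norm_add_le _ _).trans (add_le_add r.ny r'.ny), ?_, ?_⟩
  · rw [map_add, map_add, add_sub_add_comm, add_mul]
    exact (norm_add_le _ _).trans (add_le_add r.op r'.op)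
  · rw [map_add, map_add, add_apply, add_apply, add_sub_add_comm, add_mul]
    exact (norm_add_le _ _).trans (add_le_add r.vec r'.vec)

theorem Rel.smul (r : Rel π L ξ γ ε t x y) {c : ℂ} {s : ℝ} (hc : ‖c‖ ≤ s) :
    Rel π L ξ γ ε (s * t) (c • x) (c • y) := by
  have s0 := (norm_nonneg _).trans hc
  refine ⟨?_, ?_, ?_, ?_⟩
  · rw [norm_smul]; exact mul_le_mul hc r.nx (norm_nonneg _) s0
  · rw [norm_smul]; exact mul_le_mul hc r.ny (norm_nonneg _) s0
  · rw [map_smul, map_smul, ← smul_sub, norm_smul, mul_assoc]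
    exact mul_le_mul hc r.op (norm_nonneg _) s0
  · rw [map_smul, map_smul, smul_apply, smul_apply, ← smul_sub, norm_smul, mul_assoc]
    exact mul_le_mul hc r.vec (norm_nonneg _) s0

theorem Pos.exact (h : Pos π L R ξ γ ε) (e : π x = L y) (hx : ‖x‖ ≤ t) (hy : ‖y‖ ≤ t) :
    Rel π L ξ γ ε t x y := by
  have t0 := (norm_nonneg _).trans hx
  have := h.γ0
  have := h.ε0
  refine ⟨hx, hy, ?_, ?_⟩ <;> rw [e, sub_self, norm_zero] <;> positivity

theorem Pos.mul (h : Pos π L R ξ γ ε) (r : Rel π L ξ γ ε t x y) (r' : Rel π L ξ γ ε t' x' y') :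
    Rel π L ξ γ ε (4 * t * t') (x * x') (y * y') := by
  have t0 := r.t0
  have t1 := r'.t0
  have tt := mul_nonneg t0 t1
  have := h.γ0
  have := h.ε0
  refine ⟨(norm_mul_le _ _).trans ?_, (norm_mul_le _ _).trans ?_, ?_, ?_⟩
  · have := mul_le_mul r.nx r'.nx (norm_nonneg _) t0
    linarith
  · have := mul_le_mul r.ny r'.ny (norm_nonneg _) t0
    linarith
  · have e : π (x * x') - L (y * y') = π x * (π x' - L y') + (π x - L y) * L y' := by
      rw [map_mul, map_mul]; noncomm_ring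
    have a1 : ‖π x * (π x' - L y')‖ ≤ 2 * t * (t' * γ) := (norm_mul_le _ _).trans
      (mul_le_mul ((h.up x).trans (by linarith [r.nx])) r'.op (norm_nonneg _) (by positivity))
    have a2 : ‖(π x - L y) * L y'‖ ≤ t * γ * t' := (norm_mul_le _ _).trans
      (mul_le_mul r.op ((h.Liso y').trans_le r'.ny) (norm_nonneg _) (by positivity))
    rw [e]
    refine (norm_add_le _ _).trans ?_
    nlinarith
  · have e : π (x * x') ξ - L (y * y') ξ = π x (π x' ξ - L y' ξ) + Fm π R ξ x y' +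
        R y' (π x ξ - L y ξ) := by
      rw [← ππ, ← LL, Fm, map_sub, map_sub, h.cen y', h.LRa]; abel
    have a1 : ‖π x (π x' ξ - L y' ξ)‖ ≤ 2 * t * (t' * ε) := (h.πle _ _).trans
      (mul_le_mul (by linarith [r.nx]) r'.vec (norm_nonneg _) (by positivity))
    have a2 : ‖Fm π R ξ x y'‖ ≤ ε * t * t' := (h.F _ _).trans
      (mul_le_mul (mul_le_mul_of_nonneg_left r.nx h.ε0.le) r'.ny (norm_nonneg _) (by positivity))
    have a3 : ‖R y' (π x ξ - L y ξ)‖ ≤ t' * (t * ε) := (h.Rle _ _).trans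
      (mul_le_mul r'.ny r.vec (norm_nonneg _) t1)
    rw [e]
    refine (norm_add₃_le).trans ?_
    nlinarith

theorem Pos.tilde (h : Pos π L R ξ γ ε) (x : A) : ∃ y, Rel π L ξ γ ε (5 * ‖x‖) x y := by
  rcases eq_or_ne x 0 with rfl | hx
  · exact ⟨0, h.exact (by simp) (by simp) (by simp)⟩
  have x0 := norm_pos_iff.2 hx
  have g0 := h.γ0
  have g1 := h.γ1
  have e0 := h.ε0
  obtain ⟨b, b1, b2⟩ := h.nearA x
  obtain ⟨n, n1, n2⟩ := h.trunc ((π x - L b) ξ) (c := γ * ‖x‖) (e := ε * ‖x‖) (by positivity)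
    (by positivity) fun z => by
      have e : R z ((π x - L b) ξ) = (π x - L b) (L z ξ) - Fm π R ξ x z := by
        rw [sub_apply, sub_apply, map_sub, Fm, h.cen z, h.LRa]; abel
      rw [e]
      exact (norm_sub_le _ _).trans (add_le_add ((π x - L b).le_of_opNorm_le b2 _) (h.F _ _))
  refine ⟨b + n, by linarith, (norm_add_le _ _).trans (by nlinarith), ?_, ?_⟩
  · rw [map_add, ← sub_sub]
    refine (norm_sub_le _ _).trans ?_
    rw [h.Liso]
    nlinarith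
  · rw [map_add, add_apply, ← sub_sub, ← sub_apply]
    linarith

theorem Pos.hat_aux (h : Pos π L R ξ γ ε) (N : ℕ) : ∀ y : B, ∃ x r, ‖r‖ ≤ (1 / 2) ^ N * ‖y‖ ∧
    ‖x‖ ≤ 10 * ‖y‖ ∧ ‖π x - L (y - r)‖ ≤ 10 * ‖y‖ * γ ∧
      ‖π x ξ - L (y - r) ξ‖ ≤ 10 * ‖y‖ * ε := by
  have g0 := h.γ0
  have g1 := h.γ1
  have e0 := h.ε0
  induction N with
  | zero =>
    intro y
    refine ⟨0, y, by simp, by simp, ?_, ?_⟩ <;> simp <;> positivity
  | succ N ih =>
    intro y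
    have y0 := norm_nonneg y
    obtain ⟨a, a1, a2⟩ := h.nearB y
    obtain ⟨b, hb⟩ := h.tilde a
    have hb' := h.mono hb (show 5 * ‖a‖ ≤ 5 * ‖y‖ by linarith)
    have b1 : ‖y - b‖ ≤ 1 / 2 * ‖y‖ := by
      rw [← h.Liso, map_sub, show L y - L b = (π a - L b) - (π a - L y) by abel]
      refine (norm_sub_le _ _).trans ?_
      have := hb'.op
      nlinarith
    obtain ⟨x, r, r1, r2, r3, r4⟩ := ih (y - b)
    have e : y - r = b + (y - b - r) := by abel
    refine ⟨a + x, r, r1.trans ?_, (norm_add_le _ _).trans (by linarith), ?_, ?_⟩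
    · rw [pow_succ, mul_assoc]
      exact mul_le_mul_of_nonneg_left b1 (by positivity)
    · rw [e, map_add, map_add, add_sub_add_comm]
      refine (norm_add_le _ _).trans ?_
      have := hb'.op
      nlinarith
    · rw [e, map_add, map_add, add_apply, add_apply, add_sub_add_comm]
      refine (norm_add_le _ _).trans ?_
      have := hb'.vec
      nlinarith

theorem Pos.hat (h : Pos π L R ξ γ ε) (y : B) : ∃ x, Rel π L ξ γ ε (11 * ‖y‖) x y := by
  obtain ⟨N, hN⟩ := exists_pow_lt_of_lt_one (lt_min h.γ0 h.ε0) (show (1 / 2 : ℝ) < 1 by norm_num)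
  obtain ⟨x, r, r1, r2, r3, r4⟩ := h.hat_aux N y
  have y0 := norm_nonneg y
  have a1 : ‖r‖ ≤ γ * ‖y‖ :=
    r1.trans (mul_le_mul_of_nonneg_right (hN.le.trans (min_le_left _ _)) y0)
  have a2 : ‖r‖ ≤ ε * ‖y‖ :=
    r1.trans (mul_le_mul_of_nonneg_right (hN.le.trans (min_le_right _ _)) y0)
  refine ⟨x, by linarith, by linarith, ?_, ?_⟩
  · rw [show π x - L y = (π x - L (y - r)) - L r by rw [map_sub]; abel]
    refine (norm_sub_le _ _).trans ?_
    rw [h.Liso]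
    linarith
  · rw [show π x ξ - L y ξ = (π x ξ - L (y - r) ξ) - L r ξ by rw [map_sub, sub_apply]; abel]
    refine (norm_sub_le _ _).trans ?_
    have := h.Lle r ξ
    rw [h.unit] at this
    linarith

theorem Pos.inv (h : Pos π L R ξ γ ε) (r : Rel π L ξ γ ε t x y) (hy : y ∈ unitary B) (t1 : 1 ≤ t)
    (t2 : t ≤ 100) : ∃ u : Aˣ, u = x ∧ Rel π L ξ γ ε (4 * t) (↑u⁻¹ : A) (star y) := by
  have g0 := h.γ0
  have g1 := h.γ1
  have e0 := h.ε0
  have y1 : ‖y‖ ≤ 1 := un_le hy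
  have y2 : ‖star y‖ ≤ 1 := by rwa [norm_star]
  obtain ⟨a, a1, a2⟩ := h.nearB (star y)
  have a3 : ‖π a - L (star y)‖ ≤ γ := a2.trans (mul_le_of_le_one_right g0.le y2)
  have a4 : ‖π a‖ ≤ 2 := (h.up a).trans (by linarith)
  have tg : t * γ ≤ 1 / 10 := by nlinarith
  have k : ∀ z : A, ‖π z - 1‖ ≤ 2 * (t * γ) + γ → IsUnit z := fun z hz => by
    have : ‖1 - z‖ < 1 := by
      have := h.low (1 - z)
      rw [map_sub, map_one, norm_sub_rev (1 : E →L[ℂ] E)] at this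
      linarith
    simpa using (Units.oneSub (1 - z) this).isUnit
  have u1 : IsUnit (x * a) := k _ (by
    rw [show π (x * a) - 1 = (π x - L y) * π a + L y * (π a - L (star y)) by
      rw [map_mul, mul_sub, ← map_mul L, hy.2, map_one]; noncomm_ring]
    refine (norm_add_le _ _).trans (add_le_add ((norm_mul_le _ _).trans ?_)
      ((norm_mul_le _ _).trans ?_))
    · rw [mul_comm 2]
      exact mul_le_mul r.op a4 (norm_nonneg _) (by positivity)
    · rw [h.Liso]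
      nlinarith [norm_nonneg (π a - L (star y))])
  have u2 : IsUnit (a * x) := k _ (by
    rw [show π (a * x) - 1 = π a * (π x - L y) + (π a - L (star y)) * L y by
      rw [map_mul, sub_mul, ← map_mul L, hy.1, map_one]; noncomm_ring]
    refine (norm_add_le _ _).trans (add_le_add ((norm_mul_le _ _).trans ?_)
      ((norm_mul_le _ _).trans ?_))
    · exact mul_le_mul a4 r.op (norm_nonneg _) (by positivity)
    · rw [h.Liso]
      nlinarith [norm_nonneg (π a - L (star y))])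
  obtain ⟨u, rfl⟩ : IsUnit x := by
    obtain ⟨p, hp⟩ := u1.exists_right_inv
    obtain ⟨q, hq⟩ := u2.exists_left_inv
    rw [mul_assoc] at hp
    rw [← mul_assoc] at hq
    exact ⟨⟨x, a * p, hp, left_inv_eq_right_inv hq hp ▸ hq⟩, rfl⟩
  have e : π (↑u⁻¹ : A) - L (star y) = π (↑u⁻¹ : A) * ((L y - π u) * L (star y)) := by
    rw [sub_mul, ← map_mul L, hy.2, map_one, mul_sub, mul_one, ← mul_assoc, ← map_mul, u.inv_mul,
      map_one, one_mul]
  have b1 : ‖(L y - π u) * L (star y)‖ ≤ t * γ := (norm_mul_le _ _).trans (by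
    rw [h.Liso, norm_sub_rev]
    nlinarith [r.op, norm_nonneg (π u - L y)])
  have b2 : ‖π (↑u⁻¹ : A) - L (star y)‖ ≤ ‖π (↑u⁻¹ : A)‖ * (t * γ) := by
    rw [e]
    exact (norm_mul_le _ _).trans (mul_le_mul_of_nonneg_left b1 (norm_nonneg _))
  have b3 : ‖π (↑u⁻¹ : A)‖ ≤ 2 := by
    have := norm_sub_norm_le (π (↑u⁻¹ : A)) (L (star y))
    rw [h.Liso] at this
    nlinarith [norm_nonneg (π (↑u⁻¹ : A))]
  refine ⟨u, rfl, (h.low _).trans (by linarith), by linarith, b2.trans (by nlinarith [mul_nonneg r.t0 g0.le]), ?_⟩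
  have e2 : (L y - π u) (L (star y) ξ) = -(Fm π R ξ u (star y) + R (star y) (π u ξ - L y ξ)) := by
    rw [sub_apply, Fm, map_sub, h.cen (star y), h.LRa]; abel
  rw [← sub_apply, e, mul_apply_eq_comp, mul_apply_eq_comp, e2]
  refine ((π _).le_of_opNorm_le b3 _).trans ?_
  rw [norm_neg]
  have c1 : ‖Fm π R ξ u (star y)‖ ≤ ε * t * 1 := (h.F _ _).trans
    (mul_le_mul (mul_le_mul_of_nonneg_left r.nx e0.le) y2 (norm_nonneg _) (by positivity))
  have c2 : ‖R (star y) (π u ξ - L y ξ)‖ ≤ 1 * (t * ε) := (h.Rle _ _).trans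
    (mul_le_mul y2 r.vec (norm_nonneg _) zero_le_one)
  have := norm_add_le (Fm π R ξ u (star y)) (R (star y) (π u ξ - L y ξ))
  nlinarith

end Vale.Agent.P096
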