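import Vale.Agent.P096.End0
import Vale.Agent.P096.Rel

/-! The space of square summable sequences of vectors, with its shift. -/

namespace Vale.Agent.P096.En

open scoped InnerProductSpace InnerProduct ComplexOrder BigOperators
open Filter Topology Vale.Agent.P104 Vale.Agent.P082 ContinuousLinearMap

universe u

section

variable {H K : Type u} [NormedAddCommGroup H] [InnerProductSpace ℂ H] [CompleteSpace H]
  [NormedAddCommGroup K] [InnerProductSpace ℂ K] [CompleteSpace K]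

/-- `K` is the sum of copies of `H` indexed by the integers. -/
structure Zs (ι : ℤ → H →L[ℂ] K) (am : (H →L[ℂ] H) →⋆ₐ[ℂ] (K →L[ℂ] K)) (sh : ℤ → K →L[ℂ] K) :
    Prop where
  same : ∀ n η, ((ι n)†) (ι n η) = η
  diff : ∀ n m η, n ≠ m → ((ι n)†) (ι m η) = 0
  sum : ∀ ψ, HasSum (fun n => ι n (((ι n)†) ψ)) ψ
  par : ∀ ψ, HasSum (fun n => ‖((ι n)†) ψ‖ ^ 2) (‖ψ‖ ^ 2)
  am_ι : ∀ x n η, am x (ι n η) = ι n (x η)
  sh_ι : ∀ k n η, sh k (ι n η) = ι (n + k) η
  sh_star : ∀ k, star (sh k) = sh (-k)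
  dg : ∀ v : ℤ → H →L[ℂ] H, (∀ n, v n ∈ unitary (H →L[ℂ] H)) →
    ∃ D ∈ unitary (K →L[ℂ] K), ∀ n η, D (ι n η) = ι n (v n η)

end

theorem exists_zs (H : Type u) [NormedAddCommGroup H] [InnerProductSpace ℂ H] [CompleteSpace H] :
    ∃ (K : Type u) (_ : NormedAddCommGroup K) (_ : InnerProductSpace ℂ K) (_ : CompleteSpace K)
      (ι : ℤ → H →L[ℂ] K) (am : (H →L[ℂ] H) →⋆ₐ[ℂ] (K →L[ℂ] K)) (sh : ℤ → K →L[ℂ] K),
      Zs ι am sh := by
  let K := lp (fun _ : ℤ => H) 2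
  let ι : ℤ → H →L[ℂ] K := fun n => lp.singleContinuousLinearMap ℂ (fun _ : ℤ => H) 2 n
  have ι1 : ∀ n (ψ : K), ((ι n)†) ψ = ψ n := fun n ψ => ext_inner_left ℂ fun η => by
    rw [adjoint_inner_right]
    exact lp.inner_single_left (𝕜 := ℂ) (G := fun _ : ℤ => H) n η ψ
  have ι2 : ∀ n m η, (ι n η : K) m = if m = n then η else 0 := fun n m η => by
    change lp.single (E := fun _ : ℤ => H) 2 n η m = _
    rw [lp.single_apply, Pi.single_apply]
  let d : ∀ (x : ℤ → H →L[ℂ] H) (C : ℝ), (∀ n, ‖x n‖ ≤ C) → K →L[ℂ] K := fun x C h =>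
    lp.mapCLM 2 x ((norm_nonneg _).trans (h 0)) h
  have d1 : ∀ x C h (ψ : K) n, d x C h ψ n = x n (ψ n) := fun _ _ _ _ _ => rfl
  have d2 : ∀ x C h C' h', star (d x C h) = d (fun n => star (x n)) C' h' := fun x C h C' h' => by
    refine ((eq_adjoint_iff _ _).2 fun a b => ?_).symm
    rw [lp.inner_eq_tsum, lp.inner_eq_tsum]
    exact tsum_congr fun n => adjoint_inner_left _ _ _
  have d3 : ∀ x C h n η, d x C h (ι n η) = ι n (x n η) := fun x C h n η => by
    ext m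
    rw [d1, ι2, ι2]
    split_ifs with e
    · rw [e]
    · rw [map_zero]
  let am : (H →L[ℂ] H) →⋆ₐ[ℂ] (K →L[ℂ] K) :=
    { toFun := fun x => d (fun _ => x) ‖x‖ fun _ => le_rfl
      map_one' := by ext ζ i; rfl
      map_mul' := fun a b => by ext ζ i; rfl
      map_zero' := by ext ζ i; rfl
      map_add' := fun a b => by ext ζ i; rfl
      commutes' := fun z => by ext ζ i; rfl
      map_star' := fun a => (d2 _ _ _ _ _).symm }
  have p2 : 0 < (2 : ENNReal).toReal := by norm_num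
  let s0 : ℤ → K →ₗ[ℂ] K := fun k =>
    { toFun := fun ψ => ⟨fun n => ψ (n - k), (memℓp_gen_iff p2).2
        ((Equiv.subRight k).summable_iff.2 ((memℓp_gen_iff p2).1 (lp.memℓp ψ)))⟩
      map_add' := fun _ _ => rfl
      map_smul' := fun _ _ => rfl }
  let sh : ℤ → K →L[ℂ] K := fun k => (s0 k).mkContinuous 1 fun ψ => by
    rw [one_mul, lp.norm_eq_tsum_rpow p2, lp.norm_eq_tsum_rpow p2,
      ← (Equiv.subRight k).tsum_eq fun n => ‖ψ n‖ ^ (2 : ENNReal).toReal]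
    rfl
  have s1 : ∀ k (ψ : K) n, sh k ψ n = ψ (n - k) := fun _ _ _ => rfl
  refine ⟨K, _, _, inferInstance, ι, am, sh, fun n η => ?_,
    fun n m η h => ?_, fun ψ => ?_, fun ψ => ?_, fun x => d3 (fun _ => x) ‖x‖ fun _ => le_rfl, fun k n η => ?_,
    fun k => ?_, fun v hv => ?_⟩
  · rw [ι1, ι2, if_pos rfl]
  · rw [ι1, ι2, if_neg h]
  · simp only [ι1]
    exact lp.hasSum_single (by norm_num) ψ
  · simpa [ι1] using lp.hasSum_norm p2 ψ
  · ext m
    simp only [s1, ι2, sub_eq_iff_eq_add]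
  · refine ((eq_adjoint_iff _ _).2 fun a b => ?_).symm
    rw [lp.inner_eq_tsum, lp.inner_eq_tsum, ← (Equiv.subRight k).tsum_eq]
    refine tsum_congr fun n => ?_
    simp [s1]
  · have h1 : ∀ n, ‖v n‖ ≤ 1 := fun n => un_le (hv n)
    have h2 : ∀ n, ‖star (v n)‖ ≤ 1 := fun n => (norm_star _).trans_le (h1 n)
    refine ⟨d v 1 h1, ⟨?_, ?_⟩, d3 _ _ _⟩ <;> rw [d2 _ _ _ _ h2] <;> ext ψ n
    · exact DFunLike.congr_fun (hv n).1 (ψ n)
    · exact DFunLike.congr_fun (hv n).2 (ψ n)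

namespace Zs

variable {H K : Type u} [NormedAddCommGroup H] [InnerProductSpace ℂ H] [CompleteSpace H]
  [NormedAddCommGroup K] [InnerProductSpace ℂ K] [CompleteSpace K] {ι : ℤ → H →L[ℂ] K}
  {am : (H →L[ℂ] H) →⋆ₐ[ℂ] (K →L[ℂ] K)} {sh : ℤ → K →L[ℂ] K} (h : Zs ι am sh)

include h

theorem ext {X Y : K →L[ℂ] K} (e : ∀ n η, X (ι n η) = Y (ι n η)) : X = Y := by
  ext ψ
  refine ((h.sum ψ).mapL X).unique ?_
  simp only [e]
  exact (h.sum ψ).mapL Y

theorem sh_add (k l : ℤ) : sh (k + l) = sh k * sh l := h.ext fun n η => by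
  rw [mul_apply_eq_comp, h.sh_ι, h.sh_ι, h.sh_ι, add_assoc, add_comm l]

theorem sh_zero : sh 0 = 1 := h.ext fun n η => by rw [h.sh_ι, add_zero, one_apply_eq_self]

theorem sh_un (k : ℤ) : sh k ∈ unitary (K →L[ℂ] K) :=
  ⟨by rw [h.sh_star, ← h.sh_add, neg_add_cancel, h.sh_zero],
    by rw [h.sh_star, ← h.sh_add, add_neg_cancel, h.sh_zero]⟩

theorem am_sh (x : H →L[ℂ] H) (k : ℤ) : Commute (am x) (sh k) := h.ext fun n η => by
  simp only [mul_apply_eq_comp, h.sh_ι, h.am_ι]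

theorem sh_sh (k l : ℤ) : Commute (sh k) (sh l) := by
  rw [Commute, SemiconjBy, ← h.sh_add, ← h.sh_add, add_comm]

theorem adj_am (x : H →L[ℂ] H) (n : ℤ) (ψ : K) : ((ι n)†) (am x ψ) = x (((ι n)†) ψ) :=
  ext_inner_left ℂ fun η => by
    rw [adjoint_inner_right, ← inner_star_left, ← map_star, h.am_ι, ← adjoint_inner_right,
      inner_star_left]

theorem norm_ι (n : ℤ) (η : H) : ‖ι n η‖ = ‖η‖ := by
  rw [@norm_eq_sqrt_re_inner ℂ, @norm_eq_sqrt_re_inner ℂ _ _ _ _ η, ← adjoint_inner_right, h.same]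

theorem norm_adj (n : ℤ) (ψ : K) : ‖((ι n)†) ψ‖ ≤ ‖ψ‖ :=
  le_of_sq_le (norm_nonneg _) (le_hasSum (h.par ψ) n fun _ _ => by positivity)

theorem cont {P : Type*} [TopologicalSpace P] {Z : P → K →L[ℂ] K} (z1 : ∀ p, ‖Z p‖ ≤ 1)
    (z2 : ∀ n η, Continuous fun p => Z p (ι n η)) (ψ : K) : Continuous fun p => Z p ψ := by
  refine continuous_of_uniform_approx_of_continuous fun u hu => ?_
  obtain ⟨ε, hε, hu'⟩ := Metric.mem_uniformity_dist.1 hu
  obtain ⟨s, hs⟩ := ((Metric.tendsto_nhds.1 (h.sum ψ)) ε hε).exists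
  refine ⟨fun p => ∑ n ∈ s, Z p (ι n (((ι n)†) ψ)), continuous_finsetSum _ fun n _ => z2 _ _,
    fun p => hu' ?_⟩
  beta_reduce
  rw [← map_sum, dist_eq_norm, ← map_sub]
  rw [dist_comm, dist_eq_norm] at hs
  exact ((Z p).le_of_opNorm_le (z1 p) _).trans_lt (by rwa [one_mul])

theorem ag : ∃ a g : K →L[ℂ] K, star a = a ∧ star g = g ∧ ‖g‖ ≤ 1 ∧
    (∀ X, Commute X (sh 1) → Commute X (sh (-1)) → Commute X a ∧ Commute X g) ∧
    NormedSpace.exp (Complex.I • a) * g = sh 1 * g ∧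
    ∀ η, 3 / 20 * ‖η‖ ^ 2 ≤ ‖g (ι 0 η)‖ ^ 2 := by
  have hu := h.sh_un 1
  have : IsStarNormal (sh 1) := ⟨hu.1.trans hu.2.symm⟩
  have sp : ∀ z ∈ spectrum ℂ (sh 1), z.re ^ 2 + z.im ^ 2 = 1 := fun z hz => by
    have := mem_sphere_zero_iff_norm.1 (Unitary.spectrum_subset_circle ⟨_, hu⟩ hz)
    rw [sq, sq, ← Complex.normSq_apply, Complex.normSq_eq_norm_sq, this, one_pow]
  have sa : ∀ f : ℂ → ℝ, star (cfc (fun z => (f z : ℂ)) (sh 1)) = cfc (fun z => (f z : ℂ)) (sh 1) :=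
    fun f => by rw [← cfc_star]; simp
  let fa : ℂ → ℂ := fun z => (Real.arcsin z.im : ℝ)
  let fg : ℂ → ℂ := fun z => (max z.re 0 : ℝ)
  have ca : Continuous fa := Complex.continuous_ofReal.comp
    (Real.continuous_arcsin.comp Complex.continuous_im)
  have cg : Continuous fg := by fun_prop
  refine ⟨cfc fa (sh 1), cfc fg (sh 1), sa _, sa _, norm_cfc_le zero_le_one fun z hz => ?_,
    fun X c1 c2 => ?_, ?_, fun η => ?_⟩
  · rw [Complex.norm_real, Real.norm_of_nonneg (le_max_right _ _)]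
    exact max_le (by nlinarith [sp z hz, sq_nonneg z.im]) zero_le_one
  · rw [← h.sh_star] at c2
    exact ⟨(c1.symm.cfc c2.symm _).symm, (c1.symm.cfc c2.symm _).symm⟩
  · rw [← cfc_smul _ fa, ← CFC.complex_exp_eq_normedSpace_exp, ← cfc_comp' _ _ (sh 1), ← cfc_mul ..]
    nth_rewrite 2 [← cfc_id' ℂ (sh 1)]
    rw [← cfc_mul ..]
    refine cfc_congr fun z hz => ?_
    have := sp z hz
    rcases le_total z.re 0 with c | c
    · simp [fg, c]
    · congr 1
      rw [smul_eq_mul, mul_comm, Complex.exp_mul_I, ← Complex.ofReal_cos, ← Complex.ofReal_sin,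
        Real.sin_arcsin (by nlinarith [sq_nonneg z.re]) (by nlinarith [sq_nonneg z.re]),
        Real.cos_arcsin, show 1 - z.im ^ 2 = z.re ^ 2 by linarith, Real.sqrt_sq c,
        Complex.re_add_im]
  · have e : cfc fg (sh 1) * cfc fg (sh 1) - ((1 / 8 : ℂ) • (sh 1 * sh 1 + sh (-1) * sh (-1)) +
        (1 / 5 : ℂ) • (sh 1 + sh (-1)) + (3 / 20 : ℂ) • 1) = cfc (fun z => fg z * fg z -
          ((1 / 8 : ℂ) • (z * z + star z * star z) + (1 / 5 : ℂ) • (z + star z) + 3 / 20)) (sh 1) := by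
      rw [cfc_sub .., cfc_add .., cfc_add .., cfc_smul .., cfc_smul .., cfc_add .., cfc_add ..,
        cfc_mul .., cfc_mul .., cfc_mul .., cfc_star, cfc_id' ℂ (sh 1), h.sh_star, cfc_const ..,
        Algebra.algebraMap_eq_smul_one]
    have p : 0 ≤ cfc fg (sh 1) * cfc fg (sh 1) - _ := e ▸ cfc_nonneg fun z hz => by
      have := sp z hz
      rw [Complex.nonneg_iff]
      constructor
      · simp [fg]
        rcases le_total z.re 0 with c | c
        · rw [max_eq_right c]; nlinarith [sq_nonneg z.im]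
        · rw [max_eq_left c]; nlinarith [sq_nonneg (z.re - 2 / 5)]
      · simp [fg]
        ring
    have q := (((ContinuousLinearMap.isPositive_iff_complex _).1
      ((ContinuousLinearMap.nonneg_iff_isPositive _).1 p)) (ι 0 η)).2
    rw [sub_apply, inner_sub_left, mul_apply_eq_comp, ← inner_star_right,
      show star (cfc fg (sh 1)) = cfc fg (sh 1) from sa _] at q
    simp only [add_apply, smul_apply, mul_apply_eq_comp, h.sh_ι, one_apply_eq_self, inner_add_left,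
      inner_smul_left, ← adjoint_inner_right (ι _), h.same] at q
    rw [h.diff _ _ _ (by norm_num), h.diff _ _ _ (by norm_num), h.diff _ _ _ (by norm_num),
      h.diff _ _ _ (by norm_num)] at q
    simp only [inner_self_eq_norm_sq_to_K] at q
    simp [← Complex.ofReal_pow, map_ofNat] at q
    linarith

end Zs

end Vale.Agent.P096.En
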