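import Vale.Agent.P096.Main

/-! Interfaces for the extension to all semifinite von Neumann algebras. -/

namespace Vale.Agent.P096

open scoped InnerProductSpace ComplexOrder BigOperators
open Filter Topology Vale.Agent.P104 Vale.Agent.P082 Finset

universe u

section

variable {H : Type u} [NormedAddCommGroup H] [InnerProductSpace ℂ H] [CompleteSpace H]

/-- Linear lifting: a linear map close to the inclusion. -/
def LL' (M : VonNeumannAlgebra H) (C : ℝ) : Prop :=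
  ∀ (N : VonNeumannAlgebra H) (δ : ℝ), 0 < δ → C * δ ≤ 1 → Near M N δ → Near N M δ →
    ∃ Φ : Alg N →ₗ[ℂ] Alg M, ∀ x, ‖(Φ x).1 - x.1‖ ≤ C * δ * ‖x‖

/-- Normal traces separate the points. -/
def FinTr (M : VonNeumannAlgebra H) : Prop :=
  ∀ a : Alg M, (∀ τ : Alg M →ₗ[ℂ] ℂ, VecF τ → (∀ x y, τ (x * y) = τ (y * x)) →
    (∀ x, 0 ≤ τ (star x * x)) → τ (star a * a) = 0) → a = 0

/-- Every nonzero central projection dominates a nonzero finite projection. -/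
def SemiF (M : VonNeumannAlgebra H) : Prop :=
  ∀ z ∈ M, IsStarProjection z → (∀ x ∈ M, z * x = x * z) → z ≠ 0 →
    ∃ e ∈ M, IsStarProjection e ∧ e ≠ 0 ∧ z * e = e ∧
      ∀ v ∈ M, star v * v = e → e * (v * star v) = v * star v → v * star v = e

end

/-- WP NW: a linear lifting can be corrected to a spatial isomorphism. -/
def NewtonStmt : Prop := ∀ C : ℝ, 1 ≤ C → ∃ C' : ℝ, 1 ≤ C' ∧ ∀ (H : Type u)
  [NormedAddCommGroup H] [InnerProductSpace ℂ H] [CompleteSpace H] (M : VonNeumannAlgebra H),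
  LL' M C → KK M C'

/-- WP S: separable pairs of close subalgebras. -/
def SepStmt : Prop := ∀ (H : Type u) [NormedAddCommGroup H] [InnerProductSpace ℂ H]
  [CompleteSpace H] (M N : VonNeumannAlgebra H) (δ : ℝ), 0 < δ → Near M N δ → Near N M δ →
  ∀ s : Finset (H →L[ℂ] H), (∀ x ∈ s, x ∈ N) → ∃ A B D : StarSubalgebra ℂ (H →L[ℂ] H),
    IsClosed (A : Set (H →L[ℂ] H)) ∧ IsClosed (B : Set (H →L[ℂ] H)) ∧
    IsClosed (D : Set (H →L[ℂ] H)) ∧ A ≤ N.toStarSubalgebra ∧ B ≤ M.toStarSubalgebra ∧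
    A ≤ D ∧ B ≤ D ∧ TopologicalSpace.IsSeparable (D : Set (H →L[ℂ] H)) ∧ (∀ x ∈ s, x ∈ A) ∧
    (∀ a ∈ A, ∃ b ∈ B, ‖a - b‖ ≤ 2 * δ * ‖a‖) ∧ ∀ b ∈ B, ∃ a ∈ A, ‖b - a‖ ≤ 2 * δ * ‖b‖

/-- WP Q: lifting at a factorial trace vector. -/
def LocStmt : Prop := ∃ C : ℝ, 1 ≤ C ∧ ∀ (K : Type u) [NormedAddCommGroup K]
  [InnerProductSpace ℂ K] [CompleteSpace K] [TopologicalSpace.SeparableSpace K]
  (P Q : VonNeumannAlgebra K) (ζ : K) (δ : ℝ), 0 < δ → C * δ ≤ 1 → Near Q P δ → Near P Q δ →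
  (∀ x ∈ Q, ∀ y ∈ Q, ⟪ζ, (x * y) ζ⟫_ℂ = ⟪ζ, (y * x) ζ⟫_ℂ) →
  (∀ c ∈ Q, IsStarProjection c → (∀ x ∈ Q, c * x = x * c) → c ζ = 0 ∨ c ζ = ζ) →
  ∃ (q : K →L[ℂ] K) (Φ : Alg P →ₗ[ℂ] Alg Q), q ∈ Q ∧ IsStarProjection q ∧
    (∀ x ∈ Q, q * x = x * q) ∧ q ζ = ζ ∧ ∀ x, ‖(Φ x).1 - q * x.1 * q‖ ≤ C * δ * ‖x‖

/-- WP X: approximately linear liftings for an arbitrary trace. -/
def XStmt : Prop := ∃ C : ℝ, 1 ≤ C ∧ ∀ (A B D : Type u) [CStarAlgebra A] [CStarAlgebra B]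
  [CStarAlgebra D] [TopologicalSpace.SeparableSpace D] (iA : A →⋆ₐ[ℂ] D) (iB : B →⋆ₐ[ℂ] D)
  (δ : ℝ), 0 < δ → C * δ ≤ 1 → (∀ a, ∃ b, ‖iA a - iB b‖ ≤ δ * ‖a‖) →
  (∀ b, ∃ a, ‖iB b - iA a‖ ≤ δ * ‖b‖) → (∀ b, ‖iB b‖ = ‖b‖) → ∀ τ : B →ₗ[ℂ] ℂ,
  (∀ x y, τ (x * y) = τ (y * x)) → (∀ x, 0 ≤ τ (star x * x)) →
  ∀ (J R : Type u) [Fintype J] [Fintype R] (n : J → A) (c : R → J → ℂ),
  (∀ r, ∑ j, c r j • n j = 0) → ∀ η : ℝ, 0 < η → ∃ y : J → B,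
    (∀ j, ‖iB (y j) - iA (n j)‖ ≤ C * δ * ‖n j‖) ∧
    ∀ r, (τ (star (∑ j, c r j • y j) * ∑ j, c r j • y j)).re ≤ η

/-- WP U: the ultralimit. -/
def UStmt : Prop := ∃ C : ℝ, 1 ≤ C ∧ ∀ (H : Type u) [NormedAddCommGroup H]
  [InnerProductSpace ℂ H] [CompleteSpace H] (M : VonNeumannAlgebra H), FinTr M → LL' M C

/-- WP G: a projection with full central support whose corner has enough traces. -/
def GoodStmt : Prop := ∀ (H : Type u) [NormedAddCommGroup H] [InnerProductSpace ℂ H]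
  [CompleteSpace H] (M : VonNeumannAlgebra H), SemiF M → ∃ e : Alg M, IsStarProjection e ∧
    (∀ y ∈ M.commutant, y * e.1 = 0 → y = 0) ∧ ∀ a : Alg M, e * a * e = a →
      (∀ τ : Alg M →ₗ[ℂ] ℂ, VecF τ → (∀ x y, τ (e * x * e * y * e) = τ (e * y * e * x * e)) →
        (∀ x, 0 ≤ τ (star x * x)) → τ (star a * a) = 0) → a = 0

end Vale.Agent.P096
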