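import Vale.Agent.P096.End1
import Vale.Agent.P096.Cut
import Vale.Agent.P096.Stm2
import Vale.Agent.P132.Basic

/-! Finite algebras attached to a one parameter group. -/

namespace Vale.Agent.P096.En

open scoped InnerProductSpace InnerProduct ComplexOrder BigOperators BoundedContinuousFunction
open Filter Topology Vale.Agent.P104 Vale.Agent.P082 ContinuousLinearMap Complex

universe u

variable {H K : Type u} [NormedAddCommGroup H] [InnerProductSpace ℂ H] [CompleteSpace H]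
  [NormedAddCommGroup K] [InnerProductSpace ℂ K] [CompleteSpace K]

/-- The entire extension of a bounded one parameter group. -/
noncomputable def er (a : K →L[ℂ] K) (z : ℂ) : K →L[ℂ] K := NormedSpace.exp (z • a)

theorem er_add (a : K →L[ℂ] K) (z w : ℂ) : er a (z + w) = er a z * er a w := by
  have k : ∀ x : K →L[ℂ] K, x ∈ Metric.eball 0 (NormedSpace.expSeries ℂ (K →L[ℂ] K)).radius :=
    fun x => (NormedSpace.expSeries_radius_eq_top ℂ (K →L[ℂ] K)).symm ▸ edist_lt_top _ _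
  rw [er, add_smul, NormedSpace.exp_add_of_commute_of_mem_ball
    (((Commute.refl a).smul_left _).smul_right _) (k _) (k _)]
  rfl

theorem er_zero (a : K →L[ℂ] K) : er a 0 = 1 := by rw [er, zero_smul, NormedSpace.exp_zero]

theorem er_star {a : K →L[ℂ] K} (h : star a = a) (z : ℂ) : star (er a z) = er a (star z) := by
  rw [er, NormedSpace.star_exp, star_smul, h, er]

theorem er_comm {a X : K →L[ℂ] K} (h : Commute X a) (z : ℂ) : Commute X (er a z) :=
  (h.smul_right z).exp_right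

theorem er_diff (a : K →L[ℂ] K) : Differentiable ℂ (er a) := fun z =>
  (hasDerivAt_exp_smul_const a z).differentiableAt

theorem er_un {a : K →L[ℂ] K} (h : star a = a) (t : ℝ) : er a (t * I) ∈ unitary (K →L[ℂ] K) := by
  constructor <;> rw [er_star h, ← er_add] <;> simp [er_zero]

/-- A unitary group normalising `N`. -/
structure UG (N : VonNeumannAlgebra H) (V : ℝ → H →L[ℂ] H) : Prop where
  un : ∀ t, V t ∈ unitary (H →L[ℂ] H)
  add : ∀ s t, V (s + t) = V s * V t
  inv : ∀ t, ∀ y ∈ N, V t * y * V (-t) ∈ N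

variable {M N : VonNeumannAlgebra H} {U V : ℝ → H →L[ℂ] H}

theorem UG.zero (h : UG N V) : V 0 = 1 := by
  have := congrArg (star (V 0) * ·) (h.add 0 0)
  simp only [add_zero, ← mul_assoc, (h.un 0).1, one_mul] at this
  exact this.symm

theorem UG.st (h : UG N V) (t : ℝ) : star (V t) = V (-t) := by
  rw [← mul_one (star _), ← h.zero, ← add_neg_cancel t, h.add, ← mul_assoc, (h.un t).1, one_mul]

theorem UG.inv' (h : UG N V) (t : ℝ) {y : H →L[ℂ] H} (hy : y ∈ N.commutant) :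
    star (V t) * y * V t ∈ N.commutant := VonNeumannAlgebra.mem_commutant_iff.2 fun x hx => by
  have := congrArg (star (V t) * · * V t) (commute_of_mem (h.inv t x hx) hy)
  simp only [← h.st, mul_assoc, (h.un t).1, mul_one] at this
  simp only [← mul_assoc, (h.un t).1, one_mul] at this ⊢
  exact this

/-- The data of the construction. -/
structure Zd (ι : ℤ → H →L[ℂ] K) (am : (H →L[ℂ] H) →⋆ₐ[ℂ] (K →L[ℂ] K)) (sh : ℤ → K →L[ℂ] K)
    (a : K →L[ℂ] K) : Prop extends Zs ι am sh where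
  sa : star a = a
  am_a : ∀ x, Commute (am x) a
  sh_a : ∀ k, Commute (sh k) a

/-- The representation of the group `ℤ × ℝ`. -/
noncomputable def wg (am : (H →L[ℂ] H) →⋆ₐ[ℂ] (K →L[ℂ] K)) (sh : ℤ → K →L[ℂ] K) (a : K →L[ℂ] K)
    (V : ℝ → H →L[ℂ] H) (T : ℝ) (p : ℤ × ℝ) : K →L[ℂ] K :=
  am (V ((p.1 + p.2) * T)) * (sh p.1 * er a (p.2 * I))

/-- The fixed point algebra. -/
noncomputable def fx (am : (H →L[ℂ] H) →⋆ₐ[ℂ] (K →L[ℂ] K)) (N : VonNeumannAlgebra H)
    (w : ℤ × ℝ → K →L[ℂ] K) : VonNeumannAlgebra K where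
  toStarSubalgebra := StarSubalgebra.centralizer ℂ (am '' N.commutant ∪ Set.range w)
  centralizer_centralizer' := by simp

variable {ι : ℤ → H →L[ℂ] K} {am : (H →L[ℂ] H) →⋆ₐ[ℂ] (K →L[ℂ] K)} {sh : ℤ → K →L[ℂ] K}
  {a X : K →L[ℂ] K} {T : ℝ} {w : ℤ × ℝ → K →L[ℂ] K}

theorem mem_fx (hw : ∀ p, w p ∈ unitary (K →L[ℂ] K)) : X ∈ fx am N w ↔
    (∀ y ∈ N.commutant, am y * X = X * am y) ∧ ∀ p, w p * X = X * w p := by
  refine (StarSubalgebra.mem_centralizer_iff ℂ).trans ⟨fun h => ⟨fun y hy =>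
    (h _ (.inl ⟨y, hy, rfl⟩)).1, fun p => (h _ (.inr ⟨p, rfl⟩)).1⟩, ?_⟩
  rintro ⟨h1, h2⟩ _ (⟨y, hy, rfl⟩ | ⟨p, rfl⟩)
  · exact ⟨h1 y hy, map_star am y ▸ h1 _ (star_mem hy)⟩
  · refine ⟨h2 p, ?_⟩
    rw [← mul_one (star _ * X), ← (hw p).2, ← mul_assoc, mul_assoc _ X, ← h2, ← mul_assoc, (hw p).1,
      one_mul]

namespace Zd

variable (h : Zd ι am sh a)

include h

theorem su (p : ℤ × ℝ) : sh p.1 * er a (p.2 * I) ∈ unitary (K →L[ℂ] K) :=
  mul_mem (h.sh_un _) (er_un h.sa _)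

theorem am_su (x : H →L[ℂ] H) (p : ℤ × ℝ) : Commute (am x) (sh p.1 * er a (p.2 * I)) :=
  (h.am_sh _ _).mul_right (er_comm (h.am_a _) _)

theorem wun (v : UG N V) (p : ℤ × ℝ) : wg am sh a V T p ∈ unitary (K →L[ℂ] K) :=
  mul_mem ⟨by rw [← map_star, ← map_mul, (v.un _).1, map_one],
    by rw [← map_star, ← map_mul, (v.un _).2, map_one]⟩ (h.su p)

theorem wadd (v : UG N V) (p q : ℤ × ℝ) :
    wg am sh a V T (p + q) = wg am sh a V T p * wg am sh a V T q := by
  rw [wg, wg, wg, (h.am_su _ p).symm.mul_mul_mul_comm, ← map_mul, ← v.add,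
    (er_comm (h.sh_a _) _).symm.mul_mul_mul_comm, ← h.sh_add, ← er_add]
  simp only [Prod.fst_add, Prod.snd_add]
  push_cast
  congr 3 <;> ring

theorem avg (v : UG N V) {Y : K →L[ℂ] K}
    (hY : Hl (fun p => wg am sh a V T p * X * star (wg am sh a V T p)) Y)
    (hX : ∀ y ∈ N.commutant, am y * X = X * am y) : ∀ y ∈ N.commutant, am y * Y = Y * am y :=
  fun y hy => hY.comm fun p => by
    have u := h.wun (T := T) v p
    obtain ⟨s, hs⟩ : ∃ s, s = (p.1 + p.2) * T := ⟨_, rfl⟩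
    have e : am y * wg am sh a V T p = wg am sh a V T p * am (star (V s) * y * V s) := by
      rw [wg, ← hs, mul_assoc (am (V s)), ← (h.am_su _ p).eq, ← mul_assoc (am y),
        ← mul_assoc (am (V s)), ← map_mul, ← map_mul, ← mul_assoc (V s), ← mul_assoc (V s), (v.un s).2,
        one_mul]
    have e' := hX _ (v.inv' s hy)
    generalize wg am sh a V T p = r at *
    generalize am (star (V s) * y * V s) = y' at *
    have e2 : y' * star r = star r * am y := by
      rw [← mul_one (star _ * am y), ← u.2, ← mul_assoc, mul_assoc _ (am y), e, ← mul_assoc, u.1,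
        one_mul]
    rw [← mul_assoc, ← mul_assoc, e, mul_assoc r, e', mul_assoc, mul_assoc, e2, mul_assoc,
      mul_assoc]

theorem near (v : UG N V) (u : UG M U) {δ : ℝ} (d0 : 0 ≤ δ) (n : Near M N δ)
    (hd : ∀ t, ‖V t - U t‖ ≤ δ) : Near (fx am M (wg am sh a U T)) (fx am N (wg am sh a V T))
      (2 * ((8 * distK ^ 2 + 2) * δ)) := by
  have := distK_pos
  obtain ⟨E, e1, e2⟩ := meanG _ (h.wun (T := T) v) (h.wadd v)
  refine near_of_le (by positivity) fun X hX => ?_
  obtain ⟨x1, x2⟩ := (mem_fx (h.wun u)).1 hX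
  let ρ : Alg N.commutant →⋆ₐ[ℂ] (K →L[ℂ] K) := am.comp N.commutant.toStarSubalgebra.subtype
  obtain ⟨Y, y1, y2⟩ := dist_intertw ρ ρ X (c := 8 * distK * δ * ‖X‖) (by positivity) fun b => by
    obtain ⟨c, c1, -, c2⟩ := near_comm d0 n b.1 b.2
    have e : X * ρ b - ρ b * X = X * am (b.1 - c) - am (b.1 - c) * X := by
      rw [map_sub, mul_sub, sub_mul, x1 c c1]
      change X * am b.1 - am b.1 * X = _
      abel
    have b1 := (NonUnitalStarAlgHom.norm_apply_le am (b.1 - c)).trans c2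
    have b2 := mul_le_mul_of_nonneg_left b1 (norm_nonneg X)
    rw [e]
    change _ ≤ _ * ‖b.1‖
    linarith [norm_sub_le (X * am (b.1 - c)) (am (b.1 - c) * X), norm_mul_le X (am (b.1 - c)),
      norm_mul_le (am (b.1 - c)) X]
  refine ⟨E Y, (mem_fx (h.wun v)).2 ⟨h.avg v (e2 Y) fun y hy => (y1 ⟨y, hy⟩).symm,
    fun p => e1 p Y⟩, ?_⟩
  rw [norm_sub_rev]
  refine (e2 Y).near (by positivity) fun p => ?_
  have u1 := h.wun (T := T) v p
  have u2 := h.wun (T := T) u p
  have b1 : ‖wg am sh a V T p - wg am sh a U T p‖ ≤ δ := by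
    rw [wg, wg, ← sub_mul, CStarRing.norm_mul_mem_unitary _ (h.su p), ← map_sub]
    exact (NonUnitalStarAlgHom.norm_apply_le am _).trans (hd _)
  have x3 := x2 p
  generalize wg am sh a V T p = r at *
  generalize wg am sh a U T p = r' at *
  have e : r * Y * star r - X = r * (Y - X) * star r + ((r - r') * X - X * (r - r')) * star r := by
    rw [sub_mul r, mul_sub X, x3, sub_sub_sub_cancel_right, mul_sub, sub_mul, sub_mul, mul_assoc X,
      u1.2, mul_one]
    abel
  rw [e]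
  refine (norm_add_le _ _).trans ?_
  rw [CStarRing.norm_mul_mem_unitary _ (Unitary.star_mem u1),
    CStarRing.norm_mul_mem_unitary _ (Unitary.star_mem u1), CStarRing.norm_mem_unitary_mul _ u1,
    norm_sub_rev]
  have b2 := mul_le_mul_of_nonneg_left b1 (norm_nonneg X)
  nlinarith [norm_sub_le ((r - r') * X) (X * (r - r')), norm_mul_le X (r - r'),
    norm_mul_le (r - r') X]

theorem cmem (hX : ∀ y ∈ M.commutant, am y * X = X * am y) (n k : ℤ) :
    ((ι n)†) ∘L X ∘L ι k ∈ M := mem_of_commute fun y hy => by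
  ext η
  simp only [mul_apply_eq_comp, comp_apply]
  rw [← h.adj_am, ← h.am_ι, ← mul_apply_eq_comp, hX y hy, mul_apply_eq_comp]

end Zd

end Vale.Agent.P096.En
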