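import Vale.Agent.P096.End2
import Vale.Agent.P132.Filt

/-! The trace vector of the fixed point algebra. -/

namespace Vale.Agent.P096.En

open scoped InnerProductSpace InnerProduct ComplexOrder BigOperators BoundedContinuousFunction
open Filter Topology Vale.Agent.P104 Vale.Agent.P082 ContinuousLinearMap Complex

universe u

variable {H K : Type u} [NormedAddCommGroup H] [InnerProductSpace ℂ H] [CompleteSpace H]
  [NormedAddCommGroup K] [InnerProductSpace ℂ K] [CompleteSpace K]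

theorem ac {Γ : Set (H × H)} (m : P132.HMod Γ) (F : ℂ → H) (hF : Differentiable ℂ F) {p : H × H}
    (hp : p ∈ Γ) (h : ∀ t : ℝ, F (t * I) = m.U t p.1) : F (1 / 2) = m.J p.2 := by
  rw [← sub_eq_zero]
  refine m.eq_zero_of_cut fun n => ?_
  obtain ⟨b, hb⟩ : ∃ b : ℝ →ᵇ ℂ, ∀ s, P132.chi n s * b s = P132.chi n s * s ∧
      ∀ z : ℂ, P132.chi n s * cexp (z * b s) = P132.chi n s * cexp (z * s) := by
    refine ⟨.ofNormedAddCommGroup (fun s => ((max (-(n + 1 : ℝ)) (min s (n + 1)) : ℝ) : ℂ))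
      (by fun_prop) (n + 1) fun s => ?_, fun s => ?_⟩
    · rw [norm_real, Real.norm_eq_abs, abs_le]
      exact ⟨le_max_left _ _, max_le (by linarith [(Nat.cast_nonneg n : (0 : ℝ) ≤ n)])
        (min_le_right _ _)⟩
    · rcases le_total |s| (n + 1) with c | c
      · simp only [BoundedContinuousFunction.coe_ofNormedAddCommGroup, min_eq_left (abs_le.1 c).2,
          max_eq_right (abs_le.1 c).1, implies_true, and_self]
      · have : P132.chi n s = 0 := by
          rw [P132.chi_apply, max_eq_left ((min_le_right _ _).trans (by linarith)), ofReal_zero]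
        simp [this]
  have k' : ∀ x : ℝ →ᵇ ℂ, x ∈ Metric.eball 0 (NormedSpace.expSeries ℂ (ℝ →ᵇ ℂ)).radius :=
    fun x => (NormedSpace.expSeries_radius_eq_top ℂ (ℝ →ᵇ ℂ)).symm ▸ edist_lt_top _ _
  have e1 : ∀ (z : ℂ) s, NormedSpace.exp (z • b) s = cexp (z * b s) := fun z s => by
    let ev : (ℝ →ᵇ ℂ) →+* ℂ := ⟨⟨⟨fun f => f s, rfl⟩, fun _ _ => rfl⟩, rfl, fun _ _ => rfl⟩
    have := NormedSpace.map_exp_of_mem_ball (𝕂 := ℂ) ev
      (BoundedContinuousFunction.evalCLM ℂ s).continuous _ (k' (z • b))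
    rw [← Complex.exp_eq_exp_ℂ] at this
    exact this
  have e2 : ∀ z : ℂ, m.Φ (P132.chi n) * er (m.Φ b) z = m.Φ (P132.chi n * NormedSpace.exp (z • b)) :=
    fun z => by
      rw [map_mul, NormedSpace.map_exp_of_mem_ball (𝕂 := ℂ) m.Φ
        (NonUnitalStarAlgHom.norm_apply_le m.Φ |> fun h => AddMonoidHomClass.continuous_of_bound
          m.Φ 1 fun x => by simpa using h x) _ (k' _), map_smul, er]
  have e3 : (fun z => m.Φ (P132.chi n) (F z)) = fun z => (m.Φ (P132.chi n) * er (m.Φ b) z) p.1 := by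
    refine AnalyticOnNhd.eq_of_frequently_eq (z₀ := 0)
      (fun z _ => ((m.Φ _).differentiable.comp hF).analyticAt z)
      (fun z _ => ((((er_diff _).const_mul _).clm_apply (differentiable_const _)).analyticAt z)) ?_
    have t : Tendsto (fun t : ℝ => (t : ℂ) * I) (𝓝[≠] 0) (𝓝[≠] 0) :=
      tendsto_nhdsWithin_iff.2 ⟨((by fun_prop : Continuous fun t : ℝ => (t : ℂ) * I).tendsto' 0 0
        (by simp)).mono_left nhdsWithin_le_nhds, eventually_nhdsWithin_of_forall fun t ht => by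
          simpa using ht⟩
    refine t.frequently (Frequently.of_forall fun t => ?_)
    rw [h, e2, P132.HMod.U, ← m.Φ_mul_apply]
    congr 2
    ext s
    simp only [BoundedContinuousFunction.mul_apply, e1, (hb s).2, P132.ex_apply]
    congr 2
    push_cast
    ring
  rw [map_sub, sub_eq_zero, congrFun e3, e2]
  refine (m.graph p hp _ _ fun s => ?_).symm
  simp only [BoundedContinuousFunction.mul_apply, e1, (hb s).2]
  congr 1
  push_cast
  congr 1
  ring

variable {M : VonNeumannAlgebra H} {ξ : H} {ι : ℤ → H →L[ℂ] K}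
  {am : (H →L[ℂ] H) →⋆ₐ[ℂ] (K →L[ℂ] K)} {sh : ℤ → K →L[ℂ] K} {a X : K →L[ℂ] K} {T : ℝ}

theorem ugM (m : P132.Mod M ξ) : UG M m.U := ⟨m.U_unitary, m.U_add, fun t _ hy => m.σ_mem t hy⟩

namespace Zd

variable (h : Zd ι am sh a)

include h

theorem w_ι {V : ℝ → H →L[ℂ] H} (n k : ℤ) (η : H) :
    wg am sh a V T (n, 0) (ι k η) = ι (k + n) (V (n * T) η) := by
  simp [wg, er_zero, h.sh_ι, h.am_ι]

theorem kms (m : P132.Mod M ξ) (T0 : T ≠ 0) (hX : X ∈ fx am M (wg am sh a m.U T)) (n : ℤ) :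
    m.J (star (((ι n)†) ∘L (er a (1 / 2 / T) * X) ∘L ι 0) ξ) =
      ((ι n)†) (X (er a (1 / 2 / T) (ι 0 ξ))) := by
  obtain ⟨x1, x2⟩ := (mem_fx (h.wun (ugM m))).1 hX
  have xM := h.cmem (X := er a (1 / 2 / T) * X)
    (fun y hy => ((er_comm (h.am_a y) _).mul_right (x1 y hy)).eq) n 0
  have T1 : (T : ℂ) ≠ 0 := ofReal_ne_zero.2 T0
  have := ac m.toHMod (fun z => ((ι n)†) ((er a (1 / 2 / T - z / T) * X * er a (z / T)) (ι 0 ξ)))
    ((ι n)†.differentiable.comp (((((er_diff a).comp (by fun_prop)).mul_const X).mul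
      ((er_diff a).comp (by fun_prop))).clm_apply (differentiable_const _)))
    (P132.mem_graphS xM) fun t => ?_
  · rw [← this, sub_self, er_zero, one_mul, mul_apply_eq_comp]
  have e := DFunLike.congr_fun (x2 (0, t / T)) (ι 0 ξ)
  simp only [wg, Int.cast_zero, zero_add, div_mul_cancel₀ _ T0, h.sh_zero, one_mul,
    mul_apply_eq_comp] at e
  rw [← mul_apply_eq_comp (am _) _ (ι 0 ξ), (er_comm (h.am_a _) _).eq, mul_apply_eq_comp, h.am_ι,
    m.U_ξ] at e
  simp only [comp_apply, mul_apply_eq_comp]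
  rw [show (t : ℂ) * I / T = (t / T : ℝ) * I by push_cast; ring, ← e, ← h.adj_am]
  simp only [← mul_apply_eq_comp, ← mul_assoc]
  rw [← (er_comm (h.am_a _) _).eq, mul_assoc (am _), ← er_add, sub_add_cancel]

theorem semi (m : P132.Mod M ξ) (cs : P132.CycSep M ξ) (T0 : T ≠ 0) :
    SemiF (fx am M (wg am sh a m.U T)) := by
  obtain ⟨f, hf⟩ : ∃ f, f = er a (1 / 2 / T) := ⟨_, rfl⟩
  have f1 : star f = f := by rw [hf, er_star h.sa]; simp
  have wf : ∀ n : ℤ, Commute (wg am sh a m.U T (n, 0)) f := fun n => by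
    rw [hf, wg]
    exact (er_comm (h.am_a _) _).mul_left ((er_comm (h.sh_a _) _).mul_left
      (er_comm (er_comm (Commute.refl a) _).symm _))
  have st : ∀ (Z : K →L[ℂ] K) n η, star (((ι n)†) ∘L Z ∘L ι 0) η = ((ι 0)†) (star Z (ι n η)) :=
    fun Z n η => by simp [star_eq_adjoint]
  have km : ∀ X ∈ fx am M (wg am sh a m.U T), ∀ n, ‖((ι n)†) (X (f (ι 0 ξ)))‖ =
      ‖star (((ι n)†) ∘L (f * X) ∘L ι 0) ξ‖ := fun X hX n => by
    rw [hf, ← h.kms m T0 hX n, m.J.norm_map]
  have tr : ∀ X ∈ fx am M (wg am sh a m.U T), ‖star X (f (ι 0 ξ))‖ ^ 2 = ‖X (f (ι 0 ξ))‖ ^ 2 :=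
    fun X hX => by
      refine ((Equiv.neg ℤ).hasSum_iff.2 (h.par _)).unique ?_
      refine (congrArg (HasSum · _) (funext fun n => ?_)).mp (h.par (X (f (ι 0 ξ))))
      change _ = ‖((ι (-n))†) (star X (f (ι 0 ξ)))‖ ^ 2
      have x2 := ((mem_fx (h.wun (ugM m))).1 (star_mem hX)).2 (n, 0)
      have e := h.w_ι (T := T) (V := m.U) n 0 ξ
      rw [zero_add, m.U_ξ] at e
      have e2 : ∀ ψ, ((ι 0)†) (wg am sh a m.U T (n, 0) ψ) = m.U (n * T) (((ι (-n))†) ψ) := fun ψ =>
        ext_inner_left ℂ fun η => by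
          have e3 := h.w_ι (T := T) (V := m.U) n (-n) (m.U (-(n * T)) η)
          rw [m.U_U_neg, neg_add_cancel] at e3
          rw [adjoint_inner_right, ← e3, ← inner_star_right, ← mul_apply_eq_comp,
            (h.wun (ugM m) (n, 0)).1, one_apply_eq_self, ← adjoint_inner_right, ← m.star_U,
            inner_star_left]
      rw [km X hX, st, ← e, star_mul, f1, ← mul_apply_eq_comp _ (wg _ _ _ _ _ _), mul_assoc,
        ← (wf n).eq, ← mul_assoc, ← x2, mul_assoc, mul_apply_eq_comp, e2, m.norm_U,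
        mul_apply_eq_comp]
  have sp : ∀ X ∈ fx am M (wg am sh a m.U T), X (f (ι 0 ξ)) = 0 → X = 0 := fun X hX x0 => by
    obtain ⟨x1, x2⟩ := (mem_fx (h.wun (ugM m))).1 hX
    have e1 : ∀ η, X (ι 0 η) = 0 := fun η => by
      have e2 : ∀ n, ((ι n)†) (f (X (ι 0 η))) = 0 := fun n => by
        have := km X hX n
        rw [x0, map_zero, norm_zero, eq_comm, norm_eq_zero] at this
        have := cs.2 _ (star_mem (h.cmem (fun y hy =>
          ((hf ▸ er_comm (h.am_a y) _ : Commute _ f).mul_right (x1 y hy)).eq) n 0)) this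
        exact DFunLike.congr_fun (star_eq_zero.1 this) η
      have e3 := h.sum (f (X (ι 0 η)))
      simp only [e2, map_zero] at e3
      have e4 := congrArg (er a (-(1 / 2 / T))) (e3.unique hasSum_zero)
      rwa [hf, ← mul_apply_eq_comp, ← er_add, neg_add_cancel, er_zero, map_zero] at e4
    refine h.ext fun n η => ?_
    have e := h.w_ι (T := T) (V := m.U) n 0 (m.U (-(n * T)) η)
    rw [zero_add, m.U_U_neg] at e
    rw [← e, ← mul_apply_eq_comp, ← x2, mul_apply_eq_comp, e1, map_zero, zero_apply]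
  refine fun z zP z1 _ z0 => ⟨z, zP, z1, z0, z1.1.eq, fun v vP v1 v2 => ?_⟩
  have p := pi_of_init (v1 ▸ z1 : IsStarProjection (star v * v))
  have v3 : v * star v * z = v * star v := by
    have := congrArg star v2
    rwa [star_mul, z1.2.star_eq, star_mul, star_star] at this
  have q : star (z - v * star v) * (z - v * star v) = star v * v - star (star v) * star v := by
    rw [star_sub, star_mul, star_star, z1.2.star_eq, sub_mul, mul_sub, mul_sub, z1.1.eq, v2, v3,
      ← mul_assoc, p, v1, sub_self, sub_zero]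
  refine (sub_eq_zero.1 (sp _ (sub_mem zP (mul_mem vP (star_mem vP))) ?_)).symm
  rw [← norm_eq_zero, ← pow_eq_zero_iff two_ne_zero, norm_sq_apply, q, sub_apply, inner_sub_right,
    sub_re, ← norm_sq_apply, ← norm_sq_apply, tr v vP, sub_self]

end Zd

end Vale.Agent.P096.En
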