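import Vale.Agent.P096.Bim

/-! Two by two matrix units and the derivation identity. -/

namespace Vale.Agent.P096

open scoped InnerProductSpace ComplexOrder BigOperators
open Filter Topology Vale.Agent.P104 Vale.Agent.P082 Finset

section Ring

variable {A : Type*} [Ring A] {v w a a' y y' z : A}

/-- Two by two matrix units. -/
structure MUn (v w : A) : Prop where
  sum : w * v + v * w = 1
  vv : v * v = 0
  ww : w * w = 0

/-- Commuting with the matrix units. -/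
structure C0 (v w z : A) : Prop where
  v : v * z = z * v
  w : w * z = z * w

theorem MUn.vwv (h : MUn v w) : v * (w * v) = v := by
  have := congrArg (v * ·) h.sum
  simpa [mul_add, ← mul_assoc v v, h.vv] using this

theorem MUn.wvw (h : MUn v w) : w * (v * w) = w := by
  have := congrArg (w * ·) h.sum
  simpa [mul_add, ← mul_assoc w w, h.ww] using this

theorem MUn.vv' (h : MUn v w) (z : A) : v * (v * z) = 0 := by rw [← mul_assoc, h.vv, zero_mul]

theorem MUn.ww' (h : MUn v w) (z : A) : w * (w * z) = 0 := by rw [← mul_assoc, h.ww, zero_mul]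

theorem MUn.vwv' (h : MUn v w) (z : A) : v * (w * (v * z)) = v * z := by
  rw [← mul_assoc w, ← mul_assoc, h.vwv]

theorem MUn.wvw' (h : MUn v w) (z : A) : w * (v * (w * z)) = w * z := by
  rw [← mul_assoc v, ← mul_assoc, h.wvw]

theorem C0.v' (h : C0 v w a) (z : A) : v * (a * z) = a * (v * z) := by
  rw [← mul_assoc, h.v, mul_assoc]

theorem C0.w' (h : C0 v w a) (z : A) : w * (a * z) = a * (w * z) := by
  rw [← mul_assoc, h.w, mul_assoc]

theorem C0.mul (h : C0 v w a) (h' : C0 v w y) : C0 v w (a * y) :=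
  ⟨by rw [h.v', h'.v, mul_assoc], by rw [h.w', h'.w, mul_assoc]⟩

theorem C0.inv {u : Aˣ} (h : C0 v w (u : A)) : C0 v w (↑u⁻¹ : A) :=
  ⟨(Commute.units_inv_right h.v).eq, (Commute.units_inv_right h.w).eq⟩

/-- The test matrix. -/
def tW (v w a y : A) : A := w * v + y * w + a * v - a * y * (v * w)

theorem tW_mul (h : MUn v w) (hy : C0 v w y') (ha : C0 v w a') (e1 : a * a' = 1)
    (e2 : y * y' = 1) : tW v w a y * tW v w y' a' = 1 + 1 := by
  have e3 : ∀ z, a * (a' * z) = z := fun z => by rw [← mul_assoc, e1, one_mul]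
  have e4 : ∀ z, y * (y' * z) = z := fun z => by rw [← mul_assoc, e2, one_mul]
  simp only [tW, mul_add, add_mul, mul_sub, sub_mul, mul_assoc, hy.v', hy.w', ha.v', ha.w', h.vv,
    h.ww, h.vv', h.ww', h.vwv, h.wvw, h.vwv', h.wvw', e3, e4, mul_zero]
  rw [← h.sum]
  abel

theorem tW_ee (h : MUn v w) (ha : C0 v w a) (hy : C0 v w y) :
    w * v * tW v w a y * (w * v) = w * v ∧ w * v * tW v w a y * v = y * (w * v) ∧
    w * tW v w a y * (w * v) = a * (w * v) ∧ w * tW v w a y * v = -(a * y * (w * v)) ∧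
    w * v * tW v w a y = w * v + y * w ∧ tW v w a y * (w * v) = w * v + v * a := by
  simp only [tW, mul_add, add_mul, mul_sub, sub_mul, mul_assoc, hy.v', hy.w', ha.v', ha.w', h.vv,
    h.ww, h.vv', h.ww', h.vwv, h.wvw, h.vwv', h.wvw', mul_zero, ha.v]
  simp

/-- The diagonal amplification of the first entry. -/
def c11 (v w z : A) : A := w * v * z * (w * v) + v * z * w

theorem c11_c0 (h : MUn v w) (z : A) : C0 v w (c11 v w z) := by
  constructor <;> simp only [c11, mul_add, add_mul, mul_assoc, h.vv, h.ww, h.vv', h.ww', h.vwv,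
    h.wvw, h.vwv', h.wvw', mul_zero, add_zero, zero_add]

theorem c11_fix (h : MUn v w) (hz : C0 v w z) : c11 v w z = z := by
  simp only [c11, mul_assoc, hz.v', hz.w', h.wvw']
  rw [← mul_add, h.sum, mul_one]

theorem c11_dec (h : MUn v w) (z : A) : z = c11 v w z * (w * v) + c11 v w (z * v) * w +
    c11 v w (w * z) * v + c11 v w (w * z * v) * (v * w) := by
  conv_lhs => rw [← one_mul z, ← mul_one (1 * z), ← h.sum]
  simp only [c11, mul_add, add_mul, mul_assoc, h.vv, h.ww, h.vv', h.ww', h.vwv,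
    h.wvw, h.vwv', h.wvw', mul_zero, add_zero, zero_add]
  abel

end Ring

variable {A B E Γ : Type*} [CStarAlgebra A] [CStarAlgebra B] [NormedAddCommGroup E]
  [InnerProductSpace ℂ E] [CompleteSpace E] [Group Γ]
  {π : A →ₐ[ℂ] (E →L[ℂ] E)} {L : B →⋆ₐ[ℂ] (E →L[ℂ] E)} {R : B →ₗ[ℂ] (E →L[ℂ] E)} {ξ : E}
  {γ ε t κ : ℝ} {ν : A → ℝ} {G : ℕ → Finset Γ} {ι : Γ →* B} {σ : Γ →* A}
  {α β : A →ₗ[ℂ] E} {ζ : E} {p p' : A} {q q' v : B}

theorem Cmn.add (c : Cmn π L R p q) (c' : Cmn π L R p' q') : Cmn π L R (p + p') (q + q') :=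
  ⟨by rw [map_add, map_add, c.eq, c'.eq], fun x η => by simp [c.comm, c'.comm]⟩

theorem Cmn.smul (c : Cmn π L R p q) (s : ℂ) : Cmn π L R (s • p) (s • q) :=
  ⟨by rw [map_smul, map_smul, c.eq], fun x η => by simp [c.comm]⟩

theorem Cmn.mul (h : StdB L R ξ) (c : Cmn π L R p q) (c' : Cmn π L R p' q') :
    Cmn π L R (p * p') (q * q') :=
  ⟨by rw [map_mul, map_mul, c.eq, c'.eq], fun x η => by rw [← h.RR, ← h.RR, c'.comm, c.comm]⟩

theorem StdB.cm1 (h : StdB L R ξ) : Cmn π L R 1 1 :=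
  ⟨by rw [map_one, map_one], fun x η => by rw [h.R1, h.R1]⟩

theorem Bm.add (c : Bm L R β p q) (c' : Bm L R β p' q') : Bm L R β (p + p') (q + q') :=
  ⟨fun x => by simp [add_mul, c.l, c'.l], fun x => by simp [mul_add, c.r, c'.r]⟩

theorem Bm.smul (c : Bm L R β p q) (s : ℂ) : Bm L R β (s • p) (s • q) :=
  ⟨fun x => by simp [c.l], fun x => by simp [c.r]⟩

theorem Bm.mul (h : StdB L R ξ) (c : Bm L R β p q) (c' : Bm L R β p' q') :
    Bm L R β (p * p') (q * q') :=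
  ⟨fun x => by rw [mul_assoc, c.l, c'.l, LL], fun x => by rw [← mul_assoc, c'.r, c.r, h.RR]⟩

/-- Common matrix units. -/
structure Un (p p' : A) (v : B) : Prop where
  mA : MUn p p'
  mB : MUn v (star v)
  n1 : ‖p‖ ≤ 1
  n2 : ‖p'‖ ≤ 1
  n3 : ‖v‖ ≤ 1

theorem Un.n4 (h : Un p p' v) : ‖star v‖ ≤ 1 := by rw [norm_star]; exact h.n3

theorem nrm2 {A : Type*} [NormedRing A] {a b : A} (ha : ‖a‖ ≤ 1) (hb : ‖b‖ ≤ 1) : ‖a * b‖ ≤ 1 :=
  (norm_mul_le _ _).trans (mul_le_one₀ ha (norm_nonneg _) hb)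

theorem one_le {A : Type*} [CStarAlgebra A] : ‖(1 : A)‖ ≤ 1 := un_le (one_mem _)

theorem Pos.rel_tW (h : Pos π L R ξ γ ε) (hu : Un p p' v) (c1 : Cmn π L R p v)
    (c2 : Cmn π L R p' (star v)) {x z : A} {a y : B} (r : Rel π L ξ γ ε 88 x a)
    (r' : Rel π L ξ γ ε 88 z y) {s : ℂ} (hs : ‖s‖ ≤ 1) :
    Rel π L ξ γ ε 40000 (s • tW p p' x z) (s • tW v (star v) a y) := by
  have k := h.toStdB
  have a1 := h.exact (c2.mul k c1).eq (nrm2 hu.n2 hu.n1) (nrm2 hu.n4 hu.n3)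
  have a2 := r'.cm k k.cm1 c2 one_le hu.n2 one_le hu.n4
  have a3 := r.cm k k.cm1 c1 one_le hu.n1 one_le hu.n3
  have a4 := ((h.mul r r').cm k k.cm1 (c1.mul k c2) one_le (nrm2 hu.n1 hu.n2) one_le
    (nrm2 hu.n3 hu.n4)).smul (c := -1) (s := 1) (by simp)
  have := (((a1.add a2).add a3).add a4).smul hs
  simp only [one_mul, neg_smul, one_smul, ← sub_eq_add_neg] at this
  exact h.mono this (by norm_num)

theorem Pos.test (h : Pos π L R ξ γ ε) (hu : Un p p' v) (c1 : Cmn π L R p v)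
    (c2 : Cmn π L R p' (star v)) (s : Sol π L R ξ γ ε ν (unitary B) 40000 κ α β ζ)
    (a1 : Bm L R α p v) (a2 : Bm L R α p' (star v)) (b1 : Bm L R β p v)
    (b2 : Bm L R β p' (star v)) {x z : Aˣ} {a y : B} (au : a ∈ unitary B) (yu : y ∈ unitary B)
    (x0 : C0 p p' (x : A)) (z0 : C0 p p' (z : A)) (a0 : C0 v (star v) a) (y0 : C0 v (star v) y)
    (r1 : Rel π L ξ γ ε 88 x a) (r2 : Rel π L ξ γ ε 88 (↑x⁻¹ : A) (star a))
    (r3 : Rel π L ξ γ ε 88 z y) (r4 : Rel π L ξ γ ε 88 (↑z⁻¹ : A) (star y)) :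
    ‖L a (β z) - β (x * z) + R y (β x) - L a (R y (β 1))‖ ≤ 12 * κ := by
  have k := h.toStdB
  obtain ⟨c, c3, c4, c5, c6⟩ : ∃ c : ℂ, c * c = 2⁻¹ ∧ star c = c ∧ ‖c‖ ≤ 1 ∧ 2 / 3 ≤ ‖c‖ := by
    have e : √2⁻¹ * √2⁻¹ = (2⁻¹ : ℝ) := Real.mul_self_sqrt (by norm_num)
    have e0 : 0 ≤ √(2⁻¹ : ℝ) := Real.sqrt_nonneg _
    refine ⟨(√2⁻¹ : ℝ), by rw [← Complex.ofReal_mul, e]; simp, Complex.conj_ofReal _, ?_, ?_⟩ <;>
      rw [Complex.norm_real, Real.norm_of_nonneg e0] <;> nlinarith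
  have st : ∀ {a}, C0 v (star v) a → C0 v (star v) (star a) := fun h =>
    ⟨by simpa using (congrArg star h.w).symm, by simpa using (congrArg star h.v).symm⟩
  have two : ∀ {A : Type _} [Ring A] [Algebra ℂ A] {U V : A}, U * V = 1 + 1 →
      (c • U) * (c • V) = 1 := fun h => by
    rw [smul_mul_smul_comm, h, c3, ← two_smul ℂ, smul_smul]; simp
  have two' : ∀ {U V : A}, U * V = 1 + 1 → (c • U) * (c • V) = 1 := fun h => by
    rw [smul_mul_smul_comm, h, c3, ← two_smul ℂ, smul_smul]; simp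
  obtain ⟨g, hg⟩ : ∃ g, g = c • tW v (star v) (star y) (star a) := ⟨_, rfl⟩
  have gs : star g = c • tW v (star v) a y := by
    simp only [hg, tW, star_smul, c4, star_sub, star_add, star_mul, star_star, a0.w,
      mul_assoc, a0.v', a0.v, y0.v', y0.w]
    rw [add_right_comm]
  have gu : g ∈ unitary B := by
    refine ⟨?_, ?_⟩ <;> rw [gs, hg]
    · exact two (tW_mul hu.mB (st y0) (st a0) au.2 yu.2)
    · exact two (tW_mul hu.mB a0 y0 yu.1 au.1)
  let X : Aˣ := ⟨c • tW p p' ↑z⁻¹ ↑x⁻¹, c • tW p p' x z,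
    two' (tW_mul hu.mA x0 z0 z.inv_mul x.inv_mul),
    two' (tW_mul hu.mA z0.inv x0.inv x.mul_inv z.mul_inv)⟩
  have k1 := s.rel g gu X (hg ▸ h.rel_tW hu c1 c2 r4 r2 c5) (gs ▸ h.rel_tW hu c1 c2 r1 r3 c5)
  have r0 : Rel π L ξ γ ε 40000 1 1 :=
    h.exact k.cm1.eq (one_le.trans (by norm_num)) (one_le.trans (by norm_num))
  have k0 := s.rel 1 (one_mem _) 1 r0 (by simpa using r0)
  simp only [inv_one, Units.val_one, star_one, L1, k.R1] at k0
  change ‖L g (β (c • tW p p' x z)) + R (star g) (α (c • tW p p' ↑z⁻¹ ↑x⁻¹)) - ζ‖ ≤ κ at k1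
  have k2 : ‖L g (β (c • tW p p' x z)) + R (star g) (α (c • tW p p' ↑z⁻¹ ↑x⁻¹)) -
      (β 1 + α 1)‖ ≤ 2 * κ := by
    have := norm_sub_le (L g (β (c • tW p p' x z)) + R (star g) (α (c • tW p p' ↑z⁻¹ ↑x⁻¹)) - ζ)
      (β 1 + α 1 - ζ)
    rw [sub_sub_sub_cancel_right] at this
    linarith
  have e1 := nrm2 hu.n4 hu.n3
  have k3 := (k.LRle e1 (nrm2 (un_le gu) e1) _).trans k2
  obtain ⟨t1, -, -, -, t5, t6⟩ := tW_ee hu.mB (st y0) (st a0)
  obtain ⟨s1, s2, s3, s4, -, -⟩ := tW_ee hu.mA x0 z0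
  obtain ⟨s5, -⟩ := tW_ee hu.mA z0.inv x0.inv
  have ae := a2.mul k a1
  have be := b2.mul k b1
  have d1 : ∀ {α : A →ₗ[ℂ] E}, Bm L R α (p' * p) (star v * v) →
      L (star v * v) (R (g * (star v * v)) (α 1)) = c • α (p' * p) := fun h => by
    rw [k.LRa, ← h.l, mul_one, ← one_mul (p' * p), h.r, k.RR, hg, smul_mul_assoc, mul_smul_comm,
      ← mul_assoc, t1, map_smul, smul_apply]
  have d2 : L (star v * v) (R (g * (star v * v)) (R (star g) (α (c • tW p p' ↑z⁻¹ ↑x⁻¹)))) =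
      c • α (p' * p) := by
    rw [k.RR, ← mul_assoc, gu.1, one_mul, ← ae.r, ← ae.l, smul_mul_assoc, mul_smul_comm,
      ← mul_assoc, s5, map_smul]
  have d3 : L (star v * v) (R (g * (star v * v)) (L g (β (c • tW p p' x z)))) =
      (c * 2⁻¹) • (β (p' * p) + R (star y) (β (z * (p' * p))) + L (star a) (β (x * (p' * p))) -
        L (star a) (R (star y) (β (x * z * (p' * p))))) := by
    rw [k.LRa, LL, hg, smul_mul_assoc, mul_smul_comm, t5, t6]
    simp only [map_smul, map_add, smul_apply, add_apply, ← LL (star a), ← be.l, ← b2.l,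
      ← k.LRa (star a), ← be.r, ← b1.r, smul_add, smul_smul, c3, ← k.RR (star y) v]
    simp only [s1, s2, s3, s4, map_neg, smul_neg, smul_sub, k.LRa]
    module
  obtain ⟨Z, hZ⟩ : ∃ Z, Z = R (star y) (β (z * (p' * p))) + L (star a) (β (x * (p' * p))) -
      L (star a) (R (star y) (β (x * z * (p' * p)))) - β (p' * p) := ⟨_, rfl⟩
  have d4 : ‖Z‖ ≤ 6 * κ := by
    rw [map_sub, map_add, map_add, map_sub, map_add, map_add, d3, d2, d1 ae, d1 be,
      show (c * 2⁻¹) • (β (p' * p) + R (star y) (β (z * (p' * p))) + L (star a) (β (x * (p' * p))) -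
        L (star a) (R (star y) (β (x * z * (p' * p))))) + c • α (p' * p) -
        (c • β (p' * p) + c • α (p' * p)) = (c * 2⁻¹) • Z by rw [hZ]; module, norm_smul,
      norm_mul, norm_inv, Complex.norm_two] at k3
    nlinarith [norm_nonneg Z]
  have d5 : ∀ {u : A}, C0 p p' u → β u = β (u * (p' * p)) + L v (R (star v) (β (u * (p' * p)))) :=
    fun {u} hu' => by
      rw [← b2.r, ← b1.l, ← map_add, mul_assoc, mul_assoc, hu.mA.wvw, hu'.v', ← mul_add, hu.mA.sum,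
        mul_one]
  have d6 : L a (R y Z) = L a (β (z * (p' * p))) - β (x * z * (p' * p)) + R y (β (x * (p' * p))) -
      L a (R y (β (1 * (p' * p)))) := by
    simp only [hZ, map_sub, map_add, ← k.LRa, k.RR, LL, au.2, yu.1, L1, k.R1, one_mul]
    abel
  have d7 : L a (β z) - β (x * z) + R y (β x) - L a (R y (β 1)) =
      L a (R y Z) + L v (R (star v) (L a (R y Z))) := by
    rw [d6, d5 z0, d5 (x0.mul z0), d5 x0, d5 (u := 1) ⟨by simp, by simp⟩]
    simp only [map_sub, map_add, ← k.LRa, k.RR, LL, a0.v, y0.w]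
    abel
  rw [d7]
  have f1 := (k.LRle (un_le au) (un_le yu) Z).trans d4
  have f2 := (k.LRle hu.n3 hu.n4 _).trans f1
  linarith [norm_add_le (L a (R y Z)) (L v (R (star v) (L a (R y Z))))]

end Vale.Agent.P096
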