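import Vale.Agent.P096.L3

/-! Moments of the averaging families. -/

namespace Vale.Agent.P096

open scoped InnerProductSpace ComplexOrder BigOperators
open Filter Topology Vale.Agent.P104 Vale.Agent.P082 Finset

universe u

namespace F2

variable {H : Type u} [NormedAddCommGroup H] [InnerProductSpace ℂ H] [CompleteSpace H]
variable {P : VonNeumannAlgebra H} {ξ : H} {Γ : Type u} [Group Γ] {G : ℕ → Finset Γ}
  {ρ σ : Γ →* (H →L[ℂ] H)}

/-- One side of the standard position. -/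
structure Side (P : VonNeumannAlgebra H) (ξ : H) (G : ℕ → Finset Γ) (ρ σ : Γ →* (H →L[ℂ] H)) :
    Prop where
  cs : P132.CycSep P ξ
  lf : LocFin G
  ρ_star : ∀ g, star (ρ g) = ρ g⁻¹
  σ_star : ∀ g, star (σ g) = σ g⁻¹
  ρM : ∀ g, ρ g ∈ P
  σM : ∀ g, σ g ∈ P.commutant
  fix : ∀ g, ρ g (σ g ξ) = ξ
  erg : ∀ η, Tendsto (fun k => av (G k) fun g => ρ g (σ g η)) atTop (𝓝 (⟪ξ, η⟫_ℂ • ξ))

theorem cs_comm (h : P132.CycSep P ξ) : P132.CycSep P.commutant ξ := by
  refine ⟨P132.dense_comm h.2, fun y hy h0 => ?_⟩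
  refine ContinuousLinearMap.ext fun η => ?_
  refine (isClosed_eq y.continuous continuous_const : IsClosed {η | y η = 0}).closure_subset_iff.2
    ?_ (h.1 η)
  rintro _ ⟨x, hx, rfl⟩
  change y (x ξ) = 0
  rw [← mul_apply_eq_comp, ← commute_of_mem hx hy, mul_apply_eq_comp, h0, map_zero]

theorem Side.swap (h : Side P ξ G ρ σ) : Side P.commutant ξ G σ ρ := by
  have c : ∀ g η, σ g (ρ g η) = ρ g (σ g η) := fun g η =>
    (DFunLike.congr_fun (commute_of_mem (h.ρM g) (h.σM g)) η).symm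
  exact ⟨cs_comm h.cs, h.lf, h.σ_star, h.ρ_star, h.σM,
    fun g => by rw [P.commutant_commutant]; exact h.ρM g, fun g => by rw [c, h.fix],
    fun η => by simpa only [c] using h.erg η⟩

theorem side {e r : ℕ → H →L[ℂ] H} (h : SPos P ξ G ρ σ e r) : Side P ξ G ρ σ :=
  ⟨h.cs, h.lf, h.ρ_star, h.σ_star, h.ρM, h.σM, h.fix, h.erg⟩

theorem Side.flip (h : Side P ξ G ρ σ) (g : Γ) : ρ g⁻¹ ξ = σ g ξ := by
  conv_lhs => rw [← h.fix g, ← mul_apply_eq_comp, ← map_mul, inv_mul_cancel, map_one]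
  rfl

/-- The finite averages. -/
noncomputable def E (G : ℕ → Finset Γ) (ρ : Γ →* (H →L[ℂ] H)) (k : ℕ) (a : H →L[ℂ] H) :
    H →L[ℂ] H := av (G k) fun g => ρ g * a * ρ g⁻¹

theorem E_inv (h : LocFin G) (k : ℕ) (a : H →L[ℂ] H) :
    av (G k) (fun g => ρ g⁻¹ * a * ρ g) = E G ρ k a := by
  unfold E av
  congr 1
  exact sum_bij' (fun g _ => g⁻¹) (fun g _ => g⁻¹) (fun g hg => h.inv k g hg)
    (fun g hg => h.inv k g hg) (fun g _ => inv_inv g) (fun g _ => inv_inv g)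
    fun g _ => by rw [inv_inv]

/-- Bounded strong convergence in `P`. -/
structure Sv (P : VonNeumannAlgebra H) (a : ℕ → H →L[ℂ] H) (y : H →L[ℂ] H) : Prop where
  mem : ∀ k, a k ∈ P
  lmem : y ∈ P
  bdd : ∃ C, ∀ k, ‖a k‖ ≤ C
  lim : ∀ η, Tendsto (fun k => a k η) atTop (𝓝 (y η))

theorem Sv.const {y : H →L[ℂ] H} (h : y ∈ P) : Sv P (fun _ => y) y :=
  ⟨fun _ => h, h, ⟨_, fun _ => le_rfl⟩, fun _ => tendsto_const_nhds⟩

theorem Sv.mul {a b : ℕ → H →L[ℂ] H} {x y : H →L[ℂ] H} (h : Sv P a x) (h' : Sv P b y) :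
    Sv P (fun k => a k * b k) (x * y) := by
  obtain ⟨C, hC⟩ := h.bdd
  obtain ⟨C', hC'⟩ := h'.bdd
  refine ⟨fun k => mul_mem (h.mem k) (h'.mem k), mul_mem h.lmem h'.lmem,
    ⟨_, fun k => nm_le (hC k) (hC' k)⟩, fun η => ?_⟩
  have h1 : Tendsto (fun k => a k (b k η - y η)) atTop (𝓝 0) := by
    refine squeeze_zero_norm (a := fun k => C * ‖b k η - y η‖) (fun k => ((a k).le_opNorm _).trans
      (mul_le_mul_of_nonneg_right (hC k) (norm_nonneg _))) ?_
    simpa using (tendsto_iff_norm_sub_tendsto_zero.1 (h'.lim η)).const_mul C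
  simpa [map_sub] using h1.add (h.lim (y η))

theorem Sv.smul {a : ℕ → H →L[ℂ] H} {x : H →L[ℂ] H} (h : Sv P a x) (t : ℂ) :
    Sv P (fun k => t • a k) (t • x) := by
  simpa only [smul_mul_assoc, one_mul] using (Sv.const (vn_smul_mem t (one_mem P))).mul h

theorem Sv.sum {ι : Type*} [Fintype ι] {a : ι → ℕ → H →L[ℂ] H} {x : ι → H →L[ℂ] H}
    (h : ∀ i, Sv P (a i) (x i)) : Sv P (fun k => ∑ i, a i k) (∑ i, x i) := by
  choose C hC using fun i => (h i).bdd
  refine ⟨fun k => sum_mem fun i _ => (h i).mem k, sum_mem fun i _ => (h i).lmem,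
    ⟨∑ i, C i, fun k => (norm_sum_le _ _).trans (sum_le_sum fun i _ => hC i k)⟩, fun η => ?_⟩
  simp only [_root_.sum_apply]
  exact tendsto_finsetSum _ fun i _ => (h i).lim η

theorem Sv.E (hs : Side P ξ G ρ σ) {a : ℕ → H →L[ℂ] H} {y : H →L[ℂ] H} (h : Sv P a y) :
    Sv P (fun k => E G ρ k (a k)) (⟪ξ, y ξ⟫_ℂ • 1) := by
  obtain ⟨C, hC⟩ := h.bdd
  have ne : ∀ k, (G k).Nonempty := fun k => ⟨1, hs.lf.one k⟩
  have n1 := rep_norm_le ρ hs.ρ_star
  have n2 := rep_norm_le σ hs.σ_star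
  have m1 : ∀ k, F2.E G ρ k (a k) ∈ P := fun k =>
    vn_smul_mem _ (sum_mem fun g _ => mul_mem (mul_mem (hs.ρM g) (h.mem k)) (hs.ρM _))
  have b1 : ∀ k, ‖F2.E G ρ k (a k)‖ ≤ 1 * C * 1 := fun k =>
    av_norm_le (ne k) fun g => nm_le (nm_le (n1 g) (hC k)) (n1 _)
  have m2 : (⟪ξ, y ξ⟫_ℂ • 1 : H →L[ℂ] H) ∈ P := vn_smul_mem _ (one_mem P)
  have e1 : ∀ k, F2.E G ρ k (a k) ξ = av (G k) (fun g => ρ g (σ g (a k ξ - y ξ))) +
      av (G k) fun g => ρ g (σ g (y ξ)) := fun k => by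
    rw [← av_add]
    simp only [F2.E, av, smul_apply, _root_.sum_apply, map_sub, sub_add_cancel, mul_apply_eq_comp, hs.flip]
    congr 1
    refine sum_congr rfl fun g _ => ?_
    rw [← mul_apply_eq_comp (a k), commute_of_mem (h.mem k) (hs.σM g), mul_apply_eq_comp]
  have l1 : Tendsto (fun k => F2.E G ρ k (a k) ξ) atTop (𝓝 (⟪ξ, y ξ⟫_ℂ • ξ)) := by
    simp only [e1]
    rw [← zero_add (_ • ξ)]
    refine Tendsto.add (squeeze_zero_norm (a := fun k => ‖a k ξ - y ξ‖) (fun k => av_norm_le (ne k)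
      fun g => ?_) (tendsto_iff_norm_sub_tendsto_zero.1 (h.lim ξ))) (hs.erg _)
    exact ((ρ g).le_of_opNorm_le (n1 g) _).trans (by
      simpa using (σ g).le_of_opNorm_le (n2 g) (a k ξ - y ξ))
  refine ⟨m1, m2, ⟨_, b1⟩, fun η => Metric.tendsto_nhds.2 fun ε hε => ?_⟩
  obtain ⟨δ, hδ, hd⟩ := P132.strong_of_sep hs.cs.2 η (1 * C * 1 + ‖(⟪ξ, y ξ⟫_ℂ • 1 : H →L[ℂ] H)‖)
    (ε / 2) (half_pos hε)
  filter_upwards [Metric.tendsto_nhds.1 l1 δ hδ] with k hk
  rw [dist_eq_norm] at hk ⊢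
  refine (hd _ (sub_mem (m1 k) m2) ((norm_sub_le _ _).trans (add_le_add (b1 k) le_rfl)) ?_).trans_lt
    (half_lt_self hε)
  simpa using hk.le

/-- A family of equivalent orthogonal partial isometries. -/
structure Un (P : VonNeumannAlgebra H) (ξ : H) {n : ℕ} (v : Fin n → H →L[ℂ] H) (p : H →L[ℂ] H)
    (θ : ℝ) : Prop where
  mem : ∀ l, v l ∈ P
  same : ∀ l, star (v l) * v l = p
  ne : ∀ l l', l ≠ l' → star (v l) * v l' = 0
  vp : ∀ l, v l * p = v l
  tr : ⟪ξ, p ξ⟫_ℂ = θ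
  tr' : ∀ l, ⟪ξ, (v l * star (v l)) ξ⟫_ℂ = θ
  op : ∀ l, ∃ w ∈ P.commutant, star (v l) ξ = w ξ ∧ v l ξ = star w ξ

/-- The averaging family. -/
noncomputable def al (G : ℕ → Finset Γ) (ρ : Γ →* (H →L[ℂ] H)) (k : ℕ) {n : ℕ}
    (v : Fin n → H →L[ℂ] H) (a : Fin n × G k) : H →L[ℂ] H :=
  (((√(G k).card)⁻¹ : ℝ) : ℂ) • (v a.1 * ρ (a.2 : Γ)⁻¹)

omit [Group Γ] in
theorem sq_w (k : ℕ) : (((√(G k).card)⁻¹ : ℝ) : ℂ) * (((√(G k).card)⁻¹ : ℝ) : ℂ) =
    ((G k).card : ℂ)⁻¹ := by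
  rw [← Complex.ofReal_mul, ← mul_inv, Real.mul_self_sqrt (Nat.cast_nonneg _)]
  simp

theorem star_al (hs : ∀ g, star (ρ g) = ρ g⁻¹) (k : ℕ) {n : ℕ} (v : Fin n → H →L[ℂ] H)
    (a : Fin n × G k) :
    star (al G ρ k v a) = (((√(G k).card)⁻¹ : ℝ) : ℂ) • (ρ (a.2 : Γ) * star (v a.1)) := by
  rw [al, star_smul, star_mul, hs, inv_inv, Complex.star_def, Complex.conj_ofReal]

theorem sum_in (hs : ∀ g, star (ρ g) = ρ g⁻¹) (k : ℕ) {n : ℕ} (v : Fin n → H →L[ℂ] H)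
    (y : H →L[ℂ] H) : ∑ a, star (al G ρ k v a) * y * al G ρ k v a =
      E G ρ k (∑ l, star (v l) * y * v l) := by
  simp only [star_al hs]
  simp only [al, smul_mul_assoc, mul_smul_comm, smul_smul, sq_w, E, av, ← smul_sum]
  congr 1
  rw [Fintype.sum_prod_type_right, ← sum_coe_sort (G k)]
  simp only [mul_sum, sum_mul, mul_assoc]

theorem sum_out (hs : ∀ g, star (ρ g) = ρ g⁻¹) (h : LocFin G) (k : ℕ) {n : ℕ}
    (v : Fin n → H →L[ℂ] H) (y : H →L[ℂ] H) : ∑ a, al G ρ k v a * y * star (al G ρ k v a) =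
      ∑ l, v l * E G ρ k y * star (v l) := by
  simp only [star_al hs, ← E_inv h]
  simp only [al, smul_mul_assoc, mul_smul_comm, smul_smul, sq_w, av, ← smul_sum]
  congr 1
  rw [Fintype.sum_prod_type]
  refine sum_congr rfl fun l _ => ?_
  rw [← sum_coe_sort (G k)]
  simp only [mul_sum, sum_mul, mul_assoc]

/-- The family to which the inequality is applied. -/
noncomputable def fam (G : ℕ → Finset Γ) (ρ : Γ →* (H →L[ℂ] H)) (k : ℕ) {n n' : ℕ}
    (v : Fin n → H →L[ℂ] H) (w : Fin n' → H →L[ℂ] H) (x : H →L[ℂ] H)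
    (i : (Fin n × G k) × (Fin n' × G k)) : H →L[ℂ] H :=
  al G ρ k v i.1 * x * star (al G ρ k w i.2)

theorem star_fam (k : ℕ) {n n' : ℕ} (v : Fin n → H →L[ℂ] H) (w : Fin n' → H →L[ℂ] H)
    (x : H →L[ℂ] H) : star (fam G ρ k v w x) = fam G ρ k w v (star x) ∘ Prod.swap := by
  ext1 i
  simp only [fam, Pi.star_apply, star_mul, star_star, Function.comp, Prod.fst_swap, Prod.snd_swap,
    mul_assoc]

omit [CompleteSpace H] in
theorem m2_swap {ι κ : Type*} [Fintype ι] [Fintype κ] (x : ι × κ → H →L[ℂ] H) :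
    m2 (x ∘ Prod.swap) ξ = m2 x ξ :=
  Fintype.sum_equiv (Equiv.prodComm _ _) _ _ fun _ => rfl

theorem m4_swap {ι κ : Type*} [Fintype ι] [Fintype κ] (x : ι × κ → H →L[ℂ] H) :
    m4 (x ∘ Prod.swap) ξ = m4 x ξ := by
  unfold m4
  congr 1
  · congr 3
    exact Fintype.sum_equiv (Equiv.prodComm _ _) _ _ fun _ => rfl
  · exact Fintype.sum_equiv (Equiv.prodComm _ _) _ _ fun _ =>
      Fintype.sum_equiv (Equiv.prodComm _ _) _ _ fun _ => rfl

theorem nsq (x : H →L[ℂ] H) (η : H) : ‖x η‖ ^ 2 = (⟪η, (star x * x) η⟫_ℂ).re := by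
  rw [mul_apply_eq_comp, inner_star_right, inner_self_eq_norm_sq_to_K]
  norm_cast

variable {n n' : ℕ} {v : Fin n → H →L[ℂ] H} {w : Fin n' → H →L[ℂ] H} {p x : H →L[ℂ] H} {θ : ℝ}

theorem Un.pmem (hv : Un P ξ v p θ) (l : Fin n) : p ∈ P :=
  hv.same l ▸ mul_mem (star_mem (hv.mem l)) (hv.mem l)

theorem sv_in (hs : Side P ξ G ρ σ) (hv : Un P ξ v p θ) :
    Sv P (fun k => ∑ a, star (al G ρ k v a) * al G ρ k v a) (((n * θ : ℝ) : ℂ) • 1) := by
  have h := (Sv.const (sum_mem fun l (_ : l ∈ univ) =>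
    mul_mem (mul_mem (star_mem (hv.mem l)) (one_mem P)) (hv.mem l))).E hs
  simp only [← sum_in hs.ρ_star] at h
  simp only [mul_one] at h
  simpa only [hv.same, sum_const, card_univ, Fintype.card_fin, ← Nat.cast_smul_eq_nsmul ℂ,
    smul_apply, inner_smul_right, hv.tr, Complex.ofReal_mul, Complex.ofReal_natCast] using h

theorem sv_T (hs : Side P ξ G ρ σ) (hv : Un P ξ v p θ) (hw : Un P ξ w p θ) (hx : x ∈ P) :
    Sv P (fun k => ∑ i, star (fam G ρ k v w x i) * fam G ρ k v w x i)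
      (((n * θ * ‖x ξ‖ ^ 2 : ℝ) : ℂ) • ∑ l, w l * star (w l)) := by
  have h1 := (((Sv.const (star_mem hx)).mul (sv_in hs hv)).mul (Sv.const hx)).E hs
  have h2 := Sv.sum fun l => ((Sv.const (hw.mem l)).mul h1).mul (Sv.const (star_mem (hw.mem l)))
  simp only [← sum_out hs.ρ_star hs.lf] at h2
  convert h2 using 1
  · ext1 k
    rw [Fintype.sum_prod_type_right]
    simp only [fam, star_mul, star_star, mul_sum, sum_mul, mul_assoc]
  · simp only [mul_smul_comm, smul_mul_assoc, mul_one, smul_apply, inner_smul_right, ← smul_sum,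
      mul_apply_eq_comp, inner_star_right, inner_self_eq_norm_sq_to_K]
    congr 1
    push_cast
    rfl

theorem Un.PP (hw : Un P ξ w p θ) :
    (∑ l, w l * star (w l)) * (∑ l, w l * star (w l)) = ∑ l, w l * star (w l) := by
  rw [sum_mul]
  refine sum_congr rfl fun l _ => ?_
  rw [mul_sum, sum_eq_single l (fun l' _ h => by
    rw [mul_assoc, ← mul_assoc (star _), hw.ne _ _ h.symm, zero_mul, mul_zero]) (by simp),
    mul_assoc, ← mul_assoc (star _), hw.same, ← mul_assoc, hw.vp]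

theorem Un.trP (hw : Un P ξ w p θ) : ⟪ξ, (∑ l, w l * star (w l)) ξ⟫_ℂ = ((n' * θ : ℝ) : ℂ) := by
  simp only [_root_.sum_apply, inner_sum, hw.tr', sum_const, card_univ, Fintype.card_fin, nsmul_eq_mul]
  push_cast
  rfl

theorem lim2 (hs : Side P ξ G ρ σ) (hv : Un P ξ v p θ) (hw : Un P ξ w p θ) (hx : x ∈ P) :
    Tendsto (fun k => m2 (fam G ρ k v w x) ξ) atTop (𝓝 (n * n' * θ ^ 2 * ‖x ξ‖ ^ 2)) := by
  have h := (Complex.continuous_re.tendsto _).comp
    ((tendsto_const_nhds (x := ξ)).inner (𝕜 := ℂ) ((sv_T hs hv hw hx).lim ξ))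
  rw [smul_apply, inner_smul_right, hw.trP, ← Complex.ofReal_mul, Complex.ofReal_re] at h
  convert h using 2
  · simp only [m2, nsq, Function.comp, _root_.sum_apply, inner_sum, Complex.re_sum]
  · ring

theorem lim4 (hs : Side P ξ G ρ σ) (hv : Un P ξ v p θ) (hw : Un P ξ w p θ) (hx : x ∈ P) :
    Tendsto (fun k => m4 (fam G ρ k v w x) ξ) atTop
      (𝓝 (n * n' * θ ^ 2 * ‖x ξ‖ ^ 2 * (θ * (n * ‖x ξ‖ ^ 2 + n' * ‖star x ξ‖ ^ 2)))) := by
  have h1 := (((sv_T hs hv hw hx).lim ξ).norm).pow 2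
  have e1 : ‖(((n * θ * ‖x ξ‖ ^ 2 : ℝ) : ℂ) • ∑ l, w l * star (w l)) ξ‖ ^ 2 =
      (n * θ * ‖x ξ‖ ^ 2) ^ 2 * (n' * θ) := by
    rw [smul_apply, norm_smul, mul_pow, Complex.norm_real, Real.norm_eq_abs, sq_abs,
      nsq (∑ l, w l * star (w l)), star_sum]
    simp only [star_mul, star_star]
    rw [hw.PP, hw.trP, Complex.ofReal_re]
  rw [e1] at h1
  have t2 := sv_T hs hw hv (star_mem hx)
  have z1 := (Sv.sum fun l => ((Sv.const (star_mem (hv.mem l))).mul t2).mul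
    (Sv.const (hv.mem l))).E hs
  simp only [← sum_in hs.ρ_star] at z1
  have e2 : ∀ l, star (v l) * (∑ l, v l * star (v l)) * v l = p := fun l => by
    rw [mul_sum, sum_eq_single l (fun l' _ h => by
      rw [← mul_assoc, hv.ne _ _ h.symm, zero_mul]) (by simp), ← mul_assoc, hv.same, mul_assoc,
      hv.same, ← hv.same l, mul_assoc, hv.same, hv.vp, hv.same]
  simp only [mul_smul_comm, smul_mul_assoc, e2, sum_const, card_univ, Fintype.card_fin,
    ← Nat.cast_smul_eq_nsmul ℂ, smul_apply, inner_smul_right, hv.tr] at z1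
  choose o ho o1 o2 using hw.op
  have hs' := hs.swap
  have q1 := (Sv.const (sum_mem fun l (_ : l ∈ univ) =>
    mul_mem (mul_mem (star_mem (ho l)) (one_mem P.commutant)) (ho l))).E hs'
  have e3 : ∀ l, ⟪ξ, (star (o l) * 1 * o l) ξ⟫_ℂ = θ := fun l => by
    rw [mul_one, mul_apply_eq_comp, inner_star_right, ← o1, inner_star_left, ← hw.tr' l,
      mul_apply_eq_comp]
  simp only [← sum_in hs.σ_star] at q1
  simp only [_root_.sum_apply, inner_sum, e3, sum_const, card_univ, Fintype.card_fin,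
    nsmul_eq_mul] at q1
  have h2 := (Complex.continuous_re.tendsto _).comp
    ((q1.lim (x ξ)).inner (𝕜 := ℂ) (z1.lim (x ξ)))
  have e4 : ∀ k (b : Fin n' × G k), star (al G ρ k w b) ξ = al G σ k o b ξ := fun k b => by
    rw [star_al hs.ρ_star, al, smul_apply, smul_apply, mul_apply_eq_comp, mul_apply_eq_comp, o1,
      ← mul_apply_eq_comp (ρ _), commute_of_mem (hs.ρM _) (ho _), mul_apply_eq_comp, hs'.flip]
  have am : ∀ k (b : Fin n' × G k), al G σ k o b ∈ P.commutant := fun k b =>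
    vn_smul_mem _ (mul_mem (ho _) (hs.σM _))
  have am' : ∀ k (a : Fin n × G k), al G ρ k v a ∈ P := fun k a =>
    vn_smul_mem _ (mul_mem (hv.mem _) (hs.ρM _))
  convert h1.add h2 using 2
  · rename_i k
    rw [m4]
    congr 1
    set T := ∑ i, star (fam G ρ k w v (star x) i) * fam G ρ k w v (star x) i with hT
    have e5 : ∀ η, ∑ j, ‖star (fam G ρ k v w x j) η‖ ^ 2 = (⟪η, T η⟫_ℂ).re := fun η => by
      rw [hT, ← Fintype.sum_equiv (Equiv.prodComm _ _)
        (fun j => star (star (fam G ρ k v w x j)) * star (fam G ρ k v w x j)) _ fun j => by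
          rw [show star (fam G ρ k v w x j) = _ from congrFun (star_fam k v w x) j]; rfl]
      simp only [nsq, _root_.sum_apply, inner_sum, Complex.re_sum]
    simp only [e5, Function.comp, _root_.sum_apply, sum_inner, inner_sum, Complex.re_sum]
    rw [Fintype.sum_prod_type]
    refine sum_congr rfl fun a _ => sum_congr rfl fun b _ => ?_
    have c1 : ∀ y ∈ P, ∀ η, y (al G σ k o b η) = al G σ k o b (y η) := fun y hy η =>
      DFunLike.congr_fun (commute_of_mem hy (am k b)) η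
    simp only [fam, mul_apply_eq_comp, e4, mul_one, inner_star_left, inner_star_right]
    have c2 : ∀ η, al G ρ k v a (star (al G σ k o b) η) = star (al G σ k o b) (al G ρ k v a η) :=
      fun η => DFunLike.congr_fun (commute_of_mem (am' k a) (star_mem (am k b))) η
    rw [c1 _ hx, c1 _ (am' k a), c1 _ (t2.mem k), ← inner_star_left (al G σ k o b), c2,
      c1 _ (am' k a)]
    rfl
  · simp only [smul_apply, one_apply_eq_self, inner_smul_left, inner_smul_right,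
      inner_self_eq_norm_sq_to_K, map_mul, Complex.conj_natCast, Complex.conj_ofReal]
    simp only [Complex.coe_algebraMap, ← Complex.ofReal_natCast, ← Complex.ofReal_pow,
      ← Complex.ofReal_mul, Complex.ofReal_re]
    ring

end F2

end Vale.Agent.P096
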