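import Mathlib

/-! Polar decomposition of an element close to the identity. -/

namespace Vale.Agent.P096

section Gen

variable {A : Type*} [CStarAlgebra A] [PartialOrder A] [StarOrderedRing A]

theorem norm_sub_one_le_sq {Q : A} (hQ : 0 ≤ Q) : ‖Q - 1‖ ≤ ‖Q * Q - 1‖ := by
  have hs : IsSelfAdjoint Q := IsSelfAdjoint.of_nonneg hQ
  have h1 : Q - 1 = cfc (fun x : ℝ => x - 1) Q := by
    rw [cfc_sub _ _ Q, cfc_id' ℝ Q, cfc_const_one ℝ Q]
  have h2 : Q * Q - 1 = cfc (fun x : ℝ => x * x - 1) Q := by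
    rw [cfc_sub _ _ Q, cfc_mul _ _ Q, cfc_id' ℝ Q, cfc_const_one ℝ Q]
  rw [h1, h2]
  refine norm_cfc_le (norm_nonneg _) fun x hx => ?_
  refine le_trans ?_ (norm_apply_le_norm_cfc (fun x : ℝ => x * x - 1) Q hx)
  have hx0 : 0 ≤ x := spectrum_nonneg_of_nonneg hQ hx
  have : x * x - 1 = (x - 1) * (x + 1) := by ring
  rw [this, norm_mul]
  refine le_mul_of_one_le_right (norm_nonneg _) ?_
  rw [Real.norm_eq_abs, abs_of_nonneg (by linarith)]
  linarith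

omit [PartialOrder A] [StarOrderedRing A] in
theorem isUnit_of_near {T : A} (h : ‖T - 1‖ < 1) : IsUnit T := by
  have := (Units.oneSub (1 - T) (by rwa [norm_sub_rev])).isUnit
  simpa using this

omit [PartialOrder A] [StarOrderedRing A] in
theorem norm_star_mul_sub_one {T : A} {c : ℝ} (h : ‖T - 1‖ ≤ c) :
    ‖star T * T - 1‖ ≤ 2 * c + c ^ 2 := by
  have e : star T * T - 1 = star (T - 1) * (T - 1) + star (T - 1) + (T - 1) := by
    rw [star_sub, star_one]; noncomm_ring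
  have hc : 0 ≤ c := (norm_nonneg _).trans h
  rw [e]
  have h1 := norm_mul_le (star (T - 1)) (T - 1)
  have h2 := norm_add₃_le (a := star (T - 1) * (T - 1)) (b := star (T - 1)) (c := T - 1)
  rw [norm_star] at h1 h2
  nlinarith [norm_nonneg (T - 1)]

/-- Polar decomposition near the identity. -/
theorem polar_near (T : A) {c : ℝ} (hT : ‖T - 1‖ ≤ c) (hc : c ≤ 1 / 10) :
    ∃ u ∈ unitary A, ∃ Q : A, 0 ≤ Q ∧ IsUnit Q ∧ T = u * Q ∧ Q * Q = star T * T ∧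
      ‖u - 1‖ ≤ 4 * c ∧ ‖Q - 1‖ ≤ 3 * c ∧ ∀ y, Commute y (star T * T) → Commute y Q := by
  have hc0 : 0 ≤ c := (norm_nonneg _).trans hT
  have hTu : IsUnit T := isUnit_of_near (by linarith)
  have hp : 0 ≤ star T * T := star_mul_self_nonneg T
  set Q := CFC.sqrt (star T * T) with hQd
  have hQ : 0 ≤ Q := CFC.sqrt_nonneg _
  have hQQ : Q * Q = star T * T := CFC.sqrt_mul_sqrt_self _ hp
  have hQu : IsUnit Q := (CFC.isUnit_sqrt_iff _ hp).2 (hTu.star.mul hTu)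
  have hQs : star Q = Q := (IsSelfAdjoint.of_nonneg hQ).star_eq
  obtain ⟨q, hq⟩ := hQu
  have e1 : Q * ↑q⁻¹ = 1 := by rw [← hq]; exact q.mul_inv
  have e2 : ↑q⁻¹ * Q = 1 := by rw [← hq]; exact q.inv_mul
  have e3 : star (↑q⁻¹ : A) * Q = 1 := by rw [← hQs, ← star_mul, e1, star_one]
  have h1 : star (T * ↑q⁻¹) * (T * ↑q⁻¹) = 1 := by
    calc star (T * ↑q⁻¹) * (T * ↑q⁻¹) = star (↑q⁻¹ : A) * (star T * T) * ↑q⁻¹ := by
          rw [star_mul]; noncomm_ring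
      _ = (star (↑q⁻¹ : A) * Q) * (Q * ↑q⁻¹) := by rw [← hQQ]; noncomm_ring
      _ = 1 := by rw [e1, e3, one_mul]
  have hu : T * ↑q⁻¹ ∈ unitary A :=
    (IsUnit.mem_unitary_iff_star_mul_self (hTu.mul q⁻¹.isUnit)).2 h1
  have hTe : T = T * ↑q⁻¹ * Q := by rw [mul_assoc, e2, mul_one]
  have hQ1 : ‖Q - 1‖ ≤ 2 * c + c ^ 2 :=
    (norm_sub_one_le_sq hQ).trans (by rw [hQQ]; exact norm_star_mul_sub_one hT)
  refine ⟨_, hu, Q, hQ, ⟨q, hq⟩, hTe, hQQ, ?_, by nlinarith, fun y hy => ?_⟩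
  · have e : T * ↑q⁻¹ - 1 = (T - 1) - T * ↑q⁻¹ * (Q - 1) := by
      rw [mul_sub, ← hTe, mul_one]; abel
    have h2 : ‖T * ↑q⁻¹ * (Q - 1)‖ = ‖Q - 1‖ := CStarRing.norm_mem_unitary_mul _ hu
    rw [e]
    refine (norm_sub_le _ _).trans ?_
    rw [h2]
    nlinarith
  · rw [hQd, CFC.sqrt_eq_cfc]
    exact (hy.symm.cfc_nnreal _).symm

end Gen

end Vale.Agent.P096
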