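import Vale.Agent.P096.Stmts
import Vale.Agent.P096.Polar

/-! From a similarity in the standard position to a unitary on the original space. -/

namespace Vale.Agent.P096

open scoped InnerProductSpace ComplexOrder BigOperators
open Filter Topology Vale.Agent.P104 Vale.Agent.P082 Finset

universe u

theorem mem_of_geom {V : Type*} [NormedAddCommGroup V] {S : Set V} (hS : IsClosed S) {y : V}
    {C : ℝ} (h : ∀ n : ℕ, ∃ s ∈ S, ‖y - s‖ ≤ C * (1 / 2) ^ n) : y ∈ S := by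
  choose s hs hb using h
  refine hS.mem_of_tendsto (f := s) (b := atTop) ?_ (Eventually.of_forall hs)
  rw [tendsto_iff_norm_sub_tendsto_zero]
  have h0 : Tendsto (fun n : ℕ => C * (1 / 2 : ℝ) ^ n) atTop (𝓝 0) := by
    simpa using (tendsto_pow_atTop_nhds_zero_of_lt_one (r := (1 / 2 : ℝ)) (by norm_num)
      (by norm_num)).const_mul C
  refine squeeze_zero (fun _ => norm_nonneg _) (fun n => ?_) h0
  rw [norm_sub_rev]; exact hb n

/-- A square root close to the identity preserves invariant closed subspaces. -/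
theorem sqrt_inv {V : Type*} [NormedAddCommGroup V] [NormedSpace ℂ V] (S : Submodule ℂ V)
    (hS : IsClosed (S : Set V)) (T : V →ₗ[ℂ] V) (hT : ∀ y, ‖y - T y‖ ≤ 1 / 4 * ‖y‖)
    (h2 : ∀ x ∈ S, T (T x) ∈ S) : ∀ x ∈ S, T x ∈ S := by
  have key : ∀ n : ℕ, ∀ x ∈ S, ∃ s ∈ S, ‖x - T x - s‖ ≤ 1 / 4 * (1 / 2) ^ n * ‖x‖ := by
    intro n
    induction n with
    | zero => intro x _; exact ⟨0, S.zero_mem, by simpa using hT x⟩
    | succ n ih =>
      intro x hx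
      obtain ⟨s, hs, h1⟩ := ih x hx
      obtain ⟨s', hs', h3⟩ := ih s hs
      set t : ℝ := 1 / 4 * (1 / 2) ^ n with ht
      have ht0 : 0 ≤ t := by positivity
      have ht1 : t ≤ 1 / 4 := by
        have : ((1 : ℝ) / 2) ^ n ≤ 1 := pow_le_one₀ (by norm_num) (by norm_num)
        linarith
      have hsn : ‖s‖ ≤ 1 / 2 * ‖x‖ := by
        have : s = (x - T x) - (x - T x - s) := by abel
        have h4 := norm_sub_le (x - T x) (x - T x - s)
        rw [← this] at h4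
        nlinarith [hT x, norm_nonneg x]
      refine ⟨(2 : ℂ)⁻¹ • (x - T (T x) + s'),
        S.smul_mem _ (S.add_mem (S.sub_mem hx (h2 x hx)) hs'), ?_⟩
      have e : x - T x - (2 : ℂ)⁻¹ • (x - T (T x) + s')
          = (2 : ℂ)⁻¹ • ((s - T s - s') + ((x - T x - s) - T (x - T x - s))) := by
        simp only [map_sub]
        module
      rw [e, norm_smul]
      have h5 := hT (x - T x - s)
      have h6 := norm_add_le (s - T s - s') ((x - T x - s) - T (x - T x - s))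
      have h7 : ‖(2 : ℂ)⁻¹‖ = 1 / 2 := by simp
      have h8 : t * ‖s‖ ≤ t * (1 / 2 * ‖x‖) := mul_le_mul_of_nonneg_left hsn ht0
      have h9 : 0 ≤ t * ‖x‖ := mul_nonneg ht0 (norm_nonneg _)
      have h10 : (1 : ℝ) / 4 * (1 / 2) ^ (n + 1) * ‖x‖ = t * ‖x‖ / 2 := by
        rw [ht, pow_succ]; ring
      rw [h7, h10]
      linarith
  intro x hx
  have h1 : x - T x ∈ S := mem_of_geom (C := 1 / 4 * ‖x‖) hS fun n => by
    obtain ⟨s, hs, h⟩ := key n x hx
    exact ⟨s, hs, h.trans (le_of_eq (by ring))⟩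
  simpa using S.sub_mem hx h1

theorem norm_conj_sub {A : Type*} [NormedRing A] {W W' x : A} {c : ℝ} (h1 : ‖W - 1‖ ≤ c)
    (h2 : ‖W' - 1‖ ≤ c) : ‖W * x * W' - x‖ ≤ (2 * c + c ^ 2) * ‖x‖ := by
  have e : W * x * W' - x = (W - 1) * x * (W' - 1) + (W - 1) * x + x * (W' - 1) := by
    noncomm_ring
  have hc : 0 ≤ c := (norm_nonneg _).trans h1
  have a1 : ‖(W - 1) * x‖ ≤ c * ‖x‖ := (norm_mul_le _ _).trans (by gcongr)
  have a2 : ‖x * (W' - 1)‖ ≤ ‖x‖ * c := (norm_mul_le _ _).trans (by gcongr)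
  have a3 : ‖(W - 1) * x * (W' - 1)‖ ≤ c * ‖x‖ * c := (norm_mul_le _ _).trans (by gcongr)
  rw [e]
  refine norm_add₃_le.trans ?_
  nlinarith

theorem norm_inv_sub {A : Type*} [NormedRing A] [NormOneClass A] {Q Q' : A} {c : ℝ}
    (h : Q' * Q = 1) (h1 : ‖Q - 1‖ ≤ c) (hc : c ≤ 1 / 2) : ‖Q' - 1‖ ≤ 2 * c := by
  have e : Q' - 1 = -((Q' - 1) * (Q - 1)) - (Q - 1) := by
    rw [sub_mul, mul_sub, h]; noncomm_ring
  have hc0 : 0 ≤ c := (norm_nonneg _).trans h1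
  have a1 : ‖(Q' - 1) * (Q - 1)‖ ≤ ‖Q' - 1‖ * c := (norm_mul_le _ _).trans (by gcongr)
  have a2 := norm_sub_le (-((Q' - 1) * (Q - 1))) (Q - 1)
  rw [← e, norm_neg] at a2
  nlinarith [norm_nonneg (Q' - 1)]

section Abs

variable {A B E : Type*} [CStarAlgebra A] [CStarAlgebra B] [NormedAddCommGroup E]
  [InnerProductSpace ℂ E] [CompleteSpace E]

theorem closed_range (ρ : A →⋆ₐ[ℂ] (E →L[ℂ] E)) (h : ∀ a, ‖ρ a‖ = ‖a‖) :
    IsClosed (Set.range ρ) :=
  (AddMonoidHomClass.isometry_of_norm ρ h).isClosedEmbedding.isClosed_range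

theorem inj_of_iso (ρ : A →⋆ₐ[ℂ] (E →L[ℂ] E)) (h : ∀ a, ‖ρ a‖ = ‖a‖) :
    Function.Injective ρ :=
  (AddMonoidHomClass.isometry_of_norm ρ h).injective

theorem sim_onto {ρ : A →⋆ₐ[ℂ] (E →L[ℂ] E)} {L : B →⋆ₐ[ℂ] (E →L[ℂ] E)} {W W' : E →L[ℂ] E}
    {γ : ℝ} (hγ : γ ≤ 1 / 10) (hρ : ∀ a, ‖ρ a‖ = ‖a‖) (hL : ∀ b, ‖L b‖ = ‖b‖)
    (h2 : W' * W = 1) (hW : ‖W - 1‖ ≤ γ) (hW' : ‖W' - 1‖ ≤ γ)
    (hin : ∀ a, ∃ b, L b = W * ρ a * W')
    (hn : ∀ b, ∃ a, ‖a‖ ≤ ‖b‖ ∧ ‖ρ a - L b‖ ≤ 2 * γ * ‖b‖) (b : B) :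
    ∃ a, ρ a = W' * L b * W := by
  have hγ0 : 0 ≤ γ := (norm_nonneg _).trans hW
  have key : ∀ n : ℕ, ∀ b, ∃ a b', L b' = W * ρ a * W' ∧ ‖b - b'‖ ≤ (1 / 2) ^ n * ‖b‖ := by
    intro n
    induction n with
    | zero => intro b; exact ⟨0, 0, by simp, by simp⟩
    | succ n ih =>
      intro b
      obtain ⟨a, ha, h3⟩ := hn b
      obtain ⟨b1, hb1⟩ := hin a
      have h4 : ‖b - b1‖ ≤ 1 / 2 * ‖b‖ := by
        rw [← hL, map_sub, hb1]
        have h5 := norm_conj_sub (x := ρ a) hW hW'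
        rw [hρ] at h5
        have e : L b - W * ρ a * W' = -(ρ a - L b) - (W * ρ a * W' - ρ a) := by abel
        rw [e]
        refine (norm_sub_le _ _).trans ?_
        rw [norm_neg]
        have h6 : (2 * γ + γ ^ 2) * ‖a‖ ≤ (3 * γ) * ‖b‖ :=
          mul_le_mul (by nlinarith) ha (norm_nonneg _) (by positivity)
        nlinarith [norm_nonneg b]
      obtain ⟨a2, b2, h7, h8⟩ := ih (b - b1)
      refine ⟨a + a2, b1 + b2, by rw [map_add, map_add, hb1, h7]; noncomm_ring, ?_⟩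
      rw [← sub_sub]
      refine h8.trans ?_
      rw [pow_succ, mul_assoc]
      gcongr
  refine mem_of_geom (C := ‖W'‖ * ‖b‖ * ‖W‖) (closed_range ρ hρ) fun n => ?_
  obtain ⟨a, b', h3, h4⟩ := key n b
  refine ⟨ρ a, ⟨a, rfl⟩, ?_⟩
  have e : W' * L b * W - ρ a = W' * L (b - b') * W := by
    rw [map_sub, h3]
    calc W' * L b * W - ρ a = W' * L b * W - (W' * W) * ρ a * (W' * W) := by
          rw [h2, one_mul, mul_one]
      _ = _ := by noncomm_ring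
  rw [e]
  calc ‖W' * L (b - b') * W‖ ≤ ‖W'‖ * ‖L (b - b')‖ * ‖W‖ :=
        (norm_mul_le _ _).trans (by gcongr; exact norm_mul_le _ _)
    _ ≤ ‖W'‖ * ((1 / 2) ^ n * ‖b‖) * ‖W‖ := by rw [hL]; gcongr
    _ = _ := by ring

theorem sim_unitary {ρ : A →⋆ₐ[ℂ] (E →L[ℂ] E)} {L : B →⋆ₐ[ℂ] (E →L[ℂ] E)} {W W' : E →L[ℂ] E}
    {γ : ℝ} (hγ : γ ≤ 1 / 100) (hρ : ∀ a, ‖ρ a‖ = ‖a‖)
    (h1 : W * W' = 1) (h2 : W' * W = 1) (hW : ‖W - 1‖ ≤ γ)
    (hin : ∀ a, ∃ b, L b = W * ρ a * W') (hout : ∀ b, ∃ a, ρ a = W' * L b * W) :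
    ∃ U ∈ unitary (E →L[ℂ] E), ‖U - 1‖ ≤ 4 * γ ∧ (∀ a, ∃ b, L b = U * ρ a * star U) ∧
      ∀ b, ∃ a, L b = U * ρ a * star U := by
  have hγ0 : 0 ≤ γ := (norm_nonneg _).trans hW
  obtain ⟨U, hU, Q, hQ0, ⟨q, hq⟩, hWU, hQQ, hU1, hQ1, -⟩ := polar_near W hW (by linarith)
  set Q' : E →L[ℂ] E := ↑q⁻¹ with hQ'
  have e1 : Q * Q' = 1 := by rw [← hq]; exact q.mul_inv
  have e2 : Q' * Q = 1 := by rw [← hq]; exact q.inv_mul
  have hUU : star U * U = 1 := (Unitary.mem_iff.1 hU).1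
  have hUU' : U * star U = 1 := (Unitary.mem_iff.1 hU).2
  have s1 : star W' * star W = 1 := by rw [← star_mul, h1, star_one]
  have s2 : star W * star W' = 1 := by rw [← star_mul, h2, star_one]
  have hQQ' : Q' * Q' = W' * star W' := by
    calc Q' * Q' = Q' * Q' * (star W * (W * W') * star W') := by
          rw [h1, mul_one, s2, mul_one]
      _ = Q' * Q' * (Q * Q) * W' * star W' := by rw [hQQ]; noncomm_ring
      _ = Q' * (Q' * Q) * Q * W' * star W' := by noncomm_ring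
      _ = _ := by rw [e2, mul_one, e2, one_mul]
  have hQ'1 : ‖Q' - 1‖ ≤ 6 * γ := by
    rcases subsingleton_or_nontrivial E with hE | hE
    · rw [Subsingleton.elim (Q' - 1) 0, norm_zero]; positivity
    · have := norm_inv_sub e2 hQ1 (by linarith); linarith
  have hQ6 : ‖Q - 1‖ ≤ 6 * γ := by linarith
  let S : Submodule ℂ (E →L[ℂ] E) := LinearMap.range (ρ : A →ₗ[ℂ] (E →L[ℂ] E))
  have hS : IsClosed (S : Set (E →L[ℂ] E)) := closed_range ρ hρ
  have cj : ∀ X Y : E →L[ℂ] E, ‖X - 1‖ ≤ 6 * γ → ‖Y - 1‖ ≤ 6 * γ →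
      (∀ a, ∃ a', ρ a' = X * X * ρ a * (Y * Y)) → ∀ a, ∃ a', ρ a' = X * ρ a * Y := by
    intro X Y hX hY h a
    refine sqrt_inv S hS ((LinearMap.mulLeft ℂ X).comp (LinearMap.mulRight ℂ Y)) (fun y => ?_)
      ?_ (ρ a) ⟨a, rfl⟩ |>.imp fun a' ha' => ?_
    · simp only [LinearMap.comp_apply, LinearMap.mulLeft_apply, LinearMap.mulRight_apply]
      rw [norm_sub_rev, ← mul_assoc]
      refine (norm_conj_sub hX hY).trans ?_
      gcongr
      nlinarith
    · rintro _ ⟨a, rfl⟩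
      obtain ⟨a', ha'⟩ := h a
      refine ⟨a', ?_⟩
      change ρ a' = X * (X * (ρ a * Y) * Y)
      rw [ha']; noncomm_ring
    · change ρ a' = X * (ρ a * Y) at ha'
      rw [ha', mul_assoc]
  have c1 : ∀ a, ∃ a', ρ a' = Q * ρ a * Q' := by
    refine cj Q Q' hQ6 hQ'1 fun a => ?_
    obtain ⟨b, hb⟩ := hin a
    obtain ⟨a', ha'⟩ := hout (star b)
    refine ⟨star a', ?_⟩
    rw [map_star, ha', map_star, star_mul, star_mul, star_star, hb, hQQ, hQQ']
    noncomm_ring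
  have c2 : ∀ a, ∃ a', ρ a' = Q' * ρ a * Q := by
    refine cj Q' Q hQ'1 hQ6 fun a => ?_
    obtain ⟨b, hb⟩ := hin (star a)
    obtain ⟨a', ha'⟩ := hout (star b)
    refine ⟨a', ?_⟩
    rw [ha', map_star, hb, map_star, star_mul, star_mul, star_star, hQQ, hQQ']
    noncomm_ring
  have hUW : U = W * Q' := by rw [hWU, mul_assoc, e1, mul_one]
  have hUs : star U = Q * W' := by
    calc star U = star U * (W * W') := by rw [h1, mul_one]
      _ = (star U * U) * Q * W' := by rw [hWU]; noncomm_ring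
      _ = _ := by rw [hUU, one_mul]
  refine ⟨U, hU, hU1, fun a => ?_, fun b => ?_⟩
  · obtain ⟨a', ha'⟩ := c2 a
    obtain ⟨b, hb⟩ := hin a'
    refine ⟨b, ?_⟩
    rw [hUs, hb, ha']
    nth_rewrite 1 [hUW]
    noncomm_ring
  · obtain ⟨a, ha⟩ := hout b
    obtain ⟨a', ha'⟩ := c1 a
    refine ⟨a', ?_⟩
    rw [hUs, ha', ha]
    nth_rewrite 1 [hUW]
    calc L b = (W * W') * L b * (W * W') := by rw [h1, one_mul, mul_one]
      _ = W * (Q' * Q) * (W' * L b * W) * (Q' * Q) * W' := by rw [e2]; noncomm_ring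
      _ = _ := by noncomm_ring

theorem exists_hom₃ {ρ : A →⋆ₐ[ℂ] (E →L[ℂ] E)} {L : B →⋆ₐ[ℂ] (E →L[ℂ] E)} {U : E →L[ℂ] E}
    (hL : Function.Injective L) (hU : U ∈ unitary (E →L[ℂ] E))
    (h : ∀ a, ∃ b, L b = U * ρ a * star U) :
    ∃ θ : A →⋆ₐ[ℂ] B, ∀ a, L (θ a) = U * ρ a * star U := by
  choose θ hθ using h
  have hUU : star U * U = 1 := (Unitary.mem_iff.1 hU).1
  have hUU' : U * star U = 1 := (Unitary.mem_iff.1 hU).2
  refine ⟨{ toFun := θ
            map_one' := hL (by rw [hθ, map_one, map_one, mul_one, hUU'])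
            map_mul' := fun x y => hL ?_
            map_zero' := hL (by rw [hθ, map_zero, map_zero, mul_zero, zero_mul])
            map_add' := fun x y => hL (by rw [map_add, hθ, hθ, hθ, map_add]; noncomm_ring)
            commutes' := fun c => hL ?_
            map_star' := fun x => hL ?_ }, hθ⟩
  · rw [map_mul, hθ, hθ, hθ, map_mul]
    calc U * (ρ x * ρ y) * star U = U * ρ x * (star U * U) * ρ y * star U := by
          rw [hUU]; noncomm_ring
      _ = _ := by noncomm_ring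
  · rw [hθ, AlgHomClass.commutes, AlgHomClass.commutes, ← Algebra.commutes, mul_assoc, hUU',
      mul_one]
  · rw [hθ, map_star, map_star, hθ, star_mul, star_mul, star_star, mul_assoc]

end Abs

theorem final : FinalStmt.{u} := by
  have hK := distK_pos
  refine ⟨110 * distK + 100, by linarith, ?_⟩
  intro H _ _ _ M N E _ _ _ ρ L W W' γ hγ0 hC hρ hL h1 h2 hW hW' hin hMN hNM hd
  have hγ : γ ≤ 1 / 100 := by nlinarith
  have hKγ : distK * (11 * γ) ≤ 1 / 10 := by nlinarith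
  have hout := sim_onto (by linarith) hρ hL h2 hW hW' hin (fun b => by
    obtain ⟨a, ha, h3, h4⟩ := hNM b.1 b.2
    refine ⟨⟨a, ha⟩, h3, (hd ⟨a, ha⟩ b).trans ?_⟩
    rw [norm_sub_rev] at h4
    have h5 : γ * ‖a‖ ≤ γ * ‖b.1‖ := mul_le_mul_of_nonneg_left h3 hγ0
    change ‖a - b.1‖ + γ * ‖a‖ ≤ 2 * γ * ‖b.1‖
    linarith)
  obtain ⟨U, hU, hU1, hU2, hU3⟩ := sim_unitary hγ hρ h1 h2 hW hin hout
  obtain ⟨θ, hθ⟩ := exists_hom₃ (inj_of_iso L hL) hU hU2
  have hnear : ∀ a : Alg M, ‖a.1 - (θ a).1‖ ≤ 11 * γ * ‖a‖ := by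
    intro a
    obtain ⟨b, hb, h3, h4⟩ := hMN a.1 a.2
    have h5 := hd a ⟨b, hb⟩
    have h6 : ‖U * ρ a * star U - ρ a‖ ≤ 8 * γ * ‖a‖ := by
      have e : U * ρ a * star U - ρ a = ((U - 1) * ρ a - ρ a * (U - 1)) * star U := by
        calc U * ρ a * star U - ρ a = U * ρ a * star U - ρ a * (U * star U) := by
              rw [(Unitary.mem_iff.1 hU).2, mul_one]
          _ = _ := by noncomm_ring
      rw [e, CStarRing.norm_mul_mem_unitary _ (Unitary.star_mem hU)]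
      have a1 := norm_mul_le (U - 1) (ρ a)
      have a2 := norm_mul_le (ρ a) (U - 1)
      have a3 := norm_sub_le ((U - 1) * ρ a) (ρ a * (U - 1))
      rw [hρ] at a1 a2
      nlinarith [norm_nonneg a]
    have h7 : ‖(θ a).1 - b‖ ≤ 10 * γ * ‖a‖ := by
      change ‖θ a - ⟨b, hb⟩‖ ≤ _
      rw [← hL, map_sub, hθ]
      have e : U * ρ a * star U - L ⟨b, hb⟩ = (U * ρ a * star U - ρ a) + (ρ a - L ⟨b, hb⟩) := by
        abel
      rw [e]
      refine (norm_add_le _ _).trans ?_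
      change ‖a.1 - b‖ ≤ γ * ‖a‖ at h4
      linarith
    have e : a.1 - (θ a).1 = (a.1 - b) - ((θ a).1 - b) := by abel
    rw [e]
    refine (norm_sub_le _ _).trans ?_
    change ‖a.1 - b‖ ≤ γ * ‖a‖ at h4
    linarith
  obtain ⟨T, hT, hT1⟩ := dist_intertw M.toStarSubalgebra.subtype
    (N.toStarSubalgebra.subtype.comp θ) 1 (c := 11 * γ) (by positivity) (fun a => by
      rw [one_mul, mul_one]; exact hnear a)
  replace hT : ∀ a : Alg M, T * a.1 = (θ a).1 * T := hT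
  rw [norm_sub_rev] at hT1
  obtain ⟨u, hu, Q, -, hQ, hTu, -, hu1, -, hcm⟩ := polar_near T hT1 hKγ
  have hua : ∀ a : Alg M, u * a.1 * star u = (θ a).1 := by
    intro a
    have c1 : Commute a.1 (star T * T) := by
      have h3 := congrArg star (hT (star a))
      rw [map_star, star_mul, star_mul] at h3
      change star (star a.1) * star T = star T * star (star (θ a).1) at h3
      rw [star_star, star_star] at h3
      change a.1 * (star T * T) = star T * T * a.1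
      rw [← mul_assoc, h3, mul_assoc, ← hT, mul_assoc]
    have c2 := (hcm _ c1).eq
    have h3 : u * a.1 = (θ a).1 * u := by
      refine hQ.mul_right_cancel ?_
      rw [mul_assoc, c2, ← mul_assoc, ← hTu, hT, mul_assoc, ← hTu]
    rw [h3, mul_assoc, (Unitary.mem_iff.1 hu).2, mul_one]
  refine ⟨u, hu, hu1.trans (by nlinarith), ?_⟩
  ext y
  constructor
  · rintro ⟨x, hx, rfl⟩
    change u * x * star u ∈ N
    rw [hua ⟨x, hx⟩]
    exact (θ ⟨x, hx⟩).2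
  · intro hy
    obtain ⟨a, ha⟩ := hU3 ⟨y, hy⟩
    rw [← hθ] at ha
    refine ⟨a.1, a.2, ?_⟩
    change u * a.1 * star u = y
    rw [hua, ← inj_of_iso L hL ha]

end Vale.Agent.P096
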