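import Vale.Agent.P096.Form0

/-! The standard form of a tracial factor inside a finite amplification. -/

namespace Vale.Agent.P096

open scoped InnerProductSpace ComplexOrder BigOperators ComplexConjugate
open Filter Topology Vale.Agent.P104 Vale.Agent.P082 Finset

universe u

section Amp

variable {H : Type u} [NormedAddCommGroup H] [InnerProductSpace ℂ H] [CompleteSpace H]
  {I : Type} [Fintype I] [DecidableEq I]

omit [CompleteSpace H] in
theorem amp_apply (x : H →L[ℂ] H) (ζ : PiLp 2 (fun _ : I => H)) (i : I) :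
    amp I x ζ i = x (ζ i) := by
  simp [amp, matOp_apply, DFunLike.ite_apply]

variable (I H) in
/-- The diagonal amplification as a homomorphism. -/
noncomputable def ampHom :
    (H →L[ℂ] H) →⋆ₐ[ℂ] (PiLp 2 (fun _ : I => H) →L[ℂ] PiLp 2 (fun _ : I => H)) where
  toFun := amp I
  map_one' := by ext ζ i; simp [amp_apply]
  map_mul' x y := by ext ζ i; simp [amp_apply]
  map_zero' := by ext ζ i; simp [amp_apply]
  map_add' x y := by ext ζ i; simp [amp_apply]
  commutes' c := by ext ζ i; simp [amp_apply, Algebra.algebraMap_eq_smul_one]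
  map_star' x := ((ContinuousLinearMap.eq_adjoint_iff _ _).2 fun a b => by
    simp only [PiLp.inner_apply, amp_apply, inner_star_left])

theorem ampHom_apply (x : H →L[ℂ] H) : ampHom H I x = amp I x := rfl

theorem amp_mul (x y : H →L[ℂ] H) : amp I (x * y) = amp I x * amp I y := map_mul (ampHom H I) x y

theorem amp_star (x : H →L[ℂ] H) : amp I (star x) = star (amp I x) := map_star (ampHom H I) x

theorem amp_sub (x y : H →L[ℂ] H) : amp I (x - y) = amp I x - amp I y := map_sub (ampHom H I) x y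

theorem amp_one : amp I (1 : H →L[ℂ] H) = 1 := map_one (ampHom H I)

theorem norm_amp_le (x : H →L[ℂ] H) : ‖amp I x‖ ≤ ‖x‖ :=
  NonUnitalStarAlgHom.norm_apply_le (ampHom H I) x

end Amp

theorem exists_gns {A : Type u} [CStarAlgebra A] [PartialOrder A] [StarOrderedRing A]
    (τ : A →ₗ[ℂ] ℂ) (tr : ∀ x y, τ (x * y) = τ (y * x)) (pos : ∀ x, 0 ≤ τ (star x * x)) :
    ∃ (E : Type u) (_ : NormedAddCommGroup E) (_ : InnerProductSpace ℂ E) (_ : CompleteSpace E)
      (Λ : A →ₗ[ℂ] E), Tr τ Λ ∧ DenseRange Λ := by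
  let φ : A →ₚ[ℂ] ℂ := .mk₀ τ fun y hy => by
    obtain ⟨s, rfl⟩ := CStarAlgebra.nonneg_iff_eq_star_mul_self.1 hy
    exact pos s
  exact ⟨φ.GNS, inferInstance, inferInstance, inferInstance,
    (UniformSpace.Completion.toComplL : φ.PreGNS →L[ℂ] φ.GNS).toLinearMap ∘ₗ
      φ.toPreGNS.toLinearMap, ⟨tr, fun x y => UniformSpace.Completion.inner_coe _ _⟩,
    UniformSpace.Completion.denseRange_coe (α := φ.PreGNS)⟩

theorem form : FormStmt.{u} := by
  intro H _ _ _ _ N τ hT
  classical
  obtain ⟨E, _, _, _, Λ, h, hd⟩ := exists_gns τ hT.tr hT.pos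
  obtain ⟨L, R, hS, hL, hR⟩ := exists_std h hd hT.one hT.faith
  obtain ⟨I, _, ξ, η, hτ⟩ := hT.vec
  obtain ⟨V, V1, V2⟩ := exists_iso h hd hL ((ampHom H I).comp N.toStarSubalgebra.subtype)
    (WithLp.toLp 2 ξ) (WithLp.toLp 2 η) fun a => by
      rw [hτ, PiLp.inner_apply]
      exact sum_congr rfl fun i _ => congrArg _ (amp_apply a.1 (WithLp.toLp 2 ξ) i).symm
  have iso : Isometry V := AddMonoidHomClass.isometry_of_norm V V1
  have : SecondCountableTopology E := iso.isEmbedding.secondCountableTopology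
  refine ⟨I, inferInstance, inferInstance, E, inferInstance, inferInstance, inferInstance,
    inferInstance, V, L, R, Λ 1, hS, V1, V2, fun b => by
      rw [hL, h.inner, star_one, one_mul, mul_one], fun T hc => ?_⟩
  have k : ∀ z, R z (T (Λ 1)) = T (Λ z) := fun z => by
    rw [← mul_apply_eq_comp, ← hc, mul_apply_eq_comp, hR, one_mul]
  have ex : ∀ m : ℕ, ∃ n : Alg N, ‖n‖ ≤ 3 * (‖T‖ + 1) ∧
      ‖T (Λ 1) - L n (Λ 1)‖ ≤ 5 * (1 / ((m : ℝ) + 1)) := fun m =>
    hS.trunc _ (by positivity) (by positivity) fun z => by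
      rw [k, hL, mul_one]
      have := T.le_opNorm (Λ z)
      have h1 : 0 ≤ 1 / ((m : ℝ) + 1) * ‖z‖ := by positivity
      nlinarith [norm_nonneg (Λ z)]
  choose n n1 n2 using ex
  let U : Ultrafilter ℕ := Ultrafilter.of atTop
  have lim : Tendsto (fun m => Λ (n m)) atTop (𝓝 (T (Λ 1))) := by
    rw [tendsto_iff_norm_sub_tendsto_zero]
    refine squeeze_zero (fun _ => norm_nonneg _) (fun m => ?_)
      (by simpa using (tendsto_one_div_add_atTop_nhds_zero_nat (𝕜 := ℝ)).const_mul 5)
    have := n2 m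
    rw [hL, mul_one, norm_sub_rev] at this
    simpa using this
  have e : Λ (wlim U n) = T (Λ 1) := ext_inner_left ℂ fun y => hd.induction_on y
    (isClosed_eq (by fun_prop) (by fun_prop)) fun y => by
      rw [h.inner, ← wlim_mul_left n1]
      refine tendsto_nhds_unique (Glue.vec_wlim hT.vec fun m => nm_le le_rfl (n1 m)) ?_
      simp only [← h.inner]
      exact tendsto_const_nhds.inner (lim.mono_left (Ultrafilter.of_le atTop))
  exact ⟨wlim U n, ext_dense hd fun z => by rw [hL, ← hR, e, k]⟩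

end Vale.Agent.P096
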