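import Mathlib

/-! The Newton iteration for almost representations with respect to an invariant mean. -/

namespace Vale.Agent.P096

open Filter Topology

variable {Γ A : Type*} [Group Γ] [CStarAlgebra A]

/-- An invariant mean on bounded functions with values in `A`. -/
structure Mean (m : (Γ → A) → A) : Prop where
  add : ∀ (f f' : Γ → A) (C C' : ℝ), (∀ g, ‖f g‖ ≤ C) → (∀ g, ‖f' g‖ ≤ C') →
    m (fun g => f g + f' g) = m f + m f'
  left : ∀ (f : Γ → A) (C : ℝ) (y : A), (∀ g, ‖f g‖ ≤ C) → m (fun g => y * f g) = y * m f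
  right : ∀ (f : Γ → A) (C : ℝ) (y : A), (∀ g, ‖f g‖ ≤ C) → m (fun g => f g * y) = m f * y
  const : ∀ y, m (fun _ => y) = y
  norm : ∀ (f : Γ → A) (C : ℝ), (∀ g, ‖f g‖ ≤ C) → ‖m f‖ ≤ C
  inv : ∀ (f : Γ → A) (C : ℝ) (g : Γ), (∀ g, ‖f g‖ ≤ C) → m (fun h => f (g * h)) = m f

theorem Mean.sub {m : (Γ → A) → A} (hm : Mean m) (f f' : Γ → A) (C C' : ℝ) (h : ∀ g, ‖f g‖ ≤ C)
    (h' : ∀ g, ‖f' g‖ ≤ C') : m (fun g => f g - f' g) = m f - m f' := by
  have h1 := hm.add (fun g => f g - f' g) f' (C + C') C'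
    (fun g => (norm_sub_le _ _).trans (add_le_add (h g) (h' g))) h'
  simp only [sub_add_cancel] at h1
  rw [eq_sub_iff_add_eq, ← h1]

/-- A symmetric almost representation with defect `d`. -/
structure Apx (s : Γ → A) (d : ℝ) : Prop where
  one : s 1 = 1
  st : ∀ g, star (s g) = s g⁻¹
  df : ∀ g h, ‖s (g * h) - s g * s h‖ ≤ d

theorem norm_one_le' : ‖(1 : A)‖ ≤ 1 := by
  have h : ‖(1 : A)‖ = ‖(1 : A)‖ * ‖(1 : A)‖ := by
    simpa using CStarRing.norm_star_mul_self (x := (1 : A))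
  nlinarith [norm_nonneg (1 : A)]

theorem Apx.norm_le {s : Γ → A} {d : ℝ} (h : Apx s d) (hd : d ≤ 1 / 10) (g : Γ) :
    ‖s g‖ ≤ 11 / 10 := by
  have h1 := h.df g⁻¹ g
  rw [inv_mul_cancel, h.one, ← h.st] at h1
  have h2 := norm_sub_le (1 : A) (1 - star (s g) * s g)
  rw [sub_sub_cancel, CStarRing.norm_star_mul_self] at h2
  have := norm_one_le' (A := A)
  nlinarith [norm_nonneg (s g)]

theorem nm_le {x y : A} {a b : ℝ} (hx : ‖x‖ ≤ a) (hy : ‖y‖ ≤ b) : ‖x * y‖ ≤ a * b :=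
  (norm_mul_le _ _).trans (mul_le_mul hx hy (norm_nonneg _) ((norm_nonneg _).trans hx))

theorem newton {m : (Γ → A) → A} (hm : Mean m) {s : Γ → A} {d : ℝ} (h : Apx s d)
    (hd : d ≤ 1 / 10) : ∃ n : Γ → A, n 1 = 0 ∧ (∀ g, ‖n g‖ ≤ d * (11 / 10)) ∧ ∀ g k,
      ‖s (g * k) + n (g * k) - (s g + n g) * (s k + n k)‖ ≤ 321 / 100 * d ^ 2 := by
  set D : Γ → Γ → A := fun g k => s (g * k) - s g * s k with hD
  have hDn : ∀ g k, ‖D g k‖ ≤ d := h.df
  have hb : ∀ g k, ‖D g k * s k⁻¹‖ ≤ d * (11 / 10) := fun g k => nm_le (hDn _ _) (h.norm_le hd _)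
  set n : Γ → A := fun g => m fun k => D g k * s k⁻¹ with hn
  have hnn : ∀ g, ‖n g‖ ≤ d * (11 / 10) := fun g => hm.norm _ _ (hb g)
  refine ⟨n, ?_, hnn, fun g k => ?_⟩
  · simp only [hn, hD, one_mul, h.one, sub_self, zero_mul, hm.const]
  · have e1 : s g * n k = m fun l => s g * (D k l * s l⁻¹) := (hm.left _ _ _ (hb k)).symm
    have e2 : n g * s k = m fun l => D g (k * l) * s (k * l)⁻¹ * s k := by
      rw [hm.right _ _ _ (fun l => hb g (k * l)), hm.inv (fun l => D g l * s l⁻¹) _ k (hb g)]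
    have b1 : ∀ l, ‖s g * (D k l * s l⁻¹)‖ ≤ 11 / 10 * (d * (11 / 10)) := fun l =>
      nm_le (h.norm_le hd _) (hb _ _)
    have b2 : ∀ l, ‖D g (k * l) * s (k * l)⁻¹ * s k‖ ≤ d * (11 / 10) * (11 / 10) := fun l =>
      nm_le (hb _ _) (h.norm_le hd _)
    have b3 : ∀ l, ‖D g k + D (g * k) l * s l⁻¹‖ ≤ d + d * (11 / 10) := fun l =>
      (norm_add_le _ _).trans (add_le_add (hDn _ _) (hb _ _))
    have b4 : ∀ l, ‖D g k + D (g * k) l * s l⁻¹ - s g * (D k l * s l⁻¹)‖ ≤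
        d + d * (11 / 10) + 11 / 10 * (d * (11 / 10)) := fun l =>
      (norm_sub_le _ _).trans (add_le_add (b3 _) (b1 _))
    have e3 : D g k + n (g * k) - s g * n k - n g * s k =
        m fun l => D g k * D l l⁻¹ + D g (k * l) * D (k * l)⁻¹ k := by
      rw [e1, e2]
      conv_lhs => rw [← hm.const (D g k)]
      rw [← hm.add _ _ _ _ (fun _ => hDn g k) (hb _), ← hm.sub _ _ _ _ b3 b1,
        ← hm.sub _ _ _ _ b4 b2]
      congr 1
      funext l
      have : (k * l)⁻¹ * k = l⁻¹ := by group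
      simp only [hD, mul_inv_cancel, h.one, this, mul_assoc g k l]
      noncomm_ring
    have e4 : s (g * k) + n (g * k) - (s g + n g) * (s k + n k) =
        (D g k + n (g * k) - s g * n k - n g * s k) - n g * n k := by
      simp only [hD]; noncomm_ring
    rw [e4, e3]
    have c1 := hm.norm (fun l => D g k * D l l⁻¹ + D g (k * l) * D (k * l)⁻¹ k) (d * d + d * d)
      fun l => (norm_add_le _ _).trans (add_le_add (nm_le (hDn _ _) (hDn _ _))
        (nm_le (hDn _ _) (hDn _ _)))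
    have c2 := nm_le (hnn g) (hnn k)
    refine (norm_sub_le _ _).trans ?_
    nlinarith

theorem step {m : (Γ → A) → A} (hm : Mean m) {s : Γ → A} {d : ℝ} (h : Apx s d)
    (hd : d ≤ 1 / 10) : ∃ s' : Γ → A, Apx s' (d / 2) ∧ ∀ g, ‖s g - s' g‖ ≤ 2 * d := by
  obtain ⟨n, n1, hn, hD⟩ := newton hm h hd
  have hd0 : 0 ≤ d := (norm_nonneg _).trans (h.df 1 1)
  set t : Γ → A := fun g => s g + n g with ht
  set t' : Γ → A := fun g => star (t g⁻¹) with ht'
  have ht'e : ∀ g, t' g = s g + star (n g⁻¹) := fun g => by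
    simp only [ht', ht, star_add, h.st, inv_inv]
  have hD' : ∀ g k, ‖t' (g * k) - t' g * t' k‖ ≤ 321 / 100 * d ^ 2 := fun g k => by
    have := hD k⁻¹ g⁻¹
    rw [← norm_star, star_sub, star_mul, ← mul_inv_rev] at this
    exact this
  have hdiff : ∀ g, ‖t g - t' g‖ ≤ d * (22 / 10) := fun g => by
    rw [ht'e, ht, add_sub_add_left_eq_sub]
    refine (norm_sub_le _ _).trans ?_
    rw [norm_star]
    linarith [hn g, hn g⁻¹]
  have half : ‖(2⁻¹ : ℂ)‖ = 1 / 2 := by simp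
  refine ⟨fun g => (2⁻¹ : ℂ) • (t g + t' g), ⟨?_, fun g => ?_, fun g k => ?_⟩, fun g => ?_⟩
  · simp only [ht', ht, inv_one, n1, h.one, add_zero, star_one]
    module
  · simp only [ht', star_smul, star_add, star_star, inv_inv, star_inv₀, star_ofNat]
    rw [add_comm]
  · have e : (2⁻¹ : ℂ) • (t (g * k) + t' (g * k)) - (2⁻¹ : ℂ) • (t g + t' g) *
        (2⁻¹ : ℂ) • (t k + t' k) = (2⁻¹ : ℂ) • ((t (g * k) - t g * t k) +
          (t' (g * k) - t' g * t' k) + (2⁻¹ : ℂ) • ((t g - t' g) * (t k - t' k))) := by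
      simp only [smul_mul_smul_comm, mul_add, add_mul, mul_sub, sub_mul]
      module
    rw [e, norm_smul, half]
    have c1 := norm_add₃_le (a := t (g * k) - t g * t k) (b := t' (g * k) - t' g * t' k)
      (c := (2⁻¹ : ℂ) • ((t g - t' g) * (t k - t' k)))
    rw [norm_smul, half] at c1
    have c2 := nm_le (hdiff g) (hdiff k)
    have c3 : ‖t (g * k) - t g * t k‖ ≤ 321 / 100 * d ^ 2 := hD g k
    have c4 := hD' g k
    nlinarith
  · have e : s g - (2⁻¹ : ℂ) • (t g + t' g) = -((2⁻¹ : ℂ) • (n g + star (n g⁻¹))) := by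
      rw [ht'e, ht]; module
    rw [e, norm_neg, norm_smul, half]
    have := norm_add_le (n g) (star (n g⁻¹))
    rw [norm_star] at this
    linarith [hn g, hn g⁻¹]

theorem exists_grp_hom {m : (Γ → A) → A} (hm : Mean m) {s : Γ → A} {d : ℝ} (h : Apx s d)
    (hd : d ≤ 1 / 10) : ∃ σ : Γ →* A, (∀ g, star (σ g) = σ g⁻¹) ∧ ∀ g, ‖s g - σ g‖ ≤ 4 * d := by
  have hd0 : 0 ≤ d := (norm_nonneg _).trans (h.df 1 1)
  have hk : ∀ k : ℕ, d / 2 ^ k ≤ 1 / 10 := fun k =>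
    (div_le_self hd0 (one_le_pow₀ one_le_two)).trans hd
  have key : ∀ (k : ℕ) (x : {s : Γ → A // Apx s (d / 2 ^ k)}),
      ∃ y : {s : Γ → A // Apx s (d / 2 ^ (k + 1))}, ∀ g, ‖x.1 g - y.1 g‖ ≤ 2 * (d / 2 ^ k) :=
    fun k x => by
      obtain ⟨s', h1, h2⟩ := step hm x.2 (hk k)
      exact ⟨⟨s', by rwa [pow_succ, ← div_div]⟩, h2⟩
  choose F hF using key
  let x : ∀ k : ℕ, {s : Γ → A // Apx s (d / 2 ^ k)} := fun k =>
    Nat.rec ⟨s, by simpa using h⟩ (fun k y => F k y) k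
  have hx : ∀ g k, dist ((x k).1 g) ((x (k + 1)).1 g) ≤ 4 * d / 2 / 2 ^ k := fun g k => by
    rw [dist_eq_norm]
    refine (hF k (x k) g).trans_eq ?_
    ring
  have hc : ∀ g, ∃ a, Tendsto (fun k => (x k).1 g) atTop (𝓝 a) := fun g =>
    cauchySeq_tendsto_of_complete (cauchySeq_of_le_geometric_two (hx g))
  choose σ hσ using hc
  have h0 : Tendsto (fun k : ℕ => d / 2 ^ k) atTop (𝓝 0) :=
    tendsto_const_nhds.div_atTop (tendsto_pow_atTop_atTop_of_one_lt one_lt_two)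
  have h1 : σ 1 = 1 := tendsto_nhds_unique (hσ 1) (by
    simp only [(x _).2.one]; exact tendsto_const_nhds)
  have h2 : ∀ g k, σ (g * k) = σ g * σ k := fun g k => by
    rw [← sub_eq_zero, ← norm_le_zero_iff]
    exact le_of_tendsto_of_tendsto' ((hσ (g * k)).sub ((hσ g).mul (hσ k))).norm h0
      fun j => (x j).2.df g k
  refine ⟨⟨⟨σ, h1⟩, h2⟩, fun g => ?_, fun g => ?_⟩
  · refine tendsto_nhds_unique (hσ g).star ?_
    simp only [(x _).2.st]
    exact hσ g⁻¹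
  · have := dist_le_of_le_geometric_two_of_tendsto₀ (hx g) (hσ g)
    rwa [dist_eq_norm] at this

end Vale.Agent.P096
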