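import Vale.Agent.P096.Stmts
import Vale.Agent.P096.Kaz0
import Vale.Agent.P096.Polar

/-! Stability and conjugacy of representations of locally finite groups. -/

namespace Vale.Agent.P096

open scoped InnerProductSpace BigOperators
open Filter Topology Vale.Agent.P104 Vale.Agent.P082 Finset

universe u

section Av

variable {Γ V : Type*}

theorem av_norm_le [SeminormedAddCommGroup V] [NormedSpace ℂ V] {s : Finset Γ} (hs : s.Nonempty)
    {f : Γ → V} {C : ℝ} (h : ∀ g, ‖f g‖ ≤ C) : ‖av s f‖ ≤ C := by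
  have hc : (0 : ℝ) < s.card := by exact_mod_cast hs.card_pos
  rw [av, norm_smul, norm_inv, Complex.norm_natCast, inv_mul_le_iff₀ hc]
  refine (norm_sum_le _ _).trans ?_
  simpa using sum_le_card_nsmul s (fun g => ‖f g‖) C fun g _ => h g

theorem av_add [AddCommGroup V] [Module ℂ V] (s : Finset Γ) (f f' : Γ → V) :
    av s (fun g => f g + f' g) = av s f + av s f' := by
  simp only [av, sum_add_distrib, smul_add]

theorem av_const [AddCommGroup V] [Module ℂ V] {s : Finset Γ} (hs : s.Nonempty) (y : V) :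
    av s (fun _ => y) = y := by
  have hc : (s.card : ℂ) ≠ 0 := by exact_mod_cast hs.card_pos.ne'
  rw [av, sum_const, ← Nat.cast_smul_eq_nsmul ℂ, smul_smul, inv_mul_cancel₀ hc, one_smul]

theorem av_mul_left [Ring V] [Algebra ℂ V] (s : Finset Γ) (f : Γ → V) (y : V) :
    av s (fun g => y * f g) = y * av s f := by
  simp only [av, ← mul_sum, mul_smul_comm]

theorem av_mul_right [Ring V] [Algebra ℂ V] (s : Finset Γ) (f : Γ → V) (y : V) :
    av s (fun g => f g * y) = av s f * y := by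
  simp only [av, ← sum_mul, smul_mul_assoc]

theorem av_shift [Group Γ] [AddCommGroup V] [Module ℂ V] {G : ℕ → Finset Γ} (hG : LocFin G)
    {k : ℕ} {g : Γ} (hg : g ∈ G k) (f : Γ → V) : av (G k) (fun h => f (g * h)) = av (G k) f := by
  unfold av
  congr 1
  refine sum_bij' (fun h _ => g * h) (fun h _ => g⁻¹ * h) (fun h hh => hG.mul k g hg h hh)
    (fun h hh => hG.mul k _ (hG.inv k g hg) h hh) (fun h _ => by simp) (fun h _ => by simp)
    fun _ _ => rfl

end Av

section VN

variable {K : Type*} [NormedAddCommGroup K] [InnerProductSpace ℂ K] [CompleteSpace K]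
  {Γ : Type*} [Group Γ]

/-- The invariant mean of a locally finite group. -/
noncomputable def mean (P : VonNeumannAlgebra K) (G : ℕ → Finset Γ) (f : Γ → Alg P) : Alg P :=
  wlim (Ultrafilter.of (atTop : Filter ℕ)) fun k => av (G k) f

theorem mean_spec (P : VonNeumannAlgebra K) {G : ℕ → Finset Γ} (hG : LocFin G) :
    Mean (mean P G) := by
  have ne : ∀ k, (G k).Nonempty := fun k => ⟨1, hG.one k⟩
  refine ⟨fun f f' C C' h h' => ?_, fun f C y h => ?_, fun f C y h => ?_, fun y => ?_,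
    fun f C h => ?_, fun f C g h => ?_⟩
  · simp only [mean, av_add]
    exact wlim_add (fun k => av_norm_le (ne k) h) fun k => av_norm_le (ne k) h'
  · simp only [mean, av_mul_left]
    exact wlim_mul_left (fun k => av_norm_le (ne k) h) y
  · simp only [mean, av_mul_right]
    exact wlim_mul_right (fun k => av_norm_le (ne k) h) y
  · simp only [mean, av_const (ne _)]
    exact wlim_const y
  · exact wlim_norm_le fun k => av_norm_le (ne k) h
  · refine wlim_congr (fun k => av_norm_le (ne k) fun _ => h _) (fun k => av_norm_le (ne k) h) ?_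
    obtain ⟨k₀, hk₀⟩ := hG.all g
    exact Ultrafilter.of_le _ ((eventually_ge_atTop k₀).mono fun k hk =>
      av_shift hG (hG.mono hk hk₀) f)

theorem rep_norm_le {A : Type*} [CStarAlgebra A] (ρ : Γ →* A) (h : ∀ g, star (ρ g) = ρ g⁻¹)
    (g : Γ) : ‖ρ g‖ ≤ 1 := by
  have h1 : ‖ρ g‖ * ‖ρ g‖ ≤ 1 := by
    rw [← CStarRing.norm_star_mul_self, h, ← map_mul, inv_mul_cancel, map_one]
    exact norm_one_le'
  nlinarith [norm_nonneg (ρ g)]

/-- All bounded operators as a von Neumann algebra. -/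
noncomputable def allOp (K : Type*) [NormedAddCommGroup K] [InnerProductSpace ℂ K] [CompleteSpace K] :
    VonNeumannAlgebra K :=
  ⟨⊤, Set.Subset.antisymm (fun _ _ => trivial) Set.subset_centralizer_centralizer⟩

end VN

theorem kaz : KazStmt.{u} := by
  intro K _ _ _ P Γ _ G ρ δ hG hρ h0 hδ hx
  classical
  choose x hxP hx using hx
  let y : Γ → Alg P := fun g => ⟨x g, hxP g⟩
  let s : Γ → Alg P := fun g => if g = 1 then 1 else (2⁻¹ : ℂ) • (y g + star (y g⁻¹))
  have hs : ∀ g, ‖ρ g - (s g).1‖ ≤ δ := fun g => by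
    by_cases hg : g = 1
    · simp [s, hg, h0]
    · have e : ρ g - (s g).1 = (2⁻¹ : ℂ) • ((ρ g - x g) + star (ρ g⁻¹ - x g⁻¹)) := by
        simp only [s, if_neg hg]
        change ρ g - (2⁻¹ : ℂ) • (x g + star (x g⁻¹)) = _
        rw [star_sub, hρ, inv_inv]
        module
      have half : ‖(2⁻¹ : ℂ)‖ = 1 / 2 := by simp
      have := norm_add_le (ρ g - x g) (star (ρ g⁻¹ - x g⁻¹))
      rw [e, norm_smul, half]
      rw [norm_star] at this
      linarith [hx g, hx g⁻¹]
  have hA : Apx s (4 * δ) := by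
    refine ⟨by simp [s], fun g => ?_, fun g h => ?_⟩
    · by_cases hg : g = 1
      · simp [s, hg]
      · simp only [s, if_neg hg, if_neg (inv_ne_one.2 hg), star_smul, star_add, star_star, inv_inv,
          star_inv₀, star_ofNat]
        rw [add_comm]
    · change ‖(s (g * h)).1 - (s g).1 * (s h).1‖ ≤ _
      have e : (s (g * h)).1 - (s g).1 * (s h).1 = -(ρ (g * h) - (s (g * h)).1) +
          ρ g * (ρ h - (s h).1) + ((ρ g - (s g).1) * ρ h - (ρ g - (s g).1) * (ρ h - (s h).1)) := by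
        rw [map_mul]; noncomm_ring
      rw [e]
      refine norm_add₃_le.trans ?_
      rw [norm_neg]
      have c1 := nm_le (rep_norm_le ρ hρ g) (hs h)
      have c2 := nm_le (hs g) (rep_norm_le ρ hρ h)
      have c3 := nm_le (hs g) (hs h)
      have c4 := norm_sub_le ((ρ g - (s g).1) * ρ h) ((ρ g - (s g).1) * (ρ h - (s h).1))
      nlinarith [hs (g * h)]
  obtain ⟨σ, σ1, σ2⟩ := exists_grp_hom (mean_spec P hG) hA (by linarith)
  refine ⟨(P.toStarSubalgebra.subtype : Alg P →* (K →L[ℂ] K)).comp σ, fun g => (σ g).2,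
    fun g => congrArg Subtype.val (σ1 g), fun g => ?_⟩
  change ‖ρ g - (σ g).1‖ ≤ _
  have h1 : ‖(s g).1 - (σ g).1‖ ≤ 4 * (4 * δ) := σ2 g
  have h2 := norm_sub_le_norm_sub_add_norm_sub (ρ g) (s g).1 (σ g).1
  linarith [hs g]

theorem conj : ConjStmt.{u} := by
  intro K _ _ _ Γ _ G ρ σ c hG hρ hσ h0 hc h
  have hm := mean_spec (allOp K) hG
  let j : (K →L[ℂ] K) → Alg (allOp K) := fun a => ⟨a, trivial⟩
  let f : Γ → Alg (allOp K) := fun g => j (ρ g * σ g⁻¹)
  have hf : ∀ g, ‖f g‖ ≤ 1 * 1 := fun g =>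
    nm_le (rep_norm_le ρ hρ g) (rep_norm_le σ hσ g⁻¹)
  set T := mean (allOp K) G f with hT
  have h1 : ‖T.1 - 1‖ ≤ c := by
    have e := hm.sub f (fun _ => 1) _ _ hf fun _ => le_rfl
    rw [hm.const] at e
    change ‖T - 1‖ ≤ c
    rw [← e]
    refine hm.norm _ _ fun g => ?_
    change ‖ρ g * σ g⁻¹ - 1‖ ≤ c
    have : ρ g * σ g⁻¹ - 1 = (ρ g - σ g) * σ g⁻¹ := by
      rw [sub_mul, ← map_mul, mul_inv_cancel, map_one]
    rw [this]
    simpa using nm_le (h g) (rep_norm_le σ hσ g⁻¹)
  have h2 : ∀ k, T.1 * σ k = ρ k * T.1 := fun k => by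
    have e1 := hm.right f _ (j (σ k)) hf
    have e2 := hm.left f _ (j (ρ k)) hf
    have e3 := hm.inv (fun g => f g * j (σ k)) _ k fun g =>
      nm_le (hf g) (le_refl ‖j (σ k)‖)
    have e4 : T * j (σ k) = j (ρ k) * T := by
      rw [← e1, ← e2, ← e3]
      congr 1
      funext g
      refine Subtype.ext ?_
      change ρ (k * g) * σ (k * g)⁻¹ * σ k = ρ k * (ρ g * σ g⁻¹)
      rw [mul_assoc, ← map_mul, map_mul ρ, mul_assoc]
      congr 3
      group
    exact congrArg Subtype.val e4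
  obtain ⟨v, hv, Q, -, hQ, hTe, -, hv1, -, hcm⟩ := polar_near T.1 h1 hc
  refine ⟨v, hv, by linarith, fun g => ?_⟩
  have h3 : σ g * star T.1 = star T.1 * ρ g := by
    have := congrArg star (h2 g⁻¹)
    rwa [star_mul, star_mul, hρ, hσ, inv_inv] at this
  have h4 : Commute (σ g) Q := hcm _ (by
    change σ g * (star T.1 * T.1) = star T.1 * T.1 * σ g
    rw [← mul_assoc, h3, mul_assoc, mul_assoc, h2])
  refine hQ.mul_right_cancel ?_
  rw [mul_assoc, h4.eq, ← mul_assoc, mul_assoc (ρ g), ← hTe, h2]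

end Vale.Agent.P096
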