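import Vale.Agent.P096.Rel
import Vale.Agent.P096.Kaz

/-! The standard form of a tracial algebra and its realisation inside a representation. -/

namespace Vale.Agent.P096

open scoped InnerProductSpace ComplexOrder BigOperators ComplexConjugate
open Filter Topology Vale.Agent.P104 Vale.Agent.P082 Finset

section Ext

variable {A X Y : Type*} [AddCommGroup A] [Module ℂ A] [NormedAddCommGroup X]
  [InnerProductSpace ℂ X] [NormedAddCommGroup Y] [InnerProductSpace ℂ Y]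

theorem ext_dense {j : A →ₗ[ℂ] X} (hj : DenseRange j) {S T : X →L[ℂ] Y}
    (h : ∀ a, S (j a) = T (j a)) : S = T :=
  ContinuousLinearMap.ext fun x => hj.induction_on x
    (isClosed_eq S.continuous T.continuous) h

theorem exists_extend_orth [CompleteSpace Y] (j : A →ₗ[ℂ] X) (Λ : A →ₗ[ℂ] Y) {C : ℝ} (hC : 0 ≤ C)
    (h : ∀ a, ‖Λ a‖ ≤ C * ‖j a‖) [CompleteSpace X] : ∃ (V : X →L[ℂ] Y)
      (j' : A × (LinearMap.range j)ᗮ →ₗ[ℂ] X), DenseRange j' ∧ (∀ p, j' p = j p.1 + p.2.1) ∧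
      ∀ p, V (j' p) = Λ p.1 := by
  let j' : A × (LinearMap.range j)ᗮ →ₗ[ℂ] X := j.coprod (LinearMap.range j)ᗮ.subtype
  have hd : DenseRange j' := by
    change Dense (LinearMap.range j' : Set X)
    rw [Submodule.dense_iff_topologicalClosure_eq_top, Submodule.topologicalClosure_eq_top_iff,
      eq_bot_iff]
    intro x hx
    have h1 : x ∈ (LinearMap.range j)ᗮ := by
      rintro _ ⟨a, rfl⟩
      exact hx _ ⟨(a, 0), by simp [j']⟩
    exact inner_self_eq_zero.1 (hx x ⟨(0, ⟨x, h1⟩), by simp [j']⟩)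
  have hb : ∀ p, ‖(Λ ∘ₗ LinearMap.fst ℂ A (LinearMap.range j)ᗮ) p‖ ≤ C * ‖j' p‖ := fun p => by
    refine (h p.1).trans (mul_le_mul_of_nonneg_left ?_ hC)
    have := norm_add_sq_eq_norm_sq_add_norm_sq_of_inner_eq_zero (𝕜 := ℂ) (j p.1) p.2.1
      (p.2.2 _ ⟨p.1, rfl⟩)
    change ‖j p.1‖ ≤ ‖j p.1 + p.2.1‖
    refine le_of_sq_le (norm_nonneg _) ?_
    nlinarith [sq_nonneg ‖p.2.1‖]
  exact ⟨_, j', hd, fun _ => rfl, LinearMap.extendOfNorm_eq hd ⟨C, hb⟩⟩

end Ext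

variable {A E : Type*} [CStarAlgebra A] [PartialOrder A] [StarOrderedRing A] [NormedAddCommGroup E]
  [InnerProductSpace ℂ E] [CompleteSpace E] {τ : A →ₗ[ℂ] ℂ} {Λ : A →ₗ[ℂ] E}

theorem exists_std (h : Tr τ Λ) (hd : DenseRange Λ) (h1 : τ 1 = 1)
    (hf : ∀ x, τ (star x * x) = 0 → x = 0) :
    ∃ (L : A →⋆ₐ[ℂ] (E →L[ℂ] E)) (R : A →ₗ[ℂ] (E →L[ℂ] E)), StdB L R (Λ 1) ∧
      (∀ b x, L b (Λ x) = Λ (b * x)) ∧ ∀ b x, R b (Λ x) = Λ (x * b) := by
  have hl : ∀ b, ∃ T : E →L[ℂ] E, ∀ x, T (Λ x) = Λ (b * x) := fun b =>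
    ⟨_, LinearMap.extendOfNorm_eq (f := Λ ∘ₗ LinearMap.mulLeft ℂ b) hd ⟨‖b‖, Cut.trL h b⟩⟩
  have hr : ∀ b, ∃ T : E →L[ℂ] E, (∀ x, T (Λ x) = Λ (x * b)) ∧ ‖T‖ ≤ ‖b‖ := fun b => by
    have hb : ∀ x, ‖(Λ ∘ₗ LinearMap.mulRight ℂ b) x‖ ≤ ‖b‖ * ‖Λ x‖ := fun x => by
      rw [mul_comm]; exact Cut.trR h x b
    exact ⟨_, LinearMap.extendOfNorm_eq hd ⟨_, hb⟩,
      LinearMap.opNorm_extendOfNorm_le hd (norm_nonneg _) hb⟩
  choose L hL using hl
  choose R hR hR' using hr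
  have adj : ∀ S T : E →L[ℂ] E, (∀ x y, ⟪S (Λ x), Λ y⟫_ℂ = ⟪Λ x, T (Λ y)⟫_ℂ) → S = star T :=
    fun S T hST => ext_dense hd fun x => ext_inner_right ℂ fun y => hd.induction_on y
      (isClosed_eq (by fun_prop) (by fun_prop)) fun y => by rw [hST, inner_star_left]
  let L₁ : A →ₗ[ℂ] (E →L[ℂ] E) :=
    { toFun := L
      map_add' := fun a b => ext_dense hd fun x => by simp only [add_apply, hL, add_mul, map_add]
      map_smul' := fun t a => ext_dense hd fun x => by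
        simp only [smul_apply, hL, smul_mul_assoc, map_smul, RingHom.id_apply] }
  let L₂ : A →ₐ[ℂ] (E →L[ℂ] E) := AlgHom.ofLinearMap L₁
    (ext_dense hd fun x => by change L 1 _ = _; rw [hL, one_mul, one_apply_eq_self])
    fun a b => ext_dense hd fun x => by
      change L (a * b) _ = L a (L b _); rw [hL, hL, hL, mul_assoc]
  let L₃ : A →⋆ₐ[ℂ] (E →L[ℂ] E) := ⟨L₂, fun a => adj _ _ fun x y => by
    change ⟪L (star a) _, _⟫_ℂ = ⟪_, L a _⟫_ℂ
    rw [hL, hL, h.inner, h.inner, star_mul, star_star, mul_assoc]⟩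
  have e3 : ∀ b x, L₃ b (Λ x) = Λ (b * x) := hL
  let R₁ : A →ₗ[ℂ] (E →L[ℂ] E) :=
    { toFun := R
      map_add' := fun a b => ext_dense hd fun x => by simp only [add_apply, hR, mul_add, map_add]
      map_smul' := fun t a => ext_dense hd fun x => by
        simp only [smul_apply, hR, mul_smul_comm, map_smul, RingHom.id_apply] }
  have e4 : ∀ b x, R₁ b (Λ x) = Λ (x * b) := hR
  refine ⟨L₃, R₁, ⟨ext_dense hd fun x => ?_, fun a b => ext_dense hd fun x => ?_,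
    fun a => adj _ _ fun x y => ?_, hR', fun a b => ext_dense hd fun x => ?_, fun a => ?_, ?_, ?_,
    fun b => NonUnitalStarAlgHom.norm_map L₃ ?_ b⟩, e3, e4⟩
  · rw [e4, mul_one, one_apply_eq_self]
  · rw [mul_apply_eq_comp, e4, e4, e4, mul_assoc]
  · rw [e4, e4, h.inner, h.inner, star_mul, star_star, mul_assoc, h.tr, mul_assoc]
  · rw [mul_apply_eq_comp, mul_apply_eq_comp, e3, e4, e4, e3, mul_assoc]
  · rw [e3, e4, mul_one, one_mul]
  · have := h.nsq 1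
    rw [star_one, one_mul, h1, Complex.one_re] at this
    exact (sq_eq_sq₀ (norm_nonneg _) zero_le_one).1 (by rw [this, one_pow])
  · simpa only [e3, mul_one] using hd
  · refine (injective_iff_map_eq_zero _).2 fun b hb => hf _ ?_
    rw [← h.inner, ← mul_one b, ← e3, hb, zero_apply, inner_zero_left]

theorem exists_iso {K : Type*} [NormedAddCommGroup K] [InnerProductSpace ℂ K] [CompleteSpace K]
    (h : Tr τ Λ) (hd : DenseRange Λ) {L : A →⋆ₐ[ℂ] (E →L[ℂ] E)} (hL : ∀ b x, L b (Λ x) = Λ (b * x))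
    (π : A →⋆ₐ[ℂ] (K →L[ℂ] K)) (ξ η : K) (hτ : ∀ a, τ a = ⟪η, π a ξ⟫_ℂ) :
    ∃ V : E →L[ℂ] K, (∀ y, ‖V y‖ = ‖y‖) ∧ ∀ b y, π b (V y) = V (L b y) := by
  have ev : ∀ ζ : K, ∃ j : A →ₗ[ℂ] K, ∀ a, j a = π a ζ := fun ζ =>
    ⟨{ toFun := fun a => π a ζ
       map_add' := fun a b => by rw [map_add, add_apply]
       map_smul' := fun t a => by rw [map_smul, smul_apply, RingHom.id_apply] }, fun _ => rfl⟩
  obtain ⟨j, hj⟩ := ev (ξ + η)
  have hb : ∀ a, ‖Λ a‖ ≤ 1 * ‖j a‖ := fun a => by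
    have e : ‖Λ a‖ ^ 2 = (⟪π a η, π a ξ⟫_ℂ).re := by
      rw [h.nsq, hτ, map_mul, map_star, mul_apply_eq_comp, inner_star_right]
    have e2 := norm_add_sq (𝕜 := ℂ) (π a η) (π a ξ)
    rw [RCLike.re_to_complex, ← e] at e2
    rw [one_mul, hj, map_add, add_comm]
    refine le_of_sq_le (norm_nonneg _) ?_
    nlinarith [sq_nonneg ‖π a η‖, sq_nonneg ‖π a ξ‖, sq_nonneg ‖Λ a‖]
  obtain ⟨W, j', d', e', hW⟩ := exists_extend_orth j Λ zero_le_one hb
  have w1 : ∀ a, W (π a (ξ + η)) = Λ a := fun a => by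
    have := hW (a, 0)
    rwa [e', hj, Submodule.coe_zero, add_zero] at this
  have w2 : ∀ b, W ∘L π b = L b ∘L W := fun b => ext_dense d' fun p => by
    have m : π b p.2.1 ∈ (LinearMap.range j)ᗮ := by
      rintro _ ⟨a, rfl⟩
      rw [← inner_star_left, ← map_star, hj, ← mul_apply_eq_comp, ← map_mul, ← hj]
      exact p.2.2 _ ⟨_, rfl⟩
    have := hW (b * p.1, ⟨_, m⟩)
    rw [e', hj, map_mul, mul_apply_eq_comp, ← hj, ← map_add, ← e'] at this
    rw [ContinuousLinearMap.comp_apply, ContinuousLinearMap.comp_apply, this, hW, hL]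
  set T : K →L[ℂ] K := W.adjoint ∘L W with hT
  have T0 : 0 ≤ T := (ContinuousLinearMap.nonneg_iff_isPositive _).2
    (ContinuousLinearMap.isPositive_adjoint_comp_self W)
  have T1 : ∀ x y, ⟪x, T y⟫_ℂ = ⟪W x, W y⟫_ℂ := fun x y =>
    ContinuousLinearMap.adjoint_inner_right W x (W y)
  have w3 : ∀ b y, W (π b y) = L b (W y) := fun b y => DFunLike.congr_fun (w2 b) y
  have T2 : ∀ b, Commute T (π b) := fun b => ContinuousLinearMap.ext fun y =>
    ext_inner_left ℂ fun x => by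
      rw [mul_apply_eq_comp, mul_apply_eq_comp, T1, w3, ← inner_star_left (π b), ← map_star, T1, w3,
        map_star, inner_star_left]
  set S := CFC.sqrt T with hS
  have S1 : ∀ b, Commute S (π b) := fun b => by
    rw [hS, CFC.sqrt_eq_cfc]; exact (T2 b).cfc_nnreal _
  have S2 : star S = S := (CFC.sqrt_nonneg T).isSelfAdjoint.star_eq
  have S3 : S * S = T := CFC.sqrt_mul_sqrt_self T T0
  obtain ⟨i, hi⟩ := ev (S (ξ + η))
  have hn : ∀ a, ‖i a‖ = ‖Λ a‖ := fun a => by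
    refine (sq_eq_sq₀ (norm_nonneg _) (norm_nonneg _)).1 ?_
    rw [hi, ← mul_apply_eq_comp, ← (S1 a).eq, mul_apply_eq_comp, norm_sq_apply, S2, S3, T1, w1]
    exact inner_self_eq_norm_sq (𝕜 := ℂ) _
  have hV := LinearMap.extendOfNorm_eq (f := i) hd ⟨1, fun a => by rw [hn, one_mul]⟩
  refine ⟨i.extendOfNorm Λ, fun y => hd.induction_on y (isClosed_eq (by fun_prop) (by fun_prop))
    fun a => by rw [hV, hn], fun b y => hd.induction_on y (isClosed_eq (by fun_prop) (by fun_prop))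
    fun a => ?_⟩
  rw [hL, hV, hV, hi, hi, map_mul, mul_apply_eq_comp]

end Vale.Agent.P096
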