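import Vale.Agent.P096.Stm3

/-! Full modular spectrum from asymptotic eigenoperators. -/

namespace Vale.Agent.P096

open scoped InnerProductSpace ComplexOrder BigOperators
open Filter Topology Vale.Agent.P104 Vale.Agent.P082 Finset

universe u

namespace Fl

variable {H K : Type u} [NormedAddCommGroup H] [InnerProductSpace ℂ H] [CompleteSpace H]
  [NormedAddCommGroup K] [InnerProductSpace ℂ K] [CompleteSpace K]
  {A : (H →L[ℂ] H) →⋆ₐ[ℂ] (K →L[ℂ] K)} {ι : H →L[ℂ] K} {e r : ℕ → K →L[ℂ] K} {c : ℕ → ℝ}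

theorem hv_sq {w : K →L[ℂ] K} (h : Hv w) (z : K) : ‖w z‖ ^ 2 + ‖star w z‖ ^ 2 = ‖z‖ ^ 2 := by
  rw [norm_sq_apply, norm_sq_apply, star_star, ← Complex.add_re, ← inner_add_right, ← add_apply,
    h.sum, one_apply_eq_self, ← RCLike.re_to_complex, inner_self_eq_norm_sq]

theorem hv_le {w : K →L[ℂ] K} (h : Hv w) (z : K) : ‖w z‖ ≤ ‖z‖ ∧ ‖star w z‖ ≤ ‖z‖ :=
  ⟨le_of_sq_le (norm_nonneg _) (by nlinarith [hv_sq h z, sq_nonneg ‖star w z‖]),
    le_of_sq_le (norm_nonneg _) (by nlinarith [hv_sq h z, sq_nonneg ‖w z‖])⟩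

theorem asym (h : Site A ι e r c) {T : ℕ → K →L[ℂ] K} {C : ℝ} (hb : ∀ k z, ‖T k z‖ ≤ C * ‖z‖)
    (h0 : ∀ k η, T k (ι η) = 0)
    (hc : ∀ m, ∀ᶠ k in atTop, Commute (T k) (e m) ∧ Commute (T k) (star (e m))) (z : K) :
    Tendsto (fun k => T k z) atTop (𝓝 0) := by
  let S : Submodule ℂ K :=
    { carrier := {z | Tendsto (fun k => T k z) atTop (𝓝 0)}
      add_mem' := fun ha hb => by simpa using Tendsto.add ha hb
      zero_mem' := by simp
      smul_mem' := fun t _ ha => by simpa using Tendsto.const_smul ha t }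
  have k : ∀ x : K →L[ℂ] K, (∀ᶠ k in atTop, Commute (T k) x) → ∀ z ∈ S, x z ∈ S := fun x hx z hz => by
    have := (x.continuous.tendsto 0).comp hz
    rw [map_zero] at this
    exact this.congr' (hx.mono fun k hk => (DFunLike.congr_fun hk.eq z).symm)
  refine (h.dense S (isClosed_of_closure_subset fun z hz => ?_) (fun η => ?_) fun m z hz =>
    ⟨k _ ((hc m).mono fun _ h => h.1) z hz, k _ ((hc m).mono fun _ h => h.2) z hz⟩).ge trivial
  · refine Metric.tendsto_nhds.2 fun ε e0 => ?_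
    have p : 0 < |C| + 1 := by positivity
    obtain ⟨y, hy, d⟩ := Metric.mem_closure_iff.1 hz _ (div_pos (half_pos e0) p)
    refine (Metric.tendsto_nhds.1 hy _ (half_pos e0)).mono fun k hk => ?_
    rw [dist_zero_right] at hk ⊢
    rw [dist_eq_norm, lt_div_iff₀ p] at d
    have := norm_add_le (T k (z - y)) (T k y)
    rw [← map_add, sub_add_cancel] at this
    nlinarith [hb k (z - y), le_abs_self C, norm_nonneg (z - y)]
  · change Tendsto _ _ _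
    simp only [h0]
    exact tendsto_const_nhds

theorem approx {P : VonNeumannAlgebra K} {ζ : K} {e r : K →L[ℂ] K} (c : ℝ) (c0 : 0 ≤ c)
    (hr : r ∈ P.commutant) {q : K × K} (hq : q ∈ P132.graphS P ζ) :
    ‖⟪star e ζ, q.2⟫_ℂ - (c : ℂ) ^ 2 * ⟪q.1, e ζ⟫_ℂ‖ ≤
      ‖star e ζ - (c : ℂ) • star r ζ‖ * ‖q.2‖ + c * (‖q.1‖ * ‖r ζ - (c : ℂ) • e ζ‖) := by
  have cl : IsClosed {q : K × K | ‖⟪star e ζ, q.2⟫_ℂ - (c : ℂ) ^ 2 * ⟪q.1, e ζ⟫_ℂ‖ ≤
      ‖star e ζ - (c : ℂ) • star r ζ‖ * ‖q.2‖ + c * (‖q.1‖ * ‖r ζ - (c : ℂ) • e ζ‖)} :=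
    isClosed_le (by fun_prop) (by fun_prop)
  refine closure_minimal ?_ cl hq
  rintro _ ⟨x, hx, rfl⟩
  have e1 : ⟪star e ζ, star x ζ⟫_ℂ - (c : ℂ) ^ 2 * ⟪x ζ, e ζ⟫_ℂ =
      ⟪star e ζ - (c : ℂ) • star r ζ, star x ζ⟫_ℂ + c * ⟪x ζ, r ζ - (c : ℂ) • e ζ⟫_ℂ := by
    rw [inner_sub_left, inner_sub_right, inner_smul_left, inner_smul_right, Complex.conj_ofReal,
      inner_star_left r, ← mul_apply_eq_comp r, ← commute_of_mem (star_mem hx) hr, mul_apply_eq_comp,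
      inner_star_right x ζ]
    ring
  change ‖⟪star e ζ, star x ζ⟫_ℂ - (c : ℂ) ^ 2 * ⟪x ζ, e ζ⟫_ℂ‖ ≤ _
  rw [e1]
  refine (norm_add_le _ _).trans (add_le_add (norm_inner_le_norm _ _) ?_)
  rw [norm_mul, Complex.norm_real, Real.norm_of_nonneg c0]
  exact mul_le_mul_of_nonneg_left (norm_inner_le_norm _ _) c0

theorem solve {P : VonNeumannAlgebra K} {ζ : K} {l : ℝ} (l0 : 0 ≤ l)
    (h : ∀ θ : K, ∃ η : K, (η, θ + (l : ℂ) • η) ∈ P132.graphDelta P ζ) : ∃ C : ℝ, 0 ≤ C ∧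
      ∀ θ : K, ∃ η κ : K, (η, κ) ∈ P132.graphS P ζ ∧ ‖η‖ ≤ C * ‖θ‖ ∧ ‖κ‖ ≤ C * ‖θ‖ ∧
        ∀ q ∈ P132.graphS P ζ, ⟪q.1, θ + (l : ℂ) • η⟫_ℂ = ⟪κ, q.2⟫_ℂ := by
  choose T κ h1 h2 using h
  have s : ∀ θ θ', ⟪T θ, θ'⟫_ℂ = ⟪θ, T θ'⟫_ℂ := fun θ θ' => by
    have a := h2 θ' _ (h1 θ)
    have b := congrArg (starRingEnd ℂ) (h2 θ _ (h1 θ'))
    rw [inner_add_right, inner_smul_right] at a
    rw [inner_conj_symm, inner_conj_symm, inner_add_left, inner_smul_left, Complex.conj_ofReal] at b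
    exact add_right_cancel (a.trans b.symm)
  let L : K →ₗ[ℂ] K :=
    { toFun := T
      map_add' := fun a b => ext_inner_right ℂ fun v => by simp only [inner_add_left, s]
      map_smul' := fun t a => ext_inner_right ℂ fun v => by
        simp only [inner_smul_left, s, RingHom.id_apply] }
  let L' : K →L[ℂ] K := ⟨L, LinearMap.IsSymmetric.continuous s⟩
  have n0 := norm_nonneg L'
  refine ⟨(l + 1) * ‖L'‖ + 1, by positivity, fun θ => ?_⟩
  have b : ‖T θ‖ ≤ ‖L'‖ * ‖θ‖ := L'.le_opNorm θ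
  have t0 := norm_nonneg θ
  have u0 := norm_nonneg (T θ)
  refine ⟨T θ, κ θ, h1 θ, by nlinarith [mul_nonneg l0 (mul_nonneg n0 t0)],
    le_of_sq_le (by positivity) ?_, h2 θ⟩
  have a := (norm_inner_le_norm (𝕜 := ℂ) (T θ) (θ + (l : ℂ) • T θ)).trans
    (mul_le_mul_of_nonneg_left (norm_add_le _ _) u0)
  rw [h2 θ _ (h1 θ), inner_self_eq_norm_sq_to_K, norm_pow, RCLike.norm_ofReal, abs_norm, norm_smul,
    Complex.norm_real, Real.norm_of_nonneg l0] at a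
  have b2 : ‖θ‖ + l * ‖T θ‖ ≤ ((l + 1) * ‖L'‖ + 1) * ‖θ‖ := by
    nlinarith [mul_le_mul_of_nonneg_left b l0, mul_nonneg n0 t0]
  have b3 : ‖T θ‖ ≤ ((l + 1) * ‖L'‖ + 1) * ‖θ‖ := by nlinarith [mul_nonneg l0 (mul_nonneg n0 t0)]
  exact a.trans (sq (_ : ℝ) ▸ mul_le_mul b3 b2 (by positivity) (by positivity))

end Fl

open Fl in
theorem full : FullStmt.{u} := by
  intro H K _ _ _ _ _ _ _ A ι e r c P h hc eP rP ζ cs l l0 hl
  obtain ⟨C, C0, hC⟩ := solve l0.le fun θ => (hl θ).exists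
  choose n n1 n2 using fun k : ℕ => hc (√l) (1 / (k + 1)) (by positivity) (by positivity) k
  have t0 : Tendsto (fun k => c (n k)) atTop (𝓝 √l) := tendsto_iff_norm_sub_tendsto_zero.2
    (squeeze_zero (fun _ => norm_nonneg _) n2 tendsto_one_div_add_atTop_nhds_zero_nat)
  have b0 : ∀ k, ‖(c (n k) : ℂ)‖ ≤ √l + 1 := fun k => by
    have := (abs_le.1 (n2 k)).2
    have : 1 / ((k : ℝ) + 1) ≤ 1 := by
      rw [div_le_one (by positivity)]; linarith [Nat.cast_nonneg (α := ℝ) k]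
    rw [Complex.norm_real, Real.norm_of_nonneg (h.pos _).le]
    linarith
  have b1 : ∀ {x y : K →L[ℂ] K}, (∀ z, ‖x z‖ ≤ ‖z‖) → (∀ z, ‖y z‖ ≤ ‖z‖) → ∀ k z,
      ‖(x - (c (n k) : ℂ) • y) z‖ ≤ (√l + 2) * ‖z‖ := fun hx hy k z => by
    rw [sub_apply, smul_apply]
    refine (norm_sub_le _ _).trans ?_
    rw [norm_smul]
    nlinarith [mul_le_mul (b0 k) (hy z) (norm_nonneg _) (by positivity), hx z]
  have ev : ∀ m, ∀ᶠ k in atTop, n k ≠ m := fun m =>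
    (eventually_gt_atTop m).mono fun k hk => (hk.trans_le (n1 k)).ne'
  have s : ∀ {x y : K →L[ℂ] K}, Commute x y → Commute (star x) (star y) := Commute.star_star
  have s' : ∀ {x y : K →L[ℂ] K}, Commute x (star y) → Commute (star x) y := fun h => by
    simpa using s h
  have ta := (asym h (T := fun k => star (e (n k)) - (c (n k) : ℂ) • star (r (n k)))
    (fun k => b1 (fun z => (hv_le (h.he _) z).2) (fun z => (hv_le (h.hr _) z).2) k)
    (fun k η => sub_eq_zero.2 ((h.vac _).2 ⟨η, rfl⟩ _).2) (fun m => (ev m).mono fun k hk =>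
      ⟨(s' (h.ee _ _ hk).2).sub_left ((h.er _ _).2.symm.smul_left _),
        (s (h.ee _ _ hk).1).sub_left ((s (h.er _ _).1).symm.smul_left _)⟩) ζ).norm
  have tb := (asym h (T := fun k => r (n k) - (c (n k) : ℂ) • e (n k))
    (fun k => b1 (fun z => (hv_le (h.hr _) z).1) (fun z => (hv_le (h.he _) z).1) k)
    (fun k η => sub_eq_zero.2 ((h.vac _).2 ⟨η, rfl⟩ _).1) (fun m => (ev m).mono fun k hk =>
      ⟨(h.er _ _).1.symm.sub_left ((h.ee _ _ hk).1.smul_left _),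
        (s' (h.er _ _).2).symm.sub_left ((h.ee _ _ hk).2.smul_left _)⟩) ζ).norm
  simp only [sub_apply, smul_apply, norm_zero] at ta tb
  obtain ⟨a, ha⟩ : ∃ a : ℕ → ℝ, ∀ k, a k = ‖star (e (n k)) ζ - (c (n k) : ℂ) • star (r (n k)) ζ‖ :=
    ⟨_, fun _ => rfl⟩
  obtain ⟨b, hb⟩ : ∃ b : ℕ → ℝ, ∀ k, b k = ‖r (n k) ζ - (c (n k) : ℂ) • e (n k) ζ‖ :=
    ⟨_, fun _ => rfl⟩
  simp only [← ha, ← hb] at ta tb
  have a0 : ∀ k, 0 ≤ a k := fun k => ha k ▸ norm_nonneg _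
  have b0' : ∀ k, 0 ≤ c (n k) * b k := fun k => mul_nonneg (h.pos _).le (hb k ▸ norm_nonneg _)
  have k1 : ∀ k, ‖e (n k) ζ‖ ≤ C * (|c (n k) ^ 2 - l| * ‖ζ‖ + a k + c (n k) * b k) := fun k => by
    obtain ⟨η, κ, g1, g2, g3, g4⟩ := hC (e (n k) ζ)
    have q1 := g4 _ (P132.mem_graphS (eP (n k)))
    have q2 := approx (e := e (n k)) _ (h.pos (n k)).le (rP (n k)) g1
    rw [← ha, ← hb] at q2
    have q3 : ⟪e (n k) ζ, e (n k) ζ⟫_ℂ = (⟪star (e (n k)) ζ, κ⟫_ℂ - (c (n k) : ℂ) ^ 2 *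
        ⟪η, e (n k) ζ⟫_ℂ) + ((c (n k) ^ 2 - l : ℝ) : ℂ) * ⟪η, e (n k) ζ⟫_ℂ := by
      have := congrArg (starRingEnd ℂ) q1
      simp only [inner_conj_symm, inner_add_left, inner_smul_left, Complex.conj_ofReal] at this
      rw [← this]
      push_cast
      ring
    have q4 := (congrArg norm q3).trans_le (norm_add_le _ _)
    rw [inner_self_eq_norm_sq_to_K, norm_pow, RCLike.norm_ofReal, abs_norm, norm_mul,
      Complex.norm_real, Real.norm_eq_abs] at q4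
    have q5 := mul_le_mul_of_nonneg_left ((norm_inner_le_norm (𝕜 := ℂ) η (e (n k) ζ)).trans
      (mul_le_mul g2 (hv_le (h.he _) ζ).1 (norm_nonneg _) (by positivity)))
      (abs_nonneg (c (n k) ^ 2 - l))
    have q6 := mul_le_mul_of_nonneg_left g3 (a0 k)
    have q7 := mul_le_mul_of_nonneg_left g2 (b0' k)
    have := a0 k
    have := b0' k
    rcases (norm_nonneg (e (n k) ζ)).eq_or_lt with z | z
    · rw [← z]; positivity
    · refine le_of_mul_le_mul_right ?_ z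
      dsimp only at q2
      nlinarith
  have t1 : Tendsto (fun k => ‖e (n k) ζ‖) atTop (𝓝 0) := squeeze_zero (fun _ => norm_nonneg _) k1 (by
    simpa [Real.sq_sqrt l0.le] using
      (((((t0.pow 2).sub_const l).abs.mul_const ‖ζ‖).add ta).add (t0.mul tb)).const_mul C)
  have k2 : ∀ k, ‖ζ‖ ^ 2 ≤ (1 + c (n k) ^ 2) * ‖e (n k) ζ‖ ^ 2 + (a k + c (n k) * b k) * ‖ζ‖ :=
    fun k => by
      have q2 := approx (e := e (n k)) _ (h.pos (n k)).le (rP (n k))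
        (P132.mem_graphS (ξ := ζ) (eP (n k)))
      rw [← ha, ← hb, inner_self_eq_norm_sq_to_K, inner_self_eq_norm_sq_to_K] at q2
      have q3 := (Complex.re_le_norm _).trans q2
      simp [← Complex.ofReal_pow] at q3
      nlinarith [hv_sq (h.he (n k)) ζ, mul_le_mul_of_nonneg_left (hv_le (h.he (n k)) ζ).2 (a0 k),
        mul_le_mul_of_nonneg_left (hv_le (h.he (n k)) ζ).1 (b0' k)]
  have z := ge_of_tendsto' ((((t0.pow 2).const_add 1).mul (t1.pow 2)).add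
    ((ta.add (t0.mul tb)).mul_const ‖ζ‖)) k2
  simp at z
  exact one_ne_zero (cs.2 1 (one_mem _) (by simpa using z))

end Vale.Agent.P096
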