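import Vale.Agent.P096.Newt
import Vale.Agent.P096.Stm2

/-! A linear lifting can be corrected to a spatial isomorphism. -/

namespace Vale.Agent.P096

open scoped InnerProductSpace ComplexOrder
open Vale.Agent.P104 Vale.Agent.P082

universe u v

theorem dist_intertw' {A : Type u} [CStarAlgebra A] {H : Type v} [NormedAddCommGroup H]
    [InnerProductSpace ℂ H] [CompleteSpace H] (ρ : A →ₐ[ℂ] (H →L[ℂ] H))
    (σ : A →⋆ₐ[ℂ] (H →L[ℂ] H)) (hρ : ∀ a, ‖ρ a‖ ≤ 5 / 4 * ‖a‖) (T : H →L[ℂ] H)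
    {c : ℝ} (hc0 : 0 ≤ c) (hc : ∀ a, ‖T * ρ a - σ a * T‖ ≤ c * ‖a‖) :
    ∃ T' : H →L[ℂ] H, (∀ a, T' * ρ a = σ a * T') ∧ ‖T - T'‖ ≤ distK * c := by
  rcases hc0.eq_or_lt with rfl | hc0
  · exact ⟨T, fun a => sub_eq_zero.1 (norm_le_zero_iff.1 (by simpa using hc a)), by simp⟩
  let E := WithLp 2 (H × H)
  let f : E →L[ℂ] H := WithLp.fstL 2 ℂ H H
  let s : E →L[ℂ] H := WithLp.sndL 2 ℂ H H
  let i : H →L[ℂ] E := (WithLp.prodContinuousLinearEquiv 2 ℂ H H).symm.toContinuousLinearMap ∘L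
    ContinuousLinearMap.inl ℂ H H
  let j : H →L[ℂ] E := (WithLp.prodContinuousLinearEquiv 2 ℂ H H).symm.toContinuousLinearMap ∘L
    ContinuousLinearMap.inr ℂ H H
  obtain ⟨d, hd⟩ : ∃ d : A → H →L[ℂ] H, ∀ a, d a = (c : ℂ)⁻¹ • (T * ρ a - σ a * T) :=
    ⟨_, fun _ => rfl⟩
  have d1 : ∀ a, ‖d a‖ ≤ ‖a‖ := fun a => by
    rw [hd, norm_smul, norm_inv, Complex.norm_real, Real.norm_of_nonneg hc0.le,
      inv_mul_le_iff₀ hc0]
    exact hc a
  have i1 : ∀ ξ, f (i ξ) = ξ := fun _ => rfl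
  have i2 : ∀ ξ, s (i ξ) = 0 := fun _ => rfl
  have j1 : ∀ ξ, f (j ξ) = 0 := fun _ => rfl
  have j2 : ∀ ξ, s (j ξ) = ξ := fun _ => rfl
  have ext2 : ∀ x y : E, f x = f y → s x = s y → x = y := fun x y h1 h2 =>
    WithLp.ofLp_injective 2 (Prod.ext h1 h2)
  obtain ⟨π₀, hπ⟩ : ∃ π₀ : A → E →L[ℂ] E, ∀ a,
      π₀ a = i ∘L (σ a ∘L f + d a ∘L s) + j ∘L ρ a ∘L s := ⟨_, fun _ => rfl⟩
  have e1 : ∀ a x, f (π₀ a x) = σ a (f x) + d a (s x) := fun a x => by simp [hπ, i1, j1]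
  have e2 : ∀ a x, s (π₀ a x) = ρ a (s x) := fun a x => by simp [hπ, i2, j2]
  have ext3 : ∀ X Y : E →L[ℂ] E, (∀ x, f (X x) = f (Y x)) → (∀ x, s (X x) = s (Y x)) → X = Y :=
    fun X Y h1 h2 => ContinuousLinearMap.ext fun x => ext2 _ _ (h1 x) (h2 x)
  let π : A →ₐ[ℂ] (E →L[ℂ] E) := AlgHom.ofLinearMap
    { toFun := π₀
      map_add' := fun a b => ext3 _ _ (fun x => by
        simp [e1, hd, mul_add, add_mul, smul_sub, smul_add]; abel) fun x => by simp [e2]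
      map_smul' := fun t a => ext3 _ _ (fun x => by simp [e1, hd, smul_sub, smul_comm t])
        fun x => by simp [e2] }
    (ext3 _ _ (fun x => by simp [e1, hd]) fun x => by simp [e2]) fun a b =>
      ext3 _ _ (fun x => by simp [e1, e2, hd, smul_sub]; abel) fun x => by simp [e2]
  replace e1 : ∀ a x, f (π a x) = σ a (f x) + d a (s x) := e1
  replace e2 : ∀ a x, s (π a x) = ρ a (s x) := e2
  have n1 : ∀ x : E, ‖x‖ ^ 2 = ‖f x‖ ^ 2 + ‖s x‖ ^ 2 := fun x => WithLp.prod_norm_sq_eq_of_L2 x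
  have n2 : ∀ x y : E, ⟪x, y⟫_ℂ = ⟪f x, f y⟫_ℂ + ⟪s x, s y⟫_ℂ := fun x y => rfl
  obtain ⟨P, p1, p0, p2, p3⟩ := exists_inv_form π 2 fun a => by
    refine ContinuousLinearMap.opNorm_le_bound _ (by positivity) fun x =>
      le_of_sq_le_sq ?_ (by positivity)
    have a1 := (σ a).le_of_opNorm_le (NonUnitalStarAlgHom.norm_apply_le σ a) (f x)
    have a2 := (ρ a).le_of_opNorm_le (hρ a) (s x)
    have a3 := (d a).le_of_opNorm_le (d1 a) (s x)
    have a4 := (norm_add_le _ _).trans (add_le_add a1 a3)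
    have a5 := pow_le_pow_left₀ (norm_nonneg _) a4 2
    have a6 := pow_le_pow_left₀ (norm_nonneg _) a2 2
    rw [n1, e1, e2, mul_pow, n1 x]
    nlinarith [sq_nonneg (‖a‖ * ‖f x‖ - ‖a‖ * ‖s x‖), sq_nonneg (‖a‖ * ‖f x‖), sq_nonneg (‖a‖ * ‖s x‖)]
  have fi : ∀ ξ x, ⟪ξ, f x⟫_ℂ = ⟪i ξ, x⟫_ℂ := fun ξ x => by rw [n2, i1, i2, inner_zero_left, add_zero]
  have ni : ∀ ξ, ‖i ξ‖ = ‖ξ‖ := fun ξ => (sq_eq_sq₀ (norm_nonneg _) (norm_nonneg _)).1 (by
    rw [n1, i1, i2]; simp)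
  have nj : ∀ ξ, ‖j ξ‖ = ‖ξ‖ := fun ξ => (sq_eq_sq₀ (norm_nonneg _) (norm_nonneg _)).1 (by
    rw [n1, j1, j2]; simp)
  obtain ⟨a₀, ha⟩ : ∃ a₀ : H →L[ℂ] H, ∀ ξ, a₀ ξ = f (P (i ξ)) := ⟨f ∘L P ∘L i, fun _ => rfl⟩
  obtain ⟨b, hb⟩ : ∃ b : H →L[ℂ] H, ∀ ξ, b ξ = f (P (j ξ)) := ⟨f ∘L P ∘L j, fun _ => rfl⟩
  have q1 : ∀ (u : unitary A) x, f (P (π u x)) = σ u (f (P x)) := fun u x => by
    refine ext_inner_left ℂ fun η => ?_
    have k : π u (i (σ (star u.1) η)) = i η := ext2 _ _ (by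
      rw [e1, i1, i2, i1, map_zero, add_zero, ← mul_apply_eq_comp, ← map_mul, u.2.2, map_one]
      rfl) (by rw [e2, i2, i2, map_zero])
    rw [fi, ← k, ← inner_star_right, ← mul_apply_eq_comp P, ← mul_apply_eq_comp, ← mul_assoc, p3,
      ← fi, map_star, inner_star_left]
  have q2 : ∀ u : unitary A, a₀ * σ u = σ u * a₀ := fun u => by
    ext ξ
    rw [mul_apply_eq_comp, mul_apply_eq_comp, ha, ha, ← q1]
    congr 2
    exact ext2 _ _ (by rw [e1, i1, i1, i2, map_zero, add_zero]) (by rw [e2, i2, i2, map_zero])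
  have q3 : ∀ u : unitary A, a₀ * d u + b * ρ u = σ u * b := fun u => by
    ext ξ
    rw [add_apply, mul_apply_eq_comp, mul_apply_eq_comp, mul_apply_eq_comp, ha, hb, hb, ← q1,
      ← map_add, ← map_add]
    congr 2
    exact ext2 _ _ (by rw [e1, map_add, i1, j1, j1, j2, map_zero, add_zero, zero_add])
      (by rw [e2, map_add, i2, j2, j2, zero_add])
  have a1 : ∀ ξ, ‖ξ‖ ^ 2 ≤ (⟪a₀ ξ, ξ⟫_ℂ).re := fun ξ => by
    have := p1 (i ξ)
    rwa [ni, n2, i1, i2, inner_zero_right, add_zero, ← ha] at this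
  have a2 : IsUnit a₀ := by
    refine CStarAlgebra.isUnit_of_le 1 ?_ isStrictlyPositive_one
    rw [← sub_nonneg, ContinuousLinearMap.nonneg_iff_isPositive,
      ContinuousLinearMap.isPositive_iff_complex]
    intro ξ
    have k := ((ContinuousLinearMap.isPositive_iff_complex _).1
      ((ContinuousLinearMap.nonneg_iff_isPositive _).1 p0) (i ξ)).1
    rw [n2, i1, i2, inner_zero_right, add_zero, ← ha] at k
    have : ⟪(a₀ - 1) ξ, ξ⟫_ℂ = ((⟪a₀ ξ, ξ⟫_ℂ).re - ‖ξ‖ ^ 2 : ℝ) := by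
      rw [sub_apply, inner_sub_left, one_apply_eq_self, inner_self_eq_norm_sq_to_K, ← k]
      simp
    rw [this]
    exact ⟨rfl, sub_nonneg.2 (a1 ξ)⟩
  obtain ⟨a, rfl⟩ := a2
  have a3 : ∀ ξ, ‖(↑a⁻¹ : H →L[ℂ] H) ξ‖ ≤ ‖ξ‖ := fun ξ => by
    have k := a1 ((↑a⁻¹ : H →L[ℂ] H) ξ)
    rw [← mul_apply_eq_comp, a.mul_inv, one_apply_eq_self] at k
    have k2 := k.trans (re_inner_le_norm (𝕜 := ℂ) _ _)
    rcases (norm_nonneg ((↑a⁻¹ : H →L[ℂ] H) ξ)).eq_or_lt with h0 | h0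
    · rw [← h0]; positivity
    · rw [sq] at k2
      exact le_of_mul_le_mul_right k2 h0
  have c0 : (c : ℂ) ≠ 0 := by exact_mod_cast hc0.ne'
  refine ⟨T + (c : ℂ) • (↑a⁻¹ * b), fun x => ?_, ?_⟩
  · obtain ⟨u, t, rfl, -⟩ := CStarAlgebra.exists_sum_four_unitary x
    have k : ∀ u : unitary A, (T + (c : ℂ) • (↑a⁻¹ * b)) * ρ u = σ u * (T + (c : ℂ) • (↑a⁻¹ * b)) :=
      fun u => by
        have k1 : σ u * ↑a⁻¹ = ↑a⁻¹ * σ u := by
          rw [Units.eq_inv_mul_iff_mul_eq, ← mul_assoc, q2, a.mul_inv_cancel_right]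
        have k2 : T * ρ u - σ u * T = (c : ℂ) • d u := by rw [hd, smul_inv_smul₀ c0]
        have k3 : d u + ↑a⁻¹ * b * ρ u = σ u * (↑a⁻¹ * b) := by
          rw [← mul_assoc, k1, mul_assoc, mul_assoc, ← q3, mul_add, a.inv_mul_cancel_left]
        rw [add_mul, mul_add, smul_mul_assoc, mul_smul_comm, ← k3, smul_add, ← k2]
        abel
    simp only [map_sum, map_smul, Finset.mul_sum, Finset.sum_mul, mul_smul_comm, smul_mul_assoc, k]
  · rw [sub_add_cancel_left, norm_neg, norm_smul, Complex.norm_real, Real.norm_of_nonneg hc0.le,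
      mul_comm]
    refine mul_le_mul_of_nonneg_right (ContinuousLinearMap.opNorm_le_bound _ distK_pos.le
      fun ξ => (a3 _).trans ?_) hc0.le
    change ‖b ξ‖ ≤ _
    rw [hb, ← nj ξ]
    refine le_trans ?_ (P.le_of_opNorm_le p2 _)
    exact WithLp.norm_fst_le H (P (j ξ))

theorem newtonS : NewtonStmt.{u} := by
  obtain ⟨c, c1, hc⟩ := final.{u}
  have hK := distK_pos
  intro C C1
  obtain ⟨k, hk⟩ : ∃ k, k = 1000 * (distK + 1) * C := ⟨_, rfl⟩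
  have k0 : 1000 * C ≤ k := by nlinarith
  refine ⟨10 * c * k, by nlinarith, fun H _ _ _ M hM N δ δ0 δ1 n1 n2 => ?_⟩
  have e0 : δ ≤ C * δ := le_mul_of_one_le_left δ0.le C1
  have e1 : 1000 * (C * δ) ≤ k * δ := by nlinarith
  have e2 : k * δ ≤ c * (k * δ) := le_mul_of_one_le_left (by linarith) c1
  have e3 : c * (k * δ) ≤ 1 / 10 := by linarith
  obtain ⟨Φ, hΦ⟩ := hM N δ δ0 (by linarith) n1 n2
  obtain ⟨ε, hε⟩ : ∃ ε, ε = C * δ := ⟨_, rfl⟩
  have e4 : k * δ = 1000 * (distK + 1) * ε := by rw [hk, hε]; ring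
  rw [← hε] at hΦ e0 e1
  have ε0 : 0 < ε := by linarith
  have b1 : ∀ x, ‖(Φ x).1‖ ≤ 2 * ‖x‖ := fun x => by
    have := norm_sub_norm_le (Φ x).1 x.1
    have := mul_le_mul_of_nonneg_right (show ε ≤ 1 by linarith) (norm_nonneg x)
    have : ‖x.1‖ = ‖x‖ := rfl
    linarith [hΦ x]
  have h0 : NSt N.toStarSubalgebra.subtype.toAlgHom M.toStarSubalgebra.toSubalgebra
      ((M.toStarSubalgebra.subtype.toAlgHom.toLinearMap ∘ₗ Φ).mkContinuous 2 b1) ε (4 * ε) := by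
    refine ⟨fun a => (Φ a).2, hΦ, fun a b => ?_⟩
    change ‖(Φ a).1 * (Φ b).1 - (Φ (a * b)).1‖ ≤ _
    rw [show (Φ a).1 * (Φ b).1 - (Φ (a * b)).1 = ((Φ a).1 - a.1) * (Φ b).1 +
      a.1 * ((Φ b).1 - b.1) - ((Φ (a * b)).1 - (a * b).1) by
        change _ = _ - (_ - a.1 * b.1)
        noncomm_ring]
    have a1 : ‖((Φ a).1 - a.1) * (Φ b).1‖ ≤ ε * ‖a‖ * (2 * ‖b‖) :=
      (norm_mul_le _ _).trans (mul_le_mul (hΦ a) (b1 b) (norm_nonneg _) (by positivity))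
    have a2 : ‖a.1 * ((Φ b).1 - b.1)‖ ≤ ‖a‖ * (ε * ‖b‖) :=
      (norm_mul_le _ _).trans (mul_le_mul_of_nonneg_left (hΦ b) (norm_nonneg _))
    have a3 := (hΦ (a * b)).trans (mul_le_mul_of_nonneg_left (norm_mul_le a b) ε0.le)
    have a4 := (norm_sub_le _ _).trans (add_le_add ((norm_add_le _ _).trans (add_le_add a1 a2)) a3)
    linarith
  obtain ⟨θ, hθ⟩ := h0.lim (rig N) (fun _ => rfl) (vn_isClosed M) (fun b hb => by
    obtain ⟨a, ha, a1, a2⟩ := n1 b hb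
    exact ⟨⟨a, ha⟩, a1, a2.trans (mul_le_mul_of_nonneg_right (by linarith) (norm_nonneg b))⟩)
    (by linarith) (by linarith) (by linarith)
  have t1 : ∀ a : Alg N, ‖θ a - a.1‖ ≤ 161 * ε * ‖a‖ := fun a => (hθ.near a).trans (by
    apply le_of_eq; ring)
  have t2 : ∀ a b, θ (a * b) = θ a * θ b := fun a b =>
    (sub_eq_zero.1 (norm_le_zero_iff.1 (by simpa using hθ.mul a b))).symm
  have t3 : θ 1 = 1 := by
    have h1 := (t1 1).trans (mul_le_of_le_one_right (by positivity) alg_norm_one)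
    refine (isUnit_of_near (T := θ 1) (h1.trans_lt (by linarith))).mul_left_cancel ?_
    rw [← t2, mul_one, mul_one]
  obtain ⟨T, T1, T2⟩ := dist_intertw' (AlgHom.ofLinearMap θ.toLinearMap t3 t2)
    N.toStarSubalgebra.subtype (fun a => by
      have := norm_sub_norm_le (θ a) a.1
      have := mul_le_mul_of_nonneg_right (show 161 * ε ≤ 1 / 4 by linarith) (norm_nonneg a)
      have : ‖a.1‖ = ‖a‖ := rfl
      change ‖θ a‖ ≤ _
      linarith [t1 a]) 1 (c := 161 * ε) (by positivity) fun a => by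
        rw [one_mul, mul_one]; exact t1 a
  replace T1 : ∀ a : Alg N, T * θ a = a.1 * T := T1
  rw [norm_sub_rev] at T2
  have T3 : 2 * (distK * (161 * ε)) ≤ k * δ := by rw [e4]; nlinarith
  have T4 : 0 ≤ distK * (161 * ε) := by positivity
  obtain ⟨T, rfl⟩ := isUnit_of_near (T2.trans_lt (by linarith))
  have T5 : ‖(↑T⁻¹ : H →L[ℂ] H) - 1‖ ≤ k * δ := by
    rcases subsingleton_or_nontrivial H with _ | _
    · rw [Subsingleton.elim (_ - 1) 0, norm_zero]; linarith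
    · exact (norm_inv_sub T.inv_mul T2 (by linarith)).trans T3
  obtain ⟨v, v1, v2, v3⟩ := hc H N M H N.toStarSubalgebra.subtype M.toStarSubalgebra.subtype
    ↑T⁻¹ T (k * δ) (by linarith) (by linarith) (fun _ => rfl) (fun _ => rfl) T.inv_mul T.mul_inv
    T5 (by linarith) (fun a => ⟨⟨θ a, hθ.mem a⟩, by
      change θ a = _ * a.1 * _
      rw [mul_assoc, ← T1, T.inv_mul_cancel_left]⟩) (n2.mono (by linarith)) (n1.mono (by linarith))
    fun a b => le_add_of_nonneg_right (mul_nonneg (by linarith) (norm_nonneg _))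
  refine ⟨star v, Unitary.star_mem v1, ?_, ?_⟩
  · rw [← star_one (H →L[ℂ] H), ← star_sub, norm_star]
    linarith
  · rw [← v3, Set.image_image]
    refine (Set.image_congr fun x _ => ?_).trans (Set.image_id' _)
    rw [star_star, ← mul_assoc, ← mul_assoc, (Unitary.mem_iff.1 v1).1, one_mul, mul_assoc,
      (Unitary.mem_iff.1 v1).1, mul_one]

end Vale.Agent.P096
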