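import Vale.Agent.P096.GU
import Vale.Agent.P096.Newton
import Vale.Agent.P096.Defs
import Vale.Agent.P132.Defs

/-! Reduction of the perturbation theorem to type III factors in standard form. -/

namespace Vale.Agent.P096

open scoped InnerProductSpace InnerProduct ComplexOrder
open Vale.Agent.P104 Vale.Agent.P082 ContinuousLinearMap TopologicalSpace

universe u

/-- The theorem for factors on separable spaces. -/
def FacStmt : Prop := ∃ C : ℝ, 1 ≤ C ∧ ∀ (H : Type u) [NormedAddCommGroup H]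
  [InnerProductSpace ℂ H] [CompleteSpace H] [SeparableSpace H] (M : VonNeumannAlgebra H),
  IsFactor M → KK M C

/-- Linear lifting for type III factors in standard form on separable spaces. -/
def IIIStmt : Prop := ∃ C : ℝ, 1 ≤ C ∧ ∀ (H : Type u) [NormedAddCommGroup H]
  [InnerProductSpace ℂ H] [CompleteSpace H] [SeparableSpace H] (M : VonNeumannAlgebra H) (ξ : H),
  ξ ≠ 0 → P132.CycSep M ξ → P132.IsFactor M → P132.IsTypeIII M → LL' M C

theorem glocS (h : FacStmt.{u}) : GLocStmt.{u} := by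
  obtain ⟨C, C1, hC⟩ := h
  refine ⟨100 * C, by linarith, fun K _ _ _ _ P Q ζ δ d0 d1 n1 n2 hz => ?_⟩
  obtain ⟨e, eQ, e1, -, e2, e3, -⟩ := exists_cyclic_proj (M := Q) (one_mem _) ζ rfl
  obtain ⟨⟨q, qQ⟩, z1, z2, z3⟩ := exists_supp (M := Q) (q := ⟨e, eQ⟩) (proj_coe.2 e1)
  have q1 : IsStarProjection q := proj_coe.1 z1.proj
  have qc : ∀ x ∈ Q, q * x = x * q := fun x hx => congrArg Subtype.val (z1.comm ⟨x, hx⟩)
  have q2 : q ζ = ζ := by
    have : q * e = e := congrArg Subtype.val z2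
    rw [← e2, ← mul_apply_eq_comp, this]
  have q3 : ∀ c ∈ Q, (∀ x ∈ Q, c * x = x * c) → c ζ = 0 → c * q = 0 := fun c hc h1 h2 =>
    congrArg Subtype.val (z3 ⟨c, hc⟩ fun x => Subtype.ext (by
      change c * x.1 * e = 0
      rw [h1 _ x.2, mul_assoc, e3 c hc h2, mul_zero]))
  obtain ⟨L, _, _, _, V, h, rfl, hL⟩ := exists_range q1
  have := hL (IsSeparable.of_separableSpace _)
  have l : ∀ T, ex V 1 * ex V T = ex V T := fun T => by rw [← h.ex_mul, one_mul]
  have r : ∀ T, ex V T * ex V 1 = ex V T := fun T => by rw [← h.ex_mul, mul_one]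
  have hS : IsFactor (corner Q V) := by
    refine factor_of_proj fun T hT hp hc => ?_
    have m := h.ex_mem qQ hT
    have mc : ∀ x ∈ Q, ex V T * x = x * ex V T := fun x hx => by
      have e2 := congrArg (ex V) (hc _ (h.cp_mem qQ hx))
      rw [h.ex_mul, h.ex_mul, ex_cp, ← mul_assoc, ← mul_assoc, r, mul_assoc _ x, ← qc x hx,
        ← mul_assoc, r, mul_assoc, l, qc x hx, mul_assoc, l] at e2
      exact e2
    rcases hz _ m (h.proj hp) mc with c | c
    · exact .inl (by rw [← h.cp_ex T, ← r, q3 _ m mc c, cp_zero])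
    · have := q3 _ (sub_mem qQ m) (fun x hx => by rw [sub_mul, mul_sub, qc x hx, mc x hx])
        (by rw [sub_apply, c, q2, sub_self])
      rw [sub_mul, r, r, sub_eq_zero] at this
      exact .inr (by rw [← h.cp_ex T, ← this, h.cp_ex])
  have a0 : δ ≤ C * δ := le_mul_of_one_le_left d0.le C1
  obtain ⟨V', h', he', v2⟩ := move_iso h qQ d0.le (by linarith) n1
  obtain ⟨w, w1, w2, w3⟩ := hC L _ hS (corner P V') (δ + 2 * (16 * δ)) (by linarith)
    (by linarith) (near_corner h h' qQ he' v2 d0.le n1)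
    (near_corner h' h he' qQ (by rwa [norm_sub_rev]) d0.le n2)
  have m : ∀ x : Alg P, star w * cp V' x.1 * w ∈ corner Q V := fun x => by
    obtain ⟨T, hT, e⟩ := w3.ge (h'.cp_mem he' x.2)
    rwa [← e, ← mul_assoc, ← mul_assoc, w1.1, one_mul, mul_assoc, w1.1, mul_one]
  let Ψ : Alg P →ₗ[ℂ] Alg (corner Q V) :=
    { toFun := fun x => ⟨_, m x⟩
      map_add' := fun x y => Subtype.ext (by
        change star w * cp V' (x.1 + y.1) * w = _ + _
        rw [cp_add, mul_add, add_mul])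
      map_smul' := fun c x => Subtype.ext (by
        change star w * cp V' (c • x.1) * w = c • _
        rw [cp_smul, mul_smul_comm, smul_mul_assoc]) }
  refine ⟨_, exL h qQ ∘ₗ Ψ, qQ, q1, qc, q2, fun x => ?_⟩
  change ‖ex V (star w * cp V' x.1 * w) - _‖ ≤ _ * ‖x.1‖
  rw [← ex_cp, ← ex_sub]
  refine (h.ex_le _).trans ?_
  have b1 := h.cp_near h' v2 x.1 x.1
  have b2 := h'.cp_le x.1
  have e : star w * cp V' x.1 * w - cp V x.1 =
      star w * (cp V' x.1 * (w - 1) - (w - 1) * cp V' x.1) - (cp V x.1 - cp V' x.1) := by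
    simp only [mul_sub, sub_mul, ← mul_assoc, w1.1, one_mul, mul_one]
    abel
  have b3 := norm_mul_le (cp V' x.1) (w - 1)
  have b4 := norm_mul_le (w - 1) (cp V' x.1)
  have b5 := norm_sub_le (cp V' x.1 * (w - 1)) ((w - 1) * cp V' x.1)
  have b6 := mul_le_mul b2 w2 (norm_nonneg _) (norm_nonneg _)
  rw [e]
  refine (norm_sub_le _ _).trans ?_
  rw [CStarRing.norm_mem_unitary_mul _ (Unitary.star_mem w1)]
  rw [sub_self, norm_zero] at b1
  nlinarith [mul_le_mul_of_nonneg_right a0 (norm_nonneg x.1), norm_nonneg x.1,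
    mul_nonneg d0.le (norm_nonneg x.1)]

section

variable {H K : Type u} [NormedAddCommGroup H] [InnerProductSpace ℂ H] [CompleteSpace H]
  [NormedAddCommGroup K] [InnerProductSpace ℂ K] [CompleteSpace K]
  {M N : VonNeumannAlgebra H} {V : K →L[ℂ] H}

theorem KK.mono {C C' : ℝ} (h : C ≤ C') (h' : KK M C) : KK M C' := fun N δ d0 d1 n1 n2 => by
  have := mul_le_mul_of_nonneg_right h d0.le
  obtain ⟨u, u1, u2, u3⟩ := h' N δ d0 (by linarith) n1 n2
  exact ⟨u, u1, by linarith, u3⟩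

theorem iii_corner (hM : P132.IsTypeIII M) (h : Iso V) (he : ex V 1 ∈ M) :
    P132.IsTypeIII (corner M V) := fun T hT hp T0 => by
  obtain ⟨v, vM, v1, v2, v3⟩ := hM _ (h.ex_mem he hT) (h.proj hp)
    fun c => T0 (by rw [← h.cp_ex T, c, cp_zero])
  have p := pi_of_init (v1 ▸ h.proj hp : IsStarProjection (star v * v))
  have l : ex V 1 * ex V T = ex V T := by rw [← h.ex_mul, one_mul]
  have r : ex V T * ex V 1 = ex V T := by rw [← h.ex_mul, mul_one]
  have a1 : ex V T * v = v := by rw [← p, ← mul_assoc, v2]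
  have a2 : v * ex V T = v := by rw [← v1, ← mul_assoc, p]
  have a3 : ex V (cp V v) = v := by
    rw [ex_cp, ← a1, ← mul_assoc, l, a1, ← a2, mul_assoc, r]
  have inj : ∀ S S' : K →L[ℂ] K, ex V S = ex V S' → S = S' := fun S S' c => by
    rw [← h.cp_ex S, c, h.cp_ex]
  refine ⟨cp V v, h.cp_mem he vM, inj _ _ ?_, inj _ _ ?_, fun c => v3 ?_⟩
  · rw [h.ex_mul, ex_star, a3, v1]
  · rw [h.ex_mul, h.ex_mul, ex_star, a3, v2]
  · rw [← c, h.ex_mul, ex_star, a3]

theorem iii_ind (hM : P132.IsTypeIII M.commutant) (h : Iso V) (he : ex V 1 ∈ M)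
    (hi : ∀ y ∈ M.commutant, cp V y = 0 → y = 0) :
    P132.IsTypeIII (corner M V).commutant := fun T hT hp T0 => by
  have k : ∀ a ∈ M.commutant, ∀ b ∈ M.commutant, cp V a = cp V b → a = b := fun a ha b hb e =>
    sub_eq_zero.1 (hi _ (sub_mem ha hb) (by rw [cp_sub, e, sub_self]))
  have m : ∀ a ∈ M.commutant, ∀ b, cp V (a * b) = cp V a * cp V b := fun a ha b =>
    h.cp_mul _ (commute_of_mem he ha)
  obtain ⟨z, z1, rfl⟩ := induce h he hT
  obtain ⟨v, vM, v1, v2, v3⟩ := hM z z1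
    ⟨k _ (mul_mem z1 z1) _ z1 (by rw [m _ z1, hp.1.eq]),
      k _ (star_mem z1) _ z1 (by rw [cp_star, hp.2.star_eq])⟩ fun c => T0 (by rw [c, cp_zero])
  refine ⟨cp V v, cp_mem' vM, ?_, ?_, fun c => v3 (k _ (mul_mem vM (star_mem vM)) _ z1 ?_)⟩
  · rw [← cp_star, ← m _ (star_mem vM), v1]
  · rw [← cp_star, ← m _ vM, ← m _ z1, v2]
  · rw [m _ vM, cp_star, c]

end

theorem facS (h : IIIStmt.{u}) : FacStmt.{u} := by
  obtain ⟨a0, a01, ha0⟩ := h
  obtain ⟨a, a1, ha⟩ := newtonS.{u} a0 a01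
  obtain ⟨s, s1, hs⟩ := kk_semi.{u}
  obtain ⟨c, c1, hc⟩ := cut.{u}
  have k1 : 1 ≤ 4 * distK := by unfold distK; nlinarith [sq_nonneg (simL 2)]
  have m : ∀ {x y : ℝ}, 1 ≤ x → 1 ≤ y → 1 ≤ x * y := fun h h' => one_le_mul_of_one_le_of_one_le h h'
  obtain ⟨b, hb⟩ : ∃ b, b = 4 * distK * (c * (4 * distK * a)) := ⟨_, rfl⟩
  have b1 : 1 ≤ b := hb ▸ m k1 (m c1 (m k1 a1))
  have cb := m c1 b1
  refine ⟨s + c * b, by linarith, fun H _ _ _ _ M hF => ?_⟩
  rcases subsingleton_or_nontrivial H with _ | _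
  · intro N δ d0 d1 _ _
    refine ⟨1, one_mem _, by rw [sub_self, norm_zero]; positivity, ?_⟩
    ext x
    exact ⟨fun _ => Subsingleton.elim 0 x ▸ zero_mem N, fun _ => ⟨0, zero_mem M,
      Subsingleton.elim _ _⟩⟩
  obtain ⟨ξ, x0⟩ := exists_ne (0 : H)
  by_cases h3 : ∃ e, IsFiniteProj M e ∧ e ≠ 0
  · exact KK.mono (by linarith) (hs H M ⟨hF, h3⟩ ⟨ξ, x0, IsSeparable.of_separableSpace _⟩)
  have t3 : P132.IsTypeIII M := fun e eM ep e0 => by
    by_contra! c0
    exact h3 ⟨e, ⟨eM, ep, fun v vM v1 v2 => c0 v vM v1 (by rw [← mul_assoc, v2])⟩, e0⟩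
  obtain ⟨e, eM, e1, -, e2, e3, -⟩ := exists_cyclic_proj (M := M) (one_mem _) ξ rfl
  have e0 : e ≠ 0 := fun c => x0 (by rw [← e2, c]; rfl)
  obtain ⟨K, _, _, _, V, h, rfl, hK⟩ := exists_range e1
  have := hK (IsSeparable.of_separableSpace _)
  refine KK.mono (by linarith) (hc H K M V b b1 h eM (hF.inj h eM e0) ?_)
  have hP := hF.corner h eM
  have hP3 := iii_corner t3 h eM
  have sp : ∀ x ∈ corner M V, x ((V†) ξ) = 0 → x = 0 := fun x hx h0 => by
    have := e3 _ (h.ex_mem eM hx) (by rw [ex_apply, h0, map_zero])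
    rw [← h.ex_mul, mul_one] at this
    rw [← h.cp_ex x, this, cp_zero]
  have y0 : (V†) ξ ≠ 0 := fun c => x0 (by rw [← e2, ex_apply, c, map_zero, map_zero])
  generalize corner M V = P at hP hP3 sp
  generalize (V†) ξ = η at sp y0
  obtain ⟨q, q1, q2, q3, q4⟩ := cyc_proj P η
  obtain ⟨L, _, _, _, W, w, rfl, w2⟩ := exists_range q2
  have := w2 (IsSeparable.of_separableSpace _)
  have q0 : ex W 1 ≠ 0 := fun c => y0 (by rw [← q3, c]; rfl)
  have hi := hP.comm.inj w q1 q0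
  have q5 : W ((W†) η) = η := q3
  refine hb ▸ KK.comm (hc K L _ W _ (m k1 a1) w q1 hi (KK.comm (ha L _ (ha0 L _ ((W†) η)
    (fun c => y0 (by rw [← q5, c, map_zero])) ⟨fun k => ?_, fun T hT h0 => ?_⟩
    (hP.comm.corner w q1).comm (iii_ind (by rwa [P.commutant_commutant]) w q1 hi)))))
  · have h1 := q4 (show ex W 1 (W k) = W k by rw [ex_apply, w k]; rfl)
    rw [← w k]
    refine map_mem_closure (W†).continuous h1 ?_
    rintro _ ⟨x, hx, rfl⟩
    exact ⟨cp W x, cp_mem' (by rwa [P.commutant_commutant]), by rw [cp_apply, q5]⟩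
  · obtain ⟨z, z1, rfl⟩ := induce w q1 hT
    rw [cp_apply, q5] at h0
    rw [P.commutant_commutant] at z1
    have : z η = 0 := by
      rw [← q3, ← mul_apply_eq_comp, commute_of_mem z1 q1, mul_apply_eq_comp, ex_apply, h0,
        map_zero, map_zero]
    rw [sp z z1 this, cp_zero]

theorem kk_gen (h : IIIStmt.{u}) : ∃ C : ℝ, 1 ≤ C ∧ ∀ (H : Type u) [NormedAddCommGroup H]
    [InnerProductSpace ℂ H] [CompleteSpace H] (M : VonNeumannAlgebra H), KK M C := by
  obtain ⟨a, a1, ha⟩ := guS sepS (gxS (glocS (facS h)))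
  obtain ⟨b, b1, hb⟩ := newtonS.{u} a a1
  exact ⟨b, b1, fun H _ _ _ M => hb H M (ha H M)⟩

theorem gtop (h : IIIStmt.{u}) (ε : ℝ) (hε : 0 < ε) :
    ∃ δ : ℝ, 0 < δ ∧ ∀ (H : Type u) [NormedAddCommGroup H] [InnerProductSpace ℂ H]
      [CompleteSpace H] (M N : VonNeumannAlgebra H), kkDist M N < δ →
      ∃ u ∈ unitary (H →L[ℂ] H), ‖u - 1‖ < ε ∧
        (fun x => u * x * star u) '' (M : Set (H →L[ℂ] H)) = N := by
  obtain ⟨C, c1, hC⟩ := kk_gen h
  obtain ⟨δ, d0, h⟩ := KK.eps.{u} c1 hε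
  exact ⟨δ, d0, fun H _ _ _ M N d => h H M N (hC H M) d⟩

end Vale.Agent.P096
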