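import Vale.Agent.P096.Step
import Vale.Agent.P082.Cut1

/-! A bimodular map of small norm is small for the trace norm. -/

namespace Vale.Agent.P096

open scoped InnerProductSpace ComplexOrder BigOperators
open Filter Topology Vale.Agent.P104 Vale.Agent.P082 Finset

universe u

theorem damp_sa {A E : Type*} [CStarAlgebra A] [PartialOrder A] [StarOrderedRing A]
    [NormedAddCommGroup E] [InnerProductSpace ℂ E] {τ : A →ₗ[ℂ] ℂ} {Λ : A →ₗ[ℂ] E} (h : Tr τ Λ)
    (a : A) {η : ℝ} (hη : 0 < η) (ha : ‖Λ a‖ ≤ η ^ 2) :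
    ∃ r : A, ‖r‖ ≤ 1 ∧ ‖a * r‖ ≤ η ∧ ‖Λ (1 - r)‖ ≤ η := by
  obtain ⟨r, r1, r2, r3⟩ := Cut.exists_damp h (star_mul_self_nonneg (((η⁻¹ : ℝ) : ℂ) • a))
  refine ⟨r, r1, ?_, le_of_sq_le hη.le (r3.trans ?_)⟩
  · have := norm_sq_le_of_le (x := (((η⁻¹ : ℝ) : ℂ) • a) * r) zero_le_one
      (by rwa [one_smul, star_mul, mul_assoc, ← mul_assoc (star _) _ r, ← mul_assoc])
    rw [smul_mul_assoc, norm_smul, Complex.norm_real, Real.norm_of_nonneg (by positivity),
      sq_le_one_iff₀ (by positivity), inv_mul_le_iff₀ hη, mul_one] at this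
    exact this
  · rw [← h.nsq, map_smul, norm_smul, Complex.norm_real, Real.norm_of_nonneg (by positivity)]
    refine pow_le_pow_left₀ (by positivity) ?_ 2
    rw [inv_mul_le_iff₀ hη]
    linarith

theorem grothS : GrothStmt.{u} := by
  intro A B E Γ _ _ _ _ _ _ ρ L R ξ G ι σ γ h D c C₀ c0 h1 h2 h3 x
  letI := CStarAlgebra.spectralOrder A
  letI := CStarAlgebra.spectralOrderedRing A
  have k := h.toStdB
  let Λ : A →ₗ[ℂ] E := evalAt (ρ : A →ₐ[ℂ] (E →L[ℂ] E)) ξ
  have hΛ : ∀ a, Λ a = ρ a ξ := fun _ => rfl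
  let τ : A →ₗ[ℂ] ℂ := (innerₛₗ ℂ ξ) ∘ₗ Λ
  have hτ : ∀ a, τ a = ⟪ξ, ρ a ξ⟫_ℂ := fun _ => rfl
  have T : Tr τ Λ := ⟨h.tr, fun a b => by
    rw [hτ, hΛ, hΛ, map_mul, map_star, mul_apply_eq_comp, inner_star_right]⟩
  have σ1 : ∀ g, ‖σ g‖ ≤ 1 := fun g => un_le (hom_unitary h.σ_star g)
  obtain ⟨t, ht⟩ : ∃ t, t = ‖ρ x ξ‖ := ⟨_, rfl⟩
  have t0 : 0 ≤ t := ht ▸ norm_nonneg _
  have key : ∀ y : A, ‖ρ y ξ‖ = t → ∀ η, 0 < η → ∃ (n : ℕ) (r : A), ‖r‖ ≤ 1 ∧
      ‖Λ (1 - r)‖ ≤ η ∧ ‖star r * av (G n) (fun g => star (σ g) * (star y * y) * σ g) * r‖ ≤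
        t ^ 2 + η := fun y hy η hη => by
    obtain ⟨n, hn⟩ := h.erg (Λ (star y * y)) (η ^ 2) (by positivity)
    have e1 : ⟪ξ, Λ (star y * y)⟫_ℂ = ((t ^ 2 : ℝ) : ℂ) := by
      change τ _ = _
      rw [← T.inner, inner_self_eq_norm_sq_to_K, hΛ, hy]; simp
    obtain ⟨r, r1, r2, r3⟩ := damp_sa T (av (G n) (fun g => star (σ g) * (star y * y) * σ g) -
      ((t ^ 2 : ℝ) : ℂ) • 1) hη (by
        rw [map_sub, map_smul, hΛ 1, map_one, one_apply_eq_self, ← e1, av_map, ← h.lf.av_inv]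
        refine le_of_eq_of_le ?_ hn
        congr 3
        funext g
        rw [h.σ_star, inv_inv]
        exact (h.cm g).vec k (h.cm g⁻¹) _)
    refine ⟨n, r, r1, r3, ?_⟩
    rw [← sub_add_cancel (av _ _) (((t ^ 2 : ℝ) : ℂ) • 1), mul_assoc, add_mul, mul_add]
    refine (norm_add_le _ _).trans ?_
    have s1 : ‖star r‖ ≤ 1 := by rwa [norm_star]
    have a1 := (norm_mul_le (star r) _).trans (mul_le_mul s1 r2 (norm_nonneg _) zero_le_one)
    have a2 : ‖star r * (((t ^ 2 : ℝ) : ℂ) • 1 * r)‖ ≤ t ^ 2 := by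
      rw [smul_mul_assoc, one_mul, mul_smul_comm, norm_smul, Complex.norm_real,
        Real.norm_of_nonneg (by positivity)]
      exact mul_le_of_le_one_right (by positivity) (nrm2 s1 r1)
    linarith
  have main : ∀ η, 0 < η → ‖D x‖ ≤ 2 * c * √(t ^ 2 + η) + 2 * |C₀| * ‖x‖ * η := fun η hη => by
    obtain ⟨n, r, r1, r2, r3⟩ := key x ht.symm η hη
    obtain ⟨m, q, q1, q2, q3⟩ := key (star x) ((h.ν_star x).trans ht.symm) η hη
    have n0 : (0 : ℝ) < (G n).card := by exact_mod_cast (h.lf.ne n).card_pos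
    have m0 : (0 : ℝ) < (G m).card := by exact_mod_cast (h.lf.ne m).card_pos
    have uσ := hom_unitary h.σ_star
    let y : Fin (G m).card × Fin (G n).card → A := fun i =>
      star q * (star (σ ((G m).equivFin.symm i.1)) * x * σ ((G n).equivFin.symm i.2)) * r
    have sm : ∀ (s : Finset Γ) (f : Γ → A), s.Nonempty →
        ∑ i : Fin s.card, f (s.equivFin.symm i) = (s.card : ℂ) • av s f := fun s f hs => by
      rw [av, smul_inv_smul₀ (by exact_mod_cast hs.card_pos.ne'),
        s.equivFin.symm.sum_comp fun g => f g, sum_coe_sort]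
    have cq : ∀ (q a : A), ‖q‖ ≤ 1 → star (star q * a) * (star q * a) ≤ star a * a :=
      fun q a hq => by
        have := conj_le_smul ((mul_star_self_le_norm_sq q).trans (smul_le_smul_of_nonneg_right
          (show ‖q‖ ^ 2 ≤ 1 from pow_le_one₀ (norm_nonneg _) hq) zero_le_one)) a
        rwa [one_smul, ← mul_assoc, mul_assoc, ← star_star q, ← star_mul, star_star] at this
    have b1 : ‖∑ i, star (y i) * y i‖ ≤ (G m).card * (G n).card * (t ^ 2 + η) := by
      refine (CStarAlgebra.norm_le_norm_of_nonneg_of_le (sum_nonneg fun i _ =>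
        star_mul_self_nonneg _) (b := ((G m).card : ℂ) • ((G n).card : ℂ) • (star r *
          av (G n) (fun g => star (σ g) * (star x * x) * σ g) * r)) ?_).trans ?_
      · rw [← smul_mul_assoc ((G n).card : ℂ), ← mul_smul_comm ((G n).card : ℂ),
          ← sm _ _ (h.lf.ne n), mul_sum, sum_mul, Nat.cast_smul_eq_nsmul, Fintype.sum_prod_type]
        refine (sum_le_card_nsmul _ _ _ ?_).trans (by rw [card_univ, Fintype.card_fin])
        refine fun i _ => sum_le_sum fun j _ => ?_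
        simp only [y, mul_assoc]
        refine (cq q _ q1).trans (le_of_eq ?_)
        simp only [star_mul, star_star, mul_assoc]
        rw [← mul_assoc (σ _) (star (σ _)), (uσ _).2, one_mul]
      · rw [norm_smul, norm_smul, Complex.norm_natCast, Complex.norm_natCast, ← mul_assoc]
        gcongr
    have b2 : ‖∑ i, y i * star (y i)‖ ≤ (G m).card * (G n).card * (t ^ 2 + η) := by
      refine (CStarAlgebra.norm_le_norm_of_nonneg_of_le (sum_nonneg fun i _ =>
        mul_star_self_nonneg _) (b := ((G n).card : ℂ) • ((G m).card : ℂ) • (star q *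
          av (G m) (fun g => star (σ g) * (star (star x) * star x) * σ g) * q)) ?_).trans ?_
      · rw [← smul_mul_assoc ((G m).card : ℂ), ← mul_smul_comm ((G m).card : ℂ),
          ← sm _ _ (h.lf.ne m), mul_sum, sum_mul, Nat.cast_smul_eq_nsmul, Fintype.sum_prod_type_right]
        refine (sum_le_card_nsmul _ _ _ ?_).trans (by rw [card_univ, Fintype.card_fin])
        refine fun i _ => sum_le_sum fun j _ => ?_
        have := cq r (star (star q * (star (σ ((G m).equivFin.symm j)) * x *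
          σ ((G n).equivFin.symm i)))) r1
        rw [← star_mul, star_star, star_star] at this
        refine this.trans (le_of_eq ?_)
        simp only [star_mul, star_star, mul_assoc]
        rw [← mul_assoc (σ _) (star (σ _)), (uσ _).2, one_mul]
      · rw [norm_smul, norm_smul, Complex.norm_natCast, Complex.norm_natCast, ← mul_assoc,
          mul_comm ((G n).card : ℝ)]
        gcongr
    have g1 := groth D h1 _ y _ b1 b2
    have g2 : ∀ i, ‖D x‖ ≤ ‖D (y i)‖ + 2 * |C₀| * ‖x‖ * η := fun i => by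
      obtain ⟨z, hz⟩ : ∃ z, z = star (σ ((G m).equivFin.symm i.1)) * x *
        σ ((G n).equivFin.symm i.2) := ⟨_, rfl⟩
      have z1 : ‖z‖ ≤ ‖x‖ := hz ▸ nrm1 (by rw [norm_star]; exact σ1 _) (σ1 _)
      have z2 : ‖D z‖ = ‖D x‖ := by rw [hz, h.σ_star, h3]
      have z3 : ‖ρ (z - y i) ξ‖ ≤ 2 * ‖x‖ * η := by
        have e : z - y i = 1 * star (1 - q) * z + star q * z * (1 - r) * 1 := by
          simp only [y, ← hz, star_sub, star_one]; noncomm_ring
        have a1 := h.ν_le 1 (star (1 - q)) z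
        have a2 := h.ν_le (star q * z) (1 - r) 1
        have a3 : ‖star q * z‖ ≤ ‖x‖ := (norm_mul_le _ _).trans
          ((mul_le_of_le_one_left (norm_nonneg _) (by rwa [norm_star])).trans z1)
        rw [h.ν_star] at a1
        have a4 := mul_le_mul (mul_le_mul (one_le (A := A)) z1 (norm_nonneg _) zero_le_one) q2
          (norm_nonneg _) (by positivity)
        have a5 := mul_le_mul (mul_le_mul a3 (one_le (A := A)) (norm_nonneg _) (norm_nonneg _)) r2
          (norm_nonneg _) (by positivity)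
        rw [e, map_add, add_apply]
        refine (norm_add_le _ _).trans ?_
        rw [hΛ] at a4 a5
        linarith
      have z4 := (h2 (z - y i)).trans ((mul_le_mul_of_nonneg_right (le_abs_self C₀)
        (norm_nonneg _)).trans (mul_le_mul_of_nonneg_left z3 (abs_nonneg _)))
      have z5 := norm_sub_norm_le (D z) (D (y i))
      rw [← map_sub] at z5
      linarith
    haveI : Nonempty (Fin (G m).card × Fin (G n).card) :=
      ⟨(⟨0, (h.lf.ne m).card_pos⟩, ⟨0, (h.lf.ne n).card_pos⟩)⟩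
    obtain ⟨i, -, hi⟩ := exists_le_of_sum_le (s := univ) univ_nonempty
      (f := fun i => ‖D (y i)‖ ^ 2) (g := fun _ => 2 * c ^ 2 * (t ^ 2 + η))
      (g1.trans (le_of_eq (by simp; ring)))
    refine (g2 i).trans (add_le_add_left (le_of_sq_le (by positivity) (hi.trans ?_)) _)
    rw [mul_pow, Real.sq_sqrt (by positivity)]
    nlinarith [mul_nonneg (sq_nonneg c) (add_nonneg (sq_nonneg t) hη.le)]
  have lim : Tendsto (fun η : ℝ => 2 * c * √(t ^ 2 + η) + 2 * |C₀| * ‖x‖ * η) (𝓝[>] 0)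
      (𝓝 (2 * c * √(t ^ 2 + 0) + 2 * |C₀| * ‖x‖ * 0)) :=
    (Continuous.tendsto (by fun_prop) 0).mono_left nhdsWithin_le_nhds
  have := ge_of_tendsto lim (eventually_nhdsWithin_of_forall main)
  rwa [add_zero, Real.sqrt_sq t0, mul_zero, add_zero, ht] at this

end Vale.Agent.P096
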