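import Vale.Agent.P096.Popa2

/-! An ergodic locally finite group of unitaries in a separable tracial factor. -/

namespace Vale.Agent.P096

open scoped InnerProductSpace BigOperators ComplexConjugate
open Filter Topology Vale.Agent.P104 Vale.Agent.P082 Finset

universe u

section Step

variable {A : Type*} [CStarAlgebra A] {F : Finset (unitary A)}
  {E : Type*} [NormedAddCommGroup E] [InnerProductSpace ℂ E] {τ : A →ₗ[ℂ] ℂ} {Λ : A →ₗ[ℂ] E}

theorem St.step (ht : Tr τ Λ) (hf : ∀ x, τ (star x * x) = 0 → x = 0) (hd : Dix τ) (hF : St F)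
    (x : A) (hx : τ x = 0) {η : ℝ} (hη : 0 < η) :
    ∃ F', St F' ∧ F ⊆ F' ∧ ‖Λ (EF F' x)‖ ^ 2 ≤ ‖Λ (EF F x)‖ ^ 2 / 2 + η := by
  set y := EF F x with hy
  have y0 : Cm F y := EF_cm hF.grp x
  have y1 : τ y = 0 := by rw [hy, EF_tr ht hF.grp, hx]
  obtain ⟨w, hw, w1, w2, w3⟩ := hF.halv 1 Cm.one (star_one A) (one_mul 1)
  have h : Hv w := ⟨w1, w2, w3⟩
  have hs := hw.adj hF.grp
  let S : Subgroup (unitary A) :=
    { carrier := {u | Cm F u.1 ∧ Commute u.1 (star w * w)}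
      mul_mem' := fun ha hb => ⟨ha.1.mul hb.1, ha.2.mul_left hb.2⟩
      one_mem' := ⟨Cm.one, Commute.one_left _⟩
      inv_mem' := fun {a} ha => ⟨ha.1.adj hF.grp, by
        have := ha.2.star_star
        rwa [star_mul, star_star] at this⟩ }
  obtain ⟨z, z1, z2⟩ := hd S (star w * y * w)
  have cr : ∀ u ∈ S, Cor w (star u.1 * (star w * y * w) * u.1) := fun u hu => by
    have c1 : Commute (star u.1) (star w * w) := (S.inv_mem hu).2
    refine ⟨?_, ?_⟩
    · rw [← mul_assoc, ← mul_assoc, ← c1.eq]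
      simp only [mul_assoc, h.r4]
    · rw [mul_assoc, hu.2.eq]
      simp only [mul_assoc, h.r3]
  have zc : ∀ a, (∀ u ∈ S, a * (star u.1 * (star w * y * w) * u.1) =
      (star u.1 * (star w * y * w) * u.1) * a) → a * z = z * a := fun a ha => by
    have e : ∀ t b, τ (t * (a * b - b * a)) = τ ((t * a - a * t) * b) := fun t b => by
      rw [mul_sub, sub_mul, map_sub, map_sub, ← mul_assoc t b, ht.tr _ a]; simp only [mul_assoc]
    refine sub_eq_zero.1 (hf _ ?_)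
    rw [e]
    exact z2.eq _ 0 fun u hu => by rw [← e, ha u hu, sub_self, mul_zero, map_zero]
  have z3 : Cm F z := fun g hg => zc _ fun u hu =>
    ((hu.1.adj hF.grp).mul ((hs.mul y0).mul hw)).mul hu.1 g hg
  have z4 : Cor w z := by
    have a1 : star w * z = 0 := hf _ (by
      rw [← mul_assoc]
      exact z2.eq _ 0 fun u hu => by rw [mul_assoc, (cr u hu).wb h, mul_zero, map_zero])
    have a2 : star w * w * z = z := by
      conv_rhs => rw [← one_mul z, ← h.sum, add_mul, mul_assoc w, a1, mul_zero, add_zero]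
    exact ⟨a2, by rw [← zc _ fun u hu => by rw [(cr u hu).l, (cr u hu).r], a2]⟩
  have z5 : ∀ b, Cm F b → Cor w b → z * b = b * z := fun b hb hc => by
    let T := StarSubalgebra.centralizer ℂ (insert (star w * w) ((fun u : unitary A => u.1) '' F))
    have hm : ∀ a, a ∈ T ↔ Cm F a ∧ Commute a (star w * w) := fun a => by
      rw [StarSubalgebra.mem_centralizer_iff, Set.forall_mem_insert, Set.forall_mem_image]
      refine ⟨fun k => ⟨fun g hg => (k.2 hg).1, k.1.1.symm⟩, fun k => ⟨⟨k.2.eq.symm, ?_⟩,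
        fun g hg => ⟨k.1 g hg, k.1 _ (hF.grp.inv g hg)⟩⟩⟩
      rw [star_mul, star_star]
      exact k.2.eq.symm
    have cl : IsClosed (T : Set A) := by
      rw [StarSubalgebra.coe_centralizer]
      exact Set.isClosed_centralizer _
    obtain ⟨u, c, e, -⟩ := CStarAlgebra.exists_sum_four_unitary
      (⟨b, (hm b).2 ⟨hb, by rw [Commute, SemiconjBy, hc.l, hc.r]⟩⟩ : T)
    have e' : b = ∑ i, c i • (u i).1.1 := by simpa using congrArg Subtype.val e
    have k : ∀ i, (u i).1.1 * z = z * (u i).1.1 := fun i =>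
      z1 ⟨_, congrArg Subtype.val (u i).2.1, congrArg Subtype.val (u i).2.2⟩ ((hm _).1 (u i).1.2)
    simp only [e', mul_sum, sum_mul, mul_smul_comm, smul_mul_assoc, k]
  obtain ⟨c, hc⟩ := hF.corner h hw (hw.phi hF.grp z3) (z4.w_phi h) (z4.sw_phi h) fun b hb hb' => by
    rw [hb'.phi_mul h, hb'.mul_phi h, z5 b hb hb']
  have z6 : z = c • (star w * w) := by
    rw [← z4.l, ← h.cor_q.mul_phi h, hc, mul_smul_comm, mul_one]
  have z7 : τ (1 * z) = -τ (star w * w * y) := z2.eq _ _ fun u _ => by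
    rw [one_mul, ht.tr, ← mul_assoc, u.2.2, one_mul, ht.tr, ← mul_assoc, eq_neg_iff_add_eq_zero,
      ← map_add, ← add_mul, add_comm, h.sum, one_mul, y1]
  have z8 : (τ (star y * z)).re ≤ 0 := by
    have e1 : τ (star w * w) = (‖Λ w‖ ^ 2 : ℝ) := by
      rw [← ht.inner, inner_self_eq_norm_sq_to_K]; simp
    have e2 : τ (star y * (star w * w)) = conj (τ (star w * w * y)) := by
      rw [← ht.inner, ← inner_conj_symm, ht.inner, star_mul, star_star]
    rw [one_mul, z6, map_smul, e1, smul_eq_mul, eq_comm, neg_eq_iff_eq_neg] at z7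
    rw [z6, mul_smul_comm, map_smul, e2, z7, smul_eq_mul, map_neg, map_mul, Complex.conj_ofReal,
      mul_neg, ← mul_assoc, Complex.mul_conj, ← Complex.ofReal_mul, Complex.neg_re,
      Complex.ofReal_re, neg_nonpos]
    exact mul_nonneg (Complex.normSq_nonneg _) (sq_nonneg _)
  obtain ⟨u, hu, hu'⟩ : ∃ u ∈ S, (τ (star y * (star u.1 * (star w * y * w) * u.1))).re < η := by
    by_contra c
    push Not at c
    linarith [z2 _ _ c]
  have h' : Hv (w * u.1) := by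
    refine ⟨?_, ?_, ?_⟩
    · rw [star_mul, mul_assoc w, ← mul_assoc u.1, u.2.2, one_mul, ← mul_assoc, w1]
    · have c1 : Commute u.1 (w * star w) := by
        rw [← sub_eq_iff_eq_add'.2 w3.symm]
        exact (Commute.one_right _).sub_right hu.2
      nth_rw 2 [← w1]
      rw [mul_assoc, ← mul_assoc u.1, ← mul_assoc u.1, c1.eq]
      simp only [mul_assoc, h.r1]
    · rw [star_mul, mul_assoc w, ← mul_assoc u.1, u.2.2, one_mul, mul_assoc, ← mul_assoc (star w),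
        ← hu.2.eq, ← mul_assoc, u.2.1, one_mul, w3]
  obtain ⟨F', s1, s2, s3, s4⟩ := hF.pauli h' (hw.mul hu.1)
  refine ⟨F', s1, s2, ?_⟩
  have := pauli_est ht h' s1.grp s3 s4 y
  rw [hy, EF_EF hF.grp s1.grp s2, ← hy] at this
  simp only [star_mul, mul_assoc] at this hu'
  linarith

theorem St.small (ht : Tr τ Λ) (hf : ∀ x, τ (star x * x) = 0 → x = 0) (hd : Dix τ) (hF : St F)
    (x : A) (hx : τ x = 0) {ε : ℝ} (hε : 0 < ε) :
    ∃ F', St F' ∧ F ⊆ F' ∧ ‖Λ (EF F' x)‖ ≤ ε := by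
  have key : ∀ n : ℕ, ∃ F', St F' ∧ F ⊆ F' ∧
      ‖Λ (EF F' x)‖ ^ 2 ≤ ‖Λ (EF F x)‖ ^ 2 / 2 ^ n + ε ^ 2 / 2 := fun n => by
    induction n with
    | zero => exact ⟨F, hF, Subset.rfl, by simp; positivity⟩
    | succ n ih =>
      obtain ⟨F₁, a1, a2, a3⟩ := ih
      obtain ⟨F₂, b1, b2, b3⟩ := a1.step ht hf hd x hx (show 0 < ε ^ 2 / 4 by positivity)
      refine ⟨F₂, b1, a2.trans b2, ?_⟩
      rw [pow_succ (2 : ℝ) n, ← div_div]
      linarith
  have h0 : Tendsto (fun k : ℕ => ‖Λ (EF F x)‖ ^ 2 / 2 ^ k) atTop (𝓝 0) :=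
    tendsto_const_nhds.div_atTop (tendsto_pow_atTop_atTop_of_one_lt one_lt_two)
  obtain ⟨n, hn⟩ := (h0.eventually (gt_mem_nhds (show 0 < ε ^ 2 / 2 by positivity))).exists
  obtain ⟨F', a1, a2, a3⟩ := key n
  exact ⟨F', a1, a2, (pow_le_pow_iff_left₀ (norm_nonneg _) hε.le two_ne_zero).1 (by linarith)⟩

theorem exists_st (fac : ∀ z : A, (∀ x, z * x = x * z) → ∃ c : ℂ, z = c • 1) (hH : HalvA (1 : A)) :
    ∃ F : Finset (unitary A), St F ∧ ∀ x, Cm F x := by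
  obtain ⟨F, g1, -, g3, g4⟩ := Grp.ext (G := unitary A) (F := {1}) (s := -1)
    ⟨by simp, by simp, by simp⟩ (by simp) (by simp)
  have hc : ∀ x, Cm F x := fun x g hg => by
    rcases (g4 g).1 hg with a | a
    · rw [mem_singleton.1 a]; simp
    · have : g = -1 := by simpa [neg_eq_iff_eq_neg] using a
      rw [this]
      change (-1 : A) * x = x * (-1 : A)
      simp
  refine ⟨F, ⟨g1, g3, fun z _ hz => fac z fun x => hz x (hc x), fun g _ a b => ?_⟩, hc⟩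
  obtain ⟨w, hw⟩ := hH g a b (one_mul g)
  exact ⟨w, hc w, hw⟩

end Step

theorem popa_gen {A : Type u} [CStarAlgebra A] {E : Type*} [NormedAddCommGroup E]
    [InnerProductSpace ℂ E] [TopologicalSpace.SeparableSpace E] {τ : A →ₗ[ℂ] ℂ} {Λ : A →ₗ[ℂ] E}
    (ht : Tr τ Λ) (hf : ∀ x, τ (star x * x) = 0 → x = 0) (hd : Dix τ) (h1 : τ 1 = 1)
    (fac : ∀ z : A, (∀ x, z * x = x * z) → ∃ c : ℂ, z = c • 1) (hH : HalvA (1 : A)) :
    ∃ (Γ : Type u) (_ : Group Γ) (G : ℕ → Finset Γ) (ι : Γ →* A) (v : A) (X Z : Γ),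
    LocFin G ∧ (∀ g, star (ι g) = ι g⁻¹) ∧ star v * v + v * star v = 1 ∧ v * v = 0 ∧
    ι X = v + star v ∧ ι Z = star v * v - v * star v ∧ ∀ (x : A) (ε : ℝ), 0 < ε → ∃ k,
      ‖Λ (av (G k) (fun g => ι g * x * ι g⁻¹) - τ x • 1)‖ ≤ ε := by
  classical
  obtain ⟨F₀, s0, c0⟩ := exists_st fac hH
  obtain ⟨v, v1, v2, v3⟩ := hH 1 (star_one _) (one_mul _) (one_mul _)
  have hv : Hv v := ⟨v1, v2, v3⟩
  obtain ⟨F₁, s1, -, x1, z1⟩ := s0.pauli hv (c0 v)
  have : Nonempty ↥(Λ '' {x | τ x = 0}) := ⟨⟨_, 0, map_zero τ, rfl⟩⟩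
  obtain ⟨d, hdd⟩ := TopologicalSpace.exists_dense_seq ↥(Λ '' {x | τ x = 0})
  choose a ha hda using fun i => (d i).2
  have key : ∀ (n : ℕ) (F : {F : Finset (unitary A) // St F}),
      ∃ F' : {F : Finset (unitary A) // St F}, F.1 ⊆ F'.1 ∧
        ‖Λ (EF F'.1 (a n.unpair.1))‖ ≤ 1 / ((n : ℝ) + 1) := fun n F => by
    obtain ⟨F', b1, b2, b3⟩ := F.2.small ht hf hd (a n.unpair.1) (ha _)
      (Nat.one_div_pos_of_nat (n := n))
    exact ⟨⟨F', b1⟩, b2, b3⟩
  choose Φ Φ1 Φ2 using key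
  let F : ℕ → {F : Finset (unitary A) // St F} := fun k =>
    Nat.rec ⟨F₁, s1⟩ (fun k y => Φ k y) k
  have mono : Monotone fun k => (F k).1 := monotone_nat_of_le_succ fun k => Φ1 k (F k)
  let Γ : Subgroup (unitary A) :=
    { carrier := {g | ∃ k, g ∈ (F k).1}
      mul_mem' := fun {g h} ⟨k, hk⟩ ⟨l, hl⟩ => ⟨max k l, (F _).2.grp.mul _
        (mono (le_max_left k l) hk) _ (mono (le_max_right k l) hl)⟩
      one_mem' := ⟨0, s1.grp.one⟩
      inv_mem' := fun {g} ⟨k, hk⟩ => ⟨k, (F k).2.grp.inv _ hk⟩ }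
  let G : ℕ → Finset Γ := fun k => (F k).1.subtype (· ∈ Γ)
  have hG : ∀ k g, g ∈ G k ↔ g.1 ∈ (F k).1 := fun k g => mem_subtype
  let ι : Γ →* A := (unitary A).subtype.comp Γ.subtype
  refine ⟨Γ, inferInstance, G, ι, v, ⟨_, 0, x1⟩, ⟨_, 0, z1⟩, ⟨fun k => (hG _ _).2 (F k).2.grp.one,
    fun k g hg h hh => (hG _ _).2 ((F k).2.grp.mul _ ((hG _ _).1 hg) _ ((hG _ _).1 hh)),
    fun k g hg => (hG _ _).2 ((F k).2.grp.inv _ ((hG _ _).1 hg)),
    fun k l hkl g hg => (hG _ _).2 (mono hkl ((hG _ _).1 hg)),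
    fun g => g.2.imp fun k hk => (hG _ _).2 hk⟩, fun g => rfl, v3, v2, rfl, rfl, fun x ε hε => ?_⟩
  have e : ∀ k, av (G k) (fun g => ι g * x * ι g⁻¹) - τ x • 1 = EF (F k).1 (x - τ x • 1) := by
    intro k
    have m : ∀ g ∈ (F k).1, g ∈ Γ := fun g hg => ⟨k, hg⟩
    have e1 : EF (F k).1 1 = 1 := by
      rw [EF_apply, av_congr (f' := fun _ => 1) fun u _ => by rw [mul_one, u.2.2],
        av_const ⟨1, (F k).2.grp.one⟩]
    rw [map_sub, map_smul, e1, EF_apply, av, av, card_subtype, filter_true_of_mem m,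
      ← sum_subtype_of_mem _ m]
    rfl
  have x0 : τ (x - τ x • 1) = 0 := by rw [map_sub, map_smul, h1, smul_eq_mul, mul_one, sub_self]
  obtain ⟨i, hi⟩ := hdd.exists_dist_lt ⟨_, _, x0, rfl⟩ (half_pos hε)
  obtain ⟨j, hj⟩ := exists_nat_one_div_lt (half_pos hε)
  refine ⟨Nat.pair i j + 1, ?_⟩
  have b1 : ‖Λ (EF (F (Nat.pair i j + 1)).1 (a i))‖ ≤ 1 / ((Nat.pair i j : ℝ) + 1) := by
    simpa only [Nat.unpair_pair] using Φ2 (Nat.pair i j) (F _)
  have b2 : 1 / ((Nat.pair i j : ℝ) + 1) ≤ 1 / ((j : ℝ) + 1) :=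
    Nat.one_div_le_one_div (Nat.right_le_pair i j)
  have b3 := EF_norm ht (F (Nat.pair i j + 1)).2.grp (x - τ x • 1 - a i)
  rw [Subtype.dist_eq, dist_eq_norm, ← hda, ← map_sub] at hi
  have b4 : ‖Λ (EF (F (Nat.pair i j + 1)).1 (x - τ x • 1))‖ ≤ ε := by
    rw [← sub_add_cancel (x - τ x • 1) (a i), map_add, map_add]
    refine (norm_add_le _ _).trans ?_
    linarith
  rw [← e (Nat.pair i j + 1)] at b4
  exact b4

theorem popa : PopaStmt.{u} := fun _ _ _ _ _ _ _ _ _ _ _ _ hT ht =>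
  popa_gen ht hT.faith (dix hT.vec ht hT.faith) hT.one hT.fac hT.halv

end Vale.Agent.P096
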