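import Vale.Agent.P096.Step
import Vale.Agent.P096.Form
import Vale.Agent.P096.Popa

/-! Reduction to the standard position. -/

namespace Vale.Agent.P096

open scoped InnerProductSpace ComplexOrder BigOperators
open Filter Topology Vale.Agent.P104 Vale.Agent.P082 Finset ContinuousLinearMap

universe u

theorem LocFin.prod {Γ Γ' : Type*} [Group Γ] [Group Γ'] {G : ℕ → Finset Γ} {G' : ℕ → Finset Γ'}
    (h : LocFin G) (h' : LocFin G') : LocFin fun k => G k ×ˢ G' k := by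
  refine ⟨fun k => mem_product.2 ⟨h.one k, h'.one k⟩, fun k g hg a ha => mem_product.2
    ⟨h.mul k _ (mem_product.1 hg).1 _ (mem_product.1 ha).1,
      h'.mul k _ (mem_product.1 hg).2 _ (mem_product.1 ha).2⟩, fun k g hg => mem_product.2
    ⟨h.inv k _ (mem_product.1 hg).1, h'.inv k _ (mem_product.1 hg).2⟩,
    fun a b hab => product_subset_product (h.mono hab) (h'.mono hab), fun g => ?_⟩
  obtain ⟨k, h1, h2⟩ := ((h.ev g.1).and (h'.ev g.2)).exists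
  exact ⟨k, mem_product.2 ⟨h1, h2⟩⟩

theorem locFin_univ (Γ : Type*) [Group Γ] [Fintype Γ] : LocFin fun _ => (univ : Finset Γ) :=
  ⟨fun _ => mem_univ _, fun _ _ _ _ _ => mem_univ _, fun _ _ _ => mem_univ _,
    fun _ _ _ => le_rfl, fun _ => ⟨0, mem_univ _⟩⟩

section Erg

variable {A B E Γ : Type*} [CStarAlgebra A] [CStarAlgebra B] [NormedAddCommGroup E]
  [InnerProductSpace ℂ E] [CompleteSpace E] [Group Γ] {ρ : A →⋆ₐ[ℂ] (E →L[ℂ] E)}
  {L : B →⋆ₐ[ℂ] (E →L[ℂ] E)} {R : B →ₗ[ℂ] (E →L[ℂ] E)} {ξ : E} {G : ℕ → Finset Γ} {ι : Γ →* B}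
  {σ : Γ →* A}

theorem StdB.conj_vec (h : StdB L R ξ) (a b c : B) : L (a * b * c) ξ = L a (R c (L b ξ)) := by
  rw [← LL, ← LL, h.cen c, h.LRa b]

theorem StdB.erg_of (h : StdB L R ξ) (hl : LocFin G) (hι : ∀ g, star (ι g) = ι g⁻¹)
    (he : ∀ (x : B) (ε : ℝ), 0 < ε → ∃ k,
      ‖L (av (G k) (fun g => ι g * x * ι g⁻¹) - ⟪ξ, L x ξ⟫_ℂ • 1) ξ‖ ≤ ε) (η : E) (ε : ℝ)
    (hε : 0 < ε) : ∃ k, ‖av (G k) (fun g => L (ι g) (R (ι g⁻¹) η)) - ⟪ξ, η⟫_ℂ • ξ‖ ≤ ε := by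
  obtain ⟨b, hb⟩ := h.cyc.exists_dist_lt η (show 0 < ε / 3 by positivity)
  rw [dist_eq_norm] at hb
  obtain ⟨k, hk⟩ := he b (ε / 3) (by positivity)
  refine ⟨k, ?_⟩
  have ι1 : ∀ g, ‖ι g‖ ≤ 1 := fun g => un_le (hom_unitary hι g)
  have e : av (G k) (fun g => L (ι g) (R (ι g⁻¹) η)) - ⟪ξ, η⟫_ℂ • ξ =
      av (G k) (fun g => L (ι g) (R (ι g⁻¹) (η - L b ξ))) +
        L (av (G k) (fun g => ι g * b * ι g⁻¹) - ⟪ξ, L b ξ⟫_ℂ • 1) ξ - ⟪ξ, η - L b ξ⟫_ℂ • ξ := by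
    have := av_map (s := G k) (evalAt (L : B →ₐ[ℂ] (E →L[ℂ] E)) ξ) fun g => ι g * b * ι g⁻¹
    change L _ ξ = av _ fun g => L _ ξ at this
    simp only [map_sub, av_sub, map_smul, map_one, sub_apply, smul_apply, one_apply_eq_self, this,
      h.conj_vec, inner_sub_right, sub_smul]
    abel
  have a1 : ‖av (G k) (fun g => L (ι g) (R (ι g⁻¹) (η - L b ξ)))‖ ≤ ε / 3 :=
    av_norm_le₂ (hl.ne k) fun g _ => (h.LRle (ι1 _) (ι1 _) _).trans hb.le
  have a2 : ‖⟪ξ, η - L b ξ⟫_ℂ • ξ‖ ≤ ε / 3 := by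
    rw [norm_smul, h.unit, mul_one]
    refine (norm_inner_le_norm _ _).trans ?_
    rw [h.unit, one_mul]
    exact hb.le
  rw [e]
  refine (norm_sub_le _ _).trans ?_
  linarith [norm_add_le (av (G k) (fun g => L (ι g) (R (ι g⁻¹) (η - L b ξ))))
    (L (av (G k) (fun g => ι g * b * ι g⁻¹) - ⟪ξ, L b ξ⟫_ℂ • 1) ξ)]

theorem StdB.scalar (h : StdB L R ξ) (hl : LocFin G) (hι : ∀ g, star (ι g) = ι g⁻¹)
    (he : ∀ (η : E) (ε : ℝ), 0 < ε → ∃ k,
      ‖av (G k) (fun g => L (ι g) (R (ι g⁻¹) η)) - ⟪ξ, η⟫_ℂ • ξ‖ ≤ ε) {T : E →L[ℂ] E}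
    (hT : ∀ g, L (ι g) * T = T * L (ι g)) {b : B} {c : ℝ} (hb : ‖T - L b‖ ≤ c) :
    ‖T - ⟪ξ, L b ξ⟫_ℂ • 1‖ ≤ c := by
  have ι1 : ∀ g, ‖L (ι g)‖ ≤ 1 := fun g => (h.Liso _).trans_le (un_le (hom_unitary hι g))
  refine opNorm_le_bound _ ((norm_nonneg _).trans hb) fun η => ?_
  refine h.cyc.induction_on η (isClosed_le (by fun_prop) (by fun_prop)) fun y => ?_
  refine le_of_forall_pos_le_add fun ε hε => ?_
  obtain ⟨k, hk⟩ := he (L b ξ) (ε / (‖y‖ + 1)) (by positivity)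
  have e : (T - ⟪ξ, L b ξ⟫_ℂ • (1 : E →L[ℂ] E)) (L y ξ) =
      av (G k) (fun g => (L (ι g) * (T - L b) * L (ι g⁻¹)) (L y ξ)) +
      R y (av (G k) (fun g => L (ι g) (R (ι g⁻¹) (L b ξ))) - ⟪ξ, L b ξ⟫_ℂ • ξ) := by
    rw [map_sub]
    erw [av_map (R y).toLinearMap]
    rw [← add_sub_assoc, ← av_add₂, av_congr₂ (f' := fun _ => T (L y ξ)) fun g _ => ?_,
      av_const₂ (hl.ne k), sub_apply, smul_apply, one_apply_eq_self, map_smul, h.cen]
    rw [mul_sub, sub_mul, hT, mul_assoc T, ← map_mul, ← map_mul, mul_inv_cancel, map_one, map_one,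
      mul_one, ← map_mul, ← map_mul, sub_apply, coe_coe, ← h.conj_vec, h.cen y, h.LRa,
      sub_add_cancel]
  have a1 : ‖av (G k) (fun g => (L (ι g) * (T - L b) * L (ι g⁻¹)) (L y ξ))‖ ≤ c * ‖L y ξ‖ :=
    av_norm_le₂ (hl.ne k) fun g _ => le_of_opNorm_le _ ((nrm1 (ι1 _) (ι1 _)).trans hb) _
  have a2 := (h.Rle y _).trans (mul_le_mul_of_nonneg_left hk (norm_nonneg y))
  have a3 : ‖y‖ * (ε / (‖y‖ + 1)) ≤ ε := by
    rw [← mul_div_assoc, div_le_iff₀ (by positivity)]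
    nlinarith
  rw [e]
  refine (norm_add_le _ _).trans ?_
  linarith

end Erg

theorem trace_eq {H E Γ : Type u} [NormedAddCommGroup H] [InnerProductSpace ℂ H] [CompleteSpace H]
    [NormedAddCommGroup E] [InnerProductSpace ℂ E] [CompleteSpace E] [Group Γ]
    {M : VonNeumannAlgebra H} {G : ℕ → Finset Γ} (hl : LocFin G) {σ : Γ →* Alg M}
    (hσ : ∀ g, star (σ g) = σ g⁻¹) {τ ω : Alg M →ₗ[ℂ] ℂ} (hτ : TrFac M τ) (hω : VecF ω)
    (ω1 : ω 1 = 1) (ω2 : ∀ g a, ω (σ g * a * σ g⁻¹) = ω a)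
    (hs : ∀ z, (∀ g, σ g * z = z * σ g) → ∃ c : ℂ, z = c • 1) (a : Alg M) : ω a = τ a := by
  have σ1 : ∀ g, ‖σ g‖ ≤ 1 := fun g => un_le (hom_unitary hσ g)
  have hb : ∀ g, ‖σ g * a * σ g⁻¹‖ ≤ ‖a‖ := fun g => nrm1 (σ1 _) (σ1 _)
  have m := mean_spec M hl
  obtain ⟨c, hc⟩ := hs (mean M G fun g => σ g * a * σ g⁻¹) fun g => by
    rw [← m.left _ _ _ hb, ← m.right _ _ _ hb, ← m.inv (fun h => σ h * a * σ h⁻¹ * σ g) ‖a‖ g
      fun h => (norm_mul_le _ _).trans ((mul_le_of_le_one_right (norm_nonneg _) (σ1 _)).trans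
        (hb h))]
    congr 1
    funext h
    simp only [map_mul, mul_inv_rev, mul_assoc]
    rw [← map_mul σ g⁻¹, inv_mul_cancel, map_one, mul_one]
  have k : ∀ φ : Alg M →ₗ[ℂ] ℂ, VecF φ → φ 1 = 1 → (∀ g a, φ (σ g * a * σ g⁻¹) = φ a) →
      φ a = c := fun φ h1 h2 h3 => by
    have := Glue.vec_wlim h1 (U := Ultrafilter.of (atTop : Filter ℕ))
      (v := fun k => av (G k) fun g => σ g * a * σ g⁻¹) fun k => av_norm_le₂ (hl.ne k)
        fun g _ => hb g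
    simp only [av_map, h3, av_const₂ (hl.ne _)] at this
    rw [tendsto_nhds_unique tendsto_const_nhds this]
    change φ (mean M G _) = c
    rw [hc, map_smul, h2, smul_eq_mul, mul_one]
  rw [k ω hω ω1 ω2, k τ hτ.vec hτ.one fun g a => by
    rw [hτ.tr, ← mul_assoc, ← map_mul, inv_mul_cancel, map_one, one_mul]]

set_option maxHeartbeats 2000000 in
theorem init (popa : PopaStmt.{u}) (form : FormStmt.{u}) (kaz : KazStmt.{u})
    (conj : ConjStmt.{u}) : InitStmt.{u} := by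
  have dK := distK_pos
  refine ⟨1200 * distK + 1000, by linarith, fun H _ _ _ _ M N τM τN δ δ0 δ1 hM hN n1 n2 => ?_⟩
  have dδ := mul_nonneg dK.le δ0
  obtain ⟨I, _, _, E, _, _, _, _, V, L, R, ξ, k, V1, V2, V3, V4⟩ := form H N τN hN
  obtain ⟨Γ, _, G, ι, v, X, Z, hl, hι, p1, p2, p3, p4, p5⟩ := popa H N E τN
    (evalAt (L : Alg N →ₐ[ℂ] (E →L[ℂ] E)) ξ) hN ⟨hN.tr, fun a b => by
      rw [← V3, map_mul, map_star, mul_apply_eq_comp, inner_star_right]; rfl⟩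
  have erg := k.erg_of hl hι fun x ε hε => by rw [V3]; exact p5 x ε hε
  obtain ⟨am, ham⟩ : ∃ am, am = ampHom H I := ⟨_, rfl⟩
  have am1 : ∀ x, ‖am x‖ ≤ ‖x‖ := fun x => NonUnitalStarAlgHom.norm_apply_le am x
  replace V2 : ∀ (b : Alg N) η, am b.1 (V η) = V (L b η) := ham ▸ V2
  obtain ⟨W, hW⟩ : ∃ W, W = adjoint V := ⟨_, rfl⟩
  have W1 : ∀ η, W (V η) = η := fun η => by
    rw [hW]; exact DFunLike.congr_fun ((norm_map_iff_adjoint_comp_self V).1 V1) η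
  have W2 : ∀ η ζ, ⟪η, W ζ⟫_ℂ = ⟪V η, ζ⟫_ℂ := fun η ζ => hW ▸ adjoint_inner_right V η ζ
  have W2' : ∀ η ζ, ⟪W ζ, η⟫_ℂ = ⟪ζ, V η⟫_ℂ := fun η ζ => hW ▸ adjoint_inner_left V η ζ
  have W3 : ∀ (b : Alg N) ζ, W (am b.1 ζ) = L b (W ζ) := fun b ζ => ext_inner_left ℂ fun η => by
    rw [W2, ← inner_star_left, ← map_star, ← inner_star_left, ← map_star, W2]
    exact congrArg (⟪·, ζ⟫_ℂ) (V2 (star b) η)
  have W4 : ∀ ζ, ‖W ζ‖ ≤ ‖ζ‖ := fun ζ => by
    have := W.le_of_opNorm_le (c := 1) (by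
      rw [hW, LinearIsometryEquiv.norm_map]
      exact opNorm_le_bound _ zero_le_one fun η => by rw [V1, one_mul]) ζ
    rwa [one_mul] at this
  let ρ₂ : Γ × ℤˣ →* (PiLp 2 (fun _ : I => H) →L[ℂ] PiLp 2 (fun _ : I => H)) :=
    { toFun := fun g => V ∘L R (ι g.1⁻¹) ∘L W + ((g.2 : ℤ) : ℂ) • (1 - V ∘L W)
      map_one' := by
        ext ζ : 1
        simp [k.R1]
      map_mul' := fun g h => by
        ext ζ : 1
        simp [mul_apply_eq_comp, W1, k.RR, smul_sub, smul_smul, mul_comm] }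
  have r1 : ∀ g ζ, ρ₂ g ζ = V (R (ι g.1⁻¹) (W ζ)) + ((g.2 : ℤ) : ℂ) • (ζ - V (W ζ)) :=
    fun _ _ => rfl
  have r2 : ∀ g, star (ρ₂ g) = ρ₂ g⁻¹ := fun g => by
    ext ζ : 1
    refine ext_inner_left ℂ fun η => ?_
    rw [inner_star_right, r1, r1]
    simp only [inner_add_left, inner_add_right, inner_smul_left, inner_smul_right, inner_sub_left,
      inner_sub_right, ← W2, ← W2', Prod.fst_inv, Prod.snd_inv, Int.units_inv_eq_self, map_intCast,
      ← hι g.1⁻¹, k.R_star, inner_star_right]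
  have r3 : ∀ g (b : Alg N), ρ₂ g * am b.1 = am b.1 * ρ₂ g := fun g b => by
    ext ζ : 1
    simp only [mul_apply_eq_comp, r1, map_add, map_smul, map_sub, V2, W3, k.LRa]
  let aM : Alg M →⋆ₐ[ℂ] _ := am.comp M.toStarSubalgebra.subtype
  let P : VonNeumannAlgebra (PiLp 2 fun _ : I => H) :=
    ⟨StarSubalgebra.centralizer ℂ (Set.range aM), by simp⟩
  have hP : ∀ T, T ∈ P ↔ ∀ a, aM a * T = T * aM a := fun T => by
    change T ∈ StarSubalgebra.centralizer ℂ (Set.range aM) ↔ _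
    rw [StarSubalgebra.mem_centralizer_iff]
    exact ⟨fun h a => (h _ ⟨a, rfl⟩).1, by
      rintro h _ ⟨a, rfl⟩
      exact ⟨h a, map_star aM a ▸ h _⟩⟩
  have hl2 := hl.prod (locFin_univ ℤˣ)
  obtain ⟨σ₂, s1, s2, s3⟩ := kaz _ P _ _ ρ₂ (distK * (2 * δ)) hl2 r2 (by positivity)
    (by linarith) fun g => by
      obtain ⟨T, t1, t2⟩ := dist_intertw aM aM (ρ₂ g) (c := 2 * δ) (by positivity) fun a => by
        obtain ⟨b, hb, -, b2⟩ := n1 a.1 a.2
        have a1 := un_le (hom_unitary r2 g)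
        have a2 : ‖am (a.1 - b)‖ ≤ δ * ‖a‖ := (am1 _).trans b2
        have a3 := (norm_mul_le _ _).trans (mul_le_mul a1 a2 (norm_nonneg _) zero_le_one)
        have a4 := (norm_mul_le _ _).trans (mul_le_mul a2 a1 (norm_nonneg _) (by positivity))
        rw [show ρ₂ g * aM a - aM a * ρ₂ g = ρ₂ g * am (a.1 - b) - am (a.1 - b) * ρ₂ g by
          rw [map_sub, mul_sub, sub_mul, r3 g ⟨b, hb⟩]; exact (sub_sub_sub_cancel_right _ _ _).symm]
        refine (norm_sub_le _ _).trans ?_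
        linarith
      exact ⟨T, (hP T).2 fun a => (t1 a).symm, t2⟩
  let ρ₁ : Γ →* (H →L[ℂ] H) := (N.toStarSubalgebra.subtype : Alg N →* _).comp ι
  have q1 : ∀ g, star (ρ₁ g) = ρ₁ g⁻¹ := fun g => congrArg Subtype.val (hι g)
  obtain ⟨σ₁, t1, t2, t3⟩ := kaz _ M _ _ ρ₁ δ hl q1 δ0 (by linarith) fun g => by
    obtain ⟨a, ha, -, a2⟩ := n2 (ι g).1 (ι g).2
    exact ⟨a, ha, a2.trans (mul_le_of_le_one_right δ0 (un_le (hom_unitary q1 g)))⟩
  let σ : Γ →* Alg M := σ₁.codRestrict M.toStarSubalgebra t1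
  have hσ : ∀ g, star (σ g) = σ g⁻¹ := fun g => Subtype.ext (t2 g)
  obtain ⟨u, uu, u1, u2⟩ := conj _ _ _
    (((am : _ →* _).comp ρ₁).noncommCoprod ρ₂ fun g h => (r3 h (ι g)).symm)
    (((am : _ →* _).comp σ₁).noncommCoprod σ₂ fun g h => (hP _).1 (s1 h) (σ g))
    (30 * δ + 60 * (distK * δ)) (hl.prod hl2)
    (fun g => by
      change star (am (ρ₁ g.1) * ρ₂ g.2) = am (ρ₁ g.1⁻¹) * ρ₂ g.2⁻¹
      rw [star_mul, r2, ← map_star, q1]
      exact r3 _ (ι _))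
    (fun g => by
      change star (am (σ₁ g.1) * σ₂ g.2) = am (σ₁ g.1⁻¹) * σ₂ g.2⁻¹
      rw [star_mul, s2, ← map_star, t2]
      exact ((hP _).1 (s1 _) (σ _)).symm) (by positivity) (by linarith) fun g => by
      change ‖am (ρ₁ g.1) * ρ₂ g.2 - am (σ₁ g.1) * σ₂ g.2‖ ≤ _
      have a1 := (norm_mul_le _ _).trans (mul_le_mul ((am1 _).trans (t3 g.1))
        (un_le (hom_unitary r2 g.2)) (norm_nonneg _) (by positivity))
      have a2 := (norm_mul_le _ _).trans (mul_le_mul ((am1 _).trans (un_le (hom_unitary t2 g.1)))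
        (s3 g.2) (norm_nonneg _) zero_le_one)
      rw [show am (ρ₁ g.1) * ρ₂ g.2 - am (σ₁ g.1) * σ₂ g.2 = am (ρ₁ g.1 - σ₁ g.1) * ρ₂ g.2 +
        am (σ₁ g.1) * (ρ₂ g.2 - σ₂ g.2) by rw [map_sub, sub_mul, mul_sub]; abel]
      refine (norm_add_le _ _).trans ?_
      linarith
  have u3 : ∀ g, u * aM (σ g) * star u = am (ι g).1 := fun g => by
    have : u * (am (σ₁ g) * σ₂ 1) = am (ρ₁ g) * ρ₂ 1 * u := u2 (g, 1)
    rw [map_one, map_one, mul_one, mul_one] at this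
    change u * am (σ₁ g) * star u = am (ρ₁ g)
    rw [this, mul_assoc, uu.2, mul_one]
  have u4 : ∀ h a, ρ₂ h * (u * aM a * star u) = u * aM a * star u * ρ₂ h := fun h a => by
    have : u * (am (σ₁ 1) * σ₂ h) = am (ρ₁ 1) * ρ₂ h * u := u2 (1, h)
    simp only [map_one, one_mul] at this
    have e : star u * ρ₂ h = σ₂ h * star u := by
      rw [← mul_one (star u * ρ₂ h), ← uu.2, ← mul_assoc, mul_assoc _ _ u, ← this, ← mul_assoc,
        uu.1, one_mul]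
    rw [← mul_assoc, ← mul_assoc, ← this, mul_assoc _ (star u), e, mul_assoc u, ← (hP _).1 (s1 h)]
    simp only [mul_assoc]
  have u5 : ∀ a η, V (W ((u * aM a * star u) (V η))) = (u * aM a * star u) (V η) := fun a η => by
    have := DFunLike.congr_fun (u4 (1, -1) a) (V η)
    rw [mul_apply_eq_comp, mul_apply_eq_comp _ (ρ₂ _), r1, r1] at this
    simp only [inv_one, map_one, k.R1, W1, sub_self, smul_zero, add_zero, Units.val_neg,
      Units.val_one, Int.cast_neg, Int.cast_one, neg_smul, one_smul] at this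
    refine smul_right_injective _ (two_ne_zero (α := ℂ)) ?_
    simp only [two_smul]
    nth_rewrite 3 [← this]
    abel
  let ρ : Alg M →⋆ₐ[ℂ] (E →L[ℂ] E) :=
    { toFun := fun a => W ∘L (u * aM a * star u) ∘L V
      map_one' := by ext η; simp [uu.2, W1]
      map_mul' := fun a b => by
        ext η
        change W ((u * aM (a * b) * star u) (V η)) =
          W ((u * aM a * star u) (V (W ((u * aM b * star u) (V η)))))
        rw [u5, ← mul_apply_eq_comp, map_mul]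
        simp only [mul_assoc]
        rw [← mul_assoc (star u) u, uu.1, one_mul]
      map_zero' := by simp
      map_add' := fun a b => by simp [mul_add, add_mul]
      commutes' := fun c => by
        ext η
        simp [Algebra.algebraMap_eq_smul_one, uu.2, W1]
      map_star' := fun a => by
        ext η
        refine ext_inner_left ℂ fun ζ => ?_
        rw [inner_star_right]
        change ⟪ζ, W ((u * aM (star a) * star u) (V η))⟫_ℂ =
          ⟪W ((u * aM a * star u) (V ζ)), η⟫_ℂ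
        rw [W2, W2', ← inner_star_right, star_mul, star_mul, star_star, map_star, mul_assoc] }
  have hρ : ∀ a η, ρ a η = W ((u * aM a * star u) (V η)) := fun _ _ => rfl
  have link : ∀ a b, ‖ρ a - L b‖ ≤ ‖a.1 - b.1‖ + (1200 * distK + 600) * δ * ‖a‖ := fun a b => by
    refine opNorm_le_bound _ (by positivity) fun η => ?_
    rw [sub_apply, hρ, ← W1 (L b η), ← V2, ← map_sub, ← sub_apply, ← V1 η]
    refine (W4 _).trans (le_of_opNorm_le _ ?_ _)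
    have a0 : ‖aM a‖ ≤ ‖a‖ := am1 _
    have a1 := nrm3 u1 a0 (show ‖star u‖ ≤ 1 by rw [norm_star]; exact un_le uu)
    have a2 := (norm_mul_le _ _).trans (mul_le_mul a0 ((show ‖star u - 1‖ = ‖u - 1‖ by
      rw [← norm_star, star_sub, star_star, star_one]).trans_le u1) (norm_nonneg _)
      (norm_nonneg _))
    have a3 := am1 (a.1 - b.1)
    rw [show u * aM a * star u - am b.1 = (u - 1) * aM a * star u + aM a * (star u - 1) +
      am (a.1 - b.1) by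
        rw [map_sub, sub_mul, sub_mul, mul_sub, one_mul, mul_one]; change _ = _ + (aM a - _); abel]
    refine norm_add₃_le.trans ?_
    linarith
  have nA : ∀ a, ∃ b : Alg N, ‖b‖ ≤ ‖a‖ ∧ ‖a.1 - b.1‖ ≤ δ * ‖a‖ ∧
      ‖ρ a - L b‖ ≤ (1200 * distK + 1000) * δ * ‖a‖ := fun a => by
    obtain ⟨b, hb, b1, b2⟩ := n1 a.1 a.2
    have := link a ⟨b, hb⟩
    have b3 : ‖a.1 - b‖ ≤ δ * ‖a‖ := b2
    exact ⟨⟨b, hb⟩, b1, b2, by nlinarith [mul_nonneg δ0 (norm_nonneg a)]⟩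
  have iso : ∀ a, ‖ρ a‖ = ‖a‖ := NonUnitalStarAlgHom.norm_map ρ
    ((injective_iff_map_eq_zero ρ).2 fun a ha => by
      obtain ⟨b, -, b2, b3⟩ := nA a
      rw [ha, zero_sub, norm_neg, k.Liso] at b3
      have b4 : ‖a‖ - ‖b‖ ≤ δ * ‖a‖ := (norm_sub_norm_le a.1 b.1).trans b2
      exact norm_le_zero_iff.1 (by nlinarith [norm_nonneg a]))
  have eq : ∀ g, ρ (σ g) = L (ι g) := fun g => by
    ext η
    rw [hρ, u3, V2, W1]
  have comm : ∀ g a, ρ a * R (ι g) = R (ι g) * ρ a := fun g a => by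
    ext η
    have := congrArg W (DFunLike.congr_fun (u4 (g⁻¹, 1) a) (V η))
    rw [mul_apply_eq_comp, mul_apply_eq_comp _ (ρ₂ _), r1, r1] at this
    simp only [inv_inv, W1, sub_self, smul_zero, add_zero, map_add, map_smul, map_sub] at this
    exact this.symm
  let ω : Alg M →ₗ[ℂ] ℂ := (innerₛₗ ℂ ξ) ∘ₗ evalAt (ρ : Alg M →ₐ[ℂ] (E →L[ℂ] E)) ξ
  have hω : ∀ a, ω a = ⟪ξ, ρ a ξ⟫_ℂ := fun _ => rfl
  have ω1 : ω 1 = 1 := by
    rw [hω, map_one, one_apply_eq_self, inner_self_eq_norm_sq_to_K, k.unit]; simp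
  have ω2 : ∀ a, ‖ω a‖ ≤ ‖ρ a‖ := fun a => (norm_inner_le_norm _ _).trans (by
    simpa [k.unit] using (ρ a).le_opNorm ξ)
  have tr := trace_eq (E := E) hl hσ hM (ω := ω) ⟨I, inferInstance, fun i => star u (V ξ) i,
    fun i => star u (V ξ) i, fun a => by
      rw [hω, hρ, W2, mul_apply_eq_comp, mul_apply_eq_comp, ← inner_star_left, PiLp.inner_apply]
      simp only [aM, ham]
      exact sum_congr rfl fun i _ => congrArg _ (amp_apply _ _ i)⟩ ω1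
    (fun g a => by
      have c : ∀ g, Cmn (ρ : Alg M →ₐ[ℂ] (E →L[ℂ] E)) L R (σ g) (ι g) := fun g =>
        ⟨eq g, fun x η => DFunLike.congr_fun (comm g x) η⟩
      have := (c g).vec k (c g⁻¹) a
      rw [hω, hω, show ρ (σ g * a * σ g⁻¹) ξ = L (ι g) (R (ι g⁻¹) (ρ a ξ)) from this,
        ← inner_star_left, ← inner_star_left, ← map_star L, ← k.R_star, hι, hι, inv_inv, k.cen,
        k.RR, ← map_mul, inv_mul_cancel, map_one, k.R1])
    fun z hz => ⟨ω z, by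
      obtain ⟨y, hy⟩ : ∃ y, y = z - ω z • 1 := ⟨_, rfl⟩
      obtain ⟨b, -, -, b3⟩ := nA y
      have a1 := k.scalar hl hι erg (T := ρ y) (fun g => by
        rw [← eq, ← map_mul, ← map_mul, hy, mul_sub, sub_mul, hz]; simp) b3
      have a2 := ω2 (y - ⟪ξ, L b ξ⟫_ℂ • 1)
      rw [map_sub ρ, map_smul ρ, map_one ρ, map_sub, map_smul, ω1, hy, map_sub, map_smul, ω1,
        ← hy, smul_eq_mul, mul_one, sub_self, zero_sub, norm_neg, smul_eq_mul, mul_one] at a2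
      have a3 := norm_sub_norm_le (ρ y) (⟪ξ, L b ξ⟫_ℂ • (1 : E →L[ℂ] E))
      rw [iso, norm_smul] at a3
      have a4 := mul_le_of_le_one_right (norm_nonneg ⟪ξ, L b ξ⟫_ℂ) (norm_id_le (𝕜 := ℂ) (E := E))
      rw [← sub_eq_zero, ← hy]
      change _ * ‖(1 : E →L[ℂ] E)‖ ≤ _ at a4
      exact norm_le_zero_iff.1 (by nlinarith [norm_nonneg y])⟩
  refine ⟨E, _, _, inferInstance, Γ, _, ρ, L, R, ξ, G, ι, σ, ⟨k, iso, fun a a' => ?_, fun a => ?_,
    fun b => ?_, hl, hι, hσ, eq, comm, erg, v, X, Z, p1, p2, p3, p4⟩, fun a b => ?_, V4⟩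
  · rw [← hω, ← hω, tr, tr, hM.tr]
  · obtain ⟨b, b1, -, b3⟩ := nA a
    exact ⟨b, b1, b3⟩
  · obtain ⟨a, ha, a1, a2⟩ := n2 b.1 b.2
    have := link ⟨a, ha⟩ b
    have a3 : ‖(⟨a, ha⟩ : Alg M)‖ ≤ ‖b‖ := a1
    have a4 : ‖a - b.1‖ ≤ δ * ‖b‖ := norm_sub_rev a b.1 ▸ a2
    have a5 := mul_le_mul_of_nonneg_left a3 (show 0 ≤ (1200 * distK + 600) * δ by positivity)
    exact ⟨⟨a, ha⟩, a3, by nlinarith [mul_nonneg δ0 (norm_nonneg b)]⟩
  · nlinarith [link a b, mul_nonneg δ0 (norm_nonneg a)]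

end Vale.Agent.P096
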