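import Vale.Agent.P096.Cjv

/-! Interpolation between the modular groups of two close algebras. -/

namespace Vale.Agent.P096

open scoped InnerProductSpace ComplexOrder BigOperators
open Filter Topology Vale.Agent.P104 Vale.Agent.P082

universe u

namespace L3

variable {H : Type u} [NormedAddCommGroup H] [InnerProductSpace ℂ H] [CompleteSpace H]
variable {M N : VonNeumannAlgebra H}

theorem nu {w : H →L[ℂ] H} (hw : w ∈ unitary (H →L[ℂ] H)) : ‖w‖ ≤ 1 := by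
  simpa [CStarRing.norm_mem_unitary_mul _ hw] using
    (CStarRing.norm_mem_unitary_mul (1 : H →L[ℂ] H) hw).le.trans norm_one_le'

theorem ncj {v w : H →L[ℂ] H} (hv : v ∈ unitary (H →L[ℂ] H)) (hw : w ∈ unitary (H →L[ℂ] H))
    (x : H →L[ℂ] H) : ‖v * x * w‖ = ‖x‖ := by
  rw [CStarRing.norm_mul_mem_unitary _ hw, CStarRing.norm_mem_unitary_mul _ hv]

theorem three {A A' B B' : H →L[ℂ] H} {a b a' b' : ℝ} (h1 : ‖A - B‖ ≤ a) (h2 : ‖A'‖ ≤ a')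
    (h3 : ‖B‖ ≤ b) (h4 : ‖A' - B'‖ ≤ b') (x : H →L[ℂ] H) :
    ‖A * x * A' - B * x * B'‖ ≤ (a * a' + b * b') * ‖x‖ := by
  have e : A * x * A' - B * x * B' = (A - B) * x * A' + B * x * (A' - B') := by noncomm_ring
  rw [e]
  refine (norm_add_le _ _).trans ?_
  have := nm_le (nm_le h1 (le_refl ‖x‖)) h2
  have := nm_le (nm_le h3 (le_refl ‖x‖)) h4
  linarith

/-- An almost unitary with an almost inverse which almost conjugates `M` into `N`. -/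
structure Bd (M N : VonNeumannAlgebra H) (A A' : H →L[ℂ] H) (c d : ℝ) : Prop where
  n1 : ‖A‖ ≤ 1 + c
  n2 : ‖A' * A - 1‖ ≤ 3 * c
  n3 : ∀ x ∈ M, ∃ y ∈ N, ‖A * x * A' - y‖ ≤ d * ‖x‖

theorem bd_of {A A' B B' : H →L[ℂ] H} {c d : ℝ} (c0 : 0 ≤ c) (c1 : c ≤ 1) (hB : ‖B‖ ≤ 1)
    (hB' : ‖B'‖ ≤ 1) (h : B' * B = 1) (hA : ‖A - B‖ ≤ c) (hA' : ‖A' - B'‖ ≤ c)
    (hn : ∀ x ∈ M, ∃ y ∈ N, ‖B * x * B' - y‖ ≤ d * ‖x‖) : Bd M N A A' c (3 * c + d) := by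
  have a1 : ‖A‖ ≤ 1 + c := by linarith [norm_sub_norm_le A B]
  have a2 : ‖A'‖ ≤ 1 + c := by linarith [norm_sub_norm_le A' B']
  refine ⟨a1, ?_, fun x hx => ?_⟩
  · have := three hA' a1 hB' hA 1
    rw [mul_one, mul_one, h] at this
    have h1 : ‖(1 : H →L[ℂ] H)‖ ≤ 1 := norm_one_le'
    refine this.trans ?_
    have : 0 ≤ c * (1 + c) + 1 * c := by positivity
    nlinarith
  · obtain ⟨y, hy, h⟩ := hn x hx
    refine ⟨y, hy, ?_⟩
    have h1 := three hA a2 hB hA' x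
    have h2 := norm_sub_le_norm_sub_add_norm_sub (A * x * A') (B * x * B') y
    have h3 : (c * (1 + c) + 1 * c) * ‖x‖ ≤ 3 * c * ‖x‖ :=
      mul_le_mul_of_nonneg_right (by nlinarith) (norm_nonneg _)
    linarith

theorem Bd.conj {A A' v w : H →L[ℂ] H} {c d : ℝ} (h : Bd M N A A' c d)
    (hv : v ∈ unitary (H →L[ℂ] H)) (hw : w ∈ unitary (H →L[ℂ] H))
    (hM : ∀ x ∈ M, star v * x * v ∈ M) (hN : ∀ y ∈ N, w * y * star w ∈ N) :
    Bd M N (w * A * star v) (v * A' * star w) c d := by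
  have sv := Unitary.star_mem hv
  have sw := Unitary.star_mem hw
  refine ⟨by rw [ncj hw sv]; exact h.n1, ?_, fun x hx => ?_⟩
  · have e : v * A' * star w * (w * A * star v) - 1 = v * (A' * A - 1) * star v := by
      rw [mul_sub, sub_mul, mul_one, hv.2]
      simp only [mul_assoc]
      rw [← mul_assoc (star w) w, hw.1, one_mul]
    rw [e, ncj hv sv]
    exact h.n2
  · obtain ⟨y, hy, h1⟩ := h.n3 _ (hM x hx)
    refine ⟨_, hN y hy, ?_⟩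
    have e : w * A * star v * x * (v * A' * star w) - w * y * star w =
        w * (A * (star v * x * v) * A' - y) * star w := by noncomm_ring
    rw [e, ncj hw sw]
    rwa [ncj sv hv] at h1

theorem inter (hS : SAStmt.{u}) {F F' : ℂ → H →L[ℂ] H} (hF : SA F) (hF' : SA F') {c d : ℝ}
    (d0 : 0 ≤ d) (b0 : ∀ t : ℝ, Bd M N (F t) (F' t) c d)
    (b1 : ∀ t : ℝ, Bd M N (F (t - Complex.I / 2)) (F' (t - Complex.I / 2)) c d) {z : ℂ}
    (z0 : -1 / 2 ≤ z.im) (z1 : z.im ≤ 0) : Bd M N (F z) (F' z) c (distK * (2 * d)) := by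
  obtain ⟨s0, s1, s2, s3, -⟩ := hS H
  refine ⟨s3 F _ hF (fun t => (b0 t).n1) (fun t => (b1 t).n1) z z0 z1,
    s3 _ _ (s1 _ _ (s2 _ _ hF' hF) (s0 1)) (fun t => (b0 t).n2) (fun t => (b1 t).n2) z z0 z1,
    fun x hx => ?_⟩
  have key : ∀ {A A' : H →L[ℂ] H}, Bd M N A A' c d → ∀ y ∈ N.commutant,
      ‖A * x * A' * y - y * (A * x * A')‖ ≤ 2 * d * ‖x‖ * ‖y‖ := fun {A A'} h y hy => by
    obtain ⟨n, hn, h1⟩ := h.n3 x hx
    have e : A * x * A' * y - y * (A * x * A') = (A * x * A' - n) * y - y * (A * x * A' - n) := by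
      rw [sub_mul, mul_sub, commute_of_mem hn hy]; abel
    rw [e]
    have := norm_sub_le ((A * x * A' - n) * y) (y * (A * x * A' - n))
    have := nm_le h1 (le_refl ‖y‖)
    have := nm_le (le_refl ‖y‖) h1
    linarith
  have hG : SA fun z => F z * x * F' z := s2 _ _ (s2 _ _ hF (s0 x)) hF'
  obtain ⟨T, hT, h⟩ := dist_commutant N.commutant (F z * x * F' z) (c := 2 * d * ‖x‖)
    (by positivity) fun y hy => s3 _ _ (s1 _ _ (s2 _ _ hG (s0 y)) (s2 _ _ (s0 y) hG))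
      (fun t => key (b0 t) y hy) (fun t => key (b1 t) y hy) z z0 z1
  rw [N.commutant_commutant] at hT
  exact ⟨T, hT, h.trans (le_of_eq (by ring))⟩

variable {ξ : H} {Γ : Type u} [Group Γ] {G : ℕ → Finset Γ} {ρ σ : Γ →* (H →L[ℂ] H)}
  {e r : ℕ → H →L[ℂ] H}

theorem flip (h : Rep M ξ G ρ σ e r) (g : Γ) : σ g⁻¹ ξ = ρ g ξ := by
  have h1 := congrArg (σ g⁻¹) (h.fix g)
  rw [← mul_apply_eq_comp (ρ g), commute_of_mem (h.ρM g) (h.σM g), ← mul_apply_eq_comp,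
    ← mul_assoc, ← map_mul, inv_mul_cancel, map_one, one_mul] at h1
  exact h1.symm

theorem U_comm (hC : CentStmt.{u}) (h : Rep M ξ G ρ σ e r) (m : P132.Mod M ξ) (t : ℝ) (g : Γ) :
    Commute (m.U t) (ρ g) ∧ Commute (m.U t) (σ g) := by
  have k : ∀ g, Commute (m.U t) (ρ g) ∧ Commute (m.U t) (σ g⁻¹) := fun g =>
    (hC H M ξ m h.cs _ (h.ρM g) _ (h.σM g⁻¹) (flip h g)
      (by rw [h.σ_star, h.ρ_star, flip h])).2 t
  exact ⟨(k g).1, by simpa using (k g⁻¹).2⟩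

theorem scalar (h : SPos M ξ G ρ σ e r) {w : H →L[ℂ] H}
    (hw : ∀ g, Commute w (ρ g) ∧ Commute w (σ g)) : w ξ = ⟪ξ, w ξ⟫_ℂ • ξ := by
  refine tendsto_nhds_unique ?_ (h.erg (w ξ))
  have : ∀ k, (av (G k) fun g => ρ g (σ g (w ξ))) = w ξ := fun k => by
    rw [← av_const ⟨1, h.lf.one k⟩ (w ξ)]
    refine av_congr fun g _ => ?_
    rw [av_const ⟨1, h.lf.one k⟩, ← mul_apply_eq_comp (σ g), ← (hw g).2.eq, mul_apply_eq_comp,
      ← mul_apply_eq_comp (ρ g), ← (hw g).1.eq, mul_apply_eq_comp, h.fix]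
  simp only [this, tendsto_const_nhds]

/-- The interpolating family. -/
structure Fam (m : P132.Mod M ξ) (n : P132.Mod N ξ) (ρ σ : Γ →* (H →L[ℂ] H))
    (F : ℂ → H →L[ℂ] H) (Y : H →L[ℂ] H) (c : ℝ) : Prop where
  sa : SA F
  f0 : ‖F 0 - 1‖ ≤ c
  f1 : ‖F (-Complex.I / 2) - Y‖ ≤ c
  hY : ∀ η, Y η = n.J (m.J η)
  cov : ∀ (z : ℂ) (t : ℝ), -1 / 2 ≤ z.im → z.im ≤ 0 → F (t + z) = n.U t * F z * m.U (-t)
  comm : ∀ z : ℂ, -1 / 2 ≤ z.im → z.im ≤ 0 → ∀ g, Commute (F z) (ρ g) ∧ Commute (F z) (σ g)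

theorem Fam.r0 {m : P132.Mod M ξ} {n : P132.Mod N ξ} {F : ℂ → H →L[ℂ] H} {Y : H →L[ℂ] H} {c : ℝ}
    (h : Fam m n ρ σ F Y c) (t : ℝ) : F t = n.U t * F 0 * star (m.U t) := by
  rw [m.star_U, ← h.cov 0 t (by norm_num) (by norm_num), add_zero]

theorem Fam.r1 {m : P132.Mod M ξ} {n : P132.Mod N ξ} {F : ℂ → H →L[ℂ] H} {Y : H →L[ℂ] H} {c : ℝ}
    (h : Fam m n ρ σ F Y c) (t : ℝ) :
    F (t - Complex.I / 2) = n.U t * F (-Complex.I / 2) * star (m.U t) := by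
  rw [m.star_U, ← h.cov _ t (by norm_num) (by norm_num), sub_eq_add_neg, neg_div]

theorem exists_fam (hV : VWStmt.{u}) (hS : SAStmt.{u}) (hI : IStmt.{u}) (hC : CentStmt.{u})
    (hM : SPos M ξ G ρ σ e r) (hN : SPos N ξ G ρ σ e r) (m : P132.Mod M ξ) (n : P132.Mod N ξ)
    {c : ℝ} (c0 : 0 ≤ c) (hc : ∀ x ∈ M, ∀ y ∈ N.commutant,
      ‖⟪ξ, (x * y - y * x) ξ⟫_ℂ‖ ≤ c * (‖star x ξ‖ * ‖y ξ‖ + ‖x ξ‖ * ‖star y ξ‖)) :
    ∃ F Y, Fam m n ρ σ F Y c := by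
  obtain ⟨V, W, Y, h1, h2, h3, h4, h5⟩ := hV H M N ξ Γ G ρ σ e r c m n hM hN c0 hc
  obtain ⟨F, f1, f2, f3, f4⟩ := hI H _ _ _ _ V W h5
  obtain ⟨s0, s1, s2, s3, -⟩ := hS H
  have key : ∀ y, Commute V y → Commute W y → (∀ t, Commute (m.U t) y) → (∀ t, Commute (n.U t) y) →
      ∀ z : ℂ, -1 / 2 ≤ z.im → z.im ≤ 0 → Commute (F z) y := fun y a1 a2 a3 a4 z z0 z1 => by
    refine sub_eq_zero.1 (norm_le_zero_iff.1 (s3 _ 0 (s1 _ _ (s2 _ _ f1 (s0 y)) (s2 _ _ (s0 y) f1))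
      (fun t => ?_) (fun t => ?_) z z0 z1))
    · have := f4 0 t (by norm_num) (by norm_num)
      rw [add_zero, f2] at this
      rw [this, (((a4 t).mul_left a1).mul_left (a3 (-t))).eq, sub_self, norm_zero]
    · have := f4 (-Complex.I / 2) t (by norm_num) (by norm_num)
      rw [f3, neg_div, ← sub_eq_add_neg] at this
      rw [this, (((a4 t).mul_left a2).mul_left (a3 (-t))).eq, sub_self, norm_zero]
  exact ⟨F, Y, f1, by rwa [f2], by rwa [f3], h3, f4, fun z z0 z1 g =>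
    ⟨key _ (h4 g).1 (h4 g).2.2.1 (fun t => (U_comm hC hM.toRep m t g).1)
      (fun t => (U_comm hC hN.toRep n t g).1) z z0 z1,
    key _ (h4 g).2.1 (h4 g).2.2.2 (fun t => (U_comm hC hM.toRep m t g).2)
      (fun t => (U_comm hC hN.toRep n t g).2) z z0 z1⟩⟩

theorem Fam.bd (hS : SAStmt.{u}) {m : P132.Mod M ξ} {n : P132.Mod N ξ} {F F' : ℂ → H →L[ℂ] H}
    {Y Y' : H →L[ℂ] H} {c δ : ℝ} (h : Fam m n ρ σ F Y c) (h' : Fam n m ρ σ F' Y' c) (c0 : 0 ≤ c)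
    (c1 : c ≤ 1) (d0 : 0 ≤ δ) (n1 : Near M N δ) (n2 : Near M.commutant N.commutant δ) {z : ℂ}
    (z0 : -1 / 2 ≤ z.im) (z1 : z.im ≤ 0) : Bd M N (F z) (F' z) c (distK * (2 * (3 * c + δ))) := by
  have i1 : ∀ t, ∀ x ∈ M, star (m.U t) * x * m.U t ∈ M := fun t x hx => by
    simpa only [m.star_U, neg_neg] using m.σ_mem (-t) hx
  have i2 : ∀ t, ∀ x ∈ N, n.U t * x * star (n.U t) ∈ N := fun t x hx => by
    simpa only [n.star_U] using n.σ_mem t hx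
  refine inter hS h.sa h'.sa (by positivity) (fun t => ?_) (fun t => ?_) z0 z1
  · rw [h.r0, h'.r0]
    refine (bd_of c0 c1 norm_one_le' norm_one_le' (mul_one 1) h.f0 h'.f0 fun x hx => ?_).conj
      (m.U_unitary t) (n.U_unitary t) (i1 t) (i2 t)
    obtain ⟨y, hy, -, h1⟩ := n1 x hx
    exact ⟨y, hy, by rwa [one_mul, mul_one]⟩
  · rw [h.r1, h'.r1]
    refine (bd_of c0 c1 ?_ ?_ ?_ h.f1 h'.f1 fun x hx => ?_).conj
      (m.U_unitary t) (n.U_unitary t) (i1 t) (i2 t)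
    · exact ContinuousLinearMap.opNorm_le_bound _ zero_le_one fun η => by
        rw [h.hY, n.J.norm_map, m.J.norm_map, one_mul]
    · exact ContinuousLinearMap.opNorm_le_bound _ zero_le_one fun η => by
        rw [h'.hY, m.J.norm_map, n.J.norm_map, one_mul]
    · ext η
      rw [mul_apply_eq_comp, h.hY, h'.hY, n.JJ, m.JJ, one_apply_eq_self]
    · obtain ⟨y, hy, -, h1⟩ := n2 _ (m.rt x hx)
      refine ⟨_, n.lt y hy, ?_⟩
      have e : Y * x * Y' - P132.cj n.J y = P132.cj n.J (P132.cj m.J x - y) := by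
        ext η
        simp only [sub_apply, mul_apply_eq_comp, h.hY, h'.hY, P132.cj_apply, map_sub]
      rw [e, n.norm_cj]
      rwa [m.norm_cj] at h1

end L3

end Vale.Agent.P096
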