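import Vale.Agent.P096.L3
import Vale.Agent.P132.Filt

/-! The lifting in the standard position. -/

namespace Vale.Agent.P096

open scoped InnerProductSpace ComplexOrder BigOperators
open Filter Topology Vale.Agent.P104 Vale.Agent.P082 TopologicalSpace

universe u

/-- The end game: close modular groups give a lifting. -/
def EndStmt : Prop := ∃ C : ℝ, 1 ≤ C ∧ ∀ (H : Type u) [NormedAddCommGroup H]
  [InnerProductSpace ℂ H] [CompleteSpace H] [SeparableSpace H] (M N : VonNeumannAlgebra H) (ξ : H)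
  (m : P132.Mod M ξ) (U : ℝ → H →L[ℂ] H) (δ : ℝ), P132.CycSep M ξ → P132.IsFactor M → UG U →
  (∀ t, ∀ x ∈ N, U t * x * U (-t) ∈ N) → 0 < δ → C * δ ≤ 1 → Near M N δ → Near N M δ →
  (∀ t, ‖m.U t - U t‖ ≤ δ) → ∃ Φ : Alg N →ₗ[ℂ] Alg M, ∀ x, ‖(Φ x).1 - x.1‖ ≤ C * δ * ‖x‖

/-- The lifting in the standard position. -/
def LStmt' : Prop := ∃ C : ℝ, 1 ≤ C ∧ ∀ (H : Type u) [NormedAddCommGroup H]
  [InnerProductSpace ℂ H] [CompleteSpace H] [SeparableSpace H] (M N : VonNeumannAlgebra H) (ξ : H)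
  (Γ : Type u) [Group Γ] (G : ℕ → Finset Γ) (ρ σ : Γ →* (H →L[ℂ] H)) (e r : ℕ → H →L[ℂ] H) (δ : ℝ),
  SPos M ξ G ρ σ e r → SPos N ξ G ρ σ e r → P132.AllEq M → P132.IsFactor M → 0 < δ → C * δ ≤ 1 →
  Near M N δ → Near N M δ → ∃ Φ : Alg N →ₗ[ℂ] Alg M, ∀ x, ‖(Φ x).1 - x.1‖ ≤ C * δ * ‖x‖

namespace L3

variable {H : Type u} [NormedAddCommGroup H] [InnerProductSpace ℂ H] [CompleteSpace H]
variable {M N : VonNeumannAlgebra H}

/-- Conjugation as a linear map. -/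
noncomputable def cjl {w : H →L[ℂ] H} (h : ∀ x ∈ N, star w * x * w ∈ M) : Alg N →ₗ[ℂ] Alg M where
  toFun x := ⟨star w * x.1 * w, h _ x.2⟩
  map_add' x y := Subtype.ext (by
    change star w * (x.1 + y.1) * w = star w * x.1 * w + star w * y.1 * w
    rw [mul_add, add_mul])
  map_smul' t x := Subtype.ext (by
    change star w * (t • x.1) * w = t • (star w * x.1 * w)
    rw [mul_smul_comm, smul_mul_assoc])

theorem cc {w : H →L[ℂ] H} (hw : w ∈ unitary (H →L[ℂ] H)) (x : H →L[ℂ] H) :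
    w * (star w * x * w) * star w = x := by
  rw [← mul_assoc, ← mul_assoc, hw.2, one_mul, mul_assoc, hw.2, mul_one]

theorem cc' {w : H →L[ℂ] H} (hw : w ∈ unitary (H →L[ℂ] H)) (x : H →L[ℂ] H) :
    star w * (w * x * star w) * w = x := by
  rw [← mul_assoc, ← mul_assoc, hw.1, one_mul, mul_assoc, hw.1, mul_one]

theorem norm_le_of_inner {T : H →L[ℂ] H} {C : ℝ} (h0 : 0 ≤ C)
    (h : ∀ η ζ, ‖⟪ζ, T η⟫_ℂ‖ ≤ C * ‖η‖ * ‖ζ‖) : ‖T‖ ≤ C := by
  refine T.opNorm_le_bound h0 fun η => ?_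
  have := h η (T η)
  rw [inner_self_eq_norm_sq_to_K, norm_pow, RCLike.norm_ofReal, abs_norm, sq] at this
  rcases (norm_nonneg (T η)).eq_or_lt with h1 | h1
  · rw [← h1]; positivity
  · exact le_of_mul_le_mul_right this h1

variable {ξ : H} {Γ : Type u} [Group Γ] {G : ℕ → Finset Γ} {ρ σ : Γ →* (H →L[ℂ] H)}
  {e r : ℕ → H →L[ℂ] H}

theorem step (hS : SAStmt.{u}) (hC : CentStmt.{u}) (hJ : JStmt.{u}) (hK : EndStmt.{u}) :
    ∃ C : ℝ, 1 ≤ C ∧ ∀ (H : Type u) [NormedAddCommGroup H] [InnerProductSpace ℂ H]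
    [CompleteSpace H] [SeparableSpace H] (M N : VonNeumannAlgebra H) (ξ : H) (Γ : Type u) [Group Γ]
    (G : ℕ → Finset Γ) (ρ σ : Γ →* (H →L[ℂ] H)) (e r : ℕ → H →L[ℂ] H) (m : P132.Mod M ξ)
    (n : P132.Mod N ξ) (F F' : ℂ → H →L[ℂ] H) (Y : H →L[ℂ] H) (c κ : ℝ),
    SPos M ξ G ρ σ e r → SPos N ξ G ρ σ e r → P132.AllEq M → P132.IsFactor M →
    Fam m n ρ σ F Y c → 0 ≤ c → 0 < κ → c ≤ κ → C * κ ≤ 1 → ∀ s : ℝ, 0 < s → s < 1 / 2 →
    Bd M N (F (-(s * Complex.I))) (F' (-(s * Complex.I))) c κ →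
    Bd N M (F' (-(s * Complex.I))) (F (-(s * Complex.I))) c κ → ∃ Ψ : Alg N →ₗ[ℂ] Alg M,
      ∀ x, ‖(Ψ x).1 - F' (-(s * Complex.I)) * x.1 * F (-(s * Complex.I))‖ ≤ C * κ * ‖x‖ := by
  obtain ⟨a, a1, ha⟩ := hJ
  obtain ⟨b, b1, hb⟩ := hK
  have ab : 1 ≤ b * a := one_le_mul_of_one_le_of_one_le b1 a1
  refine ⟨100 * (b * a), by linarith, ?_⟩
  intro H _ _ _ _ M N ξ Γ _ G ρ σ e r m n F F' Y c κ hM hN hA hF hf c0 κ0 cκ κ1 s s0 s1 d1 d2
  have k1 : 100 * κ ≤ 1 := by nlinarith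
  have z0 : -1 / 2 ≤ (-(s * Complex.I) : ℂ).im := by simp; linarith
  have z1 : (-(s * Complex.I) : ℂ).im ≤ 0 := by simp; linarith
  set T := F (-(s * Complex.I)) with hT
  set T' := F' (-(s * Complex.I)) with hT'
  obtain ⟨w, hw, w1, w2, w3⟩ := polar_unit T T' c0 (by linarith) d1.n1 d2.n1 d1.n2 d2.n2
  have sw := Unitary.star_mem hw
  have wc : ∀ g, Commute w (ρ g) ∧ Commute w (σ g) := fun g => by
    refine ⟨(w3 _ (hf.comm _ z0 z1 g).1.symm ?_).symm, (w3 _ (hf.comm _ z0 z1 g).2.symm ?_).symm⟩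
    · have := (hf.comm _ z0 z1 g⁻¹).1.star_star
      rw [hM.ρ_star, inv_inv] at this
      exact this.symm
    · have := (hf.comm _ z0 z1 g⁻¹).2.star_star
      rw [hM.σ_star, inv_inv] at this
      exact this.symm
  have wc' : ∀ g, Commute (star w) (ρ g) ∧ Commute (star w) (σ g) := fun g => by
    have h1 := (wc g⁻¹).1.star_star
    have h2 := (wc g⁻¹).2.star_star
    rw [hM.ρ_star, inv_inv] at h1
    rw [hM.σ_star, inv_inv] at h2
    exact ⟨h1, h2⟩
  have e1 : ∀ x, ‖T * x * T' - w * x * star w‖ ≤ 15 * κ * ‖x‖ := fun x =>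
    (three w1 d2.n1 (nu hw) w2 x).trans (mul_le_mul_of_nonneg_right (by nlinarith) (norm_nonneg _))
  have e2 : ∀ x, ‖T' * x * T - star w * x * w‖ ≤ 15 * κ * ‖x‖ := fun x =>
    (three w2 d1.n1 (nu sw) w1 x).trans (mul_le_mul_of_nonneg_right (by nlinarith) (norm_nonneg _))
  set P := cjv (star w) N with hP
  have mP : ∀ x, x ∈ P ↔ w * x * star w ∈ N := fun x => by rw [hP, mem_cjv sw, star_star]
  have n1 : Near M P (2 * (16 * κ)) := near_of_le (by positivity) fun x hx => by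
    obtain ⟨y, hy, h⟩ := d1.n3 x hx
    refine ⟨star w * y * w, (mP _).2 (by rwa [cc hw]), ?_⟩
    rw [← ncj hw sw, mul_sub, sub_mul, cc hw]
    have := norm_sub_le_norm_sub_add_norm_sub (w * x * star w) (T * x * T') y
    have := e1 x
    rw [norm_sub_rev] at this
    linarith
  have n2 : Near P M (2 * (16 * κ)) := near_of_le (by positivity) fun x hx => by
    obtain ⟨y, hy, h⟩ := d2.n3 _ ((mP x).1 hx)
    refine ⟨y, hy, ?_⟩
    have := norm_sub_le_norm_sub_add_norm_sub x (T' * (w * x * star w) * T) y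
    have h2 := e2 (w * x * star w)
    rw [cc' hw, norm_sub_rev, ncj hw sw] at h2
    rw [ncj hw sw] at h
    linarith
  set U : ℝ → H →L[ℂ] H := fun t => star w * n.U t * w with hU
  have uU : ∀ t, U t ∈ unitary (H →L[ℂ] H) := fun t => mul_mem (mul_mem sw (n.U_unitary t)) hw
  have gU : UG U := by
    refine ⟨by simp only [hU, n.U_zero, mul_one, hw.1], fun s t => ?_, fun t => ?_, fun η => ?_⟩
    · simp only [hU, n.U_add, mul_assoc]
      rw [← mul_assoc w, hw.2, one_mul]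
    · simp only [hU, star_mul, star_star, n.star_U, mul_assoc]
    · exact (star w).continuous.comp ((P132.filt.1 H _ n.toHMod).1 (w η))
  have iU : ∀ t, ∀ x ∈ P, U t * x * U (-t) ∈ P := fun t x hx => by
    rw [mP]
    have := n.σ_mem t ((mP x).1 hx)
    convert this using 1
    simp only [hU, mul_assoc, hw.2, mul_one]
    rw [← mul_assoc w (star w), hw.2, one_mul]
  have hv : ∀ t : ℝ, F (t - s * Complex.I) = n.U t * T * m.U (-t) := fun t => by
    rw [sub_eq_add_neg, hf.cov _ t z0 z1]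
  have j := ha H M ξ Γ G ρ σ e r (64 * κ) (fun t => U t * m.U (-t))
    (fun t => star w * F (t - s * Complex.I)) hM hA (by positivity) (by nlinarith)
    (fun t => mul_mem (uU t) (m.U_unitary _))
    (fun t g => ⟨(((wc' g).1.mul_left (U_comm hC hN.toRep n t g).1).mul_left (wc g).1).mul_left
      (U_comm hC hM.toRep m _ g).1, (((wc' g).2.mul_left (U_comm hC hN.toRep n t g).2).mul_left
      (wc g).2).mul_left (U_comm hC hM.toRep m _ g).2⟩)
    (fun t => by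
      simp only [hU, mul_apply_eq_comp, m.U_ξ]
      rw [scalar hM wc, map_smul, n.U_ξ, ← scalar hM wc, ← mul_apply_eq_comp, hw.1,
        one_apply_eq_self])
    (fun t x hx => by
      have hx1 : m.U (-t) * x * m.U t ∈ M := by simpa only [neg_neg] using m.σ_mem (-t) hx
      obtain ⟨y, hy, y1, y2⟩ := n1 _ hx1
      obtain ⟨z, hz, -, z2⟩ := n2 _ (iU t y hy)
      refine ⟨z, hz, ?_⟩
      rw [ncj (uU _) (uU _)] at z2
      rw [ncj (m.U_unitary _) (m.U_unitary _)] at y1 y2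
      have e3 : U t * m.U (-t) * x * star (U t * m.U (-t)) - U t * y * U (-t) =
          U t * (m.U (-t) * x * m.U t - y) * U (-t) := by
        rw [star_mul, m.star_U, neg_neg, gU.st]; noncomm_ring
      have := norm_sub_le_norm_sub_add_norm_sub (U t * m.U (-t) * x * star (U t * m.U (-t)))
        (U t * y * U (-t)) z
      rw [e3, ncj (uU _) (uU _)] at this
      nlinarith [mul_le_mul_of_nonneg_left y1 κ0.le])
    (by rw [gU.zero, neg_zero, m.U_zero, one_mul])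
    (continuous_const.mul ((hS H).2.2.2.2 F hf.sa s s0 s1))
    (fun t => by
      have e3 : U t * m.U (-t) - star w * F (t - s * Complex.I) =
          star w * n.U t * (w - T) * m.U (-t) := by rw [hv, hU]; noncomm_ring
      rw [e3, ncj (mul_mem sw (n.U_unitary t)) (m.U_unitary _), norm_sub_rev]
      linarith)
  have q : 32 * κ ≤ a * (64 * κ) := by nlinarith
  obtain ⟨Φ, hΦ⟩ := hb H M P ξ m U (a * (64 * κ)) hM.cs hF gU iU (by positivity) (by nlinarith)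
    (n1.mono (by linarith)) (n2.mono (by linarith)) fun t => by
      have e3 : m.U t - U t = -((U t * m.U (-t) - 1) * m.U t) := by
        rw [sub_mul, mul_assoc, m.U_neg_mul, mul_one, one_mul, neg_sub]
      rw [e3, norm_neg, CStarRing.norm_mul_mem_unitary _ (m.U_unitary t)]
      exact j t
  have hc : ∀ x ∈ N, star w * x * w ∈ P := fun x hx => (mP _).2 (by rwa [cc hw])
  refine ⟨Φ ∘ₗ cjl hc, fun x => ?_⟩
  have h1 : ‖(Φ (cjl hc x)).1 - star w * x.1 * w‖ ≤ b * (a * (64 * κ)) * ‖star w * x.1 * w‖ :=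
    hΦ (cjl hc x)
  rw [ncj sw hw] at h1
  have h2 := e2 x.1
  rw [norm_sub_rev] at h2
  have h3 := norm_sub_le_norm_sub_add_norm_sub (Φ (cjl hc x)).1 (star w * x.1 * w) (T' * x.1 * T)
  change ‖(Φ (cjl hc x)).1 - T' * x.1 * T‖ ≤ 100 * (b * a) * κ * ‖x.1‖
  have h4 : 0 ≤ κ * ‖x.1‖ := by positivity
  nlinarith [mul_le_mul_of_nonneg_right ab h4]

theorem limit (hS : SAStmt.{u}) {F F' : ℂ → H →L[ℂ] H} (hF : SA F) (hF' : SA F') {D : ℝ}
    (D0 : 0 ≤ D) (h : ∀ s : ℝ, 0 < s → s < 1 / 2 → ∃ Ψ : Alg N →ₗ[ℂ] Alg M,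
      ∀ x, ‖(Ψ x).1 - F' (-(s * Complex.I)) * x.1 * F (-(s * Complex.I))‖ ≤ D * ‖x‖) :
    ∃ Φ : Alg N →ₗ[ℂ] Alg M, ∀ x, ‖(Φ x).1 - F' 0 * x.1 * F 0‖ ≤ D * ‖x‖ := by
  obtain ⟨s0, -, s2, -⟩ := hS H
  set s : ℕ → ℝ := fun j => 1 / ((j : ℝ) + 1) / 3 with hs
  have p0 : ∀ j, 0 < s j := fun j => by positivity
  have p1 : ∀ j, s j < 1 / 2 := fun j => by
    have : 1 / ((j : ℝ) + 1) ≤ 1 := by
      rw [div_le_one (by positivity)]; linarith [Nat.cast_nonneg (α := ℝ) j]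
    simp only [hs]; linarith
  have z0 : ∀ j, -1 / 2 ≤ (-(s j * Complex.I) : ℂ).im := fun j => by simp; linarith [p1 j]
  have z1 : ∀ j, (-(s j * Complex.I) : ℂ).im ≤ 0 := fun j => by simp; linarith [p0 j]
  choose Ψ hΨ using fun j => h (s j) (p0 j) (p1 j)
  have hG : ∀ x : Alg N, SA fun z => F' z * x.1 * F z := fun x => s2 _ _ (s2 _ _ hF' (s0 _)) hF
  have hb : ∀ x : Alg N, ∃ C, ∀ j, ‖Ψ j x‖ ≤ C := fun x => by
    obtain ⟨C, hC⟩ := (hG x).bdd
    refine ⟨D * ‖x‖ + C, fun j => ?_⟩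
    have := norm_sub_norm_le (Ψ j x).1 (F' (-(s j * Complex.I)) * x.1 * F (-(s j * Complex.I)))
    have h1 := hC _ (z0 j) (z1 j)
    have h2 := hΨ j x
    change ‖(Ψ j x).1‖ ≤ _
    linarith
  choose C hC using hb
  let 𝒰 := Ultrafilter.of (atTop : Filter ℕ)
  have hl : ∀ (x : Alg N) η, Tendsto (fun j => (F' (-(s j * Complex.I)) * x.1 *
      F (-(s j * Complex.I))) η) atTop (𝓝 ((F' 0 * x.1 * F 0) η)) := fun x η => by
    have h1 := ((hG x).dc η).continuousOn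
    rw [Complex.closure_preimage_im, closure_Ioo (by norm_num)] at h1
    refine (h1 0 (by simp; norm_num)).tendsto.comp (tendsto_nhdsWithin_iff.2 ⟨?_,
      Eventually.of_forall fun j => ⟨z0 j, z1 j⟩⟩)
    have h2 : Tendsto s atTop (𝓝 0) := by
      simpa [hs] using (tendsto_one_div_add_atTop_nhds_zero_nat (𝕜 := ℝ)).div_const 3
    simpa using (((Complex.continuous_ofReal.tendsto 0).comp h2).mul_const Complex.I).neg
  refine ⟨{ toFun := fun x => wlim 𝒰 fun j => Ψ j x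
            map_add' := fun x y => by simp only [map_add]; exact wlim_add (hC x) (hC y)
            map_smul' := fun t x => by
              simp only [map_smul, RingHom.id_apply]; exact wlim_smul (hC x) t }, fun x => ?_⟩
  refine norm_le_of_inner (by positivity) fun η ζ => ?_
  have h1 := (wlim_spec (U := 𝒰) (hC x) η ζ).sub
    ((tendsto_const_nhds (x := ζ).inner (𝕜 := ℂ) (hl x η)).mono_left (Ultrafilter.of_le _))
  rw [sub_apply, inner_sub_right]
  refine le_of_tendsto' h1.norm fun j => ?_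
  rw [← inner_sub_right, ← sub_apply]
  refine (norm_inner_le_norm _ _).trans ?_
  rw [mul_comm]
  exact mul_le_mul_of_nonneg_right ((ContinuousLinearMap.le_opNorm _ _).trans
    (mul_le_mul_of_nonneg_right (hΨ j x) (norm_nonneg _))) (norm_nonneg _)

theorem comm_le {δ : ℝ} (h : Near M N δ) {x y : H →L[ℂ] H} (hx : x ∈ M) (hy : y ∈ N.commutant) :
    ‖x * y - y * x‖ ≤ 2 * δ * ‖x‖ * ‖y‖ := by
  obtain ⟨n, hn, -, h1⟩ := h x hx
  have e : x * y - y * x = (x - n) * y - y * (x - n) := by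
    rw [sub_mul, mul_sub, commute_of_mem hn hy]; abel
  rw [e]
  have := norm_sub_le ((x - n) * y) (y * (x - n))
  have := nm_le h1 (le_refl ‖y‖)
  have := nm_le (le_refl ‖y‖) h1
  linarith

end L3

open L3 in
theorem lS (hT : P132.TTStmt.{u}) (hF : FStmt.{u}) (hV : VWStmt.{u}) (hS : SAStmt.{u})
    (hI : IStmt.{u}) (hC : CentStmt.{u}) (hJ : JStmt.{u}) (hK : EndStmt.{u}) : LStmt'.{u} := by
  obtain ⟨a, a1, ha⟩ := hF
  obtain ⟨b, b1, hb⟩ := L3.step hS hC hJ hK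
  have k1 : 1 ≤ distK := by unfold distK; nlinarith [sq_nonneg (simL 2)]
  obtain ⟨q, hq⟩ : ∃ q, q = distK * (2 * (3 * (a * 2) + 4 * distK)) := ⟨_, rfl⟩
  have q1 : 6 * a ≤ q := by rw [hq]; nlinarith
  have bq : q ≤ b * q := by nlinarith
  refine ⟨2 * (b * q), by linarith, ?_⟩
  intro H _ _ _ _ M N ξ Γ _ G ρ σ e r δ hM hN hA hF d0 d1 n1 n2
  obtain ⟨m⟩ := hT H M ξ hM.cs
  obtain ⟨n⟩ := hT H N ξ hN.cs
  have c0 : 0 ≤ a * (2 * δ) := by positivity
  have c1 : a * (2 * δ) ≤ 1 := by nlinarith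
  obtain ⟨F, Y, hf⟩ := exists_fam hV hS hI hC hM hN m n c0
    (ha H M N ξ Γ G ρ σ e r (2 * δ) hM hN (by positivity) fun x hx y hy => comm_le n1 hx hy)
  obtain ⟨F', Y', hf'⟩ := exists_fam hV hS hI hC hN hM n m c0
    (ha H N M ξ Γ G ρ σ e r (2 * δ) hN hM (by positivity) fun x hx y hy => comm_le n2 hx hy)
  have e1 : distK * (2 * (3 * (a * (2 * δ)) + 4 * distK * δ)) = q * δ := by rw [hq]; ring
  have l1 : δ ≤ 4 * distK * δ := by nlinarith
  obtain ⟨Φ, hΦ⟩ := L3.limit (M := M) (N := N) hS hf.sa hf'.sa (D := b * (q * δ))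
    (by have : 0 < q := by linarith
        positivity) fun s s0 s1 => by
    have z0 : -1 / 2 ≤ (-(s * Complex.I) : ℂ).im := by simp; linarith
    have z1 : (-(s * Complex.I) : ℂ).im ≤ 0 := by simp; linarith
    refine hb H M N ξ Γ G ρ σ e r m n F F' Y _ (q * δ) hM hN hA hF hf c0 (by nlinarith)
      (by nlinarith) (by nlinarith) s s0 s1 ?_ ?_
    · rw [← e1]
      exact hf.bd hS hf' c0 c1 (by positivity) (n1.mono l1) (near_comm d0.le n2) z0 z1
    · rw [← e1]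
      exact hf'.bd hS hf c0 c1 (by positivity) (n2.mono l1) (near_comm d0.le n1) z0 z1
  refine ⟨Φ, fun x => ?_⟩
  have h1 := three hf'.f0 (show ‖F 0‖ ≤ 2 by
    linarith [norm_sub_norm_le (F 0) 1, hf.f0, norm_one_le' (A := H →L[ℂ] H)]) norm_one_le' hf.f0 x.1
  rw [one_mul x.1, mul_one x.1] at h1
  have h2 := norm_sub_le_norm_sub_add_norm_sub (Φ x).1 (F' 0 * x.1 * F 0) x.1
  have h3 := hΦ x
  change _ ≤ b * (q * δ) * ‖x.1‖ at h3
  change _ ≤ 2 * (b * q) * δ * ‖x.1‖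
  have h4 : 0 ≤ δ * ‖x.1‖ := by positivity
  nlinarith [mul_le_mul_of_nonneg_right (q1.trans bq) h4]

end Vale.Agent.P096
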