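import Vale.Agent.P096.Semi
import Vale.Agent.P096.Stm2

/-! Lifting at a factorial trace vector, and the assembly for semifinite algebras. -/

namespace Vale.Agent.P096

open scoped InnerProductSpace InnerProduct ComplexOrder
open Vale.Agent.P104 Vale.Agent.P082 ContinuousLinearMap TopologicalSpace

universe u

section

variable {H K : Type u} [NormedAddCommGroup H] [InnerProductSpace ℂ H] [CompleteSpace H]
  [NormedAddCommGroup K] [InnerProductSpace ℂ K] [CompleteSpace K]
  {M N : VonNeumannAlgebra H} {V : K →L[ℂ] H}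

theorem move_iso (h : Iso V) (he : ex V 1 ∈ M) {δ : ℝ} (d0 : 0 ≤ δ) (d1 : δ ≤ 1 / 40)
    (n1 : Near M N δ) : ∃ V' : K →L[ℂ] H, Iso V' ∧ ex V' 1 ∈ N ∧ ‖V - V'‖ ≤ 16 * δ := by
  have ep := h.proj (.one _)
  obtain ⟨x, x1, x2⟩ := n1.proj d0 he ep.norm_le
  obtain ⟨f, fN, f1, f2, -⟩ := proj_near_mem x1 ep x2 (by linarith)
  obtain ⟨u, u1, u2, u3⟩ := move_proj ep f1 f2 (by linarith)
  obtain ⟨V', hV'⟩ : ∃ V' : K →L[ℂ] H, V' = star u ∘L V := ⟨_, rfl⟩
  have v1 : V'† = V† ∘L u := by rw [hV', adjoint_comp, star_eq_adjoint, adjoint_adjoint]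
  refine ⟨V', fun k => ?_, ?_, ?_⟩
  · rw [v1, hV', comp_apply, comp_apply, ← mul_apply_eq_comp, u1.2]
    exact h k
  · have : ex V' 1 = star u * (ex V 1 * u) := by rw [ex, v1, hV']; rfl
    rwa [this, ← u3, ← mul_assoc, u1.1, one_mul]
  · have : V - V' = -(star (u - 1) ∘L V) := by
      rw [hV']; ext k; simp
    rw [this, norm_neg]
    refine (opNorm_comp_le _ _).trans ?_
    rw [norm_star]
    nlinarith [h.op, norm_nonneg (u - 1), norm_nonneg V]

theorem ex_add (S T : K →L[ℂ] K) : ex V (S + T) = ex V S + ex V T := by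
  ext k; simp [ex_apply]

theorem ex_sub (S T : K →L[ℂ] K) : ex V (S - T) = ex V S - ex V T := by
  ext k; simp [ex_apply]

theorem ex_smul (c : ℂ) (T : K →L[ℂ] K) : ex V (c • T) = c • ex V T := by
  ext k; simp [ex_apply]

/-- The extension map on the reduced algebra. -/
noncomputable def exL (h : Iso V) (he : ex V 1 ∈ M) : Alg (corner M V) →ₗ[ℂ] Alg M where
  toFun T := ⟨ex V T.1, h.ex_mem he T.2⟩
  map_add' _ _ := Subtype.ext (ex_add _ _)
  map_smul' _ _ := Subtype.ext (ex_smul _ _)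

end

theorem locS : LocStmt.{u} := by
  obtain ⟨C, C1, hC⟩ := kk_semi.{u}
  refine ⟨100 * C, by linarith, fun K _ _ _ _ P Q ζ δ d0 d1 n1 n2 tr hz => ?_⟩
  rcases eq_or_ne ζ 0 with rfl | z0
  · exact ⟨0, 0, zero_mem _, .zero _, by simp, rfl, fun x => by simpa using by positivity⟩
  obtain ⟨q, qQ, q1, -, q2, q3, -⟩ := exists_cyclic_proj (M := Q) (one_mem _) ζ rfl
  have k : ∀ x ∈ Q, ⟪ζ, (star x * x) ζ⟫_ℂ = 0 → x * q = 0 := fun x hx h => q3 x hx (by
    rwa [mul_apply_eq_comp, inner_star_right, inner_self_eq_zero] at h)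
  have qc : ∀ x ∈ Q, q * x = x * q := fun x hx => congrArg Subtype.val
    ((cen_of (M := Q) (z := ⟨q, qQ⟩) (proj_coe.2 q1) fun y => Subtype.ext (by
      have m := mul_mem (sub_mem (one_mem Q) qQ) y.2
      refine k ((1 - q) * y.1) m ?_
      rw [tr _ (star_mem m) _ m, mul_assoc, mul_apply_eq_comp, ← inner_star_left,
        q1.one_sub.2.star_eq, sub_apply, q2, one_apply_eq_self, sub_self, inner_zero_left])).comm
      ⟨x, hx⟩)
  obtain ⟨L, _, _, _, V, h, rfl, -⟩ := exists_range q1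
  have l : ∀ T, ex V 1 * ex V T = ex V T := fun T => by rw [← h.ex_mul, one_mul]
  have r : ∀ T, ex V T * ex V 1 = ex V T := fun T => by rw [← h.ex_mul, mul_one]
  have v0 : (V†) ζ ≠ 0 := fun c => z0 (by rw [← q2, ex_apply, c, map_zero, map_zero])
  have hS : IsSemifiniteFactor (corner Q V) := by
    refine ⟨factor_of_proj fun T hT hp hc => ?_, 1, ⟨one_mem _, .one _, fun T hT h1 _ => ?_⟩,
      fun c => v0 (congrArg (fun T : L →L[ℂ] L => T ((V†) ζ)) c)⟩
    · have m := h.ex_mem qQ hT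
      rcases hz _ m (h.proj hp) (fun x hx => by
        have e2 := congrArg (ex V) (hc _ (h.cp_mem qQ hx))
        rw [h.ex_mul, h.ex_mul, ex_cp, ← mul_assoc, ← mul_assoc, r, mul_assoc _ x, ← qc x hx,
          ← mul_assoc, r, mul_assoc, l, qc x hx, mul_assoc, l] at e2
        exact e2) with c | c
      · exact .inl (by rw [← h.cp_ex T, ← r, q3 _ m c, cp_zero])
      · have := q3 _ (sub_mem qQ m) (by rw [sub_apply, c, q2, sub_self])
        rw [sub_mul, r, r, sub_eq_zero] at this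
        exact .inr (by rw [← h.cp_ex T, ← this, h.cp_ex])
    · have m := h.ex_mem qQ hT
      have p : IsStarProjection (1 - T * star T) :=
        (pi_fin (by rw [mul_assoc, h1, mul_one])).one_sub
      have e : ex V (1 - T * star T) = ex V 1 - ex V T * star (ex V T) := by
        rw [ex_sub, h.ex_mul, ex_star]
      have := k _ (h.ex_mem qQ (sub_mem (one_mem _) (mul_mem hT (star_mem hT)))) (by
        rw [(h.proj p).2.star_eq, (h.proj p).1.eq, e, sub_apply, inner_sub_right,
          tr _ m _ (star_mem m), ← ex_star, ← h.ex_mul, h1, sub_self])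
      rw [r] at this
      rw [eq_comm, ← sub_eq_zero, ← h.cp_ex (1 - _), this, cp_zero]
  have a0 : δ ≤ C * δ := le_mul_of_one_le_left d0.le C1
  obtain ⟨V', h', he', v2⟩ := move_iso h qQ d0.le (by linarith) n1
  have hs : HasSeparableOrbit (corner Q V) := ⟨_, v0, ((IsSeparable.of_separableSpace
    (Set.univ : Set K)).image (V†).continuous).mono fun η _ => ⟨V η, trivial, h η⟩⟩
  obtain ⟨w, w1, w2, w3⟩ := hC L _ hS hs (corner P V') (δ + 2 * (16 * δ)) (by linarith)
    (by linarith) (near_corner h h' qQ he' v2 d0.le n1)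
    (near_corner h' h he' qQ (by rwa [norm_sub_rev]) d0.le n2)
  have m : ∀ x : Alg P, star w * cp V' x.1 * w ∈ corner Q V := fun x => by
    obtain ⟨T, hT, e⟩ := w3.ge (h'.cp_mem he' x.2)
    rwa [← e, ← mul_assoc, ← mul_assoc, w1.1, one_mul, mul_assoc, w1.1, mul_one]
  let Ψ : Alg P →ₗ[ℂ] Alg (corner Q V) :=
    { toFun := fun x => ⟨_, m x⟩
      map_add' := fun x y => Subtype.ext (by
        change star w * cp V' (x.1 + y.1) * w = _ + _
        rw [cp_add, mul_add, add_mul])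
      map_smul' := fun c x => Subtype.ext (by
        change star w * cp V' (c • x.1) * w = c • _
        rw [cp_smul, mul_smul_comm, smul_mul_assoc]) }
  refine ⟨_, exL h qQ ∘ₗ Ψ, qQ, q1, qc, q2, fun x => ?_⟩
  change ‖ex V (star w * cp V' x.1 * w) - _‖ ≤ _ * ‖x.1‖
  rw [← ex_cp, ← ex_sub]
  refine (h.ex_le _).trans ?_
  have b1 := h.cp_near h' v2 x.1 x.1
  have b2 := h'.cp_le x.1
  have e : star w * cp V' x.1 * w - cp V x.1 =
      star w * (cp V' x.1 * (w - 1) - (w - 1) * cp V' x.1) - (cp V x.1 - cp V' x.1) := by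
    simp only [mul_sub, sub_mul, ← mul_assoc, w1.1, one_mul, mul_one]
    abel
  have b3 := norm_mul_le (cp V' x.1) (w - 1)
  have b4 := norm_mul_le (w - 1) (cp V' x.1)
  have b5 := norm_sub_le (cp V' x.1 * (w - 1)) ((w - 1) * cp V' x.1)
  have b6 := mul_le_mul b2 w2 (norm_nonneg _) (norm_nonneg _)
  rw [e]
  refine (norm_sub_le _ _).trans ?_
  rw [CStarRing.norm_mem_unitary_mul _ (Unitary.star_mem w1)]
  rw [sub_self, norm_zero] at b1
  nlinarith [mul_le_mul_of_nonneg_right a0 (norm_nonneg x.1), norm_nonneg x.1,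
    mul_nonneg d0.le (norm_nonneg x.1)]

theorem kk_all (hG : GoodStmt.{u}) (hU : UStmt.{u}) (hN : NewtonStmt.{u}) : ∃ C : ℝ, 1 ≤ C ∧
    ∀ (H : Type u) [NormedAddCommGroup H] [InnerProductSpace ℂ H] [CompleteSpace H]
      (M : VonNeumannAlgebra H), SemiF M → KK M C := by
  obtain ⟨a, a1, ha⟩ := hU
  obtain ⟨b, b1, hb⟩ := hN a a1
  obtain ⟨c, c1, hc⟩ := cut.{u}
  refine ⟨c * b, one_le_mul_of_one_le_of_one_le c1 b1, fun H _ _ _ M hM => ?_⟩
  obtain ⟨e, e1, e2, e3⟩ := hG H M hM
  obtain ⟨K, _, _, _, V, h, hV, -⟩ := exists_range (proj_coe.1 e1)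
  have he : ex V 1 ∈ M := hV ▸ e.2
  have l : ∀ T, e * exL h he T = exL h he T := fun T => Subtype.ext (by
    change e.1 * ex V T.1 = ex V T.1
    rw [← hV, ← h.ex_mul, one_mul])
  have r : ∀ T, exL h he T * e = exL h he T := fun T => Subtype.ext (by
    change ex V T.1 * e.1 = ex V T.1
    rw [← hV, ← h.ex_mul, mul_one])
  have m : ∀ S T, exL h he (S * T) = exL h he S * exL h he T := fun S T =>
    Subtype.ext (h.ex_mul _ _)
  have s : ∀ T, exL h he (star T) = star (exL h he T) := fun T => Subtype.ext (ex_star _)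
  refine hc H K M V b b1 h he (fun y hy h0 => e2 y hy ?_) (hb K _ (ha K _ fun T hT => ?_))
  · have := ex_cp (V := V) y
    rwa [h0, ex_zero, commute_of_mem he hy, mul_assoc, (h.proj (.one _)).1.eq, eq_comm, hV] at this
  · have := e3 (exL h he T) (by rw [l, r]) fun τ ⟨I, _, ξ, η, hτ⟩ t1 t2 => by
      rw [← s, ← m]
      refine hT (τ ∘ₗ exL h he) ⟨I, inferInstance, fun i => (V†) (ξ i), fun i => (V†) (η i),
        fun a => ?_⟩ (fun x y => ?_) fun x => ?_
      · rw [LinearMap.comp_apply, hτ]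
        refine Finset.sum_congr rfl fun i _ => ?_
        rw [adjoint_inner_left]
        rfl
      · have := t1 (exL h he x) (exL h he y)
        rwa [l, r, l, r, ← m, ← m, r, r] at this
      · rw [LinearMap.comp_apply, m, s]
        exact t2 _
    refine Subtype.ext ?_
    rw [← h.cp_ex T.1]
    exact (congrArg (fun a : Alg M => cp V a.1) this).trans cp_zero

end Vale.Agent.P096
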