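import Vale.Agent.P096.Step

/-! The iteration and its limit. -/

namespace Vale.Agent.P096

open scoped InnerProductSpace ComplexOrder BigOperators
open Filter Topology Vale.Agent.P104 Vale.Agent.P082 Finset

universe u

variable {A B E Γ : Type u} [CStarAlgebra A] [CStarAlgebra B] [NormedAddCommGroup E]
  [InnerProductSpace ℂ E] [CompleteSpace E] [Group Γ] {ρ : A →⋆ₐ[ℂ] (E →L[ℂ] E)}
  {L : B →⋆ₐ[ℂ] (E →L[ℂ] E)} {R : B →ₗ[ℂ] (E →L[ℂ] E)} {ξ : E}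
  {γ w ε : ℝ} {G : ℕ → Finset Γ} {ι : Γ →* B} {σ : Γ →* A} {W : (E →L[ℂ] E)ˣ}

theorem Stt.next (hG : GrothStmt.{u}) (h : Std ρ L R ξ G ι σ γ) (g0 : 0 < γ)
    (g1 : 10 ^ 33 * γ ≤ 1) (s : Stt ρ L R ξ ι W w ε) (e0 : 0 < ε) (e1 : ε ≤ 2 * γ)
    (hw : w ≤ 32000000 * γ) : ∃ W' : (E →L[ℂ] E)ˣ,
      Stt ρ L R ξ ι W' (w + 8000000 * ε) (ε / 2) ∧ ‖(W : E →L[ℂ] E) - W'‖ ≤ 8000000 * ε ∧
        ‖(↑W⁻¹ : E →L[ℂ] E) - ↑W'⁻¹‖ ≤ 8000000 * ε := by
  obtain ⟨T, t1, t2, t3, t4, t5, t6⟩ := s.step hG h (γ' := 10 ^ 8 * γ) e0 (by linarith)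
    (by linarith) (by linarith) g0.le
  have n : ∀ {X : E →L[ℂ] E}, ‖X - 1‖ ≤ w → ‖X‖ ≤ 2 := fun h =>
    ContinuousLinearMap.opNorm_le_bound _ zero_le_two (norm_le_two (h.trans (by linarith)))
  have a1 : ‖(W : E →L[ℂ] E) - ↑(T * W)‖ ≤ 8000000 * ε := by
    rw [norm_sub_rev, Units.val_mul, ← sub_one_mul]
    refine (norm_mul_le _ _).trans ?_
    have := mul_le_mul t1 (n s.n1) (norm_nonneg _) (by positivity)
    linarith
  have a2 : ‖(↑W⁻¹ : E →L[ℂ] E) - ↑(T * W)⁻¹‖ ≤ 8000000 * ε := by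
    rw [norm_sub_rev, mul_inv_rev, Units.val_mul, ← mul_sub_one]
    refine (norm_mul_le _ _).trans ?_
    have := mul_le_mul (n s.n2) t2 (norm_nonneg _) (by positivity)
    linarith
  have k : ∀ {X Y : E →L[ℂ] E}, ‖X - 1‖ ≤ w → ‖X - Y‖ ≤ 8000000 * ε →
      ‖Y - 1‖ ≤ w + 8000000 * ε := fun {X Y} h1 h2 => by
    have := norm_sub_le (X - 1) (X - Y)
    rw [sub_sub_sub_cancel_left] at this
    linarith
  refine ⟨T * W, ⟨k s.n1 a1, k s.n2 a2, fun g => (t3 g).mul_left (s.cL g),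
    fun g => (t4 g).mul_left (s.cR g), ?_, fun a b => ?_⟩, a1, a2⟩
  · rw [Units.val_mul, mul_apply_eq_comp, s.fix, t5]
  · have e : cj (T * W) (ρ : A →ₐ[ℂ] (E →L[ℂ] E)) = cj T (cj W (ρ : A →ₐ[ℂ] (E →L[ℂ] E))) :=
      AlgHom.ext fun a => by simp [cj_apply, mul_assoc]
    rw [e]
    exact t6 a b

theorem Std.st0 (h : Std ρ L R ξ G ι σ γ) : Stt ρ L R ξ ι 1 0 (2 * γ) := by
  refine ⟨by simp, by simp, fun g => Commute.one_left _, fun g => Commute.one_left _, rfl,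
    fun a b => ?_⟩
  obtain ⟨y, -, hy⟩ := h.nearA a
  have e : Fm (cj 1 (ρ : A →ₐ[ℂ] (E →L[ℂ] E))) R ξ a b =
      (ρ a - L y) (R b ξ) - R b ((ρ a - L y) ξ) := by
    simp [Fm, cj_apply, h.LRa]
  have a1 := (ρ a - L y).le_of_opNorm_le hy (R b ξ)
  have a2 := h.Rle b ((ρ a - L y) ξ)
  have a3 := (ρ a - L y).le_of_opNorm_le hy ξ
  have a4 := h.Rle b ξ
  rw [h.unit, mul_one] at a3 a4
  have a5 := mul_le_mul_of_nonneg_left a4 ((norm_nonneg _).trans hy)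
  have a6 := mul_le_mul_of_nonneg_left a3 (norm_nonneg b)
  rw [e]
  refine (norm_sub_le _ _).trans ?_
  linarith

theorem mid (hG : GrothStmt.{u}) : MidStmt.{u} := by
  refine ⟨10 ^ 33, by norm_num, fun A B E Γ _ _ _ _ _ _ ρ L R ξ G ι σ γ g0 g1 h => ?_⟩
  let P : ℕ → (E →L[ℂ] E)ˣ → Prop := fun n W =>
    Stt ρ L R ξ ι W (32000000 * γ * (1 - (1 / 2) ^ n)) (2 * γ * (1 / 2) ^ n)
  have p1 : ∀ n : ℕ, (1 / 2 : ℝ) ^ n ≤ 1 := fun n => pow_le_one₀ (by norm_num) (by norm_num)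
  have p0 : ∀ n : ℕ, (0 : ℝ) < (1 / 2) ^ n := fun n => by positivity
  have hs : ∀ n W, P n W → ∃ W', P (n + 1) W' ∧
      ‖(W : E →L[ℂ] E) - W'‖ ≤ 16000000 * γ * (1 / 2) ^ n ∧
      ‖(↑W⁻¹ : E →L[ℂ] E) - ↑W'⁻¹‖ ≤ 16000000 * γ * (1 / 2) ^ n := fun n W s => by
    obtain ⟨W', h1, h2, h3⟩ := Stt.next hG h g0 g1 s (by positivity) (by nlinarith [p1 n])
      (by nlinarith [p0 n])
    refine ⟨W', ?_, by linarith, by linarith⟩
    convert h1 using 1 <;> ring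
  choose f f1 f2 f3 using hs
  let s : ∀ n, {W // P n W} := fun n => Nat.rec ⟨1, by simpa [P] using h.st0⟩
    (fun n x => ⟨f n x.1 x.2, f1 n x.1 x.2⟩) n
  obtain ⟨W, hW⟩ := cauchySeq_tendsto_of_complete (cauchySeq_of_le_geometric (1 / 2)
    (16000000 * γ) (by norm_num) (f := fun n => ((s n).1 : E →L[ℂ] E)) fun n => by
      rw [dist_eq_norm]; exact f2 n _ (s n).2)
  obtain ⟨W', hW'⟩ := cauchySeq_tendsto_of_complete (cauchySeq_of_le_geometric (1 / 2)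
    (16000000 * γ) (by norm_num) (f := fun n => (↑(s n).1⁻¹ : E →L[ℂ] E)) fun n => by
      rw [dist_eq_norm]; exact f3 n _ (s n).2)
  have wn : ∀ n : ℕ, 32000000 * γ * (1 - (1 / 2) ^ n) ≤ 10 ^ 33 * γ := fun n => by
    nlinarith [p0 n]
  refine ⟨W, W', tendsto_nhds_unique (hW.mul hW') (by simp),
    tendsto_nhds_unique (hW'.mul hW) (by simp),
    le_of_tendsto' (hW.sub_const 1).norm fun n => (s n).2.n1.trans (wn n),
    le_of_tendsto' (hW'.sub_const 1).norm fun n => (s n).2.n2.trans (wn n), fun a b => ?_⟩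
  have k : ∀ b, (W * ρ a * W') (R b ξ) = R b ((W * ρ a * W') ξ) := fun b => by
    have t1 := (hW.mul_const (ρ a)).mul hW'
    have t2 : ∀ η, Tendsto (fun n => (((s n).1 : E →L[ℂ] E) * ρ a * ↑(s n).1⁻¹) η) atTop
        (𝓝 ((W * ρ a * W') η)) := fun η =>
      ((ContinuousLinearMap.apply ℂ E η).continuous.tendsto _).comp t1
    have t3 := (t2 (R b ξ)).sub (((R b).continuous.tendsto _).comp (t2 ξ))
    have t4 : Tendsto (fun n : ℕ => 2 * γ * (1 / 2) ^ n * ‖a‖ * ‖b‖) atTop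
        (𝓝 (2 * γ * 0 * ‖a‖ * ‖b‖)) :=
      (((tendsto_pow_atTop_nhds_zero_of_lt_one (by norm_num) (by norm_num)).const_mul _).mul_const
        _).mul_const _
    have := le_of_tendsto_of_tendsto' t3.norm t4 fun n => (s n).2.F a b
    rw [mul_zero, zero_mul, zero_mul, norm_le_zero_iff, sub_eq_zero] at this
    exact this
  ext η
  refine h.cyc.induction_on η (isClosed_eq (by fun_prop) (by fun_prop)) fun y => ?_
  rw [mul_apply_eq_comp, mul_apply_eq_comp (R b), h.cen, h.RR, k, k, h.RR]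

end Vale.Agent.P096
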