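import Vale.Agent.P096.Init
import Vale.Agent.P096.Mid
import Vale.Agent.P096.Groth
import Vale.Agent.P096.Fin
import Vale.Agent.P096.Kaz

/-! Assembly of the perturbation theorem for II_1 factors. -/

namespace Vale.Agent.P096

open scoped InnerProductSpace ComplexOrder BigOperators
open Filter Topology Vale.Agent.P104 Vale.Agent.P082 Finset ContinuousLinearMap

universe u

section

variable {H : Type u} [NormedAddCommGroup H] [InnerProductSpace ℂ H] [CompleteSpace H]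

theorem Near.mono {M N : VonNeumannAlgebra H} {δ δ' : ℝ} (h : Near M N δ) (hδ : δ ≤ δ') :
    Near M N δ' := fun a ha => by
  obtain ⟨b, hb, b1, b2⟩ := h a ha
  exact ⟨b, hb, b1, b2.trans (mul_le_mul_of_nonneg_right hδ (norm_nonneg _))⟩

theorem near_of_haus {M N : VonNeumannAlgebra H} {δ : ℝ}
    (h : Metric.hausdorffDist {x : H →L[ℂ] H | x ∈ M ∧ ‖x‖ ≤ 1} {x | x ∈ N ∧ ‖x‖ ≤ 1} < δ) :
    Near M N δ := fun a ha => by
  rcases eq_or_ne a 0 with rfl | h0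
  · exact ⟨0, zero_mem N, le_rfl, by simp⟩
  have a0 : 0 < ‖a‖ := norm_pos_iff.2 h0
  have hb : ∀ P : VonNeumannAlgebra H,
      Bornology.IsBounded {x : H →L[ℂ] H | x ∈ P ∧ ‖x‖ ≤ 1} := fun P =>
    isBounded_iff_forall_norm_le.2 ⟨1, fun _ hx => hx.2⟩
  have hn : ∀ P : VonNeumannAlgebra H, {x : H →L[ℂ] H | x ∈ P ∧ ‖x‖ ≤ 1}.Nonempty := fun P =>
    ⟨0, zero_mem P, by simp⟩
  obtain ⟨y, ⟨y1, y2⟩, y3⟩ := Metric.exists_dist_lt_of_hausdorffDist_lt
    (x := ((‖a‖⁻¹ : ℝ) : ℂ) • a) (s := {x : H →L[ℂ] H | x ∈ M ∧ ‖x‖ ≤ 1})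
    ⟨M.toStarSubalgebra.smul_mem ha _, by
      rw [norm_smul, Complex.norm_real, norm_inv, norm_norm, inv_mul_cancel₀ a0.ne']⟩ h
    (Metric.hausdorffEDist_ne_top_of_nonempty_of_bounded (hn _) (hn _) (hb _) (hb _))
  refine ⟨(‖a‖ : ℂ) • y, N.toStarSubalgebra.smul_mem y1 _, ?_, ?_⟩
  · rw [norm_smul, Complex.norm_real, norm_norm]
    exact mul_le_of_le_one_right a0.le y2
  · rw [show a - (‖a‖ : ℂ) • y = (‖a‖ : ℂ) • (((‖a‖⁻¹ : ℝ) : ℂ) • a - y) by
      rw [smul_sub, smul_smul, ← Complex.ofReal_mul, mul_inv_cancel₀ a0.ne']; simp,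
      norm_smul, Complex.norm_real, norm_norm, mul_comm, ← dist_eq_norm]
    exact mul_le_mul_of_nonneg_right y3.le a0.le

end

/-- The quantitative conclusion. -/
def KK {H : Type u} [NormedAddCommGroup H] [InnerProductSpace ℂ H] [CompleteSpace H]
    (M : VonNeumannAlgebra H) (C : ℝ) : Prop :=
  ∀ (N : VonNeumannAlgebra H) (δ : ℝ), 0 < δ → C * δ ≤ 1 → Near M N δ → Near N M δ →
    ∃ u ∈ unitary (H →L[ℂ] H), ‖u - 1‖ ≤ C * δ ∧
      (fun x => u * x * star u) '' (M : Set (H →L[ℂ] H)) = N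

theorem kk_II1 (traceS : TraceStmt.{u}) (typeS : TypeStmt.{u}) : ∃ C : ℝ, 1 ≤ C ∧
    ∀ (H : Type u) [NormedAddCommGroup H] [InnerProductSpace ℂ H] [CompleteSpace H]
      [TopologicalSpace.SeparableSpace H] (M : VonNeumannAlgebra H), IsII1 M → KK M C := by
  obtain ⟨a, a1, ha⟩ := init popa.{u} form kaz conj
  obtain ⟨b, b1, hb⟩ := mid grothS.{u}
  obtain ⟨c, c1, hc⟩ := final.{u}
  have ab : a ≤ b * a := le_mul_of_one_le_left (by linarith) b1
  have abc : b * a ≤ c * (b * a) := le_mul_of_one_le_left (by linarith) c1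
  refine ⟨100 * (c * (b * a)), by linarith, fun H _ _ _ _ M hM N δ δ0 δ1 n1 n2 => ?_⟩
  have e0 := mul_le_mul_of_nonneg_right a1 δ0.le
  have e1 := mul_le_mul_of_nonneg_right ab δ0.le
  have e2 := mul_le_mul_of_nonneg_right abc δ0.le
  rcases subsingleton_or_nontrivial H with _ | _
  · refine ⟨1, one_mem _, by rw [sub_self, norm_zero]; linarith, ?_⟩
    ext x
    exact ⟨fun _ => Subsingleton.elim 0 x ▸ zero_mem N, fun _ => ⟨0, zero_mem M,
      Subsingleton.elim _ _⟩⟩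
  obtain ⟨τM, hτM⟩ := traceS H M hM
  obtain ⟨τN, hτN⟩ := traceS H N (typeS H M N δ δ0.le (by linarith) hM n1 n2)
  obtain ⟨E, _, _, _, Γ, _, ρ, L, R, ξ, G, ι, σ, st, link, cl⟩ :=
    ha H M N τM τN δ δ0.le (by linarith) hτM hτN n1 n2
  obtain ⟨W, W', w1, w2, w3, w4, w5⟩ := hb _ _ _ _ ρ L R ξ G ι σ (a * δ) (by linarith)
    (by linarith) st
  obtain ⟨u, uu, u1, u2⟩ := hc H M N E ρ L W W' (b * (a * δ)) (by linarith) (by linarith) st.ρiso
    st.Liso w1 w2 w3 w4 (fun x => cl _ (w5 x)) (n1.mono (by linarith)) (n2.mono (by linarith))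
    fun x y => (link x y).trans (by
      have := mul_le_mul_of_nonneg_right e1 (norm_nonneg x)
      linarith)
  exact ⟨u, uu, by linarith, u2⟩

theorem KK.eps {C : ℝ} (hC : 1 ≤ C) {ε : ℝ} (hε : 0 < ε) : ∃ δ > 0,
    ∀ (H : Type u) [NormedAddCommGroup H] [InnerProductSpace ℂ H] [CompleteSpace H]
      (M N : VonNeumannAlgebra H), KK M C →
      Metric.hausdorffDist {x : H →L[ℂ] H | x ∈ M ∧ ‖x‖ ≤ 1} {x | x ∈ N ∧ ‖x‖ ≤ 1} < δ →
      ∃ u ∈ unitary (H →L[ℂ] H), ‖u - 1‖ < ε ∧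
        (fun x => u * x * star u) '' (M : Set (H →L[ℂ] H)) = N := by
  have h0 : 0 < min 1 (ε / 2) / C := by positivity
  refine ⟨_, h0, fun H _ _ _ M N h d => ?_⟩
  have e : C * (min 1 (ε / 2) / C) = min 1 (ε / 2) := by field_simp
  obtain ⟨u, uu, u1, u2⟩ := h N _ h0 (e.trans_le (min_le_left _ _)) (near_of_haus d)
    (near_of_haus (by rwa [Metric.hausdorffDist_comm]))
  exact ⟨u, uu, by linarith [min_le_right 1 (ε / 2)], u2⟩

end Vale.Agent.P096
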