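import Vale.Agent.P096.Rig
import Vale.Agent.P096.Fin

/-! The Newton iteration: an almost multiplicative map is close to a multiplicative one. -/

namespace Vale.Agent.P096

open Filter Topology

variable {A D : Type*} [NormedRing A] [NormedAlgebra ℂ A] [CompleteSpace A] [NormedRing D]
  [NormedAlgebra ℂ D] {i : A →ₐ[ℂ] D} {S : Subalgebra ℂ D} {Ψ : A →L[ℂ] D} {w s : ℝ}

/-- The state of the iteration. -/
structure NSt (i : A →ₐ[ℂ] D) (S : Subalgebra ℂ D) (Ψ : A →L[ℂ] D) (w s : ℝ) : Prop where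
  mem : ∀ a, Ψ a ∈ S
  near : ∀ a, ‖Ψ a - i a‖ ≤ w * ‖a‖
  mul : ∀ a b, ‖Ψ a * Ψ b - Ψ (a * b)‖ ≤ s * ‖a‖ * ‖b‖

omit [CompleteSpace A] in
theorem NSt.bds (hi : ∀ a, ‖i a‖ = ‖a‖) (h : NSt i S Ψ w s) (hw : w ≤ 1 / 4) (a : A) :
    ‖a‖ ≤ 2 * ‖Ψ a‖ ∧ ‖Ψ a‖ ≤ 2 * ‖a‖ := by
  have h1 := (h.near a).trans (mul_le_mul_of_nonneg_right hw (norm_nonneg a))
  have h2 := norm_sub_norm_le (Ψ a) (i a)
  have h3 := norm_sub_norm_le (i a) (Ψ a)
  rw [norm_sub_rev] at h3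
  rw [hi] at h2 h3
  constructor <;> linarith [norm_nonneg a]

theorem NSt.onto (hi : ∀ a, ‖i a‖ = ‖a‖)
    (hn : ∀ b ∈ S, ∃ a, ‖a‖ ≤ ‖b‖ ∧ ‖b - i a‖ ≤ 1 / 4 * ‖b‖) (h : NSt i S Ψ w s)
    (hw : w ≤ 1 / 4) (b : D) (hb : b ∈ S) : ∃ a, Ψ a = b := by
  have key : ∀ n : ℕ, ∀ b ∈ S, ∃ a, ‖b - Ψ a‖ ≤ (1 / 2) ^ n * ‖b‖ := by
    intro n
    induction n with
    | zero => exact fun b _ => ⟨0, by simp⟩
    | succ n ih =>
      intro b hb
      obtain ⟨a, a1, a2⟩ := hn b hb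
      have h1 := (h.near a).trans (mul_le_mul hw a1 (norm_nonneg a) (by norm_num))
      have h2 : ‖b - Ψ a‖ ≤ 1 / 2 * ‖b‖ := by
        rw [show b - Ψ a = (b - i a) - (Ψ a - i a) by abel]
        exact (norm_sub_le _ _).trans (by linarith)
      obtain ⟨a', h3⟩ := ih _ (S.sub_mem hb (h.mem a))
      refine ⟨a + a', ?_⟩
      rw [map_add, ← sub_sub, pow_succ, mul_assoc]
      exact h3.trans (by gcongr)
  have cl : IsClosed (Set.range Ψ) := (AddMonoidHomClass.antilipschitz_of_bound Ψ (K := 2)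
    fun a => (h.bds hi hw a).1).isClosed_range Ψ.uniformContinuous
  exact mem_of_geom (C := ‖b‖) cl fun n => by
    obtain ⟨a, ha⟩ := key n b hb
    exact ⟨_, ⟨a, rfl⟩, by rwa [mul_comm]⟩

theorem NSt.step (hR : Rig A) (hi : ∀ a, ‖i a‖ = ‖a‖)
    (hn : ∀ b ∈ S, ∃ a, ‖a‖ ≤ ‖b‖ ∧ ‖b - i a‖ ≤ 1 / 4 * ‖b‖) (h : NSt i S Ψ w s)
    (hw : w ≤ 1 / 4) (s0 : 0 ≤ s) (s1 : s ≤ 1 / 1000) :
    ∃ Ψ', NSt i S Ψ' (w + 20 * s) (s / 2) ∧ ‖Ψ' - Ψ‖ ≤ 20 * s := by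
  have lo := fun a => (h.bds hi hw a).1
  have up := fun a => (h.bds hi hw a).2
  have inj : Function.Injective Ψ := (injective_iff_map_eq_zero Ψ).2 fun a ha =>
    norm_le_zero_iff.1 (by simpa [ha] using lo a)
  choose ν hν using fun a b => h.onto hi hn hw _ (S.mul_mem (h.mem a) (h.mem b))
  obtain ⟨μ, hμ⟩ : ∃ μ : A →ₗ[ℂ] A →ₗ[ℂ] A, ∀ a b, Ψ (a * b + μ a b) = Ψ a * Ψ b :=
    ⟨LinearMap.mk₂ ℂ (fun a b => ν a b - a * b)
      (fun a a' b => inj (by simp only [map_sub, map_add, hν, add_mul]; abel))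
      (fun c a b => inj (by simp only [map_sub, map_smul, hν, smul_mul_assoc, smul_sub]))
      (fun a b b' => inj (by simp only [map_sub, map_add, hν, mul_add]; abel))
      (fun c a b => inj (by simp only [map_sub, map_smul, hν, mul_smul_comm, smul_sub])),
      fun a b => by simp [hν]⟩
  obtain ⟨r, hr⟩ : ∃ r, r = 2 * s := ⟨_, rfl⟩
  have r0 : 0 ≤ r := by linarith
  have m1 : ∀ a b, ‖μ a b‖ ≤ r * ‖a‖ * ‖b‖ := fun a b => by
    have e : Ψ (μ a b) = Ψ a * Ψ b - Ψ (a * b) := by rw [← hμ, map_add, add_sub_cancel_left]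
    have := lo (μ a b)
    rw [e] at this
    rw [hr]
    linarith [h.mul a b]
  obtain ⟨g, g1, g2⟩ := hR μ r (2 * r ^ 2) r0 (by positivity) m1 fun a b c => by
    have e : (a * b + μ a b) * c + μ (a * b + μ a b) c =
        a * (b * c + μ b c) + μ a (b * c + μ b c) := inj (by rw [hμ, hμ, hμ, hμ, mul_assoc])
    rw [show a * μ b c - μ (a * b) c + μ a (b * c) - μ a b * c = μ (μ a b) c - μ a (μ b c) by
      simp only [map_add, LinearMap.add_apply, mul_add, add_mul, mul_assoc] at e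
      linear_combination (norm := abel) -e]
    refine (norm_sub_le _ _).trans ?_
    have a1 : ‖μ (μ a b) c‖ ≤ r * (r * ‖a‖ * ‖b‖) * ‖c‖ := (m1 _ _).trans (by gcongr; exact m1 _ _)
    have a2 : ‖μ a (μ b c)‖ ≤ r * ‖a‖ * (r * ‖b‖ * ‖c‖) := (m1 _ _).trans (by gcongr; exact m1 _ _)
    linarith
  replace g1 : ∀ a, ‖g a‖ ≤ 5 * r * ‖a‖ := fun a =>
    (g1 a).trans (mul_le_mul_of_nonneg_right (by nlinarith) (norm_nonneg a))
  have g3 : ∀ a, ‖Ψ (g a)‖ ≤ 20 * s * ‖a‖ := fun a => by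
    have := g1 a
    rw [hr] at this
    linarith [up (g a)]
  have e : ∀ a, (Ψ - Ψ ∘L g.mkContinuous _ g1) a = Ψ (a - g a) := fun a => by simp
  refine ⟨Ψ - Ψ ∘L g.mkContinuous _ g1, ⟨fun a => e a ▸ h.mem _, fun a => ?_, fun a b => ?_⟩, ?_⟩
  · rw [e, map_sub, sub_right_comm, add_mul]
    exact (norm_sub_le _ _).trans (add_le_add (h.near a) (g3 a))
  · rw [e, e, e, ← hμ, ← map_sub]
    refine (up _).trans ?_
    rw [show (a - g a) * (b - g b) + μ (a - g a) (b - g b) - (a * b - g (a * b)) =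
        (μ a b - (a * g b - g (a * b) + g a * b)) + g a * g b - μ (g a) b - μ a (g b) +
          μ (g a) (g b) by
      simp only [map_sub, LinearMap.sub_apply, mul_sub, sub_mul]
      abel]
    have a1 : ‖g a * g b‖ ≤ 5 * r * ‖a‖ * (5 * r * ‖b‖) :=
      (norm_mul_le _ _).trans (by gcongr <;> exact g1 _)
    have a2 : ‖μ (g a) b‖ ≤ r * (5 * r * ‖a‖) * ‖b‖ := (m1 _ _).trans (by gcongr; exact g1 _)
    have a3 : ‖μ a (g b)‖ ≤ r * ‖a‖ * (5 * r * ‖b‖) := (m1 _ _).trans (by gcongr; exact g1 _)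
    have a4 : ‖μ (g a) (g b)‖ ≤ r * (5 * r * ‖a‖) * (5 * r * ‖b‖) :=
      (m1 _ _).trans (by gcongr <;> exact g1 _)
    have a5 := (norm_add_le _ _).trans (add_le_add ((norm_sub_le _ _).trans (add_le_add
      ((norm_sub_le _ _).trans (add_le_add ((norm_add_le _ _).trans (add_le_add (g2 a b) a1)) a2))
      a3)) a4)
    have p : 0 ≤ ‖a‖ * ‖b‖ := by positivity
    have a6 : 2 * (45 * r ^ 2 + 25 * r ^ 3) ≤ s / 2 := by
      rw [hr]
      nlinarith [mul_nonneg s0 s0]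
    nlinarith [mul_le_mul_of_nonneg_right a6 p]
  · refine ContinuousLinearMap.opNorm_le_bound _ (by positivity) fun a => ?_
    rw [sub_apply, e, map_sub, sub_sub_cancel_left, norm_neg]
    exact g3 a

theorem NSt.lim [CompleteSpace D] (hR : Rig A) (hi : ∀ a, ‖i a‖ = ‖a‖) (hS : IsClosed (S : Set D))
    (hn : ∀ b ∈ S, ∃ a, ‖a‖ ≤ ‖b‖ ∧ ‖b - i a‖ ≤ 1 / 4 * ‖b‖) (h : NSt i S Ψ w s)
    (hw : w + 40 * s ≤ 1 / 4) (s0 : 0 ≤ s) (s1 : s ≤ 1 / 1000) :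
    ∃ θ, NSt i S θ (w + 40 * s) 0 := by
  have st : ∀ (n : ℕ) (Φ : A →L[ℂ] D), NSt i S Φ (w + 40 * s - 40 * (s * (1 / 2) ^ n))
      (s * (1 / 2) ^ n) → ∃ Φ', NSt i S Φ' (w + 40 * s - 40 * (s * (1 / 2) ^ (n + 1)))
        (s * (1 / 2) ^ (n + 1)) ∧ dist Φ Φ' ≤ 20 * s * (1 / 2) ^ n := fun n Φ hΦ => by
    have p0 : 0 ≤ s * (1 / 2) ^ n := by positivity
    obtain ⟨Φ', a1, a2⟩ := hΦ.step hR hi hn (by linarith) p0
      ((mul_le_of_le_one_right s0 (pow_le_one₀ (by norm_num) (by norm_num))).trans s1)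
    refine ⟨Φ', ?_, by rwa [dist_comm, dist_eq_norm, mul_assoc]⟩
    convert a1 using 1 <;> ring
  choose! f f1 f2 using st
  let x : ℕ → A →L[ℂ] D := fun n => Nat.rec Ψ f n
  have hx : ∀ n, NSt i S (x n) (w + 40 * s - 40 * (s * (1 / 2) ^ n)) (s * (1 / 2) ^ n) := by
    intro n
    induction n with
    | zero => simpa [x] using h
    | succ n ih => exact f1 n _ ih
  obtain ⟨θ, hθ⟩ := cauchySeq_tendsto_of_complete
    (cauchySeq_of_le_geometric (1 / 2) (20 * s) (by norm_num) fun n => f2 n _ (hx n))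
  have t : ∀ a, Tendsto (fun n => x n a) atTop (𝓝 (θ a)) := fun a =>
    ((ContinuousLinearMap.apply ℂ D a).continuous.tendsto θ).comp hθ
  refine ⟨θ, fun a => hS.mem_of_tendsto (t a) (Eventually.of_forall fun n => (hx n).mem a),
    fun a => le_of_tendsto' ((t a).sub_const _).norm fun n => ((hx n).near a).trans ?_,
    fun a b => ?_⟩
  · exact mul_le_mul_of_nonneg_right (sub_le_self _ (by positivity)) (norm_nonneg a)
  · have t0 : Tendsto (fun n : ℕ => s * (1 / 2) ^ n * ‖a‖ * ‖b‖) atTop (𝓝 (s * 0 * ‖a‖ * ‖b‖)) :=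
      (((tendsto_pow_atTop_nhds_zero_of_lt_one (by norm_num) (by norm_num)).const_mul
        s).mul_const _).mul_const _
    rw [mul_zero] at t0
    exact le_of_tendsto_of_tendsto' (((t a).mul (t b)).sub (t _)).norm t0 fun n => (hx n).mul a b

end Vale.Agent.P096
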