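import Vale.Agent.P096.Kaz

/-! A Dixmier type averaging property in a tracial von Neumann algebra. -/

namespace Vale.Agent.P096

open scoped InnerProductSpace BigOperators
open Filter Topology Vale.Agent.P104 Vale.Agent.P082 Finset

/-- `z` lies in the weakly closed convex hull of the conjugates of `r` by `S`. -/
def Hull {A : Type*} [CStarAlgebra A] (τ : A →ₗ[ℂ] ℂ) (S : Subgroup (unitary A)) (r z : A) : Prop :=
  ∀ (s : A) (c : ℝ), (∀ u ∈ S, c ≤ (τ (s * (star u.1 * r * u.1))).re) → c ≤ (τ (s * z)).re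

/-- The averaging property. -/
def Dix {A : Type*} [CStarAlgebra A] (τ : A →ₗ[ℂ] ℂ) : Prop :=
  ∀ (S : Subgroup (unitary A)) (r : A), ∃ z, (∀ u ∈ S, u.1 * z = z * u.1) ∧ Hull τ S r z

theorem Hull.eq {A : Type*} [CStarAlgebra A] {τ : A →ₗ[ℂ] ℂ} {S : Subgroup (unitary A)} {r z : A}
    (h : Hull τ S r z) (s : A) (c : ℂ) (hc : ∀ u ∈ S, τ (s * (star u.1 * r * u.1)) = c) :
    τ (s * z) = c := by
  have key : ∀ t : ℂ, (t * c).re ≤ (t * τ (s * z)).re := fun t => by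
    have := h (t • s) (t * c).re fun u hu => by
      rw [smul_mul_assoc, map_smul, hc u hu, smul_eq_mul]
    rwa [smul_mul_assoc, map_smul, smul_eq_mul] at this
  have h1 := key 1
  have h2 := key (-1)
  have h3 := key Complex.I
  have h4 := key (-Complex.I)
  simp only [one_mul, neg_mul, Complex.neg_re, Complex.I_mul_re] at h1 h2 h3 h4
  exact Complex.ext (by linarith) (by linarith)

variable {K : Type*} [NormedAddCommGroup K] [InnerProductSpace ℂ K] [CompleteSpace K]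
  {N : VonNeumannAlgebra K} {E : Type*} [NormedAddCommGroup E] [InnerProductSpace ℂ E]
  {τ : Alg N →ₗ[ℂ] ℂ} {Λ : Alg N →ₗ[ℂ] E}

theorem dix (hv : VecF τ) (h : Tr τ Λ) (hf : ∀ x, τ (star x * x) = 0 → x = 0) : Dix τ := by
  intro S r
  let T : Set (Alg N) := {w | ‖w‖ ≤ ‖r‖ ∧ Hull τ S r w}
  have rT : r ∈ T := ⟨le_rfl, fun s c hc => by simpa using hc 1 S.one_mem⟩
  have cT : ∀ w ∈ T, ∀ u ∈ S, star u.1 * w * u.1 ∈ T := fun w hw u hu => by
    refine ⟨?_, fun s c hc => ?_⟩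
    · rw [CStarRing.norm_mul_mem_unitary _ u.2,
        CStarRing.norm_mem_unitary_mul _ (Unitary.star_mem u.2)]
      exact hw.1
    · have e : ∀ y, τ (s * (star u.1 * y * u.1)) = τ (u.1 * s * star u.1 * y) := fun y => by
        rw [← mul_assoc, h.tr]; simp only [mul_assoc]
      rw [e]
      refine hw.2 _ c fun v hv => ?_
      rw [← e]
      simpa only [Submonoid.coe_mul, star_mul, mul_assoc] using hc (v * u) (S.mul_mem hv hu)
  have mT : ∀ w ∈ T, ∀ w' ∈ T, (2⁻¹ : ℂ) • (w + w') ∈ T := fun w hw w' hw' => by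
    refine ⟨?_, fun s c hc => ?_⟩
    · rw [norm_smul, norm_inv, Complex.norm_two]
      linarith [norm_add_le w w', hw.1, hw'.1]
    · have h1 := hw.2 s c hc
      have h2 := hw'.2 s c hc
      have : (2⁻¹ : ℂ) = ((2⁻¹ : ℝ) : ℂ) := by simp
      rw [mul_smul_comm, map_smul, mul_add, map_add, smul_eq_mul, this, Complex.re_ofReal_mul,
        Complex.add_re]
      linarith
  have hb : BddBelow ((fun w => ‖Λ w‖ ^ 2) '' T) := ⟨0, by rintro _ ⟨w, -, rfl⟩; positivity⟩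
  set m := sInf ((fun w => ‖Λ w‖ ^ 2) '' T) with hm
  have hm1 : ∀ w ∈ T, m ≤ ‖Λ w‖ ^ 2 := fun w hw => csInf_le hb ⟨w, hw, rfl⟩
  have hm2 : ∀ n : ℕ, ∃ w ∈ T, ‖Λ w‖ ^ 2 < m + (1 / ((n : ℝ) + 1)) ^ 2 / 4 := fun n => by
    obtain ⟨_, ⟨w, hw, rfl⟩, h1⟩ := Real.lt_sInf_add_pos (s := (fun w => ‖Λ w‖ ^ 2) '' T)
      ⟨_, r, rT, rfl⟩ (show 0 < (1 / ((n : ℝ) + 1)) ^ 2 / 4 by positivity)
    exact ⟨w, hw, h1⟩
  choose w wT hw using hm2
  have inv : ∀ n, ∀ u ∈ S, ‖Λ (w n - star u.1 * w n * u.1)‖ ≤ 1 / ((n : ℝ) + 1) := fun n u hu => by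
    have p := parallelogram_law_with_norm ℂ (Λ (w n)) (Λ (star u.1 * w n * u.1))
    rw [h.norm_ur u.2, h.norm_ul (Unitary.star_mem u.2), ← map_sub] at p
    have q := hm1 _ (mT _ (wT n) _ (cT _ (wT n) u hu))
    rw [map_smul, map_add, norm_smul, norm_inv, Complex.norm_two] at q
    refine (pow_le_pow_iff_left₀ (norm_nonneg _) (by positivity) two_ne_zero).1 ?_
    nlinarith [hw n]
  let U : Ultrafilter ℕ := Ultrafilter.of atTop
  have lim : ∀ s, Tendsto (fun n => τ (s * w n)) U (𝓝 (τ (s * wlim U w))) := fun s => by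
    rw [← wlim_mul_left (fun n => (wT n).1)]
    exact Glue.vec_wlim hv fun n => nm_le le_rfl (wT n).1
  refine ⟨wlim U w, fun u hu => ?_, fun s c hc => ge_of_tendsto'
    ((Complex.continuous_re.tendsto _).comp (lim s)) fun n => (wT n).2 s c hc⟩
  have e : ∀ t y, τ (t * (y - star u.1 * y * u.1)) = τ ((t - u.1 * t * star u.1) * y) :=
    fun t y => by
      rw [mul_sub, sub_mul, map_sub, map_sub, ← mul_assoc, h.tr _ u.1]; simp only [mul_assoc]
  have z : ∀ t, τ (t * (wlim U w - star u.1 * wlim U w * u.1)) = 0 := fun t => by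
    rw [e]
    refine tendsto_nhds_unique (lim _) (Tendsto.mono_left ?_ (Ultrafilter.of_le atTop))
    refine squeeze_zero_norm (a := fun n : ℕ => ‖Λ (star t)‖ * (1 / ((n : ℝ) + 1))) (fun n => ?_)
      (by simpa using (tendsto_one_div_add_atTop_nhds_zero_nat (𝕜 := ℝ)).const_mul ‖Λ (star t)‖)
    rw [← e, ← star_star t, ← h.inner, star_star]
    exact (norm_inner_le_norm _ _).trans (mul_le_mul_of_nonneg_left (inv n u hu) (norm_nonneg _))
  have z1 := sub_eq_zero.1 (hf _ (z _))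
  conv_lhs => rw [z1]
  rw [← mul_assoc, ← mul_assoc, u.2.2, one_mul]

end Vale.Agent.P096
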