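import Vale.Agent.P096.Popa0

/-! Finite groups of unitaries with a factorial commutant, extended by Pauli pairs. -/

namespace Vale.Agent.P096

open scoped InnerProductSpace BigOperators
open Filter Topology Vale.Agent.P104 Vale.Agent.P082 Finset

section Grp

variable {G : Type*} [Group G]

/-- A finite subgroup. -/
structure Grp (F : Finset G) : Prop where
  one : 1 ∈ F
  mul : ∀ g ∈ F, ∀ h ∈ F, g * h ∈ F
  inv : ∀ g ∈ F, g⁻¹ ∈ F

theorem Grp.ext {F : Finset G} (hF : Grp F) {s : G} (hs : s * s = 1)
    (hn : ∀ g ∈ F, s * g * s ∈ F) : ∃ F', Grp F' ∧ F ⊆ F' ∧ s ∈ F' ∧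
      ∀ g, g ∈ F' ↔ (g ∈ F ∨ g * s ∈ F) := by
  classical
  have ss : ∀ x, s * (s * x) = x := fun x => by rw [← mul_assoc, hs, one_mul]
  have hm : ∀ g, g ∈ F ∪ F.image (· * s) ↔ (g ∈ F ∨ g * s ∈ F) := fun g => by
    rw [mem_union, mem_image]
    refine or_congr_right ⟨?_, fun h => ⟨_, h, by rw [mul_assoc, hs, mul_one]⟩⟩
    rintro ⟨a, ha, rfl⟩
    rwa [mul_assoc, hs, mul_one]
  refine ⟨F ∪ F.image (· * s), ⟨(hm _).2 (Or.inl hF.one), fun g hg h hh => (hm _).2 ?_,
    fun g hg => (hm _).2 ?_⟩, subset_union_left, (hm _).2 (Or.inr (hs ▸ hF.one)), hm⟩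
  · rcases (hm _).1 hg with a | a <;> rcases (hm _).1 hh with b | b
    · exact Or.inl (hF.mul _ a _ b)
    · exact Or.inr (by simpa only [mul_assoc] using hF.mul _ a _ b)
    · exact Or.inr (by simpa only [mul_assoc, ss] using hF.mul _ a _ (hn _ b))
    · exact Or.inl (by simpa only [mul_assoc, ss, hs, mul_one] using hF.mul _ a _ (hn _ b))
  · rcases (hm _).1 hg with a | a
    · exact Or.inl (hF.inv _ a)
    · have := hn _ (hF.inv _ a)
      rw [mul_inv_rev, inv_eq_of_mul_eq_one_right hs, ← mul_assoc, hs, one_mul] at this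
      exact Or.inr this

theorem Grp.av_left {V : Type*} [AddCommGroup V] [Module ℂ V] {F : Finset G} (hF : Grp F) {g : G}
    (hg : g ∈ F) (f : G → V) : av F (fun h => f (g * h)) = av F f := by
  unfold av
  congr 1
  exact sum_bij' (fun h _ => g * h) (fun h _ => g⁻¹ * h) (fun h hh => hF.mul g hg h hh)
    (fun h hh => hF.mul _ (hF.inv g hg) h hh) (fun h _ => by simp) (fun h _ => by simp)
    fun _ _ => rfl

theorem Grp.av_right {V : Type*} [AddCommGroup V] [Module ℂ V] {F : Finset G} (hF : Grp F) {g : G}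
    (hg : g ∈ F) (f : G → V) : av F (fun h => f (h * g)) = av F f := by
  unfold av
  congr 1
  exact sum_bij' (fun h _ => h * g) (fun h _ => h * g⁻¹) (fun h hh => hF.mul h hh g hg)
    (fun h hh => hF.mul h hh _ (hF.inv g hg)) (fun h _ => by simp) (fun h _ => by simp)
    fun _ _ => rfl

end Grp

theorem map_av {Γ V W : Type*} [AddCommGroup V] [Module ℂ V] [AddCommGroup W] [Module ℂ W]
    (φ : V →ₗ[ℂ] W) (s : Finset Γ) (f : Γ → V) : φ (av s f) = av s fun g => φ (f g) := by
  simp only [av, map_smul, map_sum]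

theorem av_congr {Γ V : Type*} [AddCommGroup V] [Module ℂ V] {s : Finset Γ} {f f' : Γ → V}
    (h : ∀ g ∈ s, f g = f' g) : av s f = av s f' := by
  rw [av, av, sum_congr rfl h]

section Alg

variable {A : Type*} [CStarAlgebra A]

/-- The averaging map of a finite group of unitaries. -/
noncomputable def EF (F : Finset (unitary A)) : A →ₗ[ℂ] A where
  toFun x := av F fun u => u.1 * x * star u.1
  map_add' x y := by simp only [mul_add, add_mul, av_add]
  map_smul' t x := by
    simp only [av, mul_smul_comm, smul_mul_assoc, ← smul_sum, RingHom.id_apply, smul_comm t]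

theorem EF_apply (F : Finset (unitary A)) (x : A) : EF F x = av F fun u => u.1 * x * star u.1 := rfl

/-- Commutation with a finite group of unitaries. -/
def Cm (F : Finset (unitary A)) (x : A) : Prop := ∀ u ∈ F, u.1 * x = x * u.1

variable {F F' : Finset (unitary A)}

theorem Cm.mul {x y : A} (hx : Cm F x) (hy : Cm F y) : Cm F (x * y) := fun u hu => by
  rw [← mul_assoc, hx u hu, mul_assoc, hy u hu, mul_assoc]

theorem Cm.add {x y : A} (hx : Cm F x) (hy : Cm F y) : Cm F (x + y) := fun u hu => by
  rw [mul_add, add_mul, hx u hu, hy u hu]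

theorem Cm.sub {x y : A} (hx : Cm F x) (hy : Cm F y) : Cm F (x - y) := fun u hu => by
  rw [mul_sub, sub_mul, hx u hu, hy u hu]

theorem Cm.one : Cm F 1 := fun u _ => by rw [mul_one, one_mul]

theorem Cm.adj (hF : Grp F) {x : A} (hx : Cm F x) : Cm F (star x) := fun u hu => by
  have := congrArg star (hx _ (hF.inv u hu))
  rw [star_mul, star_mul] at this
  change star x * star (star u.1) = star (star u.1) * star x at this
  rw [star_star] at this
  exact this.symm

theorem EF_cm (hF : Grp F) (x : A) : Cm F (EF F x) := fun u hu => by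
  have := hF.av_left hu fun v : unitary A => v.1 * x * star v.1
  rw [EF_apply]
  conv_rhs => rw [← this]
  rw [← av_mul_left, ← av_mul_right]
  refine av_congr fun v _ => ?_
  simp only [Submonoid.coe_mul, star_mul, mul_assoc, u.2.1, mul_one]

theorem EF_conj (hF : Grp F) {u : unitary A} (hu : u ∈ F) (x : A) :
    EF F (u.1 * x * star u.1) = EF F x := by
  rw [EF_apply, EF_apply, ← hF.av_right hu fun v : unitary A => v.1 * x * star v.1]
  simp only [Submonoid.coe_mul, star_mul, mul_assoc]

theorem EF_EF (hF : Grp F) (hF' : Grp F') (h : F ⊆ F') (x : A) : EF F' (EF F x) = EF F' x := by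
  rw [EF_apply F, map_av, av_congr fun u hu => EF_conj hF' (h hu) x, av_const ⟨1, hF.one⟩]

theorem EF_half (hF : Grp F) {u : unitary A} (hu : u ∈ F) (x : A) :
    EF F ((2⁻¹ : ℂ) • (x + u.1 * x * star u.1)) = EF F x := by
  rw [map_smul, map_add, EF_conj hF hu]
  module

variable {E : Type*} [NormedAddCommGroup E] [InnerProductSpace ℂ E] {τ : A →ₗ[ℂ] ℂ}
  {Λ : A →ₗ[ℂ] E}

theorem EF_norm (h : Tr τ Λ) (hF : Grp F) (x : A) : ‖Λ (EF F x)‖ ≤ ‖Λ x‖ := by
  rw [EF_apply, map_av]
  exact av_norm_le ⟨1, hF.one⟩ fun u => by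
    rw [h.norm_ur (Unitary.star_mem u.2), h.norm_ul u.2]

theorem EF_tr (h : Tr τ Λ) (hF : Grp F) (x : A) : τ (EF F x) = τ x := by
  rw [EF_apply, map_av, av_congr (f' := fun _ => τ x) fun u _ => by
    rw [h.tr, ← mul_assoc, u.2.1, one_mul], av_const ⟨1, hF.one⟩]

theorem EF_mono (h : Tr τ Λ) (hF : Grp F) (hF' : Grp F') (hs : F ⊆ F') (x : A) :
    ‖Λ (EF F' x)‖ ≤ ‖Λ (EF F x)‖ := by
  rw [← EF_EF hF hF' hs]
  exact EF_norm h hF' _

/-- A halving of the identity. -/
structure Hv (w : A) : Prop where
  iso : w * star w * w = w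
  sq : w * w = 0
  sum : star w * w + w * star w = 1

namespace Hv

variable {w : A} (h : Hv w)
include h

theorem r1 (x : A) : w * (w * x) = 0 := by rw [← mul_assoc, h.sq, zero_mul]
theorem sq' : star w * star w = 0 := by rw [← star_mul, h.sq, star_zero]
theorem r2 (x : A) : star w * (star w * x) = 0 := by rw [← mul_assoc, h.sq', zero_mul]
theorem r3 (x : A) : w * (star w * (w * x)) = w * x := by simp only [← mul_assoc, h.iso]
theorem iso' : star w * w * star w = star w := by
  have := congrArg star h.iso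
  rwa [star_mul, star_mul, star_star, ← mul_assoc] at this
theorem r4 (x : A) : star w * (w * (star w * x)) = star w * x := by simp only [← mul_assoc, h.iso']
theorem r3' : w * (star w * w) = w := by rw [← mul_assoc, h.iso]
theorem r4' : star w * (w * star w) = star w := by rw [← mul_assoc, h.iso']

theorem X_sq : (w + star w) * (w + star w) = 1 := by
  rw [← h.sum]; simp only [mul_add, add_mul, h.sq, h.sq']; abel

theorem Z_sq : (star w * w - w * star w) * (star w * w - w * star w) = 1 := by
  rw [← h.sum]; simp only [mul_sub, sub_mul, mul_assoc, h.r1, h.r2, h.r3', h.r4', mul_zero]; abel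

theorem ZXZ : (star w * w - w * star w) * (w + star w) * (star w * w - w * star w) =
    -(w + star w) := by
  simp only [mul_sub, sub_mul, mul_add, add_mul, mul_assoc, h.r1, h.r2, h.r3', h.r4', h.sq,
    h.sq', mul_zero]
  abel

theorem X_mem : w + star w ∈ unitary A := by
  have : star (w + star w) = w + star w := by rw [star_add, star_star, add_comm]
  rw [Unitary.mem_iff, this]
  exact ⟨h.X_sq, h.X_sq⟩

theorem Z_mem : star w * w - w * star w ∈ unitary A := by
  have : star (star w * w - w * star w) = star w * w - w * star w := by simp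
  rw [Unitary.mem_iff, this]
  exact ⟨h.Z_sq, h.Z_sq⟩

theorem comm {a : A} (h1 : (w + star w) * a = a * (w + star w))
    (h2 : (star w * w - w * star w) * a = a * (star w * w - w * star w)) : w * a = a * w := by
  have e : w = (2⁻¹ : ℂ) • ((w + star w) + (w + star w) * (star w * w - w * star w)) := by
    simp only [mul_sub, add_mul, h.r1, h.r2, h.r3', h.r4']
    module
  rw [e, smul_mul_assoc, mul_smul_comm, add_mul _ _ a, mul_add a, mul_assoc, h1, h2, ← mul_assoc,
    h1, mul_assoc]

/-- An element commuting with the corner and with `w` commutes with everything. -/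
theorem decomp (a : A) : a = star w * w * a * (star w * w) + star w * w * a * w * star w +
    w * (star w * a * (star w * w)) + w * (star w * a * w) * star w := by
  conv_lhs => rw [← one_mul a, ← mul_one a, ← h.sum]
  simp only [mul_add, add_mul, mul_assoc]
  abel

end Hv

end Alg

end Vale.Agent.P096
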