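import Vale.Agent.P096.Popa1

/-! The inductive step in the construction of an ergodic locally finite group. -/

namespace Vale.Agent.P096

open scoped InnerProductSpace BigOperators ComplexConjugate
open Filter Topology Vale.Agent.P104 Vale.Agent.P082 Finset

variable {A : Type*} [CStarAlgebra A] {F : Finset (unitary A)} {w b b' : A}

/-- Elements of the corner of `star w * w`. -/
structure Cor (w b : A) : Prop where
  l : star w * w * b = b
  r : b * (star w * w) = b

/-- Amplification of an element of the corner. -/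
def Phi (w b : A) : A := b + w * b * star w

theorem Cor.bw (h : Hv w) (hb : Cor w b) : b * w = 0 := by
  rw [← hb.r, mul_assoc, mul_assoc, h.sq, mul_zero, mul_zero]

theorem Cor.wb (h : Hv w) (hb : Cor w b) : star w * b = 0 := by
  rw [← hb.l, mul_assoc, h.r2]

theorem Cor.adj (hb : Cor w b) : Cor w (star b) :=
  ⟨by simpa [mul_assoc] using congrArg star hb.r, by simpa [mul_assoc] using congrArg star hb.l⟩

theorem Cor.mul (hb : Cor w b) (hb' : Cor w b') : Cor w (b * b') :=
  ⟨by rw [← mul_assoc, hb.l], by rw [mul_assoc, hb'.r]⟩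

theorem Phi_star (w b : A) : star (Phi w b) = Phi w (star b) := by
  simp [Phi, mul_assoc]

theorem Cor.w_phi (h : Hv w) (hb : Cor w b) : w * Phi w b = Phi w b * w := by
  rw [Phi, mul_add, add_mul, hb.bw h, mul_assoc, h.r1, mul_assoc, mul_assoc, hb.r, add_zero,
    zero_add]

theorem Cor.sw_phi (h : Hv w) (hb : Cor w b) : star w * Phi w b = Phi w b * star w := by
  have := congrArg star (hb.adj.w_phi h)
  rw [star_mul, star_mul, Phi_star, star_star] at this
  exact this.symm

theorem Cor.mul_phi (h : Hv w) (hb : Cor w b) (x : A) : b * Phi w x = b * x := by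
  rw [Phi, mul_add, ← mul_assoc, ← mul_assoc, hb.bw h, zero_mul, zero_mul, add_zero]

theorem Cor.phi_mul (h : Hv w) (hb : Cor w b) (x : A) : Phi w x * b = x * b := by
  rw [Phi, add_mul, mul_assoc, hb.wb h, mul_zero, add_zero]

theorem Hv.cor_q (h : Hv w) : Cor w (star w * w) :=
  ⟨by rw [mul_assoc, h.r3'], by rw [mul_assoc, h.r3']⟩

theorem Cor.phi_phi (h : Hv w) (hb : Cor w b) (hb' : Cor w b') :
    Phi w b * Phi w b' = Phi w (b * b') := by
  nth_rw 1 [Phi]
  rw [add_mul, hb.mul_phi h, mul_assoc, hb'.sw_phi h, ← mul_assoc, mul_assoc w, hb.mul_phi h, Phi]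

theorem Cm.phi (hF : Grp F) (hw : Cm F w) (hb : Cm F b) : Cm F (Phi w b) :=
  hb.add ((hw.mul hb).mul (hw.adj hF))

/-- A finite group whose commutant is a factor in which projections can be halved. -/
structure St (F : Finset (unitary A)) : Prop where
  grp : Grp F
  neg : -1 ∈ F
  fac : ∀ z, Cm F z → (∀ x, Cm F x → z * x = x * z) → ∃ c : ℂ, z = c • 1
  halv : ∀ g, Cm F g → star g = g → g * g = g →
    ∃ w, Cm F w ∧ w * star w * w = w ∧ w * w = 0 ∧ star w * w + w * star w = g

theorem St.corner (hF : St F) (h : Hv w) (hw : Cm F w) {z : A} (hz : Cm F z) (z1 : w * z = z * w)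
    (z2 : star w * z = z * star w) (z3 : ∀ b, Cm F b → Cor w b → z * b = b * z) :
    ∃ c : ℂ, z = c • 1 := by
  refine hF.fac z hz fun a ha => ?_
  have hs := hw.adj hF.grp
  have c1 : Commute z w := z1.symm
  have c2 : Commute z (star w) := z2.symm
  have c3 : Commute z (star w * w * a * (star w * w)) := z3 _ (((hs.mul hw).mul ha).mul (hs.mul hw))
    ⟨by simp only [mul_assoc, h.r3], by simp only [mul_assoc, h.r3']⟩
  have c4 : Commute z (star w * w * a * w) := z3 _ (((hs.mul hw).mul ha).mul hw)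
    ⟨by simp only [mul_assoc, h.r3], by simp only [mul_assoc, h.r3']⟩
  have c5 : Commute z (star w * a * (star w * w)) := z3 _ ((hs.mul ha).mul (hs.mul hw))
    ⟨by simp only [mul_assoc, h.r4], by simp only [mul_assoc, h.r3']⟩
  have c6 : Commute z (star w * a * w) := z3 _ ((hs.mul ha).mul hw)
    ⟨by simp only [mul_assoc, h.r4], by simp only [mul_assoc, h.r3']⟩
  rw [h.decomp a]
  exact (((c3.add_right (c4.mul_right c2)).add_right (c1.mul_right c5)).add_right
    ((c1.mul_right c6).mul_right c2)).eq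

theorem St.pauli (hF : St F) (h : Hv w) (hw : Cm F w) : ∃ F', St F' ∧ F ⊆ F' ∧
    (⟨_, h.X_mem⟩ : unitary A) ∈ F' ∧ (⟨_, h.Z_mem⟩ : unitary A) ∈ F' := by
  have hs := hw.adj hF.grp
  set X : unitary A := ⟨_, h.X_mem⟩ with hX
  set Z : unitary A := ⟨_, h.Z_mem⟩ with hZ
  have XX : X * X = 1 := Subtype.ext h.X_sq
  have ZZ : Z * Z = 1 := Subtype.ext h.Z_sq
  have ZXZ : Z * X * Z = -1 * X := by rw [neg_one_mul]; exact Subtype.ext h.ZXZ
  have gX : ∀ g ∈ F, g * X = X * g := fun g hg => Subtype.ext (hw.add hs g hg)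
  have gZ : ∀ g ∈ F, g * Z = Z * g := fun g hg => Subtype.ext ((hs.mul hw).sub (hw.mul hs) g hg)
  have cX : ∀ g ∈ F, X * g * X = g := fun g hg => by rw [← gX g hg, mul_assoc, XX, mul_one]
  have cZ : ∀ g ∈ F, Z * g * Z = g := fun g hg => by rw [← gZ g hg, mul_assoc, ZZ, mul_one]
  obtain ⟨F₁, g1, s1, x1, m1⟩ := hF.grp.ext XX fun g hg => by rwa [cX g hg]
  obtain ⟨F₂, g2, s2, x2, m2⟩ := g1.ext ZZ fun g hg => by
    rcases (m1 g).1 hg with a | a
    · rw [cZ g a]; exact hg
    · have e : Z * g * Z = Z * (g * X) * Z * (Z * X * Z) := by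
        simp only [mul_assoc, ← mul_assoc Z Z, ZZ, one_mul, ← mul_assoc X X, XX]
      rw [e, cZ _ a, ZXZ]
      exact g1.mul _ (s1 a) _ (g1.mul _ (s1 hF.neg) _ x1)
  have ext1 : ∀ (s g : unitary A) (a : A), s * s = 1 → s.1 * a = a * s.1 →
      (g * s).1 * a = a * (g * s).1 → g.1 * a = a * g.1 := fun s g a ss h1 h2 => by
    have e : g.1 = (g * s).1 * s.1 := by rw [← Submonoid.coe_mul, mul_assoc, ss, mul_one]
    rw [e, mul_assoc, h1, ← mul_assoc, h2, mul_assoc]
  have up : ∀ a, Cm F a → w * a = a * w → star w * a = a * star w → Cm F₂ a := fun a ha a1 a2 => by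
    have c1 : Commute w a := a1
    have c2 : Commute (star w) a := a2
    have aX : X.1 * a = a * X.1 := (c1.add_left c2).eq
    have aZ : Z.1 * a = a * Z.1 := ((c2.mul_left c1).sub_left (c1.mul_left c2)).eq
    have k : Cm F₁ a := fun g hg => ((m1 g).1 hg).elim (ha g) fun c => ext1 X g a XX aX (ha _ c)
    exact fun g hg => ((m2 g).1 hg).elim (k g) fun c => ext1 Z g a ZZ aZ (k _ c)
  have dn : ∀ a, Cm F₂ a → Cm F a ∧ w * a = a * w ∧ star w * a = a * star w := fun a ha => by
    have a1 := h.comm (ha X (s2 x1)) (ha Z x2)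
    have a2 : (w + star w) * a = a * (w + star w) := ha X (s2 x1)
    rw [add_mul, mul_add, a1] at a2
    exact ⟨fun g hg => ha g (s2 (s1 hg)), a1, add_left_cancel a2⟩
  have ph : ∀ b, Cm F b → Cor w b → Cm F₂ (Phi w b) := fun b hb hc =>
    up _ (hw.phi hF.grp hb) (hc.w_phi h) (hc.sw_phi h)
  refine ⟨F₂, ⟨g2, s2 (s1 hF.neg), fun z hz hc => ?_, fun g hg g3 g4 => ?_⟩, s1.trans s2, s2 x1, x2⟩
  · obtain ⟨z0, z1, z2⟩ := dn z hz
    refine hF.corner h hw z0 z1 z2 fun b hb hb' => ?_
    have c1 : Commute z (star w * w) := (Commute.mul_left (a := star w) z2 z1).symm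
    have c2 : Commute z (Phi w b) := hc _ (ph b hb hb')
    have := (c1.mul_right c2).eq
    rwa [h.cor_q.mul_phi h, hb'.l] at this
  · obtain ⟨g0, g5, g6⟩ := dn g hg
    have c1 : Commute (star w * w) g := Commute.mul_left (a := star w) g6 g5
    have c2 : Cor w (g * (star w * w)) :=
      ⟨by rw [← mul_assoc, c1.eq, mul_assoc, h.cor_q.l], by rw [mul_assoc, h.cor_q.l]⟩
    obtain ⟨v, v0, v1, v2, v3⟩ := hF.halv (g * (star w * w)) (g0.mul (hs.mul hw))
      (by rw [star_mul, g3, star_mul, star_star, c1.eq])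
      (by rw [mul_assoc, c2.l, ← mul_assoc, g4])
    have v4 : g * (star w * w) * v = v := by
      rw [← v3, add_mul, v1, mul_assoc, v2, mul_zero, zero_add]
    have v5 : v * (g * (star w * w)) = v := by
      rw [← v3, mul_add, ← mul_assoc, v1, ← mul_assoc, v2, zero_mul, add_zero]
    have cv : Cor w v := ⟨by rw [← v4, ← mul_assoc, c2.l], by rw [← v5, mul_assoc, c2.r]⟩
    refine ⟨Phi w v, ph v v0 cv, ?_, ?_, ?_⟩
    · rw [Phi_star, cv.phi_phi h cv.adj, (cv.mul cv.adj).phi_phi h cv, v1]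
    · rw [cv.phi_phi h cv, v2, Phi, mul_zero, zero_mul, add_zero]
    · rw [Phi_star, cv.phi_phi h cv.adj, cv.adj.phi_phi h cv]
      have : Phi w (star v * v) + Phi w (v * star v) = Phi w (star v * v + v * star v) := by
        simp only [Phi, mul_add, add_mul]; abel
      rw [this, v3, Phi, ← mul_assoc w, g5, mul_assoc g w, h.r3', mul_assoc g w, ← mul_add, h.sum,
        mul_one]

variable {E : Type*} [NormedAddCommGroup E] [InnerProductSpace ℂ E] {τ : A →ₗ[ℂ] ℂ}
  {Λ : A →ₗ[ℂ] E}

theorem pauli_est (ht : Tr τ Λ) (h : Hv w) (hF : Grp F) (hX : (⟨_, h.X_mem⟩ : unitary A) ∈ F)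
    (hZ : (⟨_, h.Z_mem⟩ : unitary A) ∈ F) (y : A) :
    ‖Λ (EF F y)‖ ^ 2 ≤ ‖Λ y‖ ^ 2 / 2 + (τ (star y * (star w * y * w))).re := by
  set X : unitary A := ⟨_, h.X_mem⟩ with hXd
  set Z : unitary A := ⟨_, h.Z_mem⟩ with hZd
  set y' := (2⁻¹ : ℂ) • (y + Z.1 * y * star Z.1) with hy'
  have n1 : ‖Λ y'‖ ≤ ‖Λ y‖ := by
    have := norm_add_le (Λ y) (Λ (Z.1 * y * star Z.1))
    rw [ht.norm_ur (Unitary.star_mem Z.2), ht.norm_ul Z.2] at this
    rw [hy', map_smul, map_add, norm_smul, norm_inv, Complex.norm_two]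
    linarith
  have e1 : y' = star w * w * y * (star w * w) + w * star w * y * (w * star w) := by
    have : y = (star w * w + w * star w) * y * (star w * w + w * star w) := by
      rw [h.sum, one_mul, mul_one]
    rw [hy']
    nth_rw 1 [this]
    simp only [hZd, star_sub, star_mul, star_star, mul_add, add_mul, mul_sub, sub_mul]
    module
  have e2 : X.1 * y' * star X.1 = w * y * star w + star w * y * w := by
    rw [e1]
    simp only [hXd, star_add, star_star, mul_add, add_mul, mul_assoc, h.r1, h.r2, h.r3, h.r4,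
      h.r3', h.r4', h.sq, h.sq', mul_zero, add_zero, zero_add]
  have e3 : ⟪Λ y', Λ (X.1 * y' * star X.1)⟫_ℂ =
      τ (star y * (w * y * star w)) + τ (star y * (star w * y * w)) := by
    rw [ht.inner, e2, e1]
    simp only [star_add, star_mul, star_star, mul_add, add_mul, mul_assoc, h.r1, h.r2, h.r3, h.r4,
      mul_zero, add_zero, zero_add, map_add]
    rw [ht.tr (star w), ht.tr w]
    simp only [mul_assoc]
    rw [ht.tr (star w), ht.tr w]
    simp only [mul_assoc, h.r3', h.r4']
  have e4 : (τ (star y * (w * y * star w))).re = (τ (star y * (star w * y * w))).re := by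
    have : τ (star y * (w * y * star w)) = conj (τ (star y * (star w * y * w))) := by
      rw [← ht.inner y (star w * y * w), inner_conj_symm, ht.inner, ← mul_assoc, ht.tr]
      simp only [star_mul, star_star, mul_assoc]
    rw [this, Complex.conj_re]
  have n2 := EF_norm ht hF ((2⁻¹ : ℂ) • (y' + X.1 * y' * star X.1))
  rw [EF_half hF hX, hy', EF_half hF hZ, ← hy', map_smul, map_add, norm_smul, norm_inv,
    Complex.norm_two] at n2
  have n3 := norm_add_sq (𝕜 := ℂ) (Λ y') (Λ (X.1 * y' * star X.1))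
  rw [e3, ht.norm_ur (Unitary.star_mem X.2), ht.norm_ul X.2, RCLike.re_to_complex, Complex.add_re,
    e4] at n3
  have n4 := pow_le_pow_left₀ (norm_nonneg _) n2 2
  have n5 := pow_le_pow_left₀ (norm_nonneg _) n1 2
  rw [mul_pow, n3] at n4
  linarith

end Vale.Agent.P096
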