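import Vale.Agent.P096.Coh

/-! Approximate solvability of the cocycle equation in degree two. -/

namespace Vale.Agent.P096

open Vale.Agent.P104 Vale.Agent.P082 Finset

universe u

section

variable {A : Type*} [Ring A]

theorem hoch1 (f : (Fin 1 → A) → A) (a : Fin 2 → A) :
    hochD f a = a 0 * f ![a 1] - f ![a 0 * a 1] + f ![a 0] * a 1 := by
  have e1 : (fun i : Fin 1 => a i.succ) = ![a 1] := by ext i; fin_cases i; rfl
  have e2 : (fun i : Fin 1 => a i.castSucc) = ![a 0] := by ext i; fin_cases i; rfl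
  have e3 : Fin.contractNth (0 : Fin 1).castSucc (· * ·) a = ![a 0 * a 1] := by
    ext i; fin_cases i; rfl
  rw [hochD, e1, e2, Fin.sum_univ_one, e3]
  simp [sub_eq_add_neg]

theorem hoch2 (f : (Fin 2 → A) → A) (a : Fin 3 → A) :
    hochD f a = a 0 * f ![a 1, a 2] - f ![a 0 * a 1, a 2] + f ![a 0, a 1 * a 2] -
      f ![a 0, a 1] * a 2 := by
  have e1 : (fun i : Fin 2 => a i.succ) = ![a 1, a 2] := by ext i; fin_cases i <;> rfl
  have e2 : (fun i : Fin 2 => a i.castSucc) = ![a 0, a 1] := by ext i; fin_cases i <;> rfl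
  have e3 : Fin.contractNth (0 : Fin 2).castSucc (· * ·) a = ![a 0 * a 1, a 2] := by
    ext i; fin_cases i <;> rfl
  have e4 : Fin.contractNth (1 : Fin 2).castSucc (· * ·) a = ![a 0, a 1 * a 2] := by
    ext i; fin_cases i <;> rfl
  rw [hochD, e1, e2, Fin.sum_univ_two, e3, e4, show Fin.last 2 = 2 from rfl]
  simp only [Fin.val_zero, Fin.val_one]
  noncomm_ring

theorem hoch3 (f : (Fin 3 → A) → A) (a : Fin 4 → A) :
    hochD f a = a 0 * f ![a 1, a 2, a 3] - f ![a 0 * a 1, a 2, a 3] + f ![a 0, a 1 * a 2, a 3] -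
      f ![a 0, a 1, a 2 * a 3] + f ![a 0, a 1, a 2] * a 3 := by
  have e1 : (fun i : Fin 3 => a i.succ) = ![a 1, a 2, a 3] := by ext i; fin_cases i <;> rfl
  have e2 : (fun i : Fin 3 => a i.castSucc) = ![a 0, a 1, a 2] := by ext i; fin_cases i <;> rfl
  have e3 : Fin.contractNth (0 : Fin 3).castSucc (· * ·) a = ![a 0 * a 1, a 2, a 3] := by
    ext i; fin_cases i <;> rfl
  have e4 : Fin.contractNth (1 : Fin 3).castSucc (· * ·) a = ![a 0, a 1 * a 2, a 3] := by
    ext i; fin_cases i <;> rfl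
  have e5 : Fin.contractNth (2 : Fin 3).castSucc (· * ·) a = ![a 0, a 1, a 2 * a 3] := by
    ext i; fin_cases i <;> rfl
  rw [hochD, e1, e2, Fin.sum_univ_three, e3, e4, e5, show Fin.last 3 = 3 from rfl]
  simp only [Fin.val_zero, Fin.val_one, Fin.val_two]
  noncomm_ring

end

/-- Every almost closed two-cochain is almost exact. -/
def Rig (A : Type*) [NormedRing A] [NormedAlgebra ℂ A] : Prop :=
  ∀ (μ : A →ₗ[ℂ] A →ₗ[ℂ] A) (s t : ℝ), 0 ≤ s → 0 ≤ t → (∀ a b, ‖μ a b‖ ≤ s * ‖a‖ * ‖b‖) →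
    (∀ a b c, ‖a * μ b c - μ (a * b) c + μ a (b * c) - μ a b * c‖ ≤ t * ‖a‖ * ‖b‖ * ‖c‖) →
    ∃ g : A →ₗ[ℂ] A, (∀ a, ‖g a‖ ≤ 4 * (s + 5 * t) * ‖a‖) ∧
      ∀ a b, ‖μ a b - (a * g b - g (a * b) + g a * b)‖ ≤ 5 * t * ‖a‖ * ‖b‖

theorem rig {K : Type u} [NormedAddCommGroup K] [InnerProductSpace ℂ K] [CompleteSpace K]
    (M : VonNeumannAlgebra K) : Rig (Alg M) := by
  intro μ s t s0 t0 hs ht
  let m₀ : MultilinearMap ℂ (fun _ : Fin 2 => Alg M) (Alg M) :=
    MultilinearMap.mk' (fun x => μ (x 0) (x 1)) (fun x i a b => by fin_cases i <;> simp)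
      fun x i c a => by fin_cases i <;> simp
  have hm : ∀ x, ‖m₀ x‖ ≤ s * ∏ i, ‖x i‖ := fun x => by
    rw [Fin.prod_univ_two, ← mul_assoc]; exact hs _ _
  let f₀ : MultilinearMap ℂ (fun _ : Fin 3 => Alg M) (Alg M) :=
    MultilinearMap.mk' (fun x => x 0 * μ (x 1) (x 2) - μ (x 0 * x 1) (x 2) + μ (x 0) (x 1 * x 2) -
        μ (x 0) (x 1) * x 2) (fun x i a b => by fin_cases i <;> simp [mul_add, add_mul] <;> abel)
      fun x i c a => by fin_cases i <;> simp [smul_sub]
  have hf : ∀ x, ‖f₀ x‖ ≤ t * ∏ i, ‖x i‖ := fun x => by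
    rw [Fin.prod_univ_three, ← mul_assoc, ← mul_assoc]; exact ht _ _ _
  obtain ⟨ν, n1, n2⟩ := vanishQ M 2 (f₀.mkContinuous t hf) fun a => by
    rw [hoch3]
    simp only [MultilinearMap.coe_mkContinuous, f₀, MultilinearMap.mk'_apply, Matrix.cons_val_zero,
      Matrix.cons_val_one, Matrix.cons_val, mul_assoc, mul_add, mul_sub, add_mul, sub_mul]
    abel
  have n3 : ‖ν‖ ≤ 5 * t := n1.trans (by
    have := f₀.mkContinuous_norm_le t0 hf
    push_cast
    linarith)
  obtain ⟨g, g1, g2⟩ := vanishQ M 1 (m₀.mkContinuous s hm - ν) fun a => by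
    have := n2 a
    rw [hoch2] at this ⊢
    simp only [MultilinearMap.coe_mkContinuous, f₀, m₀, MultilinearMap.mk'_apply,
      Matrix.cons_val_zero, Matrix.cons_val_one, sub_apply, mul_sub,
      sub_mul] at this ⊢
    linear_combination (norm := abel) this
  have g3 : ‖g‖ ≤ 4 * (s + 5 * t) := g1.trans (by
    have := m₀.mkContinuous_norm_le s0 hm
    have := norm_sub_le (m₀.mkContinuous s hm) ν
    push_cast
    linarith)
  refine ⟨((continuousMultilinearCurryFin1 ℂ (Alg M) (Alg M)) g).toLinearMap, fun a => ?_, fun a b => ?_⟩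
  · refine (((continuousMultilinearCurryFin1 ℂ (Alg M) (Alg M)) g).le_opNorm a).trans ?_
    rw [LinearIsometryEquiv.norm_map]
    gcongr
  · have e : ∀ a, ((continuousMultilinearCurryFin1 ℂ (Alg M) (Alg M)) g).toLinearMap a = g ![a] := fun a => by
      change g _ = _
      congr 1
      ext i; fin_cases i; rfl
    have := g2 ![a, b]
    rw [hoch1] at this
    simp only [MultilinearMap.coe_mkContinuous, m₀, MultilinearMap.mk'_apply,
      Matrix.cons_val_zero, Matrix.cons_val_one, sub_apply] at this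
    rw [e, e, e, ← this, sub_sub_cancel]
    refine (ν.le_opNorm _).trans ?_
    rw [Fin.prod_univ_two, ← mul_assoc]
    simp only [Matrix.cons_val_zero, Matrix.cons_val_one]
    gcongr

end Vale.Agent.P096
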