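import Vale.Agent.P096.Stm3

/-! The algebra of one site. -/

namespace Vale.Agent.P096.Sit

open scoped InnerProductSpace ComplexOrder
open Vale.Agent.P104 Vale.Agent.P082

universe u

variable {K : Type u} [NormedAddCommGroup K] [InnerProductSpace ℂ K] [CompleteSpace K]

/-- Two qubits. -/
structure Q4 (x y z w : K →L[ℂ] K) : Prop where
  sx : star x = x
  sy : star y = y
  sz : star z = z
  sw : star w = w
  xx : ∀ v, x (x v) = v
  yy : ∀ v, y (y v) = v
  zz : ∀ v, z (z v) = v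
  ww : ∀ v, w (w v) = v
  zx : ∀ v, z (x v) = -x (z v)
  wy : ∀ v, w (y v) = -y (w v)
  yx : ∀ v, y (x v) = x (y v)
  zy : ∀ v, z (y v) = y (z v)
  wx : ∀ v, w (x v) = x (w v)
  wz : ∀ v, w (z v) = z (w v)

/-- Conjugation by the rotation. -/
noncomputable def rot (α β : ℝ) (x y z t : K →L[ℂ] K) : K →L[ℂ] K :=
  ((α : ℂ) • 1 - (β : ℂ) • (x * y * z)) * t * ((α : ℂ) • 1 + (β : ℂ) • (x * y * z))

/-- The left matrix unit. -/
noncomputable def ee (x z : K →L[ℂ] K) : K →L[ℂ] K := (2⁻¹ : ℂ) • (x + x * z)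

variable {x y z w t t' T : K →L[ℂ] K} {α β c : ℝ}

omit [CompleteSpace K] in
theorem rot_comm (hx : Commute T x) (hy : Commute T y) (hz : Commute T z) (ht : Commute T t) :
    Commute T (rot α β x y z t) :=
  have h := ((hx.mul_right hy).mul_right hz).smul_right (β : ℂ)
  have h1 := (Commute.one_right T).smul_right (α : ℂ)
  ((h1.sub_right h).mul_right ht).mul_right (h1.add_right h)

omit [CompleteSpace K] in
theorem ee_comm (hx : Commute T x) (hz : Commute T z) : Commute T (ee x z) :=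
  (hx.add_right (hx.mul_right hz)).smul_right _

theorem ee_star (hx : star x = x) (hz : star z = z) (h : ∀ v, z (x v) = -x (z v)) :
    star (ee x z) = ee x (-z) := by
  ext v
  simp [ee, hx, hz, h]

theorem ee_hv (hx : star x = x) (hz : star z = z) (h : ∀ v, z (x v) = -x (z v))
    (xx : ∀ v, x (x v) = v) (zz : ∀ v, z (z v) = v) : Hv (ee x z) := by
  constructor <;> (try rw [ee_star hx hz h]) <;> ext v <;> simp [ee, h, xx, zz] <;> module

namespace Q4

variable (h : Q4 x y z w)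

include h

theorem rot_star : star (rot α β x y z t) = rot α β x y z (star t) := by
  have e : star (x * y * z) = -(x * y * z) := by
    ext v
    simp [h.sx, h.sy, h.sz, h.zx, h.zy, h.yx]
  simp only [rot, star_mul _ (_ + _), star_mul (_ - _), star_add, star_sub, star_smul, e, star_one,
    RCLike.star_def, Complex.conj_ofReal, smul_neg, sub_neg_eq_add, ← sub_eq_add_neg, mul_assoc (_ - _)]

theorem uu (a1 : α ^ 2 + β ^ 2 = 1) (v : K) :
    ((α : ℂ) • 1 + (β : ℂ) • (x * y * z)) (((α : ℂ) • 1 - (β : ℂ) • (x * y * z) : K →L[ℂ] K) v) = v ∧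
    ((α : ℂ) • 1 - (β : ℂ) • (x * y * z)) (((α : ℂ) • 1 + (β : ℂ) • (x * y * z) : K →L[ℂ] K) v) = v := by
  have a2 : (α : ℂ) ^ 2 + β ^ 2 = 1 := by exact_mod_cast a1
  constructor <;> simp [h.zx, h.zy, h.yx, h.xx, h.yy, h.zz] <;>
    linear_combination (norm := module) a2 • v

theorem rot_mul (a1 : α ^ 2 + β ^ 2 = 1) :
    rot α β x y z t * rot α β x y z t' = rot α β x y z (t * t') := by
  ext v
  simp only [rot, mul_apply_eq_comp, (h.uu a1 _).1]

theorem rot_hv (a1 : α ^ 2 + β ^ 2 = 1) (ht : Hv t) : Hv (rot α β x y z t) := by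
  refine ⟨?_, ?_, ?_⟩ <;> simp only [h.rot_star, h.rot_mul a1, ht.iso, ht.sq]
  · simp [rot]
  · ext v
    rw [rot, rot, ← add_mul, ← mul_add, ht.sum, mul_one]
    exact (h.uu a1 v).2

theorem rot_cm (a1 : α ^ 2 + β ^ 2 = 1) (ht : Commute t t') :
    Commute (rot α β x y z t) (rot α β x y z t') := by
  rw [Commute, SemiconjBy, h.rot_mul a1, h.rot_mul a1, ht.eq]

theorem vac1 (b : β = c * α) {v : K} (v1 : z v = v) (v2 : w v = v) :
    rot α β x y z (ee y (-w)) v = (c : ℂ) • rot α β x y z (ee x z) v ∧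
      rot α β x y z (ee x (-z)) v = (c : ℂ) • rot α β x y z (ee y w) v := by
  subst b
  constructor <;> simp [rot, ee, h.zx, h.zy, h.yx, h.xx, h.yy, h.wx, h.wy, v1, v2] <;>
    module

theorem vac2 (a1 : α ^ 2 + β ^ 2 = 1) (a0 : α ≠ 0) (b : β = c * α) {v : K}
    (v1 : rot α β x y z (ee y (-w)) v = (c : ℂ) • rot α β x y z (ee x z) v)
    (v2 : rot α β x y z (ee x (-z)) v = (c : ℂ) • rot α β x y z (ee y w) v) :
    z v = v ∧ w v = v := by
  obtain ⟨U, hU⟩ : ∃ U, U = (α : ℂ) • 1 + (β : ℂ) • (x * y * z) := ⟨_, rfl⟩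
  obtain ⟨u, hu⟩ : ∃ u, u = U v := ⟨_, rfl⟩
  have w1 := congrArg U v1
  have w2 := congrArg U v2
  simp only [rot, mul_apply_eq_comp, map_smul, hU, (h.uu a1 _).1] at w1 w2
  rw [← hU, ← hu] at w1 w2
  simp only [ee, smul_apply, add_apply, mul_apply_eq_comp, neg_apply, map_neg] at w1 w2
  have p1 := congrArg (fun t => y (t + z t)) w1
  have p2 := congrArg (fun t => x (t + w t)) w2
  have p3 := congrArg y w1
  simp [h.zx, h.zy, h.yx, h.xx, h.yy, h.zz, h.wx, h.wy, h.wz, h.ww] at p1 p2 p3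
  have q : w u = z u := by
    linear_combination (norm := module) p2 - p1
  have e : U ((2⁻¹ : ℂ) • (u + z u)) = U ((α : ℂ) • v) := by
    rw [map_smul U (α : ℂ), ← hu, hU, b]
    simp [h.zz]
    linear_combination (norm := module) (-(α : ℂ)) • p3 - ((α : ℂ) / 2) • q
  have e2 := congrArg ((α : ℂ) • 1 - (β : ℂ) • (x * y * z) : K →L[ℂ] K) e
  rw [hU, (h.uu a1 _).2, (h.uu a1 _).2] at e2
  have a2 : (α : ℂ) ≠ 0 := by exact_mod_cast a0
  constructor <;> refine smul_right_injective _ a2 ?_ <;> beta_reduce <;>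
    rw [← map_smul, ← e2, map_smul, map_add]
  · rw [h.zz, add_comm]
  · rw [← q, h.ww, add_comm]

theorem span (a1 : α ^ 2 + β ^ 2 = 1) (a0 : α ≠ 0) (b0 : β ≠ 0) {v : K} (v1 : z v = v)
    {S : Submodule ℂ K} (hv : v ∈ S) (s1 : ∀ u ∈ S, rot α β x y z (ee x z) u ∈ S)
    (s2 : ∀ u ∈ S, rot α β x y z (ee x (-z)) u ∈ S) : x v ∈ S ∧ y v ∈ S ∧ x (y v) ∈ S := by
  have a2 : (α : ℂ) ^ 2 + β ^ 2 = 1 := by exact_mod_cast a1
  have a3 : (α : ℂ) * β ≠ 0 := by exact_mod_cast mul_ne_zero a0 b0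
  have m1 := s1 v hv
  have m2 := s2 v hv
  have m3 := s2 _ m1
  rw [← mul_apply_eq_comp, h.rot_mul a1] at m3
  have e1 : rot α β x y z (ee x z) v = (α : ℂ) ^ 2 • x v + ((α : ℂ) * β) • y v := by
    simp [rot, ee, h.zx, h.zy, h.yx, h.xx, h.yy, v1]
    module
  have e2 : rot α β x y z (ee x (-z)) v = ((α : ℂ) * β) • y v - (β : ℂ) ^ 2 • x v := by
    simp [rot, ee, h.zx, h.zy, h.yx, h.xx, h.yy, v1]
    module
  have e3 : rot α β x y z (ee x (-z) * ee x z) v = (α : ℂ) ^ 2 • v - ((α : ℂ) * β) • x (y v) := by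
    simp [rot, ee, h.zx, h.zy, h.yx, h.xx, h.yy, v1]
    module
  have m4 : x v ∈ S := by
    convert sub_mem m1 m2 using 1
    rw [e1, e2]
    linear_combination (norm := module) (-1 : ℂ) • a2 • x v
  refine ⟨m4, (S.smul_mem_iff a3).1 ?_, (S.smul_mem_iff a3).1 ?_⟩
  · convert sub_mem m1 (S.smul_mem ((α : ℂ) ^ 2) m4) using 1
    rw [e1, add_sub_cancel_left]
  · convert sub_mem (S.smul_mem ((α : ℂ) ^ 2) hv) m3 using 1
    rw [e3, sub_sub_cancel]

end Q4

end Vale.Agent.P096.Sit
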