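import Vale.Agent.P096.Bil

/-! One step of the iteration. -/

namespace Vale.Agent.P096

open scoped InnerProductSpace ComplexOrder BigOperators
open Filter Topology Vale.Agent.P104 Vale.Agent.P082 Finset

universe u

theorem exists_extend₂ {X E : Type*} [AddCommGroup X] [Module ℂ X] [NormedAddCommGroup E]
    [InnerProductSpace ℂ E] [CompleteSpace E] (j D : X →ₗ[ℂ] E) {c : ℝ} (c0 : 0 ≤ c)
    (h : ∀ x, ‖D x‖ ≤ c * ‖j x‖) : ∃ S : E →L[ℂ] E, ‖S‖ ≤ c ∧ (∀ x, S (j x) = D x) ∧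
      ∀ T : E →L[ℂ] E, (∀ x, ∃ x', T (j x) = j x' ∧ T (D x) = D x') →
        (∀ x, ∃ x', star T (j x) = j x') → S * T = T * S := by
  let U : Submodule ℂ E := j.range.topologicalClosure
  have hU : ∀ x, j x ∈ U := fun x => Submodule.le_topologicalClosure _ (LinearMap.mem_range_self _ x)
  let j' : X →ₗ[ℂ] U := j.codRestrict U hU
  have hd : DenseRange j' := by
    rw [DenseRange, Subtype.dense_iff]
    intro z hz
    refine closure_mono ?_ hz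
    rintro _ ⟨x, rfl⟩
    exact ⟨j' x, ⟨x, rfl⟩, rfl⟩
  let S : E →L[ℂ] E := D.extendOfNorm j' ∘L U.orthogonalProjectionOnto
  have s1 : ∀ x, S (j x) = D x := fun x => by
    change D.extendOfNorm j' (U.orthogonalProjectionOnto (j' x : E)) = _
    rw [Submodule.orthogonalProjectionOnto_mem_subspace_eq_self]
    exact LinearMap.extendOfNorm_eq hd ⟨c, h⟩ x
  have s2 : ∀ η, (∀ x, ⟪j x, η⟫_ℂ = 0) → S η = 0 := fun η hη => by
    change D.extendOfNorm j' (U.orthogonalProjectionOnto η) = _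
    rw [Submodule.orthogonalProjectionOnto_apply_of_mem_orthogonal, map_zero]
    rw [Submodule.orthogonal_closure]
    rintro _ ⟨x, rfl⟩
    exact hη x
  refine ⟨S, ContinuousLinearMap.opNorm_le_bound _ c0 fun η =>
    (LinearMap.norm_extendOfNorm_apply_le hd c h _).trans (mul_le_mul_of_nonneg_left
      (U.norm_orthogonalProjectionOnto_apply_le η) c0), s1, fun T h1 h2 => ?_⟩
  ext η
  obtain ⟨a, ha, b, hb, rfl⟩ := U.exists_add_mem_mem_orthogonal η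
  have e1 : (S * T) a = (T * S) a := by
    refine (isClosed_eq (S * T).continuous (T * S).continuous).closure_subset_iff.2 ?_ ha
    rintro _ ⟨x, rfl⟩
    obtain ⟨x', e1, e2⟩ := h1 x
    change S (T (j x)) = T (S (j x))
    rw [e1, s1, s1, e2]
  have e2 : ∀ x, ⟪j x, b⟫_ℂ = 0 := fun x => hb _ (hU x)
  rw [map_add, map_add, e1, mul_apply_eq_comp S T b, mul_apply_eq_comp T S b, s2 b e2, map_zero,
    s2 _ fun x => by
      obtain ⟨x', hx⟩ := h2 x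
      rw [← inner_star_left, hx, e2]]

variable {A B E Γ : Type u} [CStarAlgebra A] [CStarAlgebra B] [NormedAddCommGroup E]
  [InnerProductSpace ℂ E] [CompleteSpace E] [Group Γ] {ρ : A →⋆ₐ[ℂ] (E →L[ℂ] E)}
  {L : B →⋆ₐ[ℂ] (E →L[ℂ] E)} {R : B →ₗ[ℂ] (E →L[ℂ] E)} {ξ : E}
  {γ γ' ε w : ℝ} {G : ℕ → Finset Γ} {ι : Γ →* B} {σ : Γ →* A} {W : (E →L[ℂ] E)ˣ}

theorem Std.exists_un (h : Std ρ L R ξ G ι σ γ) : ∃ (p p' : A) (v : B), Un p p' v ∧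
    (∀ π : A →ₐ[ℂ] (E →L[ℂ] E), (∀ g, Cmn π L R (σ g) (ι g)) →
      Cmn π L R p v ∧ Cmn π L R p' (star v)) ∧
    ∀ β : A →ₗ[ℂ] E, (∀ g, Bm L R β (σ g) (ι g)) → Bm L R β p v ∧ Bm L R β p' (star v) := by
  obtain ⟨v, X, Z, h1, h2, h3, h4⟩ := h.pauli
  have k := h.toStdB
  have m : MUn v (star v) := ⟨h1, h2, by rw [← star_mul, h2, star_zero]⟩
  have e1 : ι X * ((2⁻¹ : ℂ) • ι 1 + (2⁻¹ : ℂ) • ι Z) = v := by
    rw [h3, h4, map_one, ← h1, ← smul_add, add_add_sub_cancel, ← two_smul ℂ, smul_smul,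
      inv_mul_cancel₀ two_ne_zero, one_smul, add_mul, m.vwv, m.ww', add_zero]
  have e2 : ι X * ((2⁻¹ : ℂ) • ι 1 + (-2⁻¹ : ℂ) • ι Z) = star v := by
    rw [h3, h4, map_one, ← h1, neg_smul, ← sub_eq_add_neg, ← smul_sub,
      show star v * v + v * star v - (star v * v - v * star v) = v * star v + v * star v by abel,
      ← two_smul ℂ, smul_smul, inv_mul_cancel₀ two_ne_zero, one_smul, add_mul, m.wvw, m.vv',
      zero_add]
  have c : ∀ π : A →ₐ[ℂ] (E →L[ℂ] E), (∀ g, Cmn π L R (σ g) (ι g)) →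
      Cmn π L R (σ X * ((2⁻¹ : ℂ) • σ 1 + (2⁻¹ : ℂ) • σ Z)) v ∧
      Cmn π L R (σ X * ((2⁻¹ : ℂ) • σ 1 + (-2⁻¹ : ℂ) • σ Z)) (star v) := fun π hπ =>
    ⟨e1 ▸ (hπ X).mul k (((hπ 1).smul _).add ((hπ Z).smul _)),
      e2 ▸ (hπ X).mul k (((hπ 1).smul _).add ((hπ Z).smul _))⟩
  obtain ⟨c1, c2⟩ := c ρ fun g => ⟨h.eq g, fun x η => DFunLike.congr_fun (h.comm g x) η⟩
  have inj : ∀ a b, ρ a = ρ b → a = b := fun a b e => by
    rw [← sub_eq_zero, ← norm_eq_zero, ← h.ρiso, map_sub, e, sub_self, norm_zero]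
  have n3 : ‖v‖ ≤ 1 := by
    have := IsStarProjection.norm_le _ (⟨show star v * v * (star v * v) = _ by
      rw [mul_assoc, m.vwv], IsSelfAdjoint.star_mul_self v⟩ : IsStarProjection (star v * v))
    rw [CStarRing.norm_star_mul_self] at this
    nlinarith [norm_nonneg v]
  have d1 : ρ _ = L v := c1.eq
  have d2 : ρ _ = L (star v) := c2.eq
  refine ⟨_, _, v, ⟨⟨inj _ _ ?_, inj _ _ ?_, inj _ _ ?_⟩, m, ?_, ?_, n3⟩, c, fun β hβ =>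
    ⟨e1 ▸ (hβ X).mul k (((hβ 1).smul _).add ((hβ Z).smul _)),
      e2 ▸ (hβ X).mul k (((hβ 1).smul _).add ((hβ Z).smul _))⟩⟩
  · rw [map_add ρ, map_mul ρ _ (σ X * _), map_mul ρ _ (σ X * _), d1, d2, ← map_mul, ← map_mul,
      ← map_add, h1, map_one, map_one]
  · rw [map_mul ρ _ (σ X * _), d1, ← map_mul, m.vv, map_zero, map_zero]
  · rw [map_mul ρ _ (σ X * _), d2, ← map_mul, m.ww, map_zero, map_zero]
  · rw [← h.ρiso, d1, h.Liso]; exact n3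
  · rw [← h.ρiso, d2, h.Liso, norm_star]; exact n3

/-- Conjugation of a representation by an invertible operator. -/
noncomputable def cj (W : (E →L[ℂ] E)ˣ) (π : A →ₐ[ℂ] (E →L[ℂ] E)) : A →ₐ[ℂ] (E →L[ℂ] E) :=
  AlgHom.ofLinearMap
    { toFun := fun a => W * π a * ↑W⁻¹
      map_add' := fun a b => by rw [map_add, mul_add, add_mul]
      map_smul' := fun c a => by simp }
    (by simp) fun a b => by simp [mul_assoc]

omit [CompleteSpace E] in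
theorem cj_apply (π : A →ₐ[ℂ] (E →L[ℂ] E)) (a : A) : cj W π a = W * π a * ↑W⁻¹ := rfl

omit [CompleteSpace E] in
theorem cj_near (h1 : ‖(W : E →L[ℂ] E) - 1‖ ≤ w) (h2 : ‖(↑W⁻¹ : E →L[ℂ] E) - 1‖ ≤ w)
    (hw : w ≤ 1) (T : E →L[ℂ] E) : ‖W * T * ↑W⁻¹ - T‖ ≤ 3 * w * ‖T‖ := by
  have w0 := (norm_nonneg _).trans h1
  have a1 := nrm3 h1 (le_refl ‖T‖) h2
  have a2 := (norm_mul_le _ T).trans (mul_le_mul_of_nonneg_right h1 (norm_nonneg T))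
  have a3 := (norm_mul_le T _).trans (mul_le_mul_of_nonneg_left h2 (norm_nonneg T))
  rw [show W * T * ↑W⁻¹ - T = ((W : E →L[ℂ] E) - 1) * T * (↑W⁻¹ - 1) + (W - 1) * T +
    T * (↑W⁻¹ - 1) by noncomm_ring]
  refine norm_add₃_le.trans ?_
  nlinarith [mul_nonneg w0 (norm_nonneg T)]

/-- The state of the iteration. -/
structure Stt (ρ : A →⋆ₐ[ℂ] (E →L[ℂ] E)) (L : B →⋆ₐ[ℂ] (E →L[ℂ] E)) (R : B →ₗ[ℂ] (E →L[ℂ] E))
    (ξ : E) (ι : Γ →* B) (W : (E →L[ℂ] E)ˣ) (w ε : ℝ) : Prop where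
  n1 : ‖(W : E →L[ℂ] E) - 1‖ ≤ w
  n2 : ‖(↑W⁻¹ : E →L[ℂ] E) - 1‖ ≤ w
  cL : ∀ g, Commute (W : E →L[ℂ] E) (L (ι g))
  cR : ∀ g, Commute (W : E →L[ℂ] E) (R (ι g))
  fix : (W : E →L[ℂ] E) ξ = ξ
  F : ∀ a b, ‖Fm (cj W (ρ : A →ₐ[ℂ] (E →L[ℂ] E))) R ξ a b‖ ≤ ε * ‖a‖ * ‖b‖

omit [CompleteSpace E] in
theorem inv_fix (h : (W : E →L[ℂ] E) ξ = ξ) : (↑W⁻¹ : E →L[ℂ] E) ξ = ξ := by
  conv_lhs => rw [← h, ← mul_apply_eq_comp, W.inv_mul, one_apply_eq_self]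

theorem Cmn.cj {π : A →ₐ[ℂ] (E →L[ℂ] E)} {p : A} {q : B} (c : Cmn π L R p q)
    (h1 : Commute (W : E →L[ℂ] E) (L q)) (h2 : Commute (W : E →L[ℂ] E) (R q)) :
    Cmn (cj W π) L R p q := by
  refine ⟨by rw [cj_apply, c.eq, h1.eq, W.mul_inv_cancel_right], fun x η => ?_⟩
  have e : π x * R q = R q * π x := ContinuousLinearMap.ext (c.comm x)
  rw [← mul_apply_eq_comp, ← mul_apply_eq_comp, cj_apply, mul_assoc, h2.units_inv_left.eq,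
    ← mul_assoc, mul_assoc _ (π x), e, ← mul_assoc, h2.eq, mul_assoc, mul_assoc, mul_assoc]

theorem Std.cm (h : Std ρ L R ξ G ι σ γ) (g : Γ) : Cmn ρ L R (σ g) (ι g) :=
  ⟨h.eq g, fun x η => DFunLike.congr_fun (h.comm g x) η⟩

theorem norm_le_two {W : E →L[ℂ] E} (h : ‖W - 1‖ ≤ 1) (η : E) : ‖W η‖ ≤ 2 * ‖η‖ := by
  have := (W - 1).le_of_opNorm_le h η
  rw [sub_apply, one_apply_eq_self] at this
  linarith [norm_sub_norm_le (W η) η]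

theorem Stt.pos (h : Std ρ L R ξ G ι σ γ) (s : Stt ρ L R ξ ι W w ε) (g0 : 0 < γ') (e0 : 0 < ε)
    (g1 : γ' ≤ 1 / 1000) (hg : γ + 3 * w ≤ γ') (γ0 : 0 ≤ γ) : Pos (cj W (ρ : A →ₐ[ℂ] (E →L[ℂ] E))) L R ξ γ' ε := by
  have w0 := (norm_nonneg _).trans s.n1
  have a : ∀ a, ‖cj W (ρ : A →ₐ[ℂ] (E →L[ℂ] E)) a - ρ a‖ ≤ 3 * w * ‖a‖ := fun a => by
    rw [← h.ρiso]
    exact cj_near s.n1 s.n2 (by linarith) _
  have b : ∀ a b, ‖cj W (ρ : A →ₐ[ℂ] (E →L[ℂ] E)) a - L b‖ ≤ 3 * w * ‖a‖ + ‖ρ a - L b‖ := fun x y => by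
    have := norm_add_le (cj W (ρ : A →ₐ[ℂ] (E →L[ℂ] E)) x - ρ x) (ρ x - L y)
    rw [sub_add_sub_cancel] at this
    linarith [a x]
  refine ⟨h.toStdB, g0, e0, g1, fun x => ?_, fun x => ?_, fun x => ?_, fun y => ?_, s.F⟩
  · have := norm_sub_norm_le (cj W (ρ : A →ₐ[ℂ] (E →L[ℂ] E)) x) (ρ x)
    rw [h.ρiso] at this
    nlinarith [a x, norm_nonneg x]
  · have := norm_sub_norm_le (ρ x) (cj W (ρ : A →ₐ[ℂ] (E →L[ℂ] E)) x)
    rw [h.ρiso, norm_sub_rev] at this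
    nlinarith [a x, norm_nonneg x]
  · obtain ⟨y, h1, h2⟩ := h.nearA x
    exact ⟨y, h1, by nlinarith [b x y, norm_nonneg x]⟩
  · obtain ⟨x, h1, h2⟩ := h.nearB y
    exact ⟨x, h1, by nlinarith [b x y, norm_nonneg y, mul_le_mul_of_nonneg_left h1 w0]⟩

theorem Std.ν_star (h : Std ρ L R ξ G ι σ γ) (a : A) : ‖ρ (star a) ξ‖ = ‖ρ a ξ‖ := by
  rw [← sq_eq_sq₀ (norm_nonneg _) (norm_nonneg _), norm_sq_apply, norm_sq_apply, ← map_star,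
    ← map_star, ← map_mul, ← map_mul, star_star, h.tr]

theorem Std.ν_le (h : Std ρ L R ξ G ι σ γ) (a x a' : A) :
    ‖ρ (a * x * a') ξ‖ ≤ ‖a‖ * ‖a'‖ * ‖ρ x ξ‖ := by
  have k : ∀ a x, ‖ρ (a * x) ξ‖ ≤ ‖a‖ * ‖ρ x ξ‖ := fun a x => by
    rw [map_mul, mul_apply_eq_comp]
    exact (ρ a).le_of_opNorm_le (h.ρiso a).le _
  rw [mul_assoc, mul_assoc]
  refine (k _ _).trans (mul_le_mul_of_nonneg_left ?_ (norm_nonneg _))
  rw [← h.ν_star, star_mul, ← h.ν_star x, ← norm_star a']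
  exact k _ _

theorem Stt.step (hG : GrothStmt.{u}) (h : Std ρ L R ξ G ι σ γ) (s : Stt ρ L R ξ ι W w ε)
    (e0 : 0 < ε) (e1 : ε ≤ γ') (g1 : 10 ^ 25 * γ' ≤ 1) (hg : γ + 3 * w ≤ γ') (γ0 : 0 ≤ γ) :
    ∃ T : (E →L[ℂ] E)ˣ, ‖(T : E →L[ℂ] E) - 1‖ ≤ 4000000 * ε ∧
      ‖(↑T⁻¹ : E →L[ℂ] E) - 1‖ ≤ 4000000 * ε ∧ (∀ g, Commute (T : E →L[ℂ] E) (L (ι g))) ∧
      (∀ g, Commute (T : E →L[ℂ] E) (R (ι g))) ∧ (T : E →L[ℂ] E) ξ = ξ ∧
      ∀ a b, ‖Fm (cj T (cj W (ρ : A →ₐ[ℂ] (E →L[ℂ] E)))) R ξ a b‖ ≤ ε / 2 * ‖a‖ * ‖b‖ := by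
  have g0 : 0 < γ' := e0.trans_le e1
  have w0 := (norm_nonneg _).trans s.n1
  have P := s.pos h g0 e0 (by linarith) hg γ0
  have k := h.toStdB
  obtain ⟨π, hπ⟩ : ∃ π, π = cj W (ρ : A →ₐ[ℂ] (E →L[ℂ] E)) := ⟨_, rfl⟩
  rw [← hπ] at P ⊢
  have hc : ∀ g, Cmn π L R (σ g) (ι g) := fun g => hπ ▸ (h.cm g).cj (s.cL g) (s.cR g)
  have Gr : GrpD π L R G ι σ := ⟨h.lf, h.ι_star, h.σ_star, hc⟩
  have ψ1 : ∀ x, π x ξ = (W : E →L[ℂ] E) (ρ x ξ) := fun x => by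
    rw [hπ, cj_apply, mul_apply_eq_comp, mul_apply_eq_comp, inv_fix s.fix]; rfl
  have ψ2 : ∀ x, ‖π x ξ‖ ≤ 2 * ‖ρ x ξ‖ := fun x => ψ1 x ▸ norm_le_two (s.n1.trans (by linarith)) _
  have ψ3 : ∀ x, ‖ρ x ξ‖ ≤ 2 * ‖π x ξ‖ := fun x => by
    have := norm_le_two (s.n2.trans (by linarith)) (π x ξ)
    rwa [ψ1, ← mul_apply_eq_comp, W.inv_mul, one_apply_eq_self, ← ψ1] at this
  obtain ⟨α₀, β₀, ζ₀, s0⟩ := P.sol_all (ν := fun x => ‖ρ x ξ‖) (t := 40000)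
    (fun a x a' => (ψ2 _).trans (by linarith [h.ν_le a x a'])) fun x => norm_nonneg _
  obtain ⟨α, β, ζ, s1, hb⟩ := P.sol_bim Gr (fun a b x => (h.ν_le _ _ _).trans
    (mul_le_of_le_one_left (norm_nonneg _) (mul_le_one₀ (Gr.σ1 a) (norm_nonneg _) (Gr.σ1 b)))) s0
  obtain ⟨p, p', v, hu, u1, u2⟩ := h.exists_un
  let ψ : A →ₗ[ℂ] E := evalAt π ξ
  have hψ : ∀ x, ψ x = π x ξ := fun _ => rfl
  have bψ : ∀ g, Bm L R ψ (σ g) (ι g) := fun g =>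
    ⟨fun x => by rw [hψ, hψ, ← ππ, (hc g).eq], fun x => by
      rw [hψ, hψ, ← ππ, (hc g).eq, k.cen, (hc g).comm]⟩
  have iso : ∀ a b η, ‖L (ι a) (R (ι b) η)‖ = ‖η‖ := fun a b η =>
    le_antisymm (k.LRle (Gr.ι1 _) (Gr.ι1 _) _) (by
      have := k.LRle (Gr.ι1 a⁻¹) (Gr.ι1 b⁻¹) (L (ι a) (R (ι b) η))
      rwa [← k.LRa, k.RR, LL, ← map_mul, ← map_mul, inv_mul_cancel, mul_inv_cancel, map_one, L1,
        k.R1] at this)
  have D1 := hG A B E Γ ρ L R ξ G ι σ γ h (β - ψ) (200000 * ε) 4002 (by positivity) s1.nβ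
    (fun a => (norm_sub_le _ _).trans (by
      have a1 : ‖β a‖ ≤ 4000 * ‖ρ a ξ‖ := s1.l2 a
      have a2 : ‖ψ a‖ ≤ 2 * ‖ρ a ξ‖ := ψ2 a
      linarith))
    fun a b x => by
      rw [LinearMap.sub_apply, LinearMap.sub_apply, (hb b).2.r, (hb a).2.l, (bψ b).r, (bψ a).l,
        ← map_sub, ← map_sub, ← k.LRa, iso]
  obtain ⟨c, c1⟩ : ∃ c : ℂ, β 1 = c • ξ := ⟨_, sub_eq_zero.1 (norm_le_zero_iff.1
    (le_of_forall_pos_le_add fun δ hδ => by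
      obtain ⟨n, hn⟩ := h.erg (β 1) δ hδ
      rw [av_congr₂ (f' := fun _ => β 1) fun g _ => by
        rw [← (hb g⁻¹).2.r, ← (hb g).2.l, one_mul, ← map_mul, mul_inv_cancel, map_one],
        av_const₂ (h.lf.ne n)] at hn
      rwa [zero_add]))⟩
  have c2 : ‖c - 1‖ ≤ 200000 * ε := by
    have := s1.nβ 1
    rw [c1, π1, show c • ξ - ξ = (c - 1) • ξ by module, norm_smul, k.unit, mul_one] at this
    exact this.trans (mul_le_of_le_one_right (by positivity) one_le)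
  have c3 : 1 / 2 ≤ ‖c‖ := by
    have := norm_sub_norm_le (1 : ℂ) c
    rw [norm_one, norm_sub_rev] at this
    linarith
  have c0 : c ≠ 0 := norm_pos_iff.1 (by linarith)
  have c4 : ‖c⁻¹‖ ≤ 2 := by
    rw [norm_inv]
    exact inv_le_of_inv_le₀ (by norm_num) (by linarith)
  have D2 : ∀ x, ‖(c⁻¹ • β - ψ) x‖ ≤ 2000000 * ε * ‖ψ x‖ := fun x => by
    rw [show (c⁻¹ • β - ψ) x = c⁻¹ • ((β - ψ) x - (c - 1) • ψ x) by
      simp [smul_sub, sub_smul, smul_smul, c0], norm_smul]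
    have a1 := norm_sub_le ((β - ψ) x) ((c - 1) • ψ x)
    rw [norm_smul] at a1
    have a2 := D1 x
    have a3 := mul_le_mul_of_nonneg_left (ψ3 x) e0.le
    have a4 := mul_le_mul_of_nonneg_right c2 (norm_nonneg (ψ x))
    have a5 := mul_le_mul_of_nonneg_right c4 (norm_nonneg ((β - ψ) x - (c - 1) • ψ x))
    rw [← hψ] at a3
    linarith
  obtain ⟨S, S1, S2, S3⟩ := exists_extend₂ ψ _ (by positivity) D2
  have S4 : ‖-S‖ < 1 := by rw [norm_neg]; linarith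
  obtain ⟨T, hT⟩ : ∃ T : (E →L[ℂ] E)ˣ, T = 1 + S := ⟨Units.oneSub (-S) S4, by simp⟩
  have T1 : ‖(T : E →L[ℂ] E) - 1‖ ≤ 4000000 * ε := by rw [hT, add_sub_cancel_left]; linarith
  have T2 : ‖(↑T⁻¹ : E →L[ℂ] E) - 1‖ ≤ 4000000 * ε := by
    have e : (↑T⁻¹ : E →L[ℂ] E) - 1 = -((↑T⁻¹ - 1) * S) - S := by
      have := T.inv_mul
      rw [hT, mul_add, mul_one] at this
      rw [sub_mul, one_mul, ← this]; abel
    have a1 := norm_sub_le (-(((↑T⁻¹ : E →L[ℂ] E) - 1) * S)) S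
    rw [← e, norm_neg] at a1
    have a2 := (norm_mul_le ((↑T⁻¹ : E →L[ℂ] E) - 1) S).trans
      (mul_le_mul_of_nonneg_left (S1.trans (show _ ≤ 1 / 2 by linarith)) (norm_nonneg _))
    linarith
  have T3 : ∀ x, (T : E →L[ℂ] E) (π x ξ) = c⁻¹ • β x := fun x => by
    rw [hT, add_apply, one_apply_eq_self, ← hψ, S2]; simp
  have T4 : (T : E →L[ℂ] E) ξ = ξ := by
    have := T3 1
    rwa [π1, c1, inv_smul_smul₀ c0] at this
  have T5 : ∀ g, Commute (T : E →L[ℂ] E) (L (ι g)) := fun g => hT ▸ (Commute.one_left _).add_left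
    (S3 _ (fun x => ⟨σ g * x, ((bψ g).l x).symm, by simp [(bψ g).l, (hb g).2.l]⟩) fun x =>
      ⟨σ g⁻¹ * x, by rw [(bψ g⁻¹).l, ← map_star, h.ι_star]⟩)
  have T6 : ∀ g, Commute (T : E →L[ℂ] E) (R (ι g)) := fun g => hT ▸ (Commute.one_left _).add_left
    (S3 _ (fun x => ⟨x * σ g, ((bψ g).r x).symm, by simp [(bψ g).r, (hb g).2.r]⟩) fun x =>
      ⟨x * σ g⁻¹, by rw [(bψ g⁻¹).r, ← k.R_star, h.ι_star]⟩)
  refine ⟨T, T1, T2, T5, T6, T4, fun a b => ?_⟩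
  obtain ⟨d1, d2⟩ := u1 π hc
  obtain ⟨d3, d4⟩ := u1 (cj T π) fun g => (hc g).cj (T5 g) (T6 g)
  obtain ⟨d5, d6⟩ := u2 α fun g => (hb g).1
  obtain ⟨d7, d8⟩ := u2 β fun g => (hb g).2
  refine (P.bil hu d1 d2 d3 d4 (κ := 5 * 10 ^ 19 * (γ' * ε)) (fun x a y au yu x0 a0 y0 r1 r2 => ?_)
    a b).trans ?_
  swap
  · gcongr
    nlinarith
  obtain ⟨z, z0, r3, r4⟩ := P.uhat0 hu d1 d2 yu y0
  have t1 := P.test hu d1 d2 s1 d5 d6 d7 d8 au yu x0 z0 a0 y0 r1 r2 (P.mono r3 (by norm_num)) r4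
  have q1 : ∀ z, cj T π x (c⁻¹ • β z) = c⁻¹ • β (x * z) := fun z => by
    rw [← T3, ← T3, cj_apply, mul_apply_eq_comp, mul_apply_eq_comp, 
      ← mul_apply_eq_comp (↑T⁻¹ : E →L[ℂ] E), T.inv_mul, one_apply_eq_self, ππ]
  have q2 : cj T π x ξ = c⁻¹ • β x := by
    have := q1 1
    rwa [c1, inv_smul_smul₀ c0, mul_one] at this
  have e : FL (cj T π) R ξ x y = (cj T π x - L a) (R y ξ - c⁻¹ • β z) -
      c⁻¹ • (L a (β z) - β (x * z) + R y (β x) - L a (R y (β 1))) := by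
    rw [FL_apply, Fm, q2, sub_apply, map_sub, map_sub, q1, c1]
    simp only [map_smul, smul_sub, smul_add, inv_smul_smul₀ c0]
    abel
  have b1 : ‖cj T π x - L a‖ ≤ 3 * 10 ^ 9 * γ' := by
    have a1 := cj_near T1 T2 (by linarith) (π x)
    have a2 := norm_add_le (cj T π x - π x) (π x - L a)
    rw [sub_add_sub_cancel] at a2
    have a3 := (P.up x).trans (show _ ≤ 176 by linarith [r1.nx])
    have a4 := mul_le_mul_of_nonneg_left a3 e0.le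
    rw [← cj_apply] at a1
    linarith [r1.op]
  have b2 : ‖R y ξ - c⁻¹ • β z‖ ≤ 4 * 10 ^ 8 * ε := by
    have a1 := D2 z
    have a2 := norm_add_le ((c⁻¹ • β - ψ) z) (π z ξ - L y ξ)
    have a3 := P.πle z ξ
    rw [k.unit, ← hψ] at a3
    have a4 := mul_le_mul_of_nonneg_left (a3.trans (show _ ≤ 44 by linarith [r3.nx])) e0.le
    rw [LinearMap.sub_apply, hψ, sub_add_sub_cancel, norm_sub_rev, k.cen] at a2
    rw [LinearMap.sub_apply, hψ] at a1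
    have a5 := r3.vec
    rw [k.cen] at a5
    rw [hψ] at a4
    change ‖R y ξ - (c⁻¹ • β) z‖ ≤ _
    linarith
  rw [e]
  refine (norm_sub_le _ _).trans ?_
  rw [norm_smul]
  have b3 := ((cj T π x - L a).le_of_opNorm_le b1 _).trans
    (mul_le_mul_of_nonneg_left b2 (by positivity))
  have b4 := mul_le_mul c4 t1 (norm_nonneg _) (by norm_num)
  have := mul_pos g0 e0
  norm_num at b3 b4 ⊢
  nlinarith

end Vale.Agent.P096
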