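import Vale.Agent.P096.Step3a

/-! The step property for the tensor product with the hyperfinite factor. -/

namespace Vale.Agent.P096

open scoped InnerProductSpace ComplexOrder BigOperators
open Filter Topology Vale.Agent.P104 Vale.Agent.P082 Finset

universe u

namespace St3

variable {K : Type u} [NormedAddCommGroup K] [InnerProductSpace ℂ K] [CompleteSpace K]
  {Γ : Type u} [Group Γ] {G : ℕ → Finset Γ} {π : Γ →* (K →L[ℂ] K)}

omit [CompleteSpace K] [Group Γ] in
theorem av_app (s : Finset Γ) (f : Γ → K →L[ℂ] K) (η : K) : av s f η = av s fun g => f g η := by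
  simp only [av, smul_apply, _root_.sum_apply]

omit [CompleteSpace K] in
theorem E_left (h : LocFin G) {k : ℕ} {g : Γ} (hg : g ∈ G k) : π g * av (G k) π = av (G k) π := by
  rw [← av_mul_left]
  simp only [← map_mul]
  exact av_shift h hg π

theorem E_star (h : LocFin G) (hs : ∀ g, star (π g) = π g⁻¹) (k : ℕ) :
    star (av (G k) π) = av (G k) π := by
  unfold av
  rw [star_smul, star_sum, star_inv₀, star_natCast]
  congr 1
  exact sum_bij' (fun g _ => g⁻¹) (fun g _ => g⁻¹) (fun g hg => h.inv k g hg)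
    (fun g hg => h.inv k g hg) (fun g _ => inv_inv g) (fun g _ => inv_inv g) fun g _ => hs g

theorem E_right (h : LocFin G) (hs : ∀ g, star (π g) = π g⁻¹) {k : ℕ} {g : Γ} (hg : g ∈ G k) :
    av (G k) π * π g = av (G k) π := by
  have := congrArg star (E_left (π := π) h (h.inv k g hg))
  rwa [star_mul, E_star h hs, hs, inv_inv] at this

omit [CompleteSpace K] in
theorem E_E (h : LocFin G) {k l : ℕ} (hkl : k ≤ l) : av (G k) π * av (G l) π = av (G l) π := by
  rw [← av_mul_right, av_congr fun g hg => E_left h (h.mono hkl hg), av_const ⟨1, h.one k⟩]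

theorem E_E' (h : LocFin G) (hs : ∀ g, star (π g) = π g⁻¹) {k l : ℕ} (hkl : k ≤ l) :
    av (G l) π * av (G k) π = av (G l) π := by
  have := congrArg star (E_E (π := π) h hkl)
  rwa [star_mul, E_star h hs, E_star h hs] at this

theorem E_lim (h : LocFin G) (hs : ∀ g, star (π g) = π g⁻¹) (β : K) :
    ∃ ζ, Tendsto (fun k => av (G k) π β) atTop (𝓝 ζ) ∧ ∀ g, π g ζ = ζ := by
  have e : ∀ {k l}, k ≤ l → ‖av (G l) π β - av (G k) π β‖ ^ 2 =
      ‖av (G k) π β‖ ^ 2 - ‖av (G l) π β‖ ^ 2 := fun {k l} hkl => by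
    rw [@norm_sub_sq ℂ, ← inner_star_right, E_star h hs, ← mul_apply_eq_comp, E_E' h hs hkl,
      nsq (av (G l) π), E_star h hs, E_E h le_rfl, RCLike.re_to_complex]
    ring
  have an : Antitone fun k => ‖av (G k) π β‖ ^ 2 := fun k l hkl => by
    have := e hkl
    have := sq_nonneg ‖av (G l) π β - av (G k) π β‖
    linarith
  have c1 := (tendsto_atTop_ciInf an ⟨0, by rintro _ ⟨k, rfl⟩; positivity⟩).cauchySeq
  have c2 : CauchySeq fun k => av (G k) π β := Metric.cauchySeq_iff'.2 fun ε hε => by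
    obtain ⟨N, hN⟩ := Metric.cauchySeq_iff'.1 c1 (ε ^ 2) (by positivity)
    refine ⟨N, fun n hn => ?_⟩
    have := hN n hn
    rw [dist_eq_norm]
    rw [Real.dist_eq, abs_sub_comm, ← e hn, abs_of_nonneg (sq_nonneg _)] at this
    exact lt_of_pow_lt_pow_left₀ 2 hε.le this
  obtain ⟨ζ, hζ⟩ := cauchySeq_tendsto_of_complete c2
  refine ⟨ζ, hζ, fun g => tendsto_nhds_unique (((π g).continuous.tendsto _).comp hζ) ?_⟩
  obtain ⟨k, hk⟩ := h.all g
  refine hζ.congr' ((eventually_ge_atTop k).mono fun l hl => ?_)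
  simp only [Function.comp]
  rw [← mul_apply_eq_comp, E_left h (h.mono hl hk)]

theorem flipXZ {X Z : K →L[ℂ] K} (hX : X * X = 1) (hZ : Z * Z = 1) (h : Z * X * Z = -X) :
    X * Z * X = -Z := by
  have : X * Z = -(Z * X) := by
    rw [← mul_neg, ← h, ← mul_assoc, ← mul_assoc, hZ, one_mul]
  rw [this, neg_mul, mul_assoc, hX, mul_one]

theorem hv_star {a : K →L[ℂ] K} (h : Hv a) : Hv (star a) :=
  ⟨by simpa using h.iso', h.sq', by simpa [add_comm] using h.sum⟩

/-- The Pauli generators. -/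
noncomputable def gn (e : ℕ → K →L[ℂ] K) (i : ℕ) : K →L[ℂ] K :=
  if i % 2 = 0 then e (i / 2) + star (e (i / 2))
  else star (e (i / 2)) * e (i / 2) - e (i / 2) * star (e (i / 2))

variable {e : ℕ → K →L[ℂ] K}

theorem gn_unit (h : ∀ n, Hv (e n)) (i : ℕ) : gn e i ∈ unitary (K →L[ℂ] K) := by
  unfold gn
  split_ifs
  exacts [(h _).X_mem, (h _).Z_mem]

theorem gn_sq (h : ∀ n, Hv (e n)) (i : ℕ) : gn e i * gn e i = 1 := by
  unfold gn
  split_ifs
  exacts [(h _).X_sq, (h _).Z_sq]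

theorem gn_comm {T : K →L[ℂ] K} {i : ℕ} (h : Commute T (e (i / 2)))
    (h' : Commute T (star (e (i / 2)))) : Commute T (gn e i) := by
  unfold gn
  split_ifs
  exacts [h.add_right h', (h'.mul_right h).sub_right (h.mul_right h')]

theorem gn_mem {P : VonNeumannAlgebra K} (h : ∀ n, e n ∈ P) (i : ℕ) : gn e i ∈ P := by
  unfold gn
  split_ifs
  exacts [add_mem (h _) (star_mem (h _)),
    sub_mem (mul_mem (star_mem (h _)) (h _)) (mul_mem (h _) (star_mem (h _)))]

theorem gn_rel (h : ∀ n, Hv (e n))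
    (hc : ∀ n m, n ≠ m → Commute (e n) (e m) ∧ Commute (e n) (star (e m))) (i j : ℕ) :
    gn e i * gn e j * gn e i = if i / 2 = j / 2 ∧ i % 2 ≠ j % 2 then -gn e j else gn e j := by
  by_cases h1 : i / 2 = j / 2
  · by_cases h2 : i % 2 = j % 2
    · rw [if_neg (by tauto), show i = j by omega, gn_sq h, one_mul]
    · rw [if_pos ⟨h1, h2⟩]
      unfold gn
      rw [h1]
      by_cases h3 : i % 2 = 0
      · rw [if_pos h3, if_neg (by omega)]
        exact flipXZ (h _).X_sq (h _).Z_sq (h _).ZXZ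
      · rw [if_neg h3, if_pos (by omega)]
        exact (h _).ZXZ
  · have c1 : Commute (gn e i) (gn e j) := gn_comm
      (gn_comm (hc _ _ (Ne.symm h1)).1 (hc _ _ (Ne.symm h1)).2).symm
      (gn_comm (hc _ _ h1).2.symm (hc _ _ (Ne.symm h1)).1.star_star).symm
    rw [if_neg (by tauto), c1.eq, mul_assoc, gn_sq h, mul_one]

theorem gn_vac {r : ℕ → K →L[ℂ] K} (h : Sites e r) {ζ : K} {i : ℕ}
    (hv : Va (e (i / 2)) (r (i / 2)) ζ) : gn (fun n => star (r n)) i ζ = gn e i ζ := by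
  unfold gn
  have := hv.p (h.er _ _).2
  split_ifs
  · simp only [star_star, add_apply, hv.1, hv.2, add_comm]
  · simp only [star_star, sub_apply, this.1, this.2]

theorem comm_star {T w : K →L[ℂ] K} (hw : w ∈ unitary (K →L[ℂ] K)) (h : Commute T w) :
    Commute T (star w) := by
  change T * star w = star w * T
  rw [← one_mul (T * star w), ← hw.1, mul_assoc, ← mul_assoc w, ← h.eq, mul_assoc T, hw.2, mul_one]

theorem vac_of {a b : K →L[ℂ] K} {ζ : K} (ha : Hv a) (hb : Hv b) (c1 : Commute a b)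
    (c2 : Commute a (star b)) (h1 : (star b + b) ζ = (a + star a) ζ)
    (h2 : (b * star b - star b * b) ζ = (star a * a - a * star a) ζ) : Va a b ζ := by
  have c3 : Commute (star a) b := by simpa using c2.star_star
  have c4 := c1.star_star
  have k : (star b + b) ((b * star b - star b * b) ζ) = (star a * a - a * star a) ((a + star a) ζ) := by
    rw [h2, ← h1]
    exact (ca (((c4.add_right c3).mul_left (c2.add_right c1)).sub_left
      ((c2.add_right c1).mul_left (c4.add_right c3))) ζ).symm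
  rw [← mul_apply_eq_comp, ← mul_apply_eq_comp] at k
  simp only [mul_sub, sub_mul, add_mul, mul_add, mul_assoc, ha.r1, ha.r2, ha.r3', ha.r4', hb.r1,
    hb.r2, hb.r3', hb.r4', ha.sq, ha.sq', mul_zero, add_zero, zero_add, sub_zero, zero_sub,
    add_apply, sub_apply, neg_apply] at k h1
  constructor
  · have : (2 : ℂ) • b ζ = (2 : ℂ) • a ζ := by linear_combination (norm := module) h1 - k
    exact smul_right_injective K two_ne_zero this
  · have : (2 : ℂ) • star a ζ = (2 : ℂ) • star b ζ := by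
      linear_combination (norm := module) -h1 - k
    exact smul_right_injective K two_ne_zero this

variable {H : Type u} [NormedAddCommGroup H] [InnerProductSpace ℂ H] [CompleteSpace H]
  {A : (H →L[ℂ] H) →⋆ₐ[ℂ] (K →L[ℂ] K)} {ι : H →L[ℂ] K} {r : ℕ → K →L[ℂ] K}

theorem ind1 (h : Site A ι e r fun _ => 1) (M : VonNeumannAlgebra H)
    {S : Set (unitary (K →L[ℂ] K) × unitary (K →L[ℂ] K))}
    (hS : ∀ x ∈ S, x.1.1 ∈ big A r M ∧
      x.2.1 ∈ (big A r M).commutant ∧ ∀ η, x.1.1 (x.2.1 (ι η)) = ι η) :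
    ∀ x ∈ Subgroup.closure S, x.1.1 ∈ big A r M ∧
      x.2.1 ∈ (big A r M).commutant ∧ ∀ η, x.1.1 (x.2.1 (ι η)) = ι η := fun x hx => by
  induction hx using Subgroup.closure_induction with
  | mem x hx => exact hS x hx
  | one => exact ⟨one_mem _, one_mem _, fun _ => rfl⟩
  | mul x y _ _ hx hy =>
    refine ⟨mul_mem hx.1 hy.1, mul_mem hx.2.1 hy.2.1, fun η => ?_⟩
    change x.1.1 (y.1.1 (x.2.1 (y.2.1 (ι η)))) = ι η
    rw [ca (commute_of_mem hy.1 hx.2.1), hy.2.2, hx.2.2]
  | inv x _ hx =>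
    refine ⟨star_mem hx.1, star_mem hx.2.1, fun η => ?_⟩
    change star x.1.1 (star x.2.1 (ι η)) = ι η
    conv_lhs => rw [← hx.2.2 η, ← ca (commute_of_mem hx.1 (star_mem hx.2.1)),
      ← mul_apply_eq_comp (star x.2.1), x.2.2.1, one_apply_eq_self, ← mul_apply_eq_comp, x.1.2.1]
    rfl

theorem ind2 {T : K →L[ℂ] K} {S : Set (unitary (K →L[ℂ] K) × unitary (K →L[ℂ] K))}
    (hS : ∀ x ∈ S, Commute T x.1.1 ∧ Commute T x.2.1) :
    ∀ x ∈ Subgroup.closure S, Commute T x.1.1 ∧ Commute T x.2.1 := fun x hx => by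
  induction hx using Subgroup.closure_induction with
  | mem x hx => exact hS x hx
  | one => exact ⟨Commute.one_right T, Commute.one_right T⟩
  | mul x y _ _ hx hy =>
    change Commute T (x.1.1 * y.1.1) ∧ Commute T (x.2.1 * y.2.1)
    exact ⟨hx.1.mul_right hy.1, hx.2.mul_right hy.2⟩
  | inv x _ hx =>
    change Commute T (star x.1.1) ∧ Commute T (star x.2.1)
    exact ⟨comm_star x.1.2 hx.1, comm_star x.2.2 hx.2⟩

theorem grp (h : Site A ι e r fun _ => 1) (M : VonNeumannAlgebra H) :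
    ∃ (Γ : Type u) (_ : Group Γ) (G : ℕ → Finset Γ) (ρ σ : Γ →* (K →L[ℂ] K)), LocFin G ∧
      (∀ g, star (ρ g) = ρ g⁻¹) ∧ (∀ g, star (σ g) = σ g⁻¹) ∧
      (∀ g, ρ g ∈ big A r M ∧ σ g ∈ (big A r M).commutant ∧ ∀ η, ρ g (σ g (ι η)) = ι η) ∧
      (∀ k (T : K →L[ℂ] K), (∀ j < k, Cs (e j) (r j) T) → ∀ g ∈ G k,
        Commute T (ρ g) ∧ Commute T (σ g)) ∧
      ∀ i, ∃ g, ρ g = gn e i ∧ σ g = gn (fun n => star (r n)) i ∧ ∀ k, i < 2 * k → g ∈ G k := by
  have hr : ∀ n, Hv (star (r n)) := fun n => hv_star (h.hr n)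
  have rr : ∀ n m, n ≠ m → Commute (star (r n)) (star (r m)) ∧
      Commute (star (r n)) (star (star (r m))) := fun n m hnm =>
    ⟨(h.rr n m hnm).1.star_star, (h.rr n m hnm).2.star_star⟩
  let s : ℕ → unitary (K →L[ℂ] K) × unitary (K →L[ℂ] K) := fun i =>
    (⟨_, gn_unit h.he i⟩, ⟨_, gn_unit hr i⟩)
  let ε : unitary (K →L[ℂ] K) := ⟨-1, by simp [Unitary.mem_iff]⟩
  obtain ⟨Γ, G, lf, sm, hG⟩ := locfin (ε, ε) s
    (Prod.ext (Subtype.ext (by simp [ε])) (Subtype.ext (by simp [ε])))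
    (fun g => Prod.ext (Subtype.ext (by simp [ε])) (Subtype.ext (by simp [ε])))
    (fun i => Prod.ext (Subtype.ext (gn_sq h.he i)) (Subtype.ext (gn_sq hr i))) fun i j => by
      have a1 := gn_rel h.he h.ee i j
      have a2 := gn_rel hr rr i j
      split_ifs at a1 a2
      · exact Or.inr (Prod.ext (Subtype.ext (by simpa [s, ε] using a1))
          (Subtype.ext (by simpa [s, ε] using a2)))
      · exact Or.inl (Prod.ext (Subtype.ext a1) (Subtype.ext a2))
  let ρ : Γ →* (K →L[ℂ] K) := ((unitary _).subtype.comp (MonoidHom.fst _ _)).comp Γ.subtype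
  let σ : Γ →* (K →L[ℂ] K) := ((unitary _).subtype.comp (MonoidHom.snd _ _)).comp Γ.subtype
  have eB := h.big_e (M := M)
  have rB := fun n => star_mem (big_r (A := A) (r := r) (M := M) n)
  refine ⟨Γ, inferInstance, G, ρ, σ, lf, fun _ => rfl, fun _ => rfl, fun g => ?_,
    fun k T hT g hg => ?_, fun i => ⟨⟨s i, sm i⟩, rfl, rfl, fun k hi =>
      (hG _ _).2 (Subgroup.subset_closure (Or.inr ⟨i, hi, rfl⟩))⟩⟩
  · obtain ⟨k, hk⟩ := lf.all g
    refine ind1 h M ?_ _ ((hG k g).1 hk)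
    rintro _ (rfl | ⟨i, -, rfl⟩)
    · exact ⟨neg_mem (one_mem _), neg_mem (one_mem _), fun η => by simp [ε]⟩
    · refine ⟨gn_mem eB i, gn_mem rB i, fun η => ?_⟩
      change gn e i (gn (fun n => star (r n)) i (ι η)) = ι η
      rw [gn_vac h.toSites (va_ι h _ η), ← mul_apply_eq_comp, gn_sq h.he, one_apply_eq_self]
  · change Commute T g.1.1.1 ∧ Commute T g.1.2.1
    refine ind2 ?_ _ ((hG k g).1 hg)
    rintro _ (rfl | ⟨i, hi, rfl⟩)
    · exact ⟨(Commute.one_right T).neg_right, (Commute.one_right T).neg_right⟩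
    · have := hT (i / 2) (by simp at hi; omega)
      change Commute T (gn e i) ∧ Commute T (gn (fun n => star (r n)) i)
      refine ⟨gn_comm this.1 this.2.1, gn_comm (e := fun n => star (r n)) this.2.2.2 ?_⟩
      rw [star_star]
      exact this.2.2.1

end St3

open St3 in
theorem stepS : StepStmt.{u} := by
  intro H K _ _ _ _ _ _ A ι e r M ξ h h1 hc hd
  obtain ⟨Γ, _, G, ρ, σ, lf, ρs, σs, p1, p2, p3⟩ := grp h M
  choose s s1 s2 sG using p3
  have cm : ∀ g g', Commute (ρ g) (σ g') := fun g g' => commute_of_mem (p1 g).1 (p1 g').2.1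
  let π : Γ →* (K →L[ℂ] K) :=
    { toFun := fun g => ρ g * σ g
      map_one' := by rw [map_one, map_one, one_mul]
      map_mul' := fun g g' => by
        rw [map_mul, map_mul, mul_assoc, mul_assoc, (cm g' g).left_comm] }
  have πs : ∀ g, star (π g) = π g⁻¹ := fun g => by
    change star (ρ g * σ g) = ρ g⁻¹ * σ g⁻¹
    rw [star_mul, (cm _ _).eq, ρs, σs]
  have gX : ∀ n, gn e (2 * n) = e n + star (e n) ∧
      gn (fun n => star (r n)) (2 * n) = r n + star (r n) := fun n => by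
    simp [gn, add_comm]
  have gZ : ∀ n, gn e (2 * n + 1) = star (e n) * e n - e n * star (e n) ∧
      gn (fun n => star (r n)) (2 * n + 1) = r n * star (r n) - star (r n) * r n := fun n => by
    simp [gn, show (2 * n + 1) / 2 = n by omega]
  refine ⟨Γ, inferInstance, G, ρ, σ, ⟨h.toSites, (h.iso ξ).trans h1, hc, lf, ρs, σs,
    fun g => (p1 g).1, fun g => (p1 g).2.1, fun g => (p1 g).2.2 ξ, h.big_e, big_r,
    (h.vac _).2 ⟨ξ, rfl⟩, fun n => ⟨s (2 * n), s (2 * n + 1), (s1 _).trans (gX n).1,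
    (s2 _).trans (gX n).2, (s1 _).trans (gZ n).1, (s2 _).trans (gZ n).2⟩⟩, fun k β δ hδ => ?_⟩
  obtain ⟨ζ, hζ, fx⟩ := E_lim lf πs β
  have fl : ∀ i, gn (fun n => star (r n)) i ζ = gn e i ζ := fun i => by
    have : gn e i (gn (fun n => star (r n)) i ζ) = ζ := by
      rw [← s1, ← s2]
      exact fx _
    conv_rhs => rw [← this, ← mul_apply_eq_comp, gn_sq h.he]
    rfl
  obtain ⟨β₀, rfl⟩ := (h.vac ζ).1 fun n => by
    have a1 := fl (2 * n)
    have a2 := fl (2 * n + 1)
    rw [(gX n).1, (gX n).2, add_comm (r n)] at a1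
    rw [(gZ n).1, (gZ n).2] at a2
    simpa [Va] using vac_of (h.he n) (h.hr n) (h.er n n).1 (h.er n n).2 a1 a2
  obtain ⟨t, t1, t2⟩ := ((eventually_gt_atTop k).and
    (Metric.tendsto_nhds.1 hζ _ (half_pos hδ))).exists
  obtain ⟨m, w, z, hw, hz, d1, c, d2⟩ := hd β₀ (min (δ / 2) (δ ^ 2)) (by positivity)
  obtain ⟨W, W1, Z, Z1, W2, Z2, lc, n1, n2⟩ := ctrl h t m w z hw hz
  refine ⟨t + m, by omega, W, W1, Z, Z1, W2, Z2, fun g hg => ⟨(p2 k W (fun j hj =>
    (lc j (by omega)).1) g hg).1, (p2 k Z (fun j hj => (lc j (by omega)).2) g hg).2⟩, ?_, c, ?_⟩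
  · rw [← n1, mul_comm] at d1
    refine le_of_sq_le_sq ((le_of_mul_le_mul_right d1 (by positivity)).trans (min_le_right _ _)) hδ.le
  · have ne : ∀ l, (G l).Nonempty := fun l => ⟨1, lf.one l⟩
    set E := av (G (t + m)) π with hE
    have e1 : ∀ η, E (ι η) = ι η := fun η => by
      rw [hE, av_app, av_congr (f := fun g => π g (ι η)) (f' := fun _ => ι η)
        fun g _ => (p1 g).2.2 η, av_const (ne _)]
    have e2 := n2 E e1 (fun j hj η => by
      rw [← (gX j).1, ← (gX j).2, ← s1, ← s2]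
      exact DFunLike.congr_fun (E_right lf πs (sG (2 * j) _ (by omega))) η) β₀
    have e3 : E (star W (star Z (ι β₀))) = ι (av univ fun j => star (w j) (star (z j) β₀)) := by
      rw [av, map_smul, ← e2, smul_smul]
      simp
    have c1 : ∀ T : K →L[ℂ] K, (∀ j < t, Cs (e j) (r j) T) → Commute T (av (G t) π) := fun T hT => by
      change T * _ = _ * T
      rw [← av_mul_left, ← av_mul_right]
      exact av_congr fun g hg => (p2 t T hT g hg).1.mul_right (p2 t T hT g hg).2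
    have e4 : E (star W (star Z β)) = E (star W (star Z (av (G t) π β - ι β₀))) +
        E (star W (star Z (ι β₀))) := by
      rw [← map_add, ← map_add, ← map_add, sub_add_cancel, ca (c1 _ fun j hj => (lc j (by omega)).2.st),
        ca (c1 _ fun j hj => (lc j (by omega)).1.st), ← mul_apply_eq_comp E (av _ _),
        E_E' lf πs (Nat.le_add_right t m)]
    have b1 : ‖E (star W (star Z (av (G t) π β - ι β₀)))‖ ≤ δ / 2 := by
      refine (E.le_of_opNorm_le (av_norm_le (ne _) (rep_norm_le π πs)) _).trans ?_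
      rw [one_mul, Unitary.norm_map ⟨_, Unitary.star_mem W2⟩, Unitary.norm_map ⟨_, Unitary.star_mem Z2⟩,
        ← dist_eq_norm]
      exact t2.le
    change ‖(av (G (t + m)) fun g => π g (star W (star Z β))) - c • ι ξ‖ ≤ δ
    rw [← av_app, ← hE, e4, e3, add_sub_assoc, ← map_smul, ← map_sub]
    refine (norm_add_le _ _).trans ?_
    rw [h.iso]
    linarith [min_le_left (δ / 2) (δ ^ 2)]

end Vale.Agent.P096
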