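import Vale.Agent.P096.L3

/-! Locally finite Pauli groups and controlled unitaries. -/

namespace Vale.Agent.P096

open scoped InnerProductSpace ComplexOrder BigOperators
open Filter Topology Vale.Agent.P104 Vale.Agent.P082 Finset

universe u

namespace St3

theorem locfin {𝔾 : Type*} [Group 𝔾] (ε : 𝔾) (s : ℕ → 𝔾) (hε : ε * ε = 1) (hc : ∀ g, Commute ε g)
    (hs : ∀ i, s i * s i = 1) (hss : ∀ i j, s i * s j * s i = s j ∨ s i * s j * s i = ε * s j) :
    ∃ (Γ : Subgroup 𝔾) (G : ℕ → Finset Γ), LocFin G ∧ (∀ i, s i ∈ Γ) ∧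
      ∀ k (g : Γ), g ∈ G k ↔ g.1 ∈ Subgroup.closure ({ε} ∪ s '' Set.Iio (2 * k)) := by
  classical
  let S : 𝔾 → Prop := fun g => ∀ i, s i * g * s i = g ∨ s i * g * s i = ε * g
  have Sm : ∀ g h, S g → S h → S (g * h) := fun g h hg hh i => by
    have e : s i * (g * h) * s i = (s i * g * s i) * (s i * h * s i) := by
      simp only [mul_assoc]
      rw [← mul_assoc (s i) (s i), hs, one_mul]
    rw [e]
    rcases hg i with a | a <;> rcases hh i with b | b <;> rw [a, b]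
    · exact Or.inl rfl
    · exact Or.inr ((hc g).symm.left_comm _)
    · exact Or.inr (mul_assoc _ _ _)
    · exact Or.inl (by rw [mul_assoc, (hc g).symm.left_comm, ← mul_assoc, hε, one_mul])
  have key : ∀ j, ∃ F : Finset 𝔾, Grp F ∧ ε ∈ F ∧ (∀ i < j, s i ∈ F) ∧ ∀ g ∈ F, S g := fun j => by
    induction j with
    | zero =>
      obtain ⟨F, h1, -, h2, h3⟩ := Grp.ext (F := ({1} : Finset 𝔾)) (s := ε)
        ⟨by simp, by simp, by simp⟩ hε (by simp [hε])
      refine ⟨F, h1, h2, fun i hi => absurd hi (by omega), fun g hg i => Or.inl ?_⟩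
      rcases (h3 g).1 hg with a | a
      · rw [mem_singleton.1 a, mul_one, hs]
      · rw [eq_inv_of_mul_eq_one_left (mem_singleton.1 a), inv_eq_of_mul_eq_one_right hε,
          ← (hc _).eq, mul_assoc, hs, mul_one]
    | succ j ih =>
      obtain ⟨F, h1, h2, h3, h4⟩ := ih
      obtain ⟨F', a1, a2, a3, a4⟩ := h1.ext (hs j) fun g hg => by
        rcases h4 g hg j with a | a <;> rw [a]
        · exact hg
        · exact h1.mul _ h2 _ hg
      refine ⟨F', a1, a2 h2, fun i hi => ?_, fun g hg => ?_⟩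
      · rcases Nat.lt_succ_iff_lt_or_eq.1 hi with a | rfl
        · exact a2 (h3 i a)
        · exact a3
      · rcases (a4 g).1 hg with a | a
        · exact h4 g a
        · have := Sm _ _ (h4 _ a) fun i => hss i j
          rwa [mul_assoc, hs, mul_one] at this
  have fin : ∀ j, ((Subgroup.closure ({ε} ∪ s '' Set.Iio j) : Subgroup 𝔾) : Set 𝔾).Finite := fun j => by
    obtain ⟨F, h1, h2, h3, -⟩ := key j
    refine F.finite_toSet.subset fun g hg => ?_
    induction hg using Subgroup.closure_induction with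
    | mem x hx =>
      rcases hx with rfl | ⟨i, hi, rfl⟩
      · exact h2
      · exact h3 i hi
    | one => exact h1.one
    | mul x y _ _ hx hy => exact h1.mul _ hx _ hy
    | inv x _ hx => exact h1.inv _ hx
  have mono : ∀ {j k}, j ≤ k → Subgroup.closure ({ε} ∪ s '' Set.Iio j) ≤
      Subgroup.closure ({ε} ∪ s '' Set.Iio k) := fun h => Subgroup.closure_mono
    (Set.union_subset_union_right _ (Set.image_mono (Set.Iio_subset_Iio h)))
  let Γ : Subgroup 𝔾 :=
    { carrier := {g | ∃ k, g ∈ Subgroup.closure ({ε} ∪ s '' Set.Iio (2 * k))}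
      mul_mem' := fun ⟨k, hk⟩ ⟨l, hl⟩ => ⟨max k l, mul_mem (mono (by omega) hk) (mono (by omega) hl)⟩
      one_mem' := ⟨0, one_mem _⟩
      inv_mem' := fun ⟨k, hk⟩ => ⟨k, inv_mem hk⟩ }
  let G : ℕ → Finset Γ := fun k => (fin (2 * k)).toFinset.subtype (· ∈ Γ)
  have hG : ∀ k (g : Γ), g ∈ G k ↔ g.1 ∈ Subgroup.closure ({ε} ∪ s '' Set.Iio (2 * k)) :=
    fun k g => by simp [G]
  exact ⟨Γ, G, ⟨fun k => (hG _ _).2 (one_mem _),
    fun k g hg h hh => (hG _ _).2 (mul_mem ((hG _ _).1 hg) ((hG _ _).1 hh)),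
    fun k g hg => (hG _ _).2 (inv_mem ((hG _ _).1 hg)),
    fun k l hkl g hg => (hG _ _).2 (mono (by omega) ((hG _ _).1 hg)),
    fun g => g.2.imp fun k hk => (hG _ _).2 hk⟩,
    fun i => ⟨i + 1, Subgroup.subset_closure (Or.inr ⟨i, by simp; omega, rfl⟩)⟩, hG⟩

variable {H K : Type u} [NormedAddCommGroup H] [InnerProductSpace ℂ H] [CompleteSpace H]
  [NormedAddCommGroup K] [InnerProductSpace ℂ K] [CompleteSpace K]
  {A : (H →L[ℂ] H) →⋆ₐ[ℂ] (K →L[ℂ] K)} {ι : H →L[ℂ] K} {e r : ℕ → K →L[ℂ] K}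
  {M : VonNeumannAlgebra H}

omit [CompleteSpace K] in
theorem ca {a b : K →L[ℂ] K} (h : Commute a b) (η : K) : a (b η) = b (a η) :=
  DFunLike.congr_fun h.eq η

/-- Commutation with one site. -/
def Cs (a b U : K →L[ℂ] K) : Prop :=
  Commute U a ∧ Commute U (star a) ∧ Commute U b ∧ Commute U (star b)

theorem Cs.mul {a b U V : K →L[ℂ] K} (h : Cs a b U) (h' : Cs a b V) : Cs a b (U * V) :=
  ⟨h.1.mul_left h'.1, h.2.1.mul_left h'.2.1, h.2.2.1.mul_left h'.2.2.1,
    h.2.2.2.mul_left h'.2.2.2⟩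

theorem Cs.add {a b U V : K →L[ℂ] K} (h : Cs a b U) (h' : Cs a b V) : Cs a b (U + V) :=
  ⟨h.1.add_left h'.1, h.2.1.add_left h'.2.1, h.2.2.1.add_left h'.2.2.1,
    h.2.2.2.add_left h'.2.2.2⟩

theorem Cs.sub {a b U V : K →L[ℂ] K} (h : Cs a b U) (h' : Cs a b V) : Cs a b (U - V) :=
  ⟨h.1.sub_left h'.1, h.2.1.sub_left h'.2.1, h.2.2.1.sub_left h'.2.2.1,
    h.2.2.2.sub_left h'.2.2.2⟩

theorem Cs.one (a b : K →L[ℂ] K) : Cs a b 1 :=
  ⟨Commute.one_left _, Commute.one_left _, Commute.one_left _, Commute.one_left _⟩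

theorem Cs.st {a b U : K →L[ℂ] K} (h : Cs a b U) : Cs a b (star U) :=
  ⟨by simpa using h.2.1.star_star, h.1.star_star, by simpa using h.2.2.2.star_star,
    h.2.2.1.star_star⟩

theorem cs_e (h : Sites e r) {i j : ℕ} (hij : i ≠ j) : Cs (e j) (r j) (e i) :=
  ⟨(h.ee i j hij).1, (h.ee i j hij).2, (h.er i j).1, (h.er i j).2⟩

theorem cs_r (h : Sites e r) {i j : ℕ} (hij : i ≠ j) : Cs (e j) (r j) (r i) :=
  ⟨(h.er j i).1.symm, by simpa using (h.er j i).2.star_star.symm, (h.rr i j hij).1,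
    (h.rr i j hij).2⟩

theorem cs_A {c : ℕ → ℝ} (h : Site A ι e r c) (x : H →L[ℂ] H) (j : ℕ) : Cs (e j) (r j) (A x) := by
  refine ⟨(h.Ae x j).1, ?_, (h.Ae x j).2, ?_⟩
  · simpa [← map_star] using (h.Ae (star x) j).1.star_star
  · simpa [← map_star] using (h.Ae (star x) j).2.star_star

/-- The tracial vacuum relations at one site. -/
def Va (a b : K →L[ℂ] K) (ζ : K) : Prop := b ζ = a ζ ∧ star a ζ = star b ζ

theorem Va.map {a b U : K →L[ℂ] K} {ζ : K} (h : Va a b ζ) (hU : Cs a b U) : Va a b (U ζ) :=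
  ⟨by rw [← ca hU.2.2.1, h.1, ca hU.1], by rw [← ca hU.2.1, h.2, ca hU.2.2.2]⟩

theorem va_ι (h : Site A ι e r fun _ => 1) (j : ℕ) (η : H) : Va (e j) (r j) (ι η) := by
  simpa [Va] using (h.vac _).2 ⟨η, rfl⟩ j

section One

variable {a b : K →L[ℂ] K} {ζ : K}

theorem Va.p (h : Va a b ζ) (c2 : Commute a (star b)) :
    (b * star b) ζ = (star a * a) ζ ∧ (star b * b) ζ = (a * star a) ζ := by
  have c3 : Commute (star a) b := by simpa using c2.star_star
  simp only [mul_apply_eq_comp]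
  exact ⟨by rw [← h.2, ← ca c3, h.1], by rw [h.1, ← ca c2, h.2]⟩

theorem nsq (x : K →L[ℂ] K) (η : K) : ‖x η‖ ^ 2 = (⟪η, (star x * x) η⟫_ℂ).re := by
  rw [mul_apply_eq_comp, inner_star_right, inner_self_eq_norm_sq_to_K]
  norm_cast

theorem Va.half (h : Va a b ζ) (ha : Hv a) (c2 : Commute a (star b)) :
    2 * ‖(star a * a) ζ‖ ^ 2 = ‖ζ‖ ^ 2 ∧ 2 * ‖(a * star a) ζ‖ ^ 2 = ‖ζ‖ ^ 2 := by
  have e1 : ‖(star a * a) ζ‖ ^ 2 = (⟪ζ, (star a * a) ζ⟫_ℂ).re := by
    rw [nsq, star_mul, star_star, mul_assoc, ha.r3']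
  have e2 : ‖(a * star a) ζ‖ ^ 2 = (⟪ζ, (a * star a) ζ⟫_ℂ).re := by
    rw [nsq, star_mul, star_star, mul_assoc, ha.r4']
  have e3 : ⟪ζ, (star a * a) ζ⟫_ℂ = ⟪ζ, (a * star a) ζ⟫_ℂ := by
    rw [← (h.p c2).1, mul_apply_eq_comp, mul_apply_eq_comp, ← inner_star_left, ← h.2,
      inner_star_left]
  have e4 : (⟪ζ, (star a * a) ζ⟫_ℂ).re + (⟪ζ, (a * star a) ζ⟫_ℂ).re = ‖ζ‖ ^ 2 := by
    rw [← Complex.add_re, ← inner_add_right, ← add_apply, ha.sum, one_apply_eq_self,
      inner_self_eq_norm_sq_to_K]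
    norm_cast
  rw [e1, e2, e3] at *
  constructor <;> linarith

/-- The controlled operator. -/
noncomputable def mix (a U V : K →L[ℂ] K) : K →L[ℂ] K := star a * a * U + a * star a * V

variable {U V U' V' : K →L[ℂ] K}

theorem Cs.p (h : Cs a b U) : Commute U (star a * a) ∧ Commute U (a * star a) :=
  ⟨h.2.1.mul_right h.1, h.1.mul_right h.2.1⟩

theorem Cs.sw (h : Cs a b U) : Cs (star b) a U := ⟨h.2.2.2, by simpa using h.2.2.1, h.1, h.2.1⟩

theorem mix_mul (ha : Hv a) (h : Cs a b U) (h' : Cs a b V) :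
    mix a U V * mix a U' V' = mix a (U * U') (V * V') := by
  simp only [mix, add_mul, mul_add, mul_assoc _ U, mul_assoc _ V, h.p.1.left_comm,
    h.p.2.left_comm, h'.p.1.left_comm, h'.p.2.left_comm]
  simp only [mul_assoc, ha.r1, ha.r2, ha.r3, ha.r4, mul_zero, add_zero, zero_add]

theorem mix_star (h : Cs a b U) (h' : Cs a b V) : star (mix a U V) = mix a (star U) (star V) := by
  rw [mix, mix, star_add, star_mul, star_mul _ V, star_mul, star_mul, star_star, h.st.p.1.eq,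
    h'.st.p.2.eq]

theorem mix_one (ha : Hv a) : mix a 1 1 = 1 := by rw [mix, mul_one, mul_one, ha.sum]

theorem mix_unit (ha : Hv a) (h : Cs a b U) (h' : Cs a b V) (hU : U ∈ unitary (K →L[ℂ] K))
    (hV : V ∈ unitary (K →L[ℂ] K)) : mix a U V ∈ unitary (K →L[ℂ] K) :=
  ⟨by rw [mix_star h h', mix_mul ha h.st h'.st, hU.1, hV.1, mix_one ha],
    by rw [mix_star h h', mix_mul ha h h', hU.2, hV.2, mix_one ha]⟩

theorem mix_vac (h : Va a b ζ) (c2 : Commute a (star b)) (h1 : Cs a b U) (h2 : Cs a b V) :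
    mix (star b) U V ζ = mix a U V ζ := by
  rw [mix, mix, star_star, add_apply, add_apply, mul_apply_eq_comp _ U, mul_apply_eq_comp _ V,
    ((h.map h1).p c2).1, ((h.map h2).p c2).2]
  rfl

theorem mix_norm (ha : Hv a) (h : Va a b ζ) (c2 : Commute a (star b)) (h1 : Cs a b U)
    (h2 : Cs a b V) : 2 * ‖mix a U V ζ - ζ‖ ^ 2 = ‖U ζ - ζ‖ ^ 2 + ‖V ζ - ζ‖ ^ 2 := by
  have e : mix a U V ζ - ζ = (star a * a) ((U - 1) ζ) + (a * star a) ((V - 1) ζ) := by
    have := DFunLike.congr_fun ha.sum ζ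
    simp only [mix, add_apply, mul_apply_eq_comp, sub_apply, one_apply_eq_self, map_sub] at this ⊢
    rw [sub_add_sub_comm, this]
  have o : ⟪(star a * a) ((U - 1) ζ), (a * star a) ((V - 1) ζ)⟫_ℂ = 0 := by
    rw [← inner_star_right, ← mul_apply_eq_comp, star_mul, star_star, mul_assoc, ha.r1, mul_zero,
      zero_apply, inner_zero_right]
  rw [e, sq, norm_add_sq_eq_norm_sq_add_norm_sq_of_inner_eq_zero _ _ o, ← sq, ← sq, mul_add,
    ((h.map (h1.sub (Cs.one _ _))).half ha c2).1, ((h.map (h2.sub (Cs.one _ _))).half ha c2).2]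
  rfl

theorem mix_E (ha : Hv a) (h : Va a b ζ) (h1 : Cs a b U) (h2 : Cs a b V) {E : K →L[ℂ] K}
    (hE : ∀ η, E ((a + star a) ((b + star b) η)) = E η) (c1 : Commute a b)
    (c2 : Commute a (star b)) : (2 : ℂ) • E (mix a U V ζ) = E (U ζ) + E (V ζ) := by
  have c3 : Commute (star a) b := by simpa using c2.star_star
  have k : ∀ ζ, Va a b ζ → E ((star a * a) ζ) = E ((a * star a) ζ) := fun ζ h => by
    rw [← hE, ← ca ((c3.add_right c1.star_star).mul_left (c1.add_right c2)), add_apply b, h.1,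
      ← h.2, ← add_apply, ← mul_apply_eq_comp (star a * a), ← mul_apply_eq_comp (a + star a)]
    congr 2
    simp only [add_mul, mul_add, mul_assoc, ha.r1, ha.r2, ha.r3, ha.sq, ha.sq', ha.r4', mul_zero,
      add_zero, zero_add]
  have k' : ∀ ζ, E ((star a * a) ζ) + E ((a * star a) ζ) = E ζ := fun ζ => by
    rw [← map_add, ← add_apply, ha.sum, one_apply_eq_self]
  rw [mix, add_apply, map_add, mul_apply_eq_comp _ U, mul_apply_eq_comp _ V, ← k' (U ζ), ← k' (V ζ),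
    ← k _ (h.map h1), k _ (h.map h2), two_smul]
  abel

end One

theorem sum_succ {V : Type*} [AddCommMonoid V] {m : ℕ} (f : (Fin (m + 1) → Bool) → V) :
    ∑ j, f j = ∑ j : Fin m → Bool, f (Fin.cons true j) + ∑ j : Fin m → Bool, f (Fin.cons false j) := by
  rw [← (Fin.consEquiv fun _ => Bool).sum_comp, Fintype.sum_prod_type, Fintype.sum_bool]
  rfl

theorem ctrl (h : Site A ι e r fun _ => 1) (s m : ℕ) (w z : (Fin m → Bool) → H →L[ℂ] H)
    (hw : ∀ j, w j ∈ M ∧ w j ∈ unitary (H →L[ℂ] H))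
    (hz : ∀ j, z j ∈ M.commutant ∧ z j ∈ unitary (H →L[ℂ] H)) :
    ∃ W ∈ big A r M, ∃ Z ∈ (big A r M).commutant, W ∈ unitary (K →L[ℂ] K) ∧
      Z ∈ unitary (K →L[ℂ] K) ∧
      (∀ j, j < s ∨ s + m ≤ j → Cs (e j) (r j) W ∧ Cs (e j) (r j) Z) ∧
      (∀ η, 2 ^ m * ‖W (Z (ι η)) - ι η‖ ^ 2 = ∑ j, ‖w j (z j η) - η‖ ^ 2) ∧
      ∀ E : K →L[ℂ] K, (∀ η, E (ι η) = ι η) → (∀ j < s + m, ∀ η,
        E ((e j + star (e j)) ((r j + star (r j)) η)) = E η) → ∀ η,
        (2 ^ m : ℂ) • E (star W (star Z (ι η))) = ι (∑ j, star (w j) (star (z j) η)) := by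
  induction m with
  | zero =>
    have un : ∀ x ∈ unitary (H →L[ℂ] H), A x ∈ unitary (K →L[ℂ] K) := fun x hx =>
      ⟨by rw [← map_star, ← map_mul, hx.1, map_one], by rw [← map_star, ← map_mul, hx.2, map_one]⟩
    refine ⟨A (w default), h.big_A (hw _).1, A (z default), big_A' (hz _).1, un _ (hw _).2,
      un _ (hz _).2, fun j _ => ⟨cs_A h _ j, cs_A h _ j⟩, fun η => ?_, fun E hE _ η => ?_⟩
    · rw [h.Aι, h.Aι, ← map_sub, h.iso, pow_zero, one_mul,
        Fintype.sum_subsingleton _ default]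
    · rw [← map_star, ← map_star, h.Aι, h.Aι, hE, pow_zero, one_smul,
        Fintype.sum_subsingleton _ default]
  | succ m ih =>
    obtain ⟨W0, a1, Z0, a2, a3, a4, a5, a6, a7⟩ := ih (fun j => w (Fin.cons true j))
      (fun j => z (Fin.cons true j)) (fun j => hw _) fun j => hz _
    obtain ⟨W1, b1, Z1, b2, b3, b4, b5, b6, b7⟩ := ih (fun j => w (Fin.cons false j))
      (fun j => z (Fin.cons false j)) (fun j => hw _) fun j => hz _
    obtain ⟨c0, d0⟩ := a5 (s + m) (Or.inr le_rfl)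
    obtain ⟨c1, d1⟩ := b5 (s + m) (Or.inr le_rfl)
    have he := h.he (s + m)
    have hr : Hv (star (r (s + m))) := ⟨by simpa using (h.hr _).iso', (h.hr _).sq',
      by simpa [add_comm] using (h.hr _).sum⟩
    have m1 := h.big_e (M := M) (s + m)
    have m2 := big_r (A := A) (r := r) (M := M) (s + m)
    have q1 := (h.er (s + m) (s + m)).1
    have q2 := (h.er (s + m) (s + m)).2
    refine ⟨mix (e (s + m)) W0 W1, add_mem (mul_mem (mul_mem (star_mem m1) m1) a1)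
      (mul_mem (mul_mem m1 (star_mem m1)) b1), mix (star (r (s + m))) Z0 Z1,
      add_mem (mul_mem (mul_mem (star_mem (star_mem m2)) (star_mem m2)) a2)
      (mul_mem (mul_mem (star_mem m2) (star_mem (star_mem m2))) b2), mix_unit he c0 c1 a3 b3,
      mix_unit hr d0.sw d1.sw a4 b4, fun j hj => ?_, fun η => ?_, fun E hE hE' η => ?_⟩
    · have hj' : j < s ∨ s + m ≤ j := by omega
      have n1 := cs_e h.toSites (show s + m ≠ j by omega)
      have n2 := (cs_r h.toSites (show s + m ≠ j by omega)).st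
      exact ⟨((n1.st.mul n1).mul (a5 j hj').1).add ((n1.mul n1.st).mul (b5 j hj').1),
        ((n2.st.mul n2).mul (a5 j hj').2).add ((n2.mul n2.st).mul (b5 j hj').2)⟩
    · rw [mix_vac (va_ι h _ η) q2 d0 d1, ← mul_apply_eq_comp, mix_mul he c0 c1, pow_succ, mul_assoc,
        mix_norm he (va_ι h _ η) q2 (c0.mul d0) (c1.mul d1), sum_succ, ← a6, ← b6, mul_add]
      rfl
    · rw [mix_star d0.sw d1.sw, mix_star c0 c1, mix_vac (va_ι h _ η) q2 d0.st d1.st,
        ← mul_apply_eq_comp (mix _ _ _), mix_mul he c0.st c1.st, pow_succ, mul_smul,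
        mix_E he (va_ι h _ η) (c0.st.mul d0.st) (c1.st.mul d1.st) (hE' _ (by omega)) q1 q2,
        sum_succ, map_add, ← a7 E hE (fun j hj => hE' j (by omega)),
        ← b7 E hE (fun j hj => hE' j (by omega)), smul_add]
      rfl

end St3

end Vale.Agent.P096
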