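import Vale.Agent.P096.GTop
import Vale.Agent.P132.Tools

/-! Interfaces for the type III case. -/

namespace Vale.Agent.P096

open scoped InnerProductSpace ComplexOrder BigOperators BoundedContinuousFunction ComplexConjugate
open Filter Topology Vale.Agent.P104 Vale.Agent.P082 Finset TopologicalSpace

universe u

section

variable {H K : Type u} [NormedAddCommGroup H] [InnerProductSpace ℂ H] [CompleteSpace H]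
  [NormedAddCommGroup K] [InnerProductSpace ℂ K] [CompleteSpace K]

/-- The commutant of `S ∪ S*`. -/
noncomputable def cmt (S : Set (K →L[ℂ] K)) : VonNeumannAlgebra K where
  toStarSubalgebra := StarSubalgebra.centralizer ℂ S
  centralizer_centralizer' := by
    change Set.centralizer (Set.centralizer
      ((StarSubalgebra.centralizer ℂ S : StarSubalgebra ℂ (K →L[ℂ] K)) : Set (K →L[ℂ] K))) =
      ((StarSubalgebra.centralizer ℂ S : StarSubalgebra ℂ (K →L[ℂ] K)) : Set (K →L[ℂ] K))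
    rw [StarSubalgebra.coe_centralizer, Set.centralizer_centralizer_centralizer]

theorem mem_cmt {S : Set (K →L[ℂ] K)} {x : K →L[ℂ] K} :
    x ∈ cmt S ↔ ∀ s ∈ S, s * x = x * s ∧ star s * x = x * star s :=
  StarSubalgebra.mem_centralizer_iff ℂ

/-- `K` is the Hilbert sum of copies of `H` indexed by `I`. -/
structure Amp {I : Type} (A : (H →L[ℂ] H) →⋆ₐ[ℂ] (K →L[ℂ] K)) (ι : I → H →L[ℂ] K) : Prop where
  iso : ∀ i η, ‖ι i η‖ = ‖η‖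
  orth : ∀ i j, i ≠ j → ∀ η ζ, ⟪ι i η, ι j ζ⟫_ℂ = 0
  sum : ∀ ζ, HasSum (fun i => ι i (ContinuousLinearMap.adjoint (ι i) ζ)) ζ
  sq : ∀ ζ, HasSum (fun i => ‖ContinuousLinearMap.adjoint (ι i) ζ‖ ^ 2) (‖ζ‖ ^ 2)
  Aι : ∀ x i η, A x (ι i η) = ι i (x η)
  ext : ∀ x y : K →L[ℂ] K, (∀ i η, x (ι i η) = y (ι i η)) → x = y
  diag : ∀ (x : I → H →L[ℂ] H) (C : ℝ), 0 ≤ C → (∀ i, ‖x i‖ ≤ C) → ∃ D : K →L[ℂ] K, ‖D‖ ≤ C ∧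
    (∀ i η, D (ι i η) = ι i (x i η)) ∧ ∀ i η, star D (ι i η) = ι i (star (x i) η)
  perm : ∀ p : I ≃ I, ∃ w ∈ unitary (K →L[ℂ] K), (∀ i η, w (ι i η) = ι (p i) η) ∧
    ∀ i η, star w (ι i η) = ι (p.symm i) η

/-- Commuting two by two matrix units, on the left (`e`) and on the right (`r`). -/
structure Sites (e r : ℕ → K →L[ℂ] K) : Prop where
  he : ∀ n, Hv (e n)
  hr : ∀ n, Hv (r n)
  ee : ∀ n m, n ≠ m → Commute (e n) (e m) ∧ Commute (e n) (star (e m))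
  rr : ∀ n m, n ≠ m → Commute (r n) (r m) ∧ Commute (r n) (star (r m))
  er : ∀ n m, Commute (e n) (r m) ∧ Commute (e n) (star (r m))

/-- The vacuum relations at all sites. -/
def Vac (e r : ℕ → K →L[ℂ] K) (c : ℕ → ℝ) (ζ : K) : Prop :=
  ∀ n, r n ζ = (c n : ℂ) • e n ζ ∧ star (e n) ζ = (c n : ℂ) • star (r n) ζ

/-- `K` is the tensor product of `H` with the standard form of an infinite tensor product. -/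
structure Site (A : (H →L[ℂ] H) →⋆ₐ[ℂ] (K →L[ℂ] K)) (ι : H →L[ℂ] K) (e r : ℕ → K →L[ℂ] K)
    (c : ℕ → ℝ) : Prop extends Sites e r where
  pos : ∀ n, 0 < c n
  iso : ∀ η, ‖ι η‖ = ‖η‖
  Aι : ∀ x η, A x (ι η) = ι (x η)
  Ae : ∀ x n, Commute (A x) (e n) ∧ Commute (A x) (r n)
  vac : ∀ ζ, Vac e r c ζ ↔ ∃ η, ι η = ζ
  dense : ∀ S : Submodule ℂ K, IsClosed (S : Set K) → (∀ η, ι η ∈ S) →
    (∀ n, ∀ ζ ∈ S, e n ζ ∈ S ∧ star (e n) ζ ∈ S) → S = ⊤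

/-- The tensor product of `M` with the factor generated by the left sites. -/
noncomputable def big (A : (H →L[ℂ] H) →⋆ₐ[ℂ] (K →L[ℂ] K)) (r : ℕ → K →L[ℂ] K)
    (M : VonNeumannAlgebra H) : VonNeumannAlgebra K :=
  cmt (A '' (M.commutant : Set (H →L[ℂ] H)) ∪ Set.range r)

theorem sub_cmt_comm {S : Set (K →L[ℂ] K)} {s : K →L[ℂ] K} (hs : s ∈ S) :
    s ∈ (cmt S).commutant :=
  VonNeumannAlgebra.mem_commutant_iff.2 fun _ hx => ((mem_cmt.1 hx) s hs).1.symm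

section

variable {A : (H →L[ℂ] H) →⋆ₐ[ℂ] (K →L[ℂ] K)} {ι : H →L[ℂ] K} {e r : ℕ → K →L[ℂ] K} {c : ℕ → ℝ}
  {M : VonNeumannAlgebra H}

theorem mem_big {x : K →L[ℂ] K} : x ∈ big A r M ↔ (∀ y ∈ M.commutant, Commute (A y) x) ∧
    ∀ n, Commute (r n) x ∧ Commute (star (r n)) x := by
  rw [big, mem_cmt]
  refine ⟨fun h => ⟨fun y hy => (h _ (Or.inl ⟨y, hy, rfl⟩)).1, fun n => h _ (Or.inr ⟨n, rfl⟩)⟩, ?_⟩
  rintro h _ (⟨y, hy, rfl⟩ | ⟨n, rfl⟩)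
  · exact ⟨h.1 y hy, by rw [← map_star]; exact h.1 _ (star_mem hy)⟩
  · exact h.2 n

theorem big_r (n : ℕ) : r n ∈ (big A r M).commutant := sub_cmt_comm (Or.inr ⟨n, rfl⟩)

theorem big_A' {y : H →L[ℂ] H} (hy : y ∈ M.commutant) : A y ∈ (big A r M).commutant :=
  sub_cmt_comm (Or.inl ⟨y, hy, rfl⟩)

theorem Site.big_e (h : Site A ι e r c) (n : ℕ) : e n ∈ big A r M :=
  mem_big.2 ⟨fun y _ => (h.Ae y n).1, fun k => ⟨(h.er n k).1.symm, (h.er n k).2.symm⟩⟩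

theorem Site.big_A (h : Site A ι e r c) {x : H →L[ℂ] H} (hx : x ∈ M) : A x ∈ big A r M := by
  refine mem_big.2 ⟨fun y hy => ?_, fun k => ⟨(h.Ae x k).2.symm, ?_⟩⟩
  · exact (show Commute y x from (VonNeumannAlgebra.mem_commutant_iff.1 hy x hx).symm).map A
  · have := (h.Ae (star x) k).2.star_star
    rw [← map_star, star_star] at this
    exact this.symm

end

/-- The Dixmier type averaging property with dyadic families of almost centralizing unitaries. -/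
def DixP (M : VonNeumannAlgebra H) (ξ : H) : Prop :=
  ∀ (β : H) (ε : ℝ), 0 < ε → ∃ (m : ℕ) (w z : (Fin m → Bool) → H →L[ℂ] H),
    (∀ j, w j ∈ M ∧ w j ∈ unitary (H →L[ℂ] H)) ∧
    (∀ j, z j ∈ M.commutant ∧ z j ∈ unitary (H →L[ℂ] H)) ∧
    ∑ j, ‖w j (z j ξ) - ξ‖ ^ 2 ≤ ε * 2 ^ m ∧
    ∃ c : ℂ, ‖av univ (fun j => star (w j) (star (z j) β)) - c • ξ‖ ≤ ε

variable {Γ : Type u} [Group Γ]

/-- A locally finite group acting on the left and on the right and fixing `ξ`. -/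
structure Rep (M : VonNeumannAlgebra H) (ξ : H) (G : ℕ → Finset Γ) (ρ σ : Γ →* (H →L[ℂ] H))
    (e r : ℕ → H →L[ℂ] H) : Prop extends Sites e r where
  unit : ‖ξ‖ = 1
  cs : P132.CycSep M ξ
  lf : LocFin G
  ρ_star : ∀ g, star (ρ g) = ρ g⁻¹
  σ_star : ∀ g, star (σ g) = σ g⁻¹
  ρM : ∀ g, ρ g ∈ M
  σM : ∀ g, σ g ∈ M.commutant
  fix : ∀ g, ρ g (σ g ξ) = ξ
  eM : ∀ n, e n ∈ M
  rM : ∀ n, r n ∈ M.commutant
  vac : Vac e r (fun _ => 1) ξ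
  gen : ∀ n, ∃ X Z, ρ X = e n + star (e n) ∧ σ X = r n + star (r n) ∧
    ρ Z = star (e n) * e n - e n * star (e n) ∧ σ Z = r n * star (r n) - star (r n) * r n

/-- One step of the perturbation towards an ergodic group. -/
def StepP (M : VonNeumannAlgebra H) (ξ : H) (G : ℕ → Finset Γ) (ρ σ : Γ →* (H →L[ℂ] H)) : Prop :=
  ∀ (k : ℕ) (β : H) (ε : ℝ), 0 < ε → ∃ k', k < k' ∧ ∃ w ∈ M, ∃ z ∈ M.commutant,
    w ∈ unitary (H →L[ℂ] H) ∧ z ∈ unitary (H →L[ℂ] H) ∧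
    (∀ g ∈ G k, Commute w (ρ g) ∧ Commute z (σ g)) ∧ ‖w (z ξ) - ξ‖ ≤ ε ∧
    ∃ c : ℂ, ‖av (G k') (fun g => ρ g (σ g (star w (star z β)))) - c • ξ‖ ≤ ε

/-- The standard position: an ergodic locally finite group in the centralizer. -/
structure SPos (M : VonNeumannAlgebra H) (ξ : H) (G : ℕ → Finset Γ) (ρ σ : Γ →* (H →L[ℂ] H))
    (e r : ℕ → H →L[ℂ] H) : Prop extends Rep M ξ G ρ σ e r where
  erg : ∀ η, Tendsto (fun k => av (G k) fun g => ρ g (σ g η)) atTop (𝓝 (⟪ξ, η⟫_ℂ • ξ))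

/-- The fourth moment of a family at the vector `ξ`. -/
noncomputable def m4 {ι : Type*} [Fintype ι] (x : ι → H →L[ℂ] H) (ξ : H) : ℝ :=
  ‖(∑ i, star (x i) * x i) ξ‖ ^ 2 + ∑ i, ∑ j, ‖star (x j) (x i ξ)‖ ^ 2

/-- The second moment of a family at the vector `ξ`. -/
noncomputable def m2 {ι : Type*} [Fintype ι] (x : ι → H →L[ℂ] H) (ξ : H) : ℝ := ∑ i, ‖x i ξ‖ ^ 2

/-- The relation `Δ₂^(1/2) V = W Δ₁^(1/2)`. -/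
def Intw {Γ₁ Γ₂ : Set (H × H)} (m₁ : P132.HMod Γ₁) (m₂ : P132.HMod Γ₂) (V W : H →L[ℂ] H) : Prop :=
  ∀ f g f' g' : ℝ →ᵇ ℂ, (∀ s, g s = f s * (Real.exp (s / 2) : ℝ)) →
    (∀ s, g' s = f' s * (Real.exp (s / 2) : ℝ)) →
    m₂.Φ g * V * m₁.Φ f' = m₂.Φ f * W * m₁.Φ g'

/-- A bounded strongly analytic family on the strip `-1/2 ≤ im z ≤ 0`. -/
structure SA (F : ℂ → H →L[ℂ] H) : Prop where
  bdd : ∃ C : ℝ, ∀ z : ℂ, -1 / 2 ≤ z.im → z.im ≤ 0 → ‖F z‖ ≤ C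
  dc : ∀ η, DiffContOnCl ℂ (fun z => F z η) (Complex.im ⁻¹' Set.Ioo (-1 / 2) 0)

/-- A strongly continuous unitary group. -/
structure UG (U : ℝ → H →L[ℂ] H) : Prop where
  zero : U 0 = 1
  add : ∀ s t, U (s + t) = U s * U t
  st : ∀ t, star (U t) = U (-t)
  cont : ∀ η, Continuous fun t => U t η

/-- The group whose fixed points form a corner of the core. -/
noncomputable def flow (A : (H →L[ℂ] H) →⋆ₐ[ℂ] (K →L[ℂ] K)) (U : ℝ → H →L[ℂ] H) (b : K →L[ℂ] K)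
    (t : ℝ) : K →L[ℂ] K := A (U t) * NormedSpace.exp ((-(t : ℂ) * Complex.I) • b)

/-- A corner of the core. -/
noncomputable def core (A : (H →L[ℂ] H) →⋆ₐ[ℂ] (K →L[ℂ] K)) (M : VonNeumannAlgebra H)
    (U : ℝ → H →L[ℂ] H) (b : K →L[ℂ] K) : VonNeumannAlgebra K :=
  cmt (A '' (M.commutant : Set (H →L[ℂ] H)) ∪ Set.range (flow A U b))

end

/-- WP Amp. -/
def AmpStmt : Prop := ∀ (H : Type u) [NormedAddCommGroup H] [InnerProductSpace ℂ H]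
  [CompleteSpace H] [SeparableSpace H] (I : Type) [Countable I], ∃ (K : Type u)
    (_ : NormedAddCommGroup K) (_ : InnerProductSpace ℂ K) (_ : CompleteSpace K)
    (_ : SeparableSpace K) (A : (H →L[ℂ] H) →⋆ₐ[ℂ] (K →L[ℂ] K)) (ι : I → H →L[ℂ] K), Amp A ι

/-- WP Site. -/
def SiteStmt : Prop := ∀ (H : Type u) [NormedAddCommGroup H] [InnerProductSpace ℂ H]
  [CompleteSpace H] [SeparableSpace H] (c : ℕ → ℝ), (∀ n, 0 < c n) → ∃ (K : Type u)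
    (_ : NormedAddCommGroup K) (_ : InnerProductSpace ℂ K) (_ : CompleteSpace K)
    (_ : SeparableSpace K) (A : (H →L[ℂ] H) →⋆ₐ[ℂ] (K →L[ℂ] K)) (ι : H →L[ℂ] K)
    (e r : ℕ → K →L[ℂ] K), Site A ι e r c

/-- WP Big. -/
def BigStmt : Prop := ∃ c₀ : ℝ, 1 ≤ c₀ ∧ ∀ (H K : Type u) [NormedAddCommGroup H]
  [InnerProductSpace ℂ H] [CompleteSpace H] [NormedAddCommGroup K] [InnerProductSpace ℂ K]
  [CompleteSpace K] (A : (H →L[ℂ] H) →⋆ₐ[ℂ] (K →L[ℂ] K)) (ι : H →L[ℂ] K) (e r : ℕ → K →L[ℂ] K)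
  (c : ℕ → ℝ) (M : VonNeumannAlgebra H), Site A ι e r c →
  (∀ ξ, P132.CycSep M ξ → P132.CycSep (big A r M) (ι ξ)) ∧
  (P132.IsFactor M → P132.IsFactor (big A r M)) ∧
  ∀ C : ℝ, 1 ≤ C → LL' (big A r M) C → LL' M (c₀ * C)

/-- WP Full. -/
def FullStmt : Prop := ∀ (H K : Type u) [NormedAddCommGroup H]
  [InnerProductSpace ℂ H] [CompleteSpace H] [NormedAddCommGroup K] [InnerProductSpace ℂ K]
  [CompleteSpace K] [Nontrivial K] (A : (H →L[ℂ] H) →⋆ₐ[ℂ] (K →L[ℂ] K)) (ι : H →L[ℂ] K)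
  (e r : ℕ → K →L[ℂ] K) (c : ℕ → ℝ) (P : VonNeumannAlgebra K), Site A ι e r c →
  (∀ l ε : ℝ, 0 < l → 0 < ε → ∀ n₀, ∃ n, n₀ ≤ n ∧ |c n - l| ≤ ε) → (∀ n, e n ∈ P) →
  (∀ n, r n ∈ P.commutant) → P132.Full P

/-- WP Dix. -/
def DixStmt : Prop := ∀ (H : Type u) [NormedAddCommGroup H] [InnerProductSpace ℂ H]
  [CompleteSpace H] (M : VonNeumannAlgebra H) (ξ : H), P132.CycSep M ξ → P132.AllEq M →
  P132.Full M → (∃ p ∈ M, IsStarProjection p ∧ p ≠ 0 ∧ p ≠ 1) → DixP M ξ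

/-- WP Step. -/
def StepStmt : Prop := ∀ (H K : Type u) [NormedAddCommGroup H]
  [InnerProductSpace ℂ H] [CompleteSpace H] [NormedAddCommGroup K] [InnerProductSpace ℂ K]
  [CompleteSpace K] (A : (H →L[ℂ] H) →⋆ₐ[ℂ] (K →L[ℂ] K)) (ι : H →L[ℂ] K)
  (e r : ℕ → K →L[ℂ] K) (M : VonNeumannAlgebra H) (ξ : H), Site A ι e r (fun _ => 1) →
  ‖ξ‖ = 1 → P132.CycSep (big A r M) (ι ξ) → DixP M ξ →
  ∃ (Γ : Type u) (_ : Group Γ) (G : ℕ → Finset Γ) (ρ σ : Γ →* (K →L[ℂ] K)),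
    Rep (big A r M) (ι ξ) G ρ σ e r ∧ StepP (big A r M) (ι ξ) G ρ σ

/-- WP D. -/
def DStmt : Prop := ∀ (H : Type u) [NormedAddCommGroup H] [InnerProductSpace ℂ H]
  [CompleteSpace H] [SeparableSpace H] (M : VonNeumannAlgebra H) (ξ : H) (Γ : Type u) [Group Γ]
  (G : ℕ → Finset Γ) (ρ σ : Γ →* (H →L[ℂ] H)) (e r : ℕ → H →L[ℂ] H), Rep M ξ G ρ σ e r →
  StepP M ξ G ρ σ → ∃ (ξ' : H) (G' : ℕ → Finset Γ) (ρ' σ' : Γ →* (H →L[ℂ] H))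
    (e' r' : ℕ → H →L[ℂ] H), SPos M ξ' G' ρ' σ' e' r'

/-- WP E. -/
def EStmt : Prop := ∃ C : ℝ, 1 ≤ C ∧ ∀ (H : Type u) [NormedAddCommGroup H]
  [InnerProductSpace ℂ H] [CompleteSpace H] (M N : VonNeumannAlgebra H) (ξ : H) (Γ : Type u)
  [Group Γ] (G : ℕ → Finset Γ) (ρ σ : Γ →* (H →L[ℂ] H)) (e r : ℕ → H →L[ℂ] H) (δ : ℝ),
  SPos M ξ G ρ σ e r → 0 < δ → C * δ ≤ 1 → Near M N δ → Near N M δ →
  ∃ w ∈ unitary (H →L[ℂ] H), ‖w - 1‖ ≤ C * δ ∧ ∃ N' : VonNeumannAlgebra H,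
    (∀ x, x ∈ N' ↔ star w * x * w ∈ N) ∧ SPos N' ξ G ρ σ e r ∧ Near M N' (C * δ) ∧
    Near N' M (C * δ)

/-- WP Cent. -/
def CentStmt : Prop := ∀ (H : Type u) [NormedAddCommGroup H] [InnerProductSpace ℂ H]
  [CompleteSpace H] (M : VonNeumannAlgebra H) (ξ : H) (m : P132.Mod M ξ), P132.CycSep M ξ →
  ∀ x ∈ M, ∀ y ∈ M.commutant, y ξ = x ξ → star y ξ = star x ξ →
    m.R x = y ∧ ∀ t, Commute (m.U t) x ∧ Commute (m.U t) y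

/-- WP F1. -/
def F1Stmt : Prop := ∀ (H : Type u) [NormedAddCommGroup H] [InnerProductSpace ℂ H]
  [CompleteSpace H] (P Q : VonNeumannAlgebra H) (ξ : H) (β : (H →L[ℂ] H) →ₗ[ℂ] (H →L[ℂ] H) →ₗ[ℂ] ℂ)
  (c L : ℝ), 0 ≤ c → 0 ≤ L → (∀ x ∈ P, ∀ y ∈ Q, ‖β x y‖ ≤ c * ‖x‖ * ‖y‖) →
  (∀ x ∈ P, ∀ y ∈ Q, ‖β x y‖ ≤ L * (‖star x ξ‖ * ‖y ξ‖ + ‖x ξ‖ * ‖star y ξ‖)) →
  ∀ (ι : Type u) [Fintype ι] (x y : ι → H →L[ℂ] H), (∀ i, x i ∈ P) → (∀ i, y i ∈ Q) →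
  ∀ s t : ℝ, 0 < s → 0 < t → ‖∑ i, β (x i) (y i)‖ ≤ c * s * t + L *
    ((√(m4 (star x) ξ) * √(m2 y ξ) + √(m4 x ξ) * √(m2 (star y) ξ)) / s +
      (√(m2 (star x) ξ) * √(m4 y ξ) + √(m2 x ξ) * √(m4 (star y) ξ)) / t)

/-- WP F2. -/
def FStmt : Prop := ∃ C : ℝ, 1 ≤ C ∧ ∀ (H : Type u) [NormedAddCommGroup H]
  [InnerProductSpace ℂ H] [CompleteSpace H] (M N : VonNeumannAlgebra H) (ξ : H) (Γ : Type u)
  [Group Γ] (G : ℕ → Finset Γ) (ρ σ : Γ →* (H →L[ℂ] H)) (e r : ℕ → H →L[ℂ] H) (c : ℝ),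
  SPos M ξ G ρ σ e r → SPos N ξ G ρ σ e r → 0 ≤ c →
  (∀ x ∈ M, ∀ y ∈ N.commutant, ‖x * y - y * x‖ ≤ c * ‖x‖ * ‖y‖) →
  ∀ x ∈ M, ∀ y ∈ N.commutant,
    ‖⟪ξ, (x * y - y * x) ξ⟫_ℂ‖ ≤ C * c * (‖star x ξ‖ * ‖y ξ‖ + ‖x ξ‖ * ‖star y ξ‖)

/-- WP H. -/
def HStmt : Prop := ∀ (E F H : Type u) [AddCommGroup E] [Module ℂ E] [AddCommGroup F]
  [Module ℂ F] [NormedAddCommGroup H] [InnerProductSpace ℂ H] [CompleteSpace H]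
  (b : E →ₗ[ℂ] F →ₗ[ℂ] ℂ) (α₁ : E →ₗ⋆[ℂ] H) (β₁ : F →ₗ[ℂ] H) (α₂ : E →ₗ[ℂ] H) (β₂ : F →ₗ⋆[ℂ] H)
  (c : ℝ), 0 ≤ c → DenseRange α₁ → DenseRange β₁ → DenseRange α₂ → DenseRange β₂ →
  (∀ x y, ‖b x y‖ ≤ c * (‖α₁ x‖ * ‖β₁ y‖ + ‖α₂ x‖ * ‖β₂ y‖)) →
  ∃ A B : H →L[ℂ] H, ‖A‖ ≤ c ∧ ‖B‖ ≤ c ∧
    ∀ x y, b x y = ⟪α₁ x, A (β₁ y)⟫_ℂ + ⟪β₂ y, B (α₂ x)⟫_ℂ

/-- WP VW. -/
def VWStmt : Prop := ∀ (H : Type u) [NormedAddCommGroup H]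
  [InnerProductSpace ℂ H] [CompleteSpace H] (M N : VonNeumannAlgebra H) (ξ : H) (Γ : Type u)
  [Group Γ] (G : ℕ → Finset Γ) (ρ σ : Γ →* (H →L[ℂ] H)) (e r : ℕ → H →L[ℂ] H) (c : ℝ)
  (m : P132.Mod M ξ) (n : P132.Mod N ξ), SPos M ξ G ρ σ e r → SPos N ξ G ρ σ e r → 0 ≤ c →
  (∀ x ∈ M, ∀ y ∈ N.commutant,
    ‖⟪ξ, (x * y - y * x) ξ⟫_ℂ‖ ≤ c * (‖star x ξ‖ * ‖y ξ‖ + ‖x ξ‖ * ‖star y ξ‖)) →
  ∃ V W Y : H →L[ℂ] H, ‖V - 1‖ ≤ c ∧ ‖W - Y‖ ≤ c ∧ (∀ η, Y η = n.J (m.J η)) ∧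
    (∀ g, Commute V (ρ g) ∧ Commute V (σ g) ∧ Commute W (ρ g) ∧ Commute W (σ g)) ∧
    Intw m.toHMod n.toHMod V W

/-- WP I, part 1. -/
def SAStmt : Prop := ∀ (H : Type u) [NormedAddCommGroup H] [InnerProductSpace ℂ H]
  [CompleteSpace H], (∀ x : H →L[ℂ] H, SA fun _ => x) ∧
  (∀ F F' : ℂ → H →L[ℂ] H, SA F → SA F' → SA fun z => F z - F' z) ∧
  (∀ F F' : ℂ → H →L[ℂ] H, SA F → SA F' → SA fun z => F z * F' z) ∧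
  (∀ (F : ℂ → H →L[ℂ] H) (C : ℝ), SA F → (∀ t : ℝ, ‖F t‖ ≤ C) →
    (∀ t : ℝ, ‖F (t - Complex.I / 2)‖ ≤ C) → ∀ z : ℂ, -1 / 2 ≤ z.im → z.im ≤ 0 → ‖F z‖ ≤ C) ∧
  ∀ F : ℂ → H →L[ℂ] H, SA F → ∀ s : ℝ, 0 < s → s < 1 / 2 →
    Continuous fun t : ℝ => F (t - s * Complex.I)

/-- WP I, part 2. -/
def IStmt : Prop := ∀ (H : Type u) [NormedAddCommGroup H] [InnerProductSpace ℂ H]
  [CompleteSpace H] (Γ₁ Γ₂ : Set (H × H)) (m₁ : P132.HMod Γ₁) (m₂ : P132.HMod Γ₂)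
  (V W : H →L[ℂ] H), Intw m₁ m₂ V W → ∃ F : ℂ → H →L[ℂ] H, SA F ∧ F 0 = V ∧
    F (-Complex.I / 2) = W ∧ ∀ (z : ℂ) (t : ℝ), -1 / 2 ≤ z.im → z.im ≤ 0 →
      F (t + z) = m₂.U t * F z * m₁.U (-t)

/-- WP I, part 3: analytic continuation of orbits. -/
def AcStmt : Prop := ∀ (H : Type u) [NormedAddCommGroup H] [InnerProductSpace ℂ H]
  [CompleteSpace H] (Γ : Set (H × H)) (m : P132.HMod Γ) (F : ℂ → H), Differentiable ℂ F →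
  ∀ p ∈ Γ, (∀ t : ℝ, F t = m.U t p.1) → F (-Complex.I / 2) = m.J p.2

/-- WP J. -/
def JStmt : Prop := ∃ C : ℝ, 1 ≤ C ∧ ∀ (H : Type u) [NormedAddCommGroup H]
  [InnerProductSpace ℂ H] [CompleteSpace H] (M : VonNeumannAlgebra H) (ξ : H) (Γ : Type u)
  [Group Γ] (G : ℕ → Finset Γ) (ρ σ : Γ →* (H →L[ℂ] H)) (e r : ℕ → H →L[ℂ] H) (ε : ℝ)
  (w v : ℝ → H →L[ℂ] H), SPos M ξ G ρ σ e r → P132.AllEq M → 0 < ε → C * ε ≤ 1 →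
  (∀ t, w t ∈ unitary (H →L[ℂ] H)) → (∀ t g, Commute (w t) (ρ g) ∧ Commute (w t) (σ g)) →
  (∀ t, w t ξ = ξ) → (∀ t, ∀ x ∈ M, ∃ y ∈ M, ‖w t * x * star (w t) - y‖ ≤ ε * ‖x‖) →
  w 0 = 1 → Continuous v → (∀ t, ‖w t - v t‖ ≤ ε) → ∀ t, ‖w t - 1‖ ≤ C * ε

/-- WP Log. -/
def LogStmt : Prop := ∀ (K : Type u) [NormedAddCommGroup K] [InnerProductSpace ℂ K]
  [CompleteSpace K], (∀ w ∈ unitary (K →L[ℂ] K), ∃ a : K →L[ℂ] K, star a = a ∧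
    NormedSpace.exp (Complex.I • a) = w ∧ (∀ y, Commute y w → Commute y (star w) → Commute y a) ∧
    ∀ η, ‖a η‖ ≤ 2 * ‖w η - η‖) ∧ ∀ a : K →L[ℂ] K, star a = a → ∀ (t : ℝ) (η : K),
    ‖NormedSpace.exp (((t : ℂ) * Complex.I) • a) η - η‖ ≤ |t| * ‖a η‖

/-- WP Mean. -/
def MeanStmt : Prop := ∀ (K : Type u) [NormedAddCommGroup K] [InnerProductSpace ℂ K]
  [CompleteSpace K] (U : ℝ → K →L[ℂ] K), UG U → ∃ μ : (K →L[ℂ] K) →ₗ[ℂ] (K →L[ℂ] K),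
    (∀ x t, Commute (μ x) (U t)) ∧
    (∀ x (P : VonNeumannAlgebra K), (∀ t, U t * x * U (-t) ∈ P) → μ x ∈ P) ∧
    (∀ x y (c : ℝ), (∀ t, ‖U t * x * U (-t) - y‖ ≤ c) → ‖μ x - y‖ ≤ c) ∧
    ∀ x η ζ (a : ℂ) (c : ℝ), (∀ t, ‖⟪ζ, (U t * x * U (-t)) η⟫_ℂ - a‖ ≤ c) → ‖⟪ζ, μ x η⟫_ℂ - a‖ ≤ c

/-- WP Tr. -/
def CoreStmt : Prop := ∀ (H K : Type u) [NormedAddCommGroup H]
  [InnerProductSpace ℂ H] [CompleteSpace H] [NormedAddCommGroup K] [InnerProductSpace ℂ K]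
  [CompleteSpace K] (A : (H →L[ℂ] H) →⋆ₐ[ℂ] (K →L[ℂ] K)) (ι : ℤ → H →L[ℂ] K)
  (M : VonNeumannAlgebra H) (ξ : H) (m : P132.Mod M ξ) (b : K →L[ℂ] K) (T : ℝ), Amp A ι →
  P132.CycSep M ξ → star b = b → (∀ x, Commute (A x) b) →
  (∀ i η, NormedSpace.exp (((T : ℂ) * Complex.I) • b) (ι i η) = ι (i + 1) η) →
  FinTr (core A M m.U b)

/-- WP K. -/
def KStmt : Prop := ∃ C : ℝ, 1 ≤ C ∧ ∀ (H : Type u) [NormedAddCommGroup H]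
  [InnerProductSpace ℂ H] [CompleteSpace H] [SeparableSpace H] (M N : VonNeumannAlgebra H) (ξ : H)
  (m : P132.Mod M ξ) (U : ℝ → H →L[ℂ] H) (δ : ℝ), P132.CycSep M ξ → UG U →
  (∀ t, ∀ x ∈ N, U t * x * U (-t) ∈ N) → 0 < δ → C * δ ≤ 1 → Near M N δ → Near N M δ →
  (∀ t, ‖m.U t - U t‖ ≤ δ) → ∃ Φ : Alg N →ₗ[ℂ] Alg M, ∀ x, ‖(Φ x).1 - x.1‖ ≤ C * δ * ‖x‖

/-- WP L. -/
def LStmt : Prop := ∃ C : ℝ, 1 ≤ C ∧ ∀ (H : Type u) [NormedAddCommGroup H]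
  [InnerProductSpace ℂ H] [CompleteSpace H] [SeparableSpace H] (M N : VonNeumannAlgebra H) (ξ : H)
  (Γ : Type u) [Group Γ] (G : ℕ → Finset Γ) (ρ σ : Γ →* (H →L[ℂ] H)) (e r : ℕ → H →L[ℂ] H) (δ : ℝ),
  SPos M ξ G ρ σ e r → SPos N ξ G ρ σ e r → P132.AllEq M → 0 < δ → C * δ ≤ 1 → Near M N δ →
  Near N M δ → ∃ Φ : Alg N →ₗ[ℂ] Alg M, ∀ x, ‖(Φ x).1 - x.1‖ ≤ C * δ * ‖x‖

end Vale.Agent.P096
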