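import Vale.Agent.P082.Final
import Vale.Agent.P096.Dist

/-! Interfaces for the perturbation theorem for finite factors. -/

namespace Vale.Agent.P096

open scoped InnerProductSpace ComplexOrder BigOperators
open Filter Topology Vale.Agent.P104 Vale.Agent.P082 Finset

universe u

/-- An increasing sequence of finite subgroups exhausting the group. -/
structure LocFin {Γ : Type*} [Group Γ] (G : ℕ → Finset Γ) : Prop where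
  one : ∀ k, 1 ∈ G k
  mul : ∀ k, ∀ g ∈ G k, ∀ h ∈ G k, g * h ∈ G k
  inv : ∀ k, ∀ g ∈ G k, g⁻¹ ∈ G k
  mono : Monotone G
  all : ∀ g, ∃ k, g ∈ G k

/-- The average of `f` over the finite set `s`. -/
noncomputable def av {Γ V : Type*} [AddCommGroup V] [Module ℂ V] (s : Finset Γ) (f : Γ → V) : V :=
  (s.card : ℂ)⁻¹ • ∑ g ∈ s, f g

section Std

variable {A B E Γ : Type*} [CStarAlgebra A] [CStarAlgebra B] [NormedAddCommGroup E]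
  [InnerProductSpace ℂ E] [CompleteSpace E] [Group Γ]

/-- The standard form of a tracial algebra. -/
structure StdB (L : B →⋆ₐ[ℂ] (E →L[ℂ] E)) (R : B →ₗ[ℂ] (E →L[ℂ] E)) (ξ : E) : Prop where
  R_one : R 1 = 1
  R_mul : ∀ a b, R (a * b) = R b * R a
  R_star : ∀ a, R (star a) = star (R a)
  R_norm : ∀ a, ‖R a‖ ≤ ‖a‖
  LR : ∀ a b, L a * R b = R b * L a
  cen : ∀ a, L a ξ = R a ξ
  unit : ‖ξ‖ = 1
  cyc : DenseRange fun b => L b ξ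
  Liso : ∀ b, ‖L b‖ = ‖b‖

/-- Two close algebras sharing an ergodic locally finite group. -/
structure Std (ρ : A →⋆ₐ[ℂ] (E →L[ℂ] E)) (L : B →⋆ₐ[ℂ] (E →L[ℂ] E)) (R : B →ₗ[ℂ] (E →L[ℂ] E))
    (ξ : E) (G : ℕ → Finset Γ) (ι : Γ →* B) (σ : Γ →* A) (γ : ℝ) : Prop extends StdB L R ξ where
  ρiso : ∀ a, ‖ρ a‖ = ‖a‖
  tr : ∀ a a', ⟪ξ, ρ (a * a') ξ⟫_ℂ = ⟪ξ, ρ (a' * a) ξ⟫_ℂ
  nearA : ∀ a, ∃ b, ‖b‖ ≤ ‖a‖ ∧ ‖ρ a - L b‖ ≤ γ * ‖a‖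
  nearB : ∀ b, ∃ a, ‖a‖ ≤ ‖b‖ ∧ ‖ρ a - L b‖ ≤ γ * ‖b‖
  lf : LocFin G
  ι_star : ∀ g, star (ι g) = ι g⁻¹
  σ_star : ∀ g, star (σ g) = σ g⁻¹
  eq : ∀ g, ρ (σ g) = L (ι g)
  comm : ∀ g a, ρ a * R (ι g) = R (ι g) * ρ a
  erg : ∀ (η : E) (ε : ℝ), 0 < ε → ∃ k,
    ‖av (G k) (fun g => L (ι g) (R (ι g⁻¹) η)) - ⟪ξ, η⟫_ℂ • ξ‖ ≤ ε
  pauli : ∃ (v : B) (X Z : Γ), star v * v + v * star v = 1 ∧ v * v = 0 ∧ ι X = v + star v ∧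
    ι Z = star v * v - v * star v

end Std

section VN

variable {H : Type u} [NormedAddCommGroup H] [InnerProductSpace ℂ H] [CompleteSpace H]

/-- A type II_1 factor: trivial centre, finite, without minimal projections. -/
structure IsII1 (M : VonNeumannAlgebra H) : Prop where
  factor : ∀ z ∈ M, (∀ x ∈ M, z * x = x * z) → ∃ c : ℂ, z = c • 1
  finite : ∀ v ∈ M, star v * v = 1 → v * star v = 1
  diffuse : ∀ e ∈ M, IsStarProjection e → e ≠ 0 →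
    ∃ f ∈ M, IsStarProjection f ∧ f ≠ 0 ∧ f ≠ e ∧ e * f = f

/-- Every element of `M` is close to an element of `N` of no larger norm. -/
def Near (M N : VonNeumannAlgebra H) (δ : ℝ) : Prop :=
  ∀ a ∈ M, ∃ b ∈ N, ‖b‖ ≤ ‖a‖ ∧ ‖a - b‖ ≤ δ * ‖a‖

/-- A factor with a faithful normal tracial state in which projections can be halved. -/
structure TrFac (M : VonNeumannAlgebra H) (τ : Alg M →ₗ[ℂ] ℂ) : Prop where
  fac : ∀ z : Alg M, (∀ x, z * x = x * z) → ∃ c : ℂ, z = c • 1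
  halv : HalvA (1 : Alg M)
  vec : VecF τ
  tr : ∀ x y, τ (x * y) = τ (y * x)
  pos : ∀ x, 0 ≤ τ (star x * x)
  one : τ 1 = 1
  faith : ∀ x, τ (star x * x) = 0 → x = 0

/-- The diagonal amplification. -/
noncomputable def amp (I : Type) [Fintype I] [DecidableEq I] (x : H →L[ℂ] H) :
    PiLp 2 (fun _ : I => H) →L[ℂ] PiLp 2 (fun _ : I => H) :=
  matOp fun i j : I => if i = j then x else 0

end VN

/-- WP Y1: a II_1 factor on a nonzero space has a trace. -/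
def TraceStmt : Prop := ∀ (H : Type u) [NormedAddCommGroup H] [InnerProductSpace ℂ H]
  [CompleteSpace H] [Nontrivial H] (M : VonNeumannAlgebra H), IsII1 M → ∃ τ, TrFac M τ

/-- WP Y2: the type is stable under small perturbations. -/
def TypeStmt : Prop := ∀ (H : Type u) [NormedAddCommGroup H] [InnerProductSpace ℂ H]
  [CompleteSpace H] (M N : VonNeumannAlgebra H) (δ : ℝ), 0 ≤ δ → δ ≤ 1 / 100 → IsII1 M →
  Near M N δ → Near N M δ → IsII1 N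

/-- WP P: an ergodic locally finite group of unitaries (irreducible hyperfinite subfactor). -/
def PopaStmt : Prop := ∀ (H : Type u) [NormedAddCommGroup H] [InnerProductSpace ℂ H]
  [CompleteSpace H] (N : VonNeumannAlgebra H) (E : Type u) [NormedAddCommGroup E]
  [InnerProductSpace ℂ E] [CompleteSpace E] [TopologicalSpace.SeparableSpace E]
  (τ : Alg N →ₗ[ℂ] ℂ) (Λ : Alg N →ₗ[ℂ] E), TrFac N τ → Tr τ Λ →
  ∃ (Γ : Type u) (_ : Group Γ) (G : ℕ → Finset Γ) (ι : Γ →* Alg N) (v : Alg N) (X Z : Γ),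
    LocFin G ∧ (∀ g, star (ι g) = ι g⁻¹) ∧ star v * v + v * star v = 1 ∧ v * v = 0 ∧
    ι X = v + star v ∧ ι Z = star v * v - v * star v ∧ ∀ (x : Alg N) (ε : ℝ), 0 < ε → ∃ k,
      ‖Λ (av (G k) (fun g => ι g * x * ι g⁻¹) - τ x • 1)‖ ≤ ε

/-- WP T: the standard form inside a finite amplification. -/
def FormStmt : Prop := ∀ (H : Type u) [NormedAddCommGroup H] [InnerProductSpace ℂ H]
  [CompleteSpace H] [TopologicalSpace.SeparableSpace H] (N : VonNeumannAlgebra H)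
  (τ : Alg N →ₗ[ℂ] ℂ), TrFac N τ →
  ∃ (I : Type) (_ : Fintype I) (_ : DecidableEq I) (E : Type u) (_ : NormedAddCommGroup E)
    (_ : InnerProductSpace ℂ E) (_ : CompleteSpace E) (_ : TopologicalSpace.SeparableSpace E)
    (V : E →L[ℂ] PiLp 2 (fun _ : I => H)) (L : Alg N →⋆ₐ[ℂ] (E →L[ℂ] E))
    (R : Alg N →ₗ[ℂ] (E →L[ℂ] E)) (ξ : E), StdB L R ξ ∧ (∀ η, ‖V η‖ = ‖η‖) ∧
    (∀ b η, amp I b.1 (V η) = V (L b η)) ∧ (∀ b, ⟪ξ, L b ξ⟫_ℂ = τ b) ∧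
    ∀ T : E →L[ℂ] E, (∀ b, T * R b = R b * T) → ∃ b, L b = T

/-- WP K1: Kazhdan stability for locally finite groups. -/
def KazStmt : Prop := ∀ (K : Type u) [NormedAddCommGroup K] [InnerProductSpace ℂ K]
  [CompleteSpace K] (P : VonNeumannAlgebra K) (Γ : Type u) [Group Γ] (G : ℕ → Finset Γ)
  (ρ : Γ →* (K →L[ℂ] K)) (δ : ℝ), LocFin G → (∀ g, star (ρ g) = ρ g⁻¹) → 0 ≤ δ → δ ≤ 1 / 1000 →
  (∀ g, ∃ x ∈ P, ‖ρ g - x‖ ≤ δ) → ∃ σ : Γ →* (K →L[ℂ] K), (∀ g, σ g ∈ P) ∧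
    (∀ g, star (σ g) = σ g⁻¹) ∧ ∀ g, ‖ρ g - σ g‖ ≤ 30 * δ

/-- WP K2: close unitary representations of a locally finite group are conjugate. -/
def ConjStmt : Prop := ∀ (K : Type u) [NormedAddCommGroup K] [InnerProductSpace ℂ K]
  [CompleteSpace K] (Γ : Type u) [Group Γ] (G : ℕ → Finset Γ) (ρ σ : Γ →* (K →L[ℂ] K)) (c : ℝ),
  LocFin G → (∀ g, star (ρ g) = ρ g⁻¹) → (∀ g, star (σ g) = σ g⁻¹) → 0 ≤ c → c ≤ 1 / 10 →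
  (∀ g, ‖ρ g - σ g‖ ≤ c) → ∃ u ∈ unitary (K →L[ℂ] K), ‖u - 1‖ ≤ 10 * c ∧
    ∀ g, u * σ g = ρ g * u

/-- WP I: reduction to the standard position. -/
def InitStmt : Prop := ∃ C : ℝ, 1 ≤ C ∧ ∀ (H : Type u) [NormedAddCommGroup H]
  [InnerProductSpace ℂ H] [CompleteSpace H] [TopologicalSpace.SeparableSpace H]
  (M N : VonNeumannAlgebra H) (τM : Alg M →ₗ[ℂ] ℂ) (τN : Alg N →ₗ[ℂ] ℂ) (δ : ℝ), 0 ≤ δ →
  C * δ ≤ 1 / 100 → TrFac M τM → TrFac N τN → Near M N δ → Near N M δ →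
  ∃ (E : Type u) (_ : NormedAddCommGroup E) (_ : InnerProductSpace ℂ E) (_ : CompleteSpace E)
    (Γ : Type u) (_ : Group Γ) (ρ : Alg M →⋆ₐ[ℂ] (E →L[ℂ] E)) (L : Alg N →⋆ₐ[ℂ] (E →L[ℂ] E))
    (R : Alg N →ₗ[ℂ] (E →L[ℂ] E)) (ξ : E) (G : ℕ → Finset Γ) (ι : Γ →* Alg N) (σ : Γ →* Alg M),
    Std ρ L R ξ G ι σ (C * δ) ∧ (∀ a b, ‖ρ a - L b‖ ≤ ‖a.1 - b.1‖ + C * δ * ‖a‖) ∧
    ∀ T : E →L[ℂ] E, (∀ b, T * R b = R b * T) → ∃ b, L b = T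

/-- WP M: the Newton iteration. -/
def MidStmt : Prop := ∃ C : ℝ, 1 ≤ C ∧ ∀ (A B E Γ : Type u) [CStarAlgebra A] [CStarAlgebra B]
  [NormedAddCommGroup E] [InnerProductSpace ℂ E] [CompleteSpace E] [Group Γ]
  (ρ : A →⋆ₐ[ℂ] (E →L[ℂ] E)) (L : B →⋆ₐ[ℂ] (E →L[ℂ] E)) (R : B →ₗ[ℂ] (E →L[ℂ] E)) (ξ : E)
  (G : ℕ → Finset Γ) (ι : Γ →* B) (σ : Γ →* A) (γ : ℝ), 0 < γ → C * γ ≤ 1 →
  Std ρ L R ξ G ι σ γ → ∃ W W' : E →L[ℂ] E, W * W' = 1 ∧ W' * W = 1 ∧ ‖W - 1‖ ≤ C * γ ∧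
    ‖W' - 1‖ ≤ C * γ ∧ ∀ a b, W * ρ a * W' * R b = R b * (W * ρ a * W')

/-- WP F: from a similarity in the standard position to a unitary on the original space. -/
def FinalStmt : Prop := ∃ C : ℝ, 1 ≤ C ∧ ∀ (H : Type u) [NormedAddCommGroup H]
  [InnerProductSpace ℂ H] [CompleteSpace H] (M N : VonNeumannAlgebra H) (E : Type u)
  [NormedAddCommGroup E] [InnerProductSpace ℂ E] [CompleteSpace E]
  (ρ : Alg M →⋆ₐ[ℂ] (E →L[ℂ] E)) (L : Alg N →⋆ₐ[ℂ] (E →L[ℂ] E)) (W W' : E →L[ℂ] E) (γ : ℝ),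
  0 ≤ γ → C * γ ≤ 1 → (∀ a, ‖ρ a‖ = ‖a‖) → (∀ b, ‖L b‖ = ‖b‖) → W * W' = 1 → W' * W = 1 →
  ‖W - 1‖ ≤ γ → ‖W' - 1‖ ≤ γ → (∀ a, ∃ b, L b = W * ρ a * W') → Near M N γ → Near N M γ →
  (∀ a b, ‖ρ a - L b‖ ≤ ‖a.1 - b.1‖ + γ * ‖a‖) →
  ∃ u ∈ unitary (H →L[ℂ] H), ‖u - 1‖ ≤ C * γ ∧
    (fun x => u * x * star u) '' (M : Set (H →L[ℂ] H)) = N

/-- WP G: a bimodular map with small norm is small for the trace norm. -/
def GrothStmt : Prop := ∀ (A B E Γ : Type u) [CStarAlgebra A] [CStarAlgebra B]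
  [NormedAddCommGroup E] [InnerProductSpace ℂ E] [CompleteSpace E] [Group Γ]
  (ρ : A →⋆ₐ[ℂ] (E →L[ℂ] E)) (L : B →⋆ₐ[ℂ] (E →L[ℂ] E)) (R : B →ₗ[ℂ] (E →L[ℂ] E)) (ξ : E)
  (G : ℕ → Finset Γ) (ι : Γ →* B) (σ : Γ →* A) (γ : ℝ), Std ρ L R ξ G ι σ γ →
  ∀ (D : A →ₗ[ℂ] E) (c C₀ : ℝ), 0 ≤ c → (∀ a, ‖D a‖ ≤ c * ‖a‖) → (∀ a, ‖D a‖ ≤ C₀ * ‖ρ a ξ‖) →
  (∀ g h a, ‖D (σ g * a * σ h)‖ = ‖D a‖) → ∀ a, ‖D a‖ ≤ 2 * c * ‖ρ a ξ‖

end Vale.Agent.P096
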