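import Vale.Agent.P096.Loc
import Vale.Agent.P096.Defs3

/-! The final form of the theorem for semifinite algebras. -/

namespace Vale.Agent.P096

open Vale.Agent.P104 Vale.Agent.P082

universe u

theorem top (hG : GoodStmt.{u}) (hU : UStmt.{u}) (hN : NewtonStmt.{u}) (ε : ℝ) (hε : 0 < ε) :
    ∃ δ : ℝ, 0 < δ ∧ ∀ (H : Type u) [NormedAddCommGroup H] [InnerProductSpace ℂ H]
      [CompleteSpace H] (M N : VonNeumannAlgebra H), IsSemifinite M → kkDist M N < δ →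
      ∃ u ∈ unitary (H →L[ℂ] H), ‖u - 1‖ < ε ∧
        (fun x => u * x * star u) '' (M : Set (H →L[ℂ] H)) = N := by
  obtain ⟨C, c1, hC⟩ := kk_all hG hU hN
  obtain ⟨δ, d0, h⟩ := KK.eps.{u} c1 hε
  refine ⟨δ, d0, fun H _ _ _ M N h1 d => h H M N (hC H M fun z hz hp hc z0 => ?_) d⟩
  obtain ⟨e, ⟨e1, e2, e3⟩, e0, e4⟩ := h1 z hz hp hc z0
  refine ⟨e, e1, e2, e0, e4, fun v hv v1 v2 => e3 v hv v1 ?_⟩
  have := pi_of_init (v1 ▸ e2 : IsStarProjection (star v * v))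
  rw [← this, ← mul_assoc, v2]

end Vale.Agent.P096
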