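import Vale.Agent.P096.Loc
import Vale.Agent.P082.Cut1

/-! Trace vectors for bicommutants: density with norm control. -/

namespace Vale.Agent.P096

open scoped InnerProductSpace ComplexOrder BigOperators
open Filter Topology Vale.Agent.P104 Vale.Agent.P082 Finset ContinuousLinearMap

universe u

section Alg

variable {B : Type*} [CStarAlgebra B]

theorem exists_cut3 [PartialOrder B] [StarOrderedRing B] (n : B) {c : ℝ} (hc : 0 < c) :
    ∃ z : B, ‖z‖ ≤ 1 ∧ star (((2 * c : ℝ) : ℂ) • z) * (((2 * c : ℝ) : ℂ) • z) ≤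
      star (n * z) * (n * z) ∧ ‖n * (1 - z)‖ ≤ 3 * c := by
  obtain ⟨φ, φc, φ0, φ1, φa, φb⟩ : ∃ φ : ℝ → ℝ, Continuous φ ∧ (∀ s, 0 ≤ φ s) ∧ (∀ s, φ s ≤ 1) ∧
      (∀ s, s ≤ 4 * c ^ 2 → φ s = 0) ∧ ∀ s, 9 * c ^ 2 ≤ s → φ s = 1 := by
    have c5 : 0 < 5 * c ^ 2 := by positivity
    refine ⟨fun s => max 0 (min 1 ((s - 4 * c ^ 2) / (5 * c ^ 2))), by fun_prop,
      fun s => le_max_left _ _, fun s => max_le zero_le_one (min_le_left _ _), fun s hs =>
      max_eq_left (min_le_of_right_le (div_nonpos_of_nonpos_of_nonneg (by linarith) c5.le)),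
      fun s hs => ?_⟩
    have : 1 ≤ (s - 4 * c ^ 2) / (5 * c ^ 2) := by rw [le_div_iff₀ c5]; linarith
    simp only [min_eq_left this, max_eq_right zero_le_one]
  obtain ⟨a, ha⟩ : ∃ a, a = star n * n := ⟨_, rfl⟩
  have a0 : 0 ≤ a := ha ▸ star_mul_self_nonneg n
  have as : IsSelfAdjoint a := a0.isSelfAdjoint
  obtain ⟨z, hz⟩ : ∃ z, z = cfc φ a := ⟨_, rfl⟩
  have zs : star z = z := hz ▸ cfc_predicate φ a
  have z1 : ‖z‖ ≤ 1 := hz ▸ norm_cfc_le zero_le_one fun s _ => by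
    rw [Real.norm_of_nonneg (φ0 s)]; exact φ1 s
  have k : ∀ f : ℝ → ℝ, Continuous f → cfc f a * a * cfc f a = cfc (fun s => f s * s * f s) a :=
    fun f hf => by rw [cfc_mul _ _ a, cfc_mul _ _ a, cfc_id' ℝ a]
  refine ⟨z, z1, ?_, ?_⟩
  · have e : star (((2 * c : ℝ) : ℂ) • z) * (((2 * c : ℝ) : ℂ) • z) =
        cfc (fun s => (2 * c * φ s) * (2 * c * φ s)) a := by
      rw [cfc_mul _ _ a, cfc_const_mul _ _ a, ← hz, Complex.coe_smul, star_smul, zs, star_trivial]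
    rw [e, star_mul, zs, mul_assoc, ← mul_assoc (star n), ← ha, ← mul_assoc, hz, k φ φc]
    refine cfc_mono (fun s _ => ?_) (by fun_prop) (by fun_prop)
    rcases le_total s (4 * c ^ 2) with hs | hs
    · simp [φa s hs]
    · nlinarith [mul_nonneg (sub_nonneg.2 hs) (mul_self_nonneg (φ s))]
  · have e : 1 - z = cfc (fun s => 1 - φ s) a := by
      rw [cfc_sub _ _ a, cfc_const_one ℝ a, hz]
    refine le_of_sq_le (by positivity) ?_
    rw [sq, ← CStarRing.norm_star_mul_self, star_mul, star_sub, star_one, zs, mul_assoc,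
      ← mul_assoc (star n), ← ha, ← mul_assoc, e, k _ (by fun_prop)]
    refine norm_cfc_le (by positivity) fun s hs => ?_
    have s0 : 0 ≤ s := spectrum_nonneg_of_nonneg a0 hs
    have := φ0 s
    have := φ1 s
    rw [Real.norm_of_nonneg (by positivity)]
    rcases le_total (9 * c ^ 2) s with hs | hs
    · rw [φb s hs]; nlinarith
    · have : (1 - φ s) * (1 - φ s) ≤ 1 := by nlinarith
      nlinarith

theorem exists_kr {a : B} (ha : IsSelfAdjoint a) : ∃ s s' g₁ g₂ : B, star s = s ∧ star s' = s' ∧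
    s * s + s' * s' = 1 ∧ g₁ * a = s ∧ g₁ + g₂ * a - g₂ = 1 ∧ s' + s * a = 1 ∧
    s' = g₂ - g₂ * a ∧ ‖g₁‖ ≤ 2 ∧ ‖g₂‖ ≤ 2 ∧ ‖s‖ ≤ 1 ∧ ‖s'‖ ≤ 1 := by
  have p : ∀ t : ℝ, 0 < 1 + t ^ 2 := fun t => by positivity
  have p' : ∀ t : ℝ, 1 + t ^ 2 ≠ 0 := fun t => (p t).ne'
  have c : ∀ f : ℝ → ℝ, Continuous f → Continuous fun t => f t / (1 + t ^ 2) := fun f hf =>
    hf.div (by fun_prop) p'
  have c1 := c (fun t => 2 * t) (by fun_prop)
  have c2 := c (fun t => 1 - t ^ 2) (by fun_prop)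
  have c3 := c (fun _ => 2) (by fun_prop)
  have c4 := c (fun t => 1 + t) (by fun_prop)
  have k : ∀ f : ℝ → ℝ, Continuous f → cfc f a * a = cfc (fun s => f s * s) a :=
    fun f hf => by rw [cfc_mul _ _ a, cfc_id' ℝ a]
  have n : ∀ (f : ℝ → ℝ) (r : ℝ), 0 ≤ r → (∀ t, |f t| ≤ r * (1 + t ^ 2)) →
      ‖cfc (fun t => f t / (1 + t ^ 2)) a‖ ≤ r := fun f r hr hf => norm_cfc_le hr fun t _ => by
    rw [Real.norm_eq_abs, abs_div, abs_of_pos (p t), div_le_iff₀ (p t)]; exact hf t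
  refine ⟨cfc (fun t : ℝ => 2 * t / (1 + t ^ 2)) a, cfc (fun t : ℝ => (1 - t ^ 2) / (1 + t ^ 2)) a,
    cfc (fun t : ℝ => 2 / (1 + t ^ 2)) a, cfc (fun t : ℝ => (1 + t) / (1 + t ^ 2)) a,
    IsSelfAdjoint.cfc.star_eq, IsSelfAdjoint.cfc.star_eq, ?_, ?_, ?_, ?_, ?_,
    n _ _ (by norm_num) fun t => abs_le.2 ⟨by nlinarith, by nlinarith⟩,
    n _ _ (by norm_num) fun t => abs_le.2 ⟨by nlinarith, by nlinarith⟩,
    n _ _ (by norm_num) fun t => abs_le.2
      ⟨by nlinarith [sq_nonneg (t + 1)], by nlinarith [sq_nonneg (t - 1)]⟩,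
    n _ _ (by norm_num) fun t => abs_le.2 ⟨by nlinarith, by nlinarith⟩⟩
  · rw [← cfc_mul _ _ a, ← cfc_mul _ _ a, ← cfc_add (a := a) _ _, ← cfc_const_one ℝ a]
    exact cfc_congr fun t _ => by have := p' t; field_simp; ring
  · rw [k _ c3]
    exact cfc_congr fun t _ => by have := p' t; field_simp
  · rw [k _ c4, ← cfc_add (a := a) _ _, ← cfc_sub _ _ a, ← cfc_const_one ℝ a]
    exact cfc_congr fun t _ => by have := p' t; field_simp; ring
  · rw [k _ c1, ← cfc_add (a := a) _ _, ← cfc_const_one ℝ a]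
    exact cfc_congr fun t _ => by have := p' t; field_simp; ring
  · rw [k _ c4, ← cfc_sub _ _ a]
    exact cfc_congr fun t _ => by have := p' t; field_simp; ring

theorem kraus_le {s s' d d' : B} {r : ℝ} (h1 : star s = s) (h2 : star s' = s')
    (h : s * s + s' * s' = 1) (hd : ‖d‖ ≤ r) (hd' : ‖d'‖ ≤ r) : ‖s * d * s + s' * d' * s'‖ ≤ r := by
  letI := CStarAlgebra.spectralOrder B
  letI := CStarAlgebra.spectralOrderedRing B
  have r0 := (norm_nonneg _).trans hd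
  obtain ⟨x, hx⟩ : ∃ x, x = s * d * s + s' * d' * s' := ⟨_, rfl⟩
  have xs : star x = s * star d * s + s' * star d' * s' := by simp [hx, h1, h2, mul_assoc]
  have k : ∀ s d : B, star s = s → ‖d‖ ≤ r → s * (star d * d) * s ≤ r ^ 2 • (s * s) :=
    fun s d hs hd => by
      have := star_left_conjugate_le_conjugate (CStarAlgebra.star_mul_le_algebraMap_norm_sq
        (a := d)) s
      rw [hs, Algebra.algebraMap_eq_smul_one, mul_smul_comm, smul_mul_assoc, mul_one] at this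
      refine this.trans (smul_le_smul_of_nonneg_right (by gcongr) ?_)
      simpa [hs] using star_mul_self_nonneg s
  have e : star (d * s - s * x) * (d * s - s * x) + star (d' * s' - s' * x) * (d' * s' - s' * x) =
      s * (star d * d) * s + s' * (star d' * d') * s' - star x * x := by
    have : star (d * s - s * x) * (d * s - s * x) + star (d' * s' - s' * x) * (d' * s' - s' * x) =
        s * (star d * d) * s + s' * (star d' * d') * s' - (s * star d * s + s' * star d' * s') * x -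
        star x * (s * d * s + s' * d' * s') + star x * (s * s + s' * s') * x := by
      simp only [star_sub, star_mul, h1, h2]
      noncomm_ring
    rw [this, ← xs, ← hx, h, mul_one]
    abel
  have e2 : star x * x ≤ algebraMap ℝ B (r ^ 2) := by
    have := add_nonneg (star_mul_self_nonneg (d * s - s * x)) (star_mul_self_nonneg (d' * s' - s' * x))
    rw [e, sub_nonneg] at this
    refine this.trans ((add_le_add (k s d h1 hd) (k s' d' h2 hd')).trans_eq ?_)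
    rw [← smul_add, h, Algebra.algebraMap_eq_smul_one]
  rw [← hx]
  refine le_of_sq_le r0 ?_
  rw [sq, ← CStarRing.norm_star_mul_self]
  exact (CStarAlgebra.norm_le_iff_le_algebraMap _ (by positivity) (star_mul_self_nonneg x)).2 e2

theorem pos_of_norm (g : B →L[ℂ] ℂ) (h : ‖g‖ ≤ 1) (h1 : g 1 = 1) (a : B) :
    0 ≤ g (star a * a) := by
  letI := CStarAlgebra.spectralOrder B
  letI := CStarAlgebra.spectralOrderedRing B
  have gl : ∀ z, ‖g z‖ ≤ ‖z‖ := fun z => (g.le_of_opNorm_le h z).trans_eq (one_mul _)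
  refine Complex.nonneg_iff.2 ⟨Cut.pos_of_ball (Complex.reCLM ∘L g.restrictScalars ℝ) (fun z hz => ?_) _
    (star_mul_self_nonneg a), ?_⟩
  · change (g z).re < (g 1).re
    rw [h1]
    exact ((Complex.re_le_norm _).trans (gl z)).trans_lt hz
  obtain ⟨p, hp⟩ : ∃ p, p = star a * a := ⟨_, rfl⟩
  have ps : star p = p := by simp [hp]
  rw [← hp]
  have k : ∀ t : ℝ, ((g p).im + t) ^ 2 ≤ ‖p‖ ^ 2 + t ^ 2 := fun t => by
    have a1 := gl (p + (t * Complex.I) • 1)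
    have a2 := Complex.abs_im_le_norm (g (p + (t * Complex.I) • 1))
    have a3 : star (p + (t * Complex.I) • 1) * (p + (t * Complex.I) • 1) =
        p * p + ((t ^ 2 : ℝ) : ℂ) • (1 : B) := by
      simp only [star_add, ps, star_smul, star_one, mul_add, add_mul, mul_smul_comm,
        smul_mul_assoc, mul_one, one_mul, smul_smul, smul_add]
      rw [add_assoc, ← add_assoc (_ • p), ← add_smul]
      simp only [star_mul', Complex.star_def, Complex.conj_ofReal, Complex.conj_I, mul_neg,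
        neg_add_cancel, zero_smul, zero_add]
      congr 2
      push_cast
      linear_combination (-(t : ℂ) ^ 2) * Complex.I_mul_I
    have a4 : ‖p + (t * Complex.I) • (1 : B)‖ ^ 2 ≤ ‖p‖ ^ 2 + t ^ 2 := by
      rw [sq, ← CStarRing.norm_star_mul_self, a3]
      refine (norm_add_le _ _).trans (add_le_add ((norm_mul_le _ _).trans_eq (sq _).symm) ?_)
      rw [norm_smul, Complex.norm_real, Real.norm_of_nonneg (sq_nonneg t)]
      exact mul_le_of_le_one_right (sq_nonneg t) one_le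
    rw [map_add, map_smul, h1] at a1 a2
    simp only [smul_eq_mul, mul_one, Complex.add_im, Complex.mul_im, Complex.ofReal_re,
      Complex.I_im, Complex.ofReal_im, Complex.I_re, mul_zero, add_zero] at a1 a2
    exact (sq_le_sq' (abs_le.1 (a2.trans a1)).1 (abs_le.1 (a2.trans a1)).2).trans a4
  by_contra c
  have := k ((‖p‖ ^ 2 + 1) / (2 * (g p).im))
  have e : 2 * (g p).im * ((‖p‖ ^ 2 + 1) / (2 * (g p).im)) = ‖p‖ ^ 2 + 1 :=
    mul_div_cancel₀ _ (mul_ne_zero two_ne_zero (Ne.symm c))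
  nlinarith [sq_nonneg (g p).im]

end Alg

variable {B K : Type u} [CStarAlgebra B] [NormedAddCommGroup K] [InnerProductSpace ℂ K]
  [CompleteSpace K] {ρ : B →⋆ₐ[ℂ] (K →L[ℂ] K)} {ζ : K}

/-- The commutant of a representation. -/
noncomputable def com (ρ : B →⋆ₐ[ℂ] (K →L[ℂ] K)) : VonNeumannAlgebra K :=
  ⟨StarSubalgebra.centralizer ℂ (Set.range ρ), by simp⟩

theorem mem_com {T : K →L[ℂ] K} : T ∈ com ρ ↔ ∀ a, ρ a * T = T * ρ a := by
  change T ∈ StarSubalgebra.centralizer ℂ (Set.range ρ) ↔ _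
  rw [StarSubalgebra.mem_centralizer_iff]
  exact ⟨fun h a => (h _ ⟨a, rfl⟩).1, by
    rintro h _ ⟨a, rfl⟩
    exact ⟨h a, map_star ρ a ▸ h _⟩⟩

theorem mem_bic (b : B) : ρ b ∈ (com ρ).commutant :=
  VonNeumannAlgebra.mem_commutant_iff.2 fun _ hy => (mem_com.1 hy b).symm

theorem bic_dense {x : K →L[ℂ] K} (hx : x ∈ (com ρ).commutant) {ι : Type} [Fintype ι]
    (u v : ι → K) (h : ∀ a, ∑ i, ⟪u i, ρ a (v i)⟫_ℂ = 0) : ∑ i, ⟪u i, x (v i)⟫_ℂ = 0 :=
  bicomm_dense ρ (fun y hy => VonNeumannAlgebra.mem_commutant_iff.1 hx y (mem_com.2 hy)) u v h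

/-- A trace vector. -/
def TV (Q : VonNeumannAlgebra K) (ζ : K) : Prop :=
  ∀ x ∈ Q, ∀ y ∈ Q, ⟪ζ, (x * y) ζ⟫_ℂ = ⟪ζ, (y * x) ζ⟫_ℂ

theorem tv_bic (h : ∀ a b, ⟪ζ, ρ (a * b) ζ⟫_ℂ = ⟪ζ, ρ (b * a) ζ⟫_ℂ) :
    TV (com ρ).commutant ζ := by
  have k : ∀ y : K →L[ℂ] K, (∀ a, ⟪ζ, (ρ a * y) ζ⟫_ℂ = ⟪ζ, (y * ρ a) ζ⟫_ℂ) →
      ∀ x ∈ (com ρ).commutant, ⟪ζ, (x * y) ζ⟫_ℂ = ⟪ζ, (y * x) ζ⟫_ℂ := fun y hy x hx => by
    have := bic_dense hx ![ζ, -star y ζ] ![y ζ, ζ] fun a => by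
      simpa [inner_star_left, add_neg_eq_zero] using hy a
    simpa [inner_star_left, add_neg_eq_zero] using this
  exact fun x hx y hy => k y (fun a => (k (ρ a) (fun b => by
    rw [← map_mul, ← map_mul, h]) y hy).symm) x hx

theorem TV.star_eq {Q : VonNeumannAlgebra K} (h : TV Q ζ) {x : K →L[ℂ] K} (hx : x ∈ Q) :
    ‖star x ζ‖ = ‖x ζ‖ := by
  rw [← sq_eq_sq₀ (norm_nonneg _) (norm_nonneg _), norm_sq_apply, norm_sq_apply, star_star,
    h _ hx _ (star_mem hx)]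

theorem TV.rle {Q : VonNeumannAlgebra K} (h : TV Q ζ) {x y : K →L[ℂ] K} (hx : x ∈ Q)
    (hy : y ∈ Q) : ‖x (y ζ)‖ ≤ ‖y‖ * ‖x ζ‖ := by
  rw [← mul_apply_eq_comp, ← h.star_eq (mul_mem hx hy), star_mul, ← h.star_eq hx, ← norm_star y,
    mul_apply_eq_comp]
  exact (star y).le_opNorm _

theorem bic_approx {x : K →L[ℂ] K} (hx : x ∈ (com ρ).commutant) {e : ℝ} (he : 0 < e) :
    ∃ b, ‖x ζ - ρ b ζ‖ < e := by
  have : x ζ ∈ (LinearMap.range (evalAt (ρ : B →ₐ[ℂ] (K →L[ℂ] K)) ζ)).topologicalClosure := by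
    rw [← Submodule.orthogonal_orthogonal_eq_closure]
    intro u hu
    simpa using bic_dense hx (fun _ : Unit => u) (fun _ => ζ) fun a => by
      simpa using (Submodule.mem_orthogonal' _ _).1 hu _ ⟨a, rfl⟩
  obtain ⟨_, ⟨b, rfl⟩, hb⟩ := Metric.mem_closure_iff.1 this e he
  exact ⟨b, by rwa [dist_eq_norm] at hb⟩

theorem TV.kap (h : TV (com ρ).commutant ζ) {T : K →L[ℂ] K} (hT : T ∈ (com ρ).commutant)
    {e : ℝ} (he : 0 < e) : ∃ n, ‖n‖ ≤ 3 * ‖T‖ ∧ ‖T ζ - ρ n ζ‖ ≤ e := by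
  letI := CStarAlgebra.spectralOrder B
  letI := CStarAlgebra.spectralOrderedRing B
  rcases eq_or_ne T 0 with rfl | T0
  · exact ⟨0, by simp, by simpa using he.le⟩
  have hc := norm_pos_iff.2 T0
  obtain ⟨n, hn⟩ := bic_approx (ζ := ζ) hT (show 0 < e / 3 by positivity)
  obtain ⟨z, z1, e1, e2⟩ := exists_cut3 n hc
  have e3 := L_sq_le (L := ρ) e1 ζ
  rw [map_smul, smul_apply, norm_smul, Complex.norm_real, Real.norm_of_nonneg (by positivity)] at e3
  have e4 : ρ (n * z) ζ = T (ρ z ζ) - (T - ρ n) (ρ z ζ) := by simp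
  have e5 := h.rle (sub_mem hT (mem_bic n)) (mem_bic z)
  have e6 := mul_le_of_le_one_left (norm_nonneg ((T - ρ n) ζ))
    ((NonUnitalStarAlgHom.norm_apply_le ρ z).trans z1)
  have e7 := norm_sub_le (T (ρ z ζ)) ((T - ρ n) (ρ z ζ))
  have e8 := T.le_opNorm (ρ z ζ)
  refine ⟨n * (1 - z), e2, ?_⟩
  rw [show T ζ - ρ (n * (1 - z)) ζ = (T ζ - ρ n ζ) + ρ (n * z) ζ by
    rw [mul_sub, mul_one, map_sub, sub_apply]; abel]
  rw [← e4] at e7
  rw [sub_apply T (ρ n) ζ] at e5 e6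
  refine (norm_add_le _ _).trans ?_
  linarith

theorem TV.kraus (h : TV (com ρ).commutant ζ) {c : K →L[ℂ] K} (hc : c ∈ (com ρ).commutant)
    (hp : IsStarProjection c) (hz : ∀ x ∈ (com ρ).commutant, c * x = x * c) {e : ℝ}
    (he : 0 < e) : ∃ s s' : B, star s = s ∧ star s' = s' ∧ s * s + s' * s' = 1 ∧ ‖s‖ ≤ 1 ∧
      ‖s'‖ ≤ 1 ∧ ‖(ρ s - c) ζ‖ ≤ e ∧ ‖(ρ s' - (1 - c)) ζ‖ ≤ e := by
  obtain ⟨b, hb⟩ := bic_approx (ζ := ζ) hc (show 0 < e / 4 by positivity)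
  have hb' := h.star_eq (sub_mem hc (mem_bic b))
  rw [star_sub, hp.isSelfAdjoint.star_eq, ← map_star, sub_apply c (ρ b)] at hb'
  obtain ⟨a, as, ha⟩ : ∃ a : B, IsSelfAdjoint a ∧ ‖(ρ a - c) ζ‖ ≤ e / 4 := by
    refine ⟨(2⁻¹ : ℂ) • (b + star b), by simp [IsSelfAdjoint, add_comm], ?_⟩
    rw [show (ρ ((2⁻¹ : ℂ) • (b + star b)) - c) ζ =
      (-2⁻¹ : ℂ) • ((c ζ - ρ b ζ) + (c - ρ (star b)) ζ) by
        simp only [map_smul, map_add, sub_apply, smul_apply, add_apply]; module, norm_smul]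
    have := norm_add_le (c ζ - ρ b ζ) ((c - ρ (star b)) ζ)
    rw [norm_neg, norm_inv, Complex.norm_ofNat]
    linarith
  obtain ⟨s, s', g₁, g₂, a1, a2, a3, a4, a5, a6, a7, a8, a9, a10, a11⟩ := exists_kr as
  have n : ∀ {b : B} {r : ℝ}, ‖b‖ ≤ r → ‖ρ b‖ ≤ r := fun k =>
    (NonUnitalStarAlgHom.norm_apply_le ρ _).trans k
  have c1 := hp.norm_le
  have c2 := hp.one_sub.norm_le
  have ca := hz _ (mem_bic a)
  have cc := hp.isIdempotentElem.eq
  have m : ∀ {x y : K →L[ℂ] K} {r : ℝ}, ‖x‖ ≤ r → ‖y‖ ≤ 1 → ‖x * y‖ ≤ r := fun k k' =>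
    (norm_mul_le _ _).trans ((mul_le_of_le_one_right (norm_nonneg _) k').trans k)
  refine ⟨s, s', a1, a2, a3, a10, a11, ?_, ?_⟩
  · have : ρ s - c = (ρ g₁ - ρ g₂ * c) * (ρ a - c) := by
      have e : (ρ g₁ - ρ g₂ * c) * (ρ a - c) = ρ g₁ * ρ a - (ρ g₁ * c + ρ g₂ * (c * ρ a) -
        ρ g₂ * (c * c)) := by noncomm_ring
      rw [e, ca, cc, ← mul_assoc, ← add_mul, ← sub_mul, ← map_mul, ← map_mul, ← map_add, ← map_sub,
        a4, a5, map_one, one_mul]
    rw [this, mul_apply_eq_comp]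
    refine (le_of_opNorm_le _ ((norm_sub_le _ _).trans (add_le_add (n a8) (m (n a9) c1))) _).trans ?_
    linarith
  · have : ρ s' - (1 - c) = -(ρ g₂ * c + ρ s * (1 - c)) * (ρ a - c) := by
      have e : -(ρ g₂ * c + ρ s * (1 - c)) * (ρ a - c) = ρ g₂ * (c * c) - ρ g₂ * (c * ρ a) -
        ρ s * ρ a + ρ s * (c * ρ a) + ρ s * (c - c * c) := by noncomm_ring
      have e1 : ρ s * ρ a = 1 - ρ s' := by rw [← map_mul, ← map_one ρ, ← a6, map_add]; abel
      rw [e, ca, cc, sub_self, mul_zero, add_zero, ← mul_assoc, ← mul_assoc, ← sub_mul, ← map_mul,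
        ← map_sub, ← a7, e1]
      noncomm_ring
    rw [this, mul_apply_eq_comp]
    refine (le_of_opNorm_le _ ((norm_neg _).trans_le ((norm_add_le _ _).trans
      (add_le_add (m (n a9) c1) (m (n a10) c2)))) _).trans ?_
    linarith [norm_nonneg ((ρ a - c) ζ)]

end Vale.Agent.P096
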