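import Vale.Agent.P096.X0

/-! Extreme points and gluing along central projections. -/

namespace Vale.Agent.P096

open scoped InnerProductSpace ComplexOrder BigOperators
open Filter Topology Vale.Agent.P104 Vale.Agent.P082 Finset ContinuousLinearMap

universe u

theorem exists_rep {D : Type u} [CStarAlgebra D] (g : D →ₗ[ℂ] ℂ)
    (pos : ∀ x, 0 ≤ g (star x * x)) :
    ∃ (K : Type u) (_ : NormedAddCommGroup K) (_ : InnerProductSpace ℂ K) (_ : CompleteSpace K)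
      (π : D →⋆ₐ[ℂ] (K →L[ℂ] K)) (ζ : K), (∀ a, g a = ⟪ζ, π a ζ⟫_ℂ) ∧
        DenseRange fun a => π a ζ := by
  letI := CStarAlgebra.spectralOrder D
  letI := CStarAlgebra.spectralOrderedRing D
  let φ : D →ₚ[ℂ] ℂ := .mk₀ g fun y hy => by
    obtain ⟨s, rfl⟩ := CStarAlgebra.nonneg_iff_eq_star_mul_self.1 hy
    exact pos s
  have k : ∀ a, φ.gnsStarAlgHom a (φ.toPreGNS 1 : φ.GNS) = (φ.toPreGNS a : φ.GNS) := fun a => by
    have : φ.gnsStarAlgHom a (φ.toPreGNS 1 : φ.GNS) = (φ.toPreGNS (a * 1) : φ.GNS) :=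
      φ.gnsNonUnitalStarAlgHom_apply_coe
    rw [this, mul_one]
  refine ⟨φ.GNS, inferInstance, inferInstance, inferInstance, φ.gnsStarAlgHom,
    (φ.toPreGNS 1 : φ.GNS), fun a => ?_, ?_⟩
  · rw [k, UniformSpace.Completion.inner_coe, φ.preGNS_inner_def]
    simp only [PositiveLinearMap.ofPreGNS_toPreGNS, star_one, one_mul]
    rfl
  · simp only [k]
    exact UniformSpace.Completion.denseRange_coe (α := φ.PreGNS)

theorem exists_ext_max {V Y : Type*} [AddCommGroup V] [Module ℝ V] [TopologicalSpace V]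
    [T2Space V] [IsTopologicalAddGroup V] [ContinuousSMul ℝ V] [LocallyConvexSpace ℝ V]
    {T : Set V} (hT : IsCompact T) (φ : Y → V → ℝ) (hφ : ∀ y, Continuous (φ y)) (y0 : Y) {η : ℝ}
    {f0 : V} (h0 : f0 ∈ T) (h : ∀ y, η ≤ φ y f0) :
    ∃ s, η ≤ s ∧ (∀ s', s < s' → ∀ g ∈ T, ∃ y, φ y g < s') ∧
      ({f ∈ T | ∀ y, s ≤ φ y f}.extremePoints ℝ).Nonempty := by
  have cl : ∀ s, IsClosed {f ∈ T | ∀ y, s ≤ φ y f} := fun s => by
    simp only [Set.setOf_and, Set.setOf_forall]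
    exact hT.isClosed.inter (isClosed_iInter fun y => isClosed_le continuous_const (hφ y))
  have cp : ∀ s, IsCompact {f ∈ T | ∀ y, s ≤ φ y f} := fun s =>
    hT.of_isClosed_subset (cl s) fun _ h => h.1
  obtain ⟨S, hS⟩ : ∃ S : Set ℝ, ∀ s, s ∈ S ↔ {f ∈ T | ∀ y, s ≤ φ y f}.Nonempty :=
    ⟨{s | _}, fun _ => Iff.rfl⟩
  have e : η ∈ S := (hS _).2 ⟨f0, h0, h⟩
  have bd : BddAbove S := by
    obtain ⟨m, hm⟩ := hT.bddAbove_image (hφ y0).continuousOn
    refine ⟨m, fun s hs => ?_⟩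
    obtain ⟨f, f1, f2⟩ := (hS _).1 hs
    exact (f2 y0).trans (hm ⟨f, f1, rfl⟩)
  refine ⟨sSup S, le_csSup bd e, fun s' hs g hg => ?_, (cp _).extremePoints_nonempty ?_⟩
  · by_contra! c
    exact hs.not_ge (le_csSup bd ((hS _).2 ⟨g, hg, c⟩))
  haveI : Nonempty S := ⟨⟨η, e⟩⟩
  obtain ⟨f, hf⟩ := IsCompact.nonempty_iInter_of_directed_nonempty_isCompact_isClosed
    (fun s : S => {f ∈ T | ∀ y, s.1 ≤ φ y f}) (directed_of_isDirected_le (α := S)
      fun a b hab f hf => ⟨hf.1, fun y => le_trans hab (hf.2 y)⟩)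
    (fun s => (hS _).1 s.2) (fun s => cp _) fun s => cl _
  rw [Set.mem_iInter] at hf
  exact ⟨f, (hf ⟨η, e⟩).1, fun y => csSup_le ⟨η, e⟩ fun s hs => (hf ⟨s, hs⟩).2 y⟩

theorem arith {Y : Type*} {a b : Y → ℝ} {s t t' : ℝ} (ht : 0 < t) (ht' : 0 < t')
    (h1 : t + t' = 1) (hg : ∀ y z, s ≤ a y + b z) (hm : ∀ s', s < s' → ∃ z, t'⁻¹ * b z < s')
    (y : Y) : s ≤ t⁻¹ * a y := by
  by_contra! c
  rw [inv_mul_lt_iff₀ ht] at c
  obtain ⟨z, hz⟩ := hm (t'⁻¹ * (s - a y)) (by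
    rw [lt_inv_mul_iff₀ ht', show t' = 1 - t by linarith]; linarith)
  have := lt_of_mul_lt_mul_left hz (inv_nonneg.2 ht'.le)
  linarith [hg y z]

/-- The tracial states. -/
def Tst (B : Type*) [CStarAlgebra B] : Set (B → ℂ) :=
  {f | (∀ a b, f (a + b) = f a + f b) ∧ (∀ (z : ℂ) a, f (z • a) = z * f a) ∧
    (∀ a, ‖f a‖ ≤ ‖a‖) ∧ f 1 = 1 ∧ ∀ a b, f (a * b) = f (b * a)}

theorem tst_compact (B : Type*) [CStarAlgebra B] : IsCompact (Tst B) := by
  refine (isCompact_univ_pi fun b : B => isCompact_closedBall (0 : ℂ) ‖b‖).of_isClosed_subset ?_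
    fun f hf b _ => mem_closedBall_zero_iff.2 (hf.2.2.1 b)
  simp only [Tst, Set.setOf_and, Set.setOf_forall]
  refine .inter ?_ (.inter ?_ (.inter ?_ (.inter (isClosed_eq (by fun_prop) (by fun_prop)) ?_)))
  · exact isClosed_iInter fun _ => isClosed_iInter fun _ => isClosed_eq (by fun_prop) (by fun_prop)
  · exact isClosed_iInter fun _ => isClosed_iInter fun _ => isClosed_eq (by fun_prop) (by fun_prop)
  · exact isClosed_iInter fun _ => isClosed_le (by fun_prop) (by fun_prop)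
  · exact isClosed_iInter fun _ => isClosed_iInter fun _ => isClosed_eq (by fun_prop) (by fun_prop)

variable {B K J R : Type u} [CStarAlgebra B] [NormedAddCommGroup K] [InnerProductSpace ℂ K]
  [CompleteSpace K] {ρ : B →⋆ₐ[ℂ] (K →L[ℂ] K)} {ζ : K} [Fintype J] [Fintype R] {c : R → J → ℂ}

/-- The normalized vector state. -/
noncomputable def vs (ρ : B →⋆ₐ[ℂ] (K →L[ℂ] K)) (ζ : K) (b : B) : ℂ :=
  (‖ζ‖ ^ 2)⁻¹ • ⟪ζ, ρ b ζ⟫_ℂ

theorem vs_mem (h0 : ζ ≠ 0) (h : ∀ a b, ⟪ζ, ρ (a * b) ζ⟫_ℂ = ⟪ζ, ρ (b * a) ζ⟫_ℂ) :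
    vs ρ ζ ∈ Tst B := by
  have p : 0 < ‖ζ‖ ^ 2 := by positivity
  refine ⟨fun a b => by simp [vs, mul_add], fun z a => by simp [vs, mul_left_comm], fun a => ?_,
    ?_, fun a b => by rw [vs, vs, h]⟩
  · rw [vs, norm_smul, Real.norm_of_nonneg (by positivity), inv_mul_le_iff₀ p]
    refine (norm_inner_le_norm _ _).trans ?_
    have := mul_le_mul_of_nonneg_left (le_of_opNorm_le _ (NonUnitalStarAlgHom.norm_apply_le ρ a) ζ)
      (norm_nonneg ζ)
    linarith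
  · have : (‖ζ‖ : ℂ) ≠ 0 := by simpa using h0
    simp [vs, this]

/-- The defect of a family of vectors. -/
noncomputable def psi (c : R → J → ℂ) (w : J → K) : ℝ := ∑ r, ‖∑ j, c r j • w j‖ ^ 2

/-- The defect of a family of elements. -/
noncomputable def df (c : R → J → ℂ) (y : J → B) : B :=
  ∑ r, star (∑ j, c r j • y j) * ∑ j, c r j • y j

theorem psi_eq (y : J → B) : (⟪ζ, ρ (df c y) ζ⟫_ℂ).re = psi c fun j => ρ (y j) ζ := by
  rw [df, map_sum, _root_.sum_apply, inner_sum, Complex.re_sum]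
  refine sum_congr rfl fun r _ => ?_
  rw [map_mul, map_star, ← norm_sq_apply]
  simp

theorem vs_eq (y : J → B) :
    (vs ρ ζ (df c y)).re = (‖ζ‖ ^ 2)⁻¹ * psi c fun j => ρ (y j) ζ := by
  rw [vs, Complex.smul_re, psi_eq, smul_eq_mul]

omit [CompleteSpace K] in
theorem le_psi {Y : Type*} {v : Y → J → K} {s : ℝ} (h : ∀ y, s ≤ psi c (v y)) {w : J → K}
    (hw : ∀ e, 0 < e → ∃ y, ∀ j, ‖w j - v y j‖ ≤ e) : s ≤ psi c w := by
  have cl : IsClosed {w : J → K | s ≤ psi c w} :=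
    isClosed_le continuous_const (by unfold psi; fun_prop)
  refine closure_minimal (s := Set.range v) (by rintro _ ⟨y, rfl⟩; exact h y) cl
    (Metric.mem_closure_iff.2 fun e he => ?_)
  obtain ⟨y, hy⟩ := hw (e / 2) (by positivity)
  refine ⟨_, ⟨y, rfl⟩, ((dist_pi_le_iff (by positivity)).2 fun j => ?_).trans_lt (half_lt_self he)⟩
  rw [dist_eq_norm]
  exact hy j

theorem proj_sq {p : K →L[ℂ] K} (hp : IsStarProjection p) (a b : K) :
    ‖p a + (1 - p) b‖ ^ 2 = ‖p a‖ ^ 2 + ‖(1 - p) b‖ ^ 2 := by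
  simp only [sq]
  refine norm_add_sq_eq_norm_sq_add_norm_sq_of_inner_eq_zero (𝕜 := ℂ) _ _ ?_
  rw [← hp.isSelfAdjoint.star_eq, inner_star_left, hp.isSelfAdjoint.star_eq, ← mul_apply_eq_comp,
    hp.mul_one_sub_self]
  simp

theorem TV.sand {Q : VonNeumannAlgebra K} (h : TV Q ζ) {p x s : K →L[ℂ] K} (hp : p ∈ Q)
    (pp : IsStarProjection p) (hz : ∀ x ∈ Q, p * x = x * p) (hx : x ∈ Q) (hs : s ∈ Q)
    (s1 : ‖s‖ ≤ 1) : ‖p (x ζ) - (s * x * s) ζ‖ ≤ 2 * ‖x‖ * ‖(s - p) ζ‖ := by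
  have e : (s * x * s) ζ - p (x ζ) = (s * x) ((s - p) ζ) + (s - p) ((x * p) ζ) := by
    have : s * x * s - p * x = s * x * (s - p) + (s - p) * (x * p) := by
      have : p * (x * p) = p * x := by rw [← hz x hx, ← mul_assoc, pp.isIdempotentElem.eq]
      rw [sub_mul, this]
      noncomm_ring
    simpa using DFunLike.congr_fun this ζ
  rw [norm_sub_rev, e]
  have a1 := le_of_opNorm_le _ ((norm_mul_le s x).trans
    (mul_le_of_le_one_left (norm_nonneg _) s1)) ((s - p) ζ)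
  have a2 := (h.rle (sub_mem hs hp) (mul_mem hx hp)).trans (mul_le_mul_of_nonneg_right
    ((norm_mul_le x p).trans (mul_le_of_le_one_right (norm_nonneg _) pp.norm_le)) (norm_nonneg _))
  linarith [norm_add_le ((s * x) ((s - p) ζ)) ((s - p) ((x * p) ζ))]

theorem TV.glue (h : TV (com ρ).commutant ζ) {p : K →L[ℂ] K} (hp : p ∈ (com ρ).commutant)
    (pp : IsStarProjection p) (hz : ∀ x ∈ (com ρ).commutant, p * x = x * p) {y0 : J → B}
    {r : J → ℝ} {s : ℝ}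
    (hs : ∀ y : {y : J → B // ∀ j, ‖y j - y0 j‖ ≤ r j}, s ≤ psi c fun j => ρ (y.1 j) ζ)
    (y z : {y : J → B // ∀ j, ‖y j - y0 j‖ ≤ r j}) :
    s ≤ (psi c fun j => ρ (y.1 j) (p ζ)) + psi c fun j => ρ (z.1 j) ((1 - p) ζ) := by
  have hz' : ∀ x ∈ (com ρ).commutant, (1 - p) * x = x * (1 - p) := fun x hx => by
    rw [sub_mul, mul_sub, hz x hx, one_mul, mul_one]
  refine (le_psi hs (w := fun j => p (ρ (y.1 j) ζ) + (1 - p) (ρ (z.1 j) ζ)) fun e he => ?_).trans_eq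
    ?_
  · have r0 : ∀ j, 0 ≤ r j := fun j => (norm_nonneg _).trans (y.2 j)
    have S0 : 0 ≤ ∑ j, r j := sum_nonneg fun j _ => r0 j
    obtain ⟨a, a', a1, a2, a3, a4, a5, a6, a7⟩ := h.kraus hp pp hz
      (show 0 < e / (4 * (∑ j, r j) + 1) by positivity)
    refine ⟨⟨fun j => y0 j + (a * (y.1 j - y0 j) * a + a' * (z.1 j - y0 j) * a'), fun j => by
      rw [add_sub_cancel_left]; exact kraus_le a1 a2 a3 (y.2 j) (z.2 j)⟩, fun j => ?_⟩
    have n : ∀ {b : B} {r : ℝ}, ‖b‖ ≤ r → ‖ρ b‖ ≤ r := fun k =>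
      (NonUnitalStarAlgHom.norm_apply_le ρ _).trans k
    have rj : r j ≤ ∑ j, r j := single_le_sum (fun j _ => r0 j) (mem_univ j)
    have b1 := (h.sand hp pp hz (mem_bic (y.1 j - y0 j)) (mem_bic a) (n a4)).trans
      (mul_le_mul (mul_le_mul_of_nonneg_left (n ((y.2 j).trans rj)) zero_le_two) a6
        (norm_nonneg _) (by positivity))
    have b2 := (h.sand (sub_mem (one_mem _) hp) pp.one_sub hz' (mem_bic (z.1 j - y0 j))
      (mem_bic a') (n a5)).trans (mul_le_mul (mul_le_mul_of_nonneg_left (n ((z.2 j).trans rj))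
        zero_le_two) a7 (norm_nonneg _) (by positivity))
    have b3 := mul_div_cancel₀ e (show 4 * (∑ j, r j) + 1 ≠ 0 by positivity)
    have b4 : 0 ≤ e / (4 * (∑ j, r j) + 1) := by positivity
    refine le_trans (le_of_eq ?_) ((norm_add_le_of_le b1 b2).trans (by nlinarith))
    congr 1
    simp only [map_add, map_mul, map_sub, add_apply, sub_apply, one_apply_eq_self]
    abel
  · rw [psi, psi, psi, ← sum_add_distrib]
    refine sum_congr rfl fun r _ => ?_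
    have k : ∀ q : K →L[ℂ] K, (∀ x ∈ (com ρ).commutant, q * x = x * q) → ∀ y : J → B,
        ∑ j, c r j • ρ (y j) (q ζ) = q (∑ j, c r j • ρ (y j) ζ) := fun q hq y => by
      rw [map_sum]
      exact sum_congr rfl fun j _ => by
        rw [map_smul, ← mul_apply_eq_comp, ← hq _ (mem_bic _), mul_apply_eq_comp]
    rw [k p hz, k _ hz', ← proj_sq pp]
    simp only [smul_add, sum_add_distrib, map_sum, map_smul]

end Vale.Agent.P096
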